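import Crest.Agent.R332.Calc

/-! # Row 332: Klein's inequality and its consequences -/

set_option autoImplicit false

open MeasureTheory Set Filter Topology
open scoped Matrix Matrix.Norms.L2Operator MatrixOrder ComplexOrder

namespace Crest.Agent.R332

variable {ι ι' : Type} [Fintype ι] [DecidableEq ι] [Fintype ι'] [DecidableEq ι']

theorem rt_cfc_mul_cfc {A B : Mat ι} (hA : A.IsHermitian) (hB : B.IsHermitian) (a b : ℝ → ℝ) :
    rt (cfc a A * cfc b B) = ∑ i, ∑ j, a (hA.eigenvalues i) * b (hB.eigenvalues j) *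
      ‖(star (hA.eigenvectorUnitary : Mat ι) * (hB.eigenvectorUnitary : Mat ι)) i j‖ ^ 2 := by
  set M : Mat ι := star (hA.eigenvectorUnitary : Mat ι) * (hB.eigenvectorUnitary : Mat ι) with hM
  have e : rt (cfc a A * cfc b B) =
      rt (dg (fun i => a (hA.eigenvalues i)) * M * dg (fun j => b (hB.eigenvalues j)) * Mᴴ) := by
    rw [cfc_spec hA, cfc_spec hB, Matrix.mul_assoc, Matrix.mul_assoc, rt_mul_comm, hM,
      ← Matrix.star_eq_conjTranspose, star_mul, star_star]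
    simp only [Matrix.mul_assoc]
  rw [e, rt_eq_sum]
  refine Finset.sum_congr rfl fun i _ => ?_
  rw [Matrix.mul_apply, Complex.re_sum]
  refine Finset.sum_congr rfl fun j _ => ?_
  rw [dg, dg, Matrix.mul_diagonal, Matrix.diagonal_mul, Matrix.conjTranspose_apply,
    Complex.star_def, ← Complex.normSq_eq_norm_sq]
  have : (a (hA.eigenvalues i) : ℂ) * M i j * (b (hB.eigenvalues j) : ℂ) * starRingEnd ℂ (M i j)
      = ((a (hA.eigenvalues i) * b (hB.eigenvalues j) * Complex.normSq (M i j) : ℝ) : ℂ) := by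
    push_cast
    rw [← Complex.mul_conj]
    ring
  rw [this, Complex.ofReal_re]

theorem cfc_one'' {A : Mat ι} (hA : A.IsHermitian) : cfc (fun _ : ℝ => (1 : ℝ)) A = 1 := by
  rw [cfc_spec hA, conj_smul_one, one_smul]

/-- Klein's inequality with a quadratic remainder.  Hint: with eigenbases `e_i` of `A`, `f_j` of
`B` and the doubly stochastic weights `|⟨e_i, f_j⟩|²`, sum the scalar hypothesis. -/
theorem klein {A B : Mat ι} (hA : A.IsHermitian) (hB : B.IsHermitian) (f g : ℝ → ℝ) (c : ℝ)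
    (h : ∀ i j, f (hB.eigenvalues j) + g (hB.eigenvalues j) * (hA.eigenvalues i - hB.eigenvalues j)
      + c * (hA.eigenvalues i - hB.eigenvalues j) ^ 2 ≤ f (hA.eigenvalues i)) :
    rt (cfc f B) + rt (cfc g B * (A - B)) + c * fro2 (A - B) ≤ rt (cfc f A) := by
  have h1 := rt_cfc_mul_cfc hA hB (fun _ => 1) f
  have h2 := rt_cfc_mul_cfc hA hB (fun t => t) g
  have h3 := rt_cfc_mul_cfc hA hB (fun _ => 1) (fun t => g t * t)
  have h4 := rt_cfc_mul_cfc hA hB (fun t => t * t) (fun _ => 1)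
  have h5 := rt_cfc_mul_cfc hA hB (fun t => t) (fun t => t)
  have h6 := rt_cfc_mul_cfc hA hB (fun _ => 1) (fun t => t * t)
  have h7 := rt_cfc_mul_cfc hA hB f (fun _ => 1)
  rw [← cfc_mul_self hB] at h3 h6
  rw [← cfc_mul_self hA] at h4
  simp only [cfc_one'' hA, cfc_one'' hB, cfc_id'' hA, cfc_id'' hB, Matrix.one_mul,
    Matrix.mul_one] at h1 h2 h3 h4 h5 h6 h7
  rw [fro2_eq, (hA.sub hB).eq, Matrix.mul_sub, Matrix.mul_sub, Matrix.sub_mul, Matrix.sub_mul,
    rt_sub, rt_sub, rt_sub, rt_sub, rt_mul_comm (cfc g B) A, rt_mul_comm B A, h1, h2, h3, h4, h5,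
    h6, h7]
  simp only [Finset.mul_sum, ← Finset.sum_add_distrib, ← Finset.sum_sub_distrib]
  refine Finset.sum_le_sum fun i _ => Finset.sum_le_sum fun j _ => ?_
  have := mul_le_mul_of_nonneg_right (h i j) (sq_nonneg
    ‖(star (hA.eigenvectorUnitary : Mat ι) * (hB.eigenvectorUnitary : Mat ι)) i j‖)
  linarith

theorem rpow_concave_tangent {γ a b : ℝ} (hγ0 : 0 ≤ γ) (hγ1 : γ ≤ 1) (ha : 0 ≤ a) (hb : 0 < b) :
    a ^ γ ≤ b ^ γ + γ * b ^ (γ - 1) * (a - b) := by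
  have h := rpow_one_add_le_one_add_mul_self (s := a / b - 1)
    (by have := div_nonneg ha hb.le; linarith) hγ0 hγ1
  rw [add_sub_cancel, Real.div_rpow ha hb.le, div_le_iff₀ (Real.rpow_pos_of_pos hb γ)] at h
  refine h.trans (le_of_eq ?_)
  rw [Real.rpow_sub_one hb.ne']
  field_simp

theorem rpow_convex_tangent {γ a b : ℝ} (hγ1 : 1 ≤ γ) (ha : 0 ≤ a) (hb : 0 < b) :
    b ^ γ + γ * b ^ (γ - 1) * (a - b) ≤ a ^ γ := by
  have h := one_add_mul_self_le_rpow_one_add (s := a / b - 1)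
    (by have := div_nonneg ha hb.le; linarith) hγ1
  rw [add_sub_cancel, Real.div_rpow ha hb.le, le_div_iff₀ (Real.rpow_pos_of_pos hb γ)] at h
  refine le_trans (le_of_eq ?_) h
  rw [Real.rpow_sub_one hb.ne']
  field_simp

theorem rpow_incr {s M a b : ℝ} (hs0 : 0 < s) (hs1 : s < 1) (ha : 0 ≤ a) (hab : a ≤ b)
    (hb : b ≤ M) : s * M ^ (s - 1) * (b - a) ≤ b ^ s - a ^ s := by
  rcases hab.eq_or_lt with rfl | hlt
  · simp
  have hb0 : 0 < b := ha.trans_lt hlt
  have h1 := rpow_concave_tangent hs0.le hs1.le ha hb0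
  have h2 : M ^ (s - 1) ≤ b ^ (s - 1) := Real.rpow_le_rpow_of_nonpos hb0 hb (by linarith)
  have h3 := mul_le_mul_of_nonneg_right (mul_le_mul_of_nonneg_left h2 hs0.le) (sub_nonneg.2 hab)
  linarith

/-- strong convexity of `x^(1+s)` on `[0, M]` -/
theorem rpow_tangent {s M x y : ℝ} (hs0 : 0 < s) (hs1 : s < 1) (hM : 0 < M) (hx : 0 ≤ x)
    (hxM : x ≤ M) (hy : 0 ≤ y) (hyM : y ≤ M) :
    y ^ (1 + s) + (1 + s) * y ^ s * (x - y) + (1 + s) * s / 2 * M ^ (s - 1) * (x - y) ^ 2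
      ≤ x ^ (1 + s) := by
  let φ : ℝ → ℝ := fun t => t ^ (1 + s) - (1 + s) * y ^ s * (t - y)
    - (1 + s) * s / 2 * M ^ (s - 1) * (t - y) ^ 2
  have hφ : ∀ t, HasDerivAt φ ((1 + s) * (t ^ s - y ^ s - s * M ^ (s - 1) * (t - y))) t := by
    intro t
    have h1 := Real.hasDerivAt_rpow_const (x := t) (p := 1 + s) (Or.inr (by linarith))
    have h2 := (hasDerivAt_id' t).sub_const y
    refine ((h1.sub (h2.const_mul ((1 + s) * y ^ s))).sub
      ((h2.pow 2).const_mul ((1 + s) * s / 2 * M ^ (s - 1)))).congr_deriv ?_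
    rw [add_sub_cancel_left]
    simp only [Nat.cast_ofNat, Nat.add_one_sub_one, pow_one]
    ring
  have hc : Continuous φ := continuous_iff_continuousAt.2 fun t => (hφ t).continuousAt
  have key : φ y ≤ φ x := by
    rcases lt_trichotomy x y with h | rfl | h
    · obtain ⟨t, ht, e⟩ := exists_hasDerivAt_eq_slope φ _ h hc.continuousOn fun t _ => hφ t
      have h1 := rpow_incr hs0 hs1 (hx.trans ht.1.le) ht.2.le hyM
      have h2 : (φ y - φ x) / (y - x) ≤ 0 := by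
        rw [← e]
        exact mul_nonpos_of_nonneg_of_nonpos (by linarith) (by linarith)
      rw [div_nonpos_iff] at h2
      rcases h2 with h2 | h2 <;> linarith [h2.1, h2.2]
    · exact le_rfl
    · obtain ⟨t, ht, e⟩ := exists_hasDerivAt_eq_slope φ _ h hc.continuousOn fun t _ => hφ t
      have h1 := rpow_incr hs0 hs1 hy ht.1.le (ht.2.le.trans hxM)
      have h2 : 0 ≤ (φ x - φ y) / (x - y) := by
        rw [← e]
        exact mul_nonneg (by linarith) (by linarith)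
      rw [div_nonneg_iff] at h2
      rcases h2 with h2 | h2 <;> linarith [h2.1, h2.2]
  simp only [φ, sub_self, mul_zero, sub_zero, ne_eq, OfNat.ofNat_ne_zero, not_false_eq_true,
    zero_pow] at key
  linarith

theorem klein_pw {s M : ℝ} (hs0 : 0 < s) (hs1 : s < 1) (hM : 0 < M) {A B : Mat ι}
    (hA : A.PosSemidef) (hB : B.PosSemidef) (hAM : ‖A‖ ≤ M) (hBM : ‖B‖ ≤ M) :
    rt (pw B (1 + s)) + (1 + s) * rt (pw B s * (A - B))
      + (1 + s) * s / 2 * M ^ (s - 1) * fro2 (A - B) ≤ rt (pw A (1 + s)) := by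
  have h := klein hA.isHermitian hB.isHermitian (fun t => t ^ (1 + s)) (fun t => (1 + s) * t ^ s)
    ((1 + s) * s / 2 * M ^ (s - 1)) fun i j =>
      rpow_tangent hs0 hs1 hM (hA.eigenvalues_nonneg i)
        (((le_abs_self _).trans (abs_eig_le _ i)).trans hAM) (hB.eigenvalues_nonneg j)
        (((le_abs_self _).trans (abs_eig_le _ j)).trans hBM)
  rwa [cfc_const_mul' hB.isHermitian, Matrix.smul_mul, rt_smul] at h

/-- monotonicity of `tr A^(1+s)` -/
theorem rt_pw_mono {s : ℝ} (hs0 : 0 < s) (hs1 : s < 1) {A B : Mat ι} (hB : B.PosSemidef)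
    (h : (A - B).PosSemidef) : rt (pw B (1 + s)) ≤ rt (pw A (1 + s)) := by
  have hA : A.PosSemidef := by
    have := h.add hB
    rwa [sub_add_cancel] at this
  have hM : 0 < ‖A‖ + ‖B‖ + 1 := by positivity
  have h1 := klein_pw hs0 hs1 hM hA hB (by linarith [norm_nonneg B]) (by linarith [norm_nonneg A])
  have h2 := rt_mul_nonneg (pw_psd hB s) h
  have h3 : 0 ≤ (1 + s) * s / 2 * (‖A‖ + ‖B‖ + 1) ^ (s - 1) * fro2 (A - B) :=
    mul_nonneg (by positivity) (fro2_nonneg _)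
  have h4 : 0 ≤ (1 + s) * rt (pw B s * (A - B)) := by positivity
  linarith

theorem yng_ge {s : ℝ} (hs0 : 0 < s) (hs1 : s < 1) {H P : Mat ι} (hH : H.PosSemidef)
    (hP : P.PosSemidef) : ∃ c > 0, c * fro2 (H - pw P s⁻¹) ≤ yng s H P := by
  have hM : 0 < ‖H‖ + ‖pw P s⁻¹‖ + 1 := by positivity
  have h1 := klein_pw hs0 hs1 hM hH (pw_psd hP s⁻¹) (by linarith [norm_nonneg (pw P s⁻¹)])
    (by linarith [norm_nonneg H])
  have e1 : s⁻¹ * (1 + s) = s⁻¹ + 1 := by field_simp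
  have e2 : P * pw P s⁻¹ = pw P (s⁻¹ + 1) := by
    rw [add_comm, ← pw_add hP one_pos (inv_pos.2 hs0), pw_one hP.isHermitian]
  rw [pw_pw hP, pw_pw hP, e1, inv_mul_cancel₀ hs0.ne', pw_one hP.isHermitian, Matrix.mul_sub, e2,
    rt_sub] at h1
  refine ⟨s⁻¹ * ((1 + s) * s / 2 * (‖H‖ + ‖pw P s⁻¹‖ + 1) ^ (s - 1)), by positivity, ?_⟩
  have h2 := mul_le_mul_of_nonneg_left h1 (inv_pos.2 hs0).le
  rw [mul_add, mul_add, ← mul_assoc s⁻¹ (1 + s), e1, ← mul_assoc] at h2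
  rw [yng]
  linarith

/-- Hint: `klein_pw` with `B = pw P s⁻¹`; `(s⁻¹+1)/(1+s) = s⁻¹`. -/
theorem yng_nonneg {s : ℝ} (hs0 : 0 < s) (hs1 : s < 1) {H P : Mat ι} (hH : H.PosSemidef)
    (hP : P.PosSemidef) : 0 ≤ yng s H P := by
  obtain ⟨c, hc, h⟩ := yng_ge hs0 hs1 hH hP
  exact (mul_nonneg hc.le (fro2_nonneg _)).trans h

theorem yng_eq_zero {s : ℝ} (hs0 : 0 < s) (hs1 : s < 1) {H P : Mat ι} (hH : H.PosSemidef)
    (hP : P.PosSemidef) (h : yng s H P = 0) : H = pw P s⁻¹ := by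
  obtain ⟨c, hc, h1⟩ := yng_ge hs0 hs1 hH hP
  rw [h] at h1
  have h2 := fro2_nonneg (H - pw P s⁻¹)
  exact sub_eq_zero.1 (fro2_eq_zero (by nlinarith))

theorem yng_scaled {s : ℝ} (hs0 : 0 < s) {W P : Mat ι} (hW : W.PosSemidef) :
    yng s ((s⁻¹ + 1)⁻¹ • W) P = C1 s * rt (pw W (1 + s)) + rt (pw P (s⁻¹ + 1)) - rt (P * W) := by
  have h : 0 < s⁻¹ + 1 := by positivity
  rw [yng, pw_smul hW (inv_pos.2 h).le, rt_smul, Matrix.mul_smul, rt_smul, C1,
    Real.rpow_neg h.le, Real.inv_rpow h.le, ← mul_assoc, ← mul_assoc, mul_inv_cancel₀ h.ne',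
    one_mul]

/-- Hint: `yng_nonneg` for `2 • W`. -/
theorem rt_mul_le_half {s : ℝ} (hs0 : 0 < s) (hs1 : s < 1) {W P : Mat ι} (hW : W.PosSemidef)
    (hP : P.PosSemidef) :
    rt (P * W) ≤ rt (pw P (s⁻¹ + 1)) / 2 + 2 ^ s * C1 s * rt (pw W (1 + s)) := by
  have h2 : ((2 : ℝ) • W).PosSemidef := hW.smul zero_le_two
  have h := yng_nonneg hs0 hs1 (h2.smul (a := (s⁻¹ + 1)⁻¹) (by positivity)) hP
  rw [yng_scaled hs0 h2, pw_smul hW zero_le_two, rt_smul, Matrix.mul_smul, rt_smul,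
    Real.rpow_add two_pos, Real.rpow_one] at h
  linarith

theorem continuousOn_yng {s : ℝ} (hs0 : 0 < s) (H : Mat ι) :
    ContinuousOn (fun P : Mat ι => yng s H P) {P | P.IsHermitian} := by
  unfold yng
  refine (continuousOn_const.add (continuous_rt.comp_continuousOn
    (continuousOn_pw (by positivity)))).sub (continuousOn_const.mul ?_)
  exact (continuous_rt.comp (continuous_id.mul continuous_const)).continuousOn

omit [DecidableEq ι] [DecidableEq ι'] in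
theorem rt_fromBlocks (A : Mat ι) (B : Matrix ι ι' ℂ) (C : Matrix ι' ι ℂ) (D : Mat ι') :
    rt (Matrix.fromBlocks A B C D : Mat (ι ⊕ ι')) = rt A + rt D := by
  simp [rt_eq_sum, Fintype.sum_sum_type]

/-- pinching with remainder: `klein_pw` with `B` the block diagonal part, `cfc_fromBlocks`. -/
theorem pinch {s M : ℝ} (hs0 : 0 < s) (hs1 : s < 1) (hM : 0 < M) {H : Mat (ι ⊕ ι')}
    (hH : H.PosSemidef) (hHM : ‖H‖ ≤ M) :
    rt (pw H.toBlocks₁₁ (1 + s)) + rt (pw H.toBlocks₂₂ (1 + s))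
      + (1 + s) * s * M ^ (s - 1) * fro2 H.toBlocks₁₂ ≤ rt (pw H (1 + s)) := by
  set B : Mat (ι ⊕ ι') := Matrix.fromBlocks H.toBlocks₁₁ 0 0 H.toBlocks₂₂ with hB
  set S : Mat (ι ⊕ ι') := dg (Sum.elim (fun _ => 1) fun _ => -1) with hS
  have hSh : Sᴴ = S := (dg_herm _).eq
  have e1 : B = (1 / 2 : ℝ) • (H + S * H * Sᴴ) := by
    rw [hSh]
    ext i j
    rcases i with i | i <;> rcases j with j | j <;>
      simp [hB, hS, dg, Matrix.mul_diagonal, Matrix.diagonal_mul, Matrix.toBlocks₁₁,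
        Matrix.toBlocks₂₂] <;> ring
  have hBp : B.PosSemidef := by
    rw [e1]
    exact (hH.add (hH.mul_mul_conjTranspose_same S)).smul (by norm_num)
  have hS1 : ‖S‖ ≤ 1 := norm_dg_le zero_le_one (by rintro (i | i) <;> simp)
  have hBM : ‖B‖ ≤ M := by
    have h1 : ‖S * H * Sᴴ‖ ≤ M := by
      rw [hSh]
      calc ‖S * H * S‖ ≤ ‖S‖ * ‖H‖ * ‖S‖ :=
            (norm_mul_le _ _).trans (mul_le_mul_of_nonneg_right (norm_mul_le _ _) (norm_nonneg _))
        _ ≤ 1 * M * 1 := by gcongr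
        _ = M := by ring
    rw [e1, norm_smul]
    have := norm_add_le H (S * H * Sᴴ)
    rw [Real.norm_eq_abs, abs_of_pos (by norm_num)]
    linarith
  have h11 : H.toBlocks₁₁.IsHermitian := hH.isHermitian.submatrix _
  have h22 : H.toBlocks₂₂.IsHermitian := hH.isHermitian.submatrix _
  have e2 : H - B = Matrix.fromBlocks 0 H.toBlocks₁₂ H.toBlocks₁₂ᴴ 0 := by
    ext i j
    rcases i with i | i <;> rcases j with j | j <;>
      simp [hB, Matrix.toBlocks₁₁, Matrix.toBlocks₂₂, Matrix.toBlocks₁₂]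
    exact (hH.isHermitian.apply _ _).symm
  have e3 : fro2 (H - B) = 2 * fro2 H.toBlocks₁₂ := by
    rw [e2, two_mul]
    nth_rw 2 [← fro2_conjTranspose H.toBlocks₁₂]
    simp [fro2, Fintype.sum_sum_type]
  have h := klein_pw hs0 hs1 hM hH hBp hHM hBM
  rw [e3, e2, hB, pw, pw, cfc_fromBlocks h11 h22, cfc_fromBlocks h11 h22, rt_fromBlocks,
    Matrix.fromBlocks_multiply, rt_fromBlocks] at h
  simp only [Matrix.mul_zero, Matrix.zero_mul, add_zero, rt_zero, mul_zero] at h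
  unfold pw at h ⊢
  linarith

/-- concave case `γ ≤ 1` -/
theorem klein_concave {γ : ℝ} (hγ0 : 0 < γ) (hγ1 : γ ≤ 1) {A B : Mat ι} (hA : A.PosSemidef)
    (hB : B.PosDef) : rt (pw A γ) - rt (pw B γ) ≤ γ * rt (pw B (γ - 1) * (A - B)) := by
  have h := klein hA.isHermitian hB.isHermitian (fun t => -1 * t ^ γ)
    (fun t => -γ * t ^ (γ - 1)) 0 fun i j => by
      have := rpow_concave_tangent hγ0.le hγ1 (hA.eigenvalues_nonneg i) (hB.eigenvalues_pos j)
      linarith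
  rw [cfc_const_mul' hB.isHermitian, cfc_const_mul' hB.isHermitian, cfc_const_mul' hA.isHermitian,
    Matrix.smul_mul, rt_smul, rt_smul, rt_smul] at h
  unfold pw
  linarith

/-- convex case `1 ≤ γ` -/
theorem klein_convex {γ : ℝ} (hγ1 : 1 ≤ γ) {A B : Mat ι} (hA : A.PosDef)
    (hB : B.PosSemidef) : rt (pw A γ) - rt (pw B γ) ≤ γ * rt (pw A (γ - 1) * (A - B)) := by
  have h := klein hB.isHermitian hA.isHermitian (fun t => t ^ γ)
    (fun t => γ * t ^ (γ - 1)) 0 fun i j => by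
      have := rpow_convex_tangent hγ1 (hB.eigenvalues_nonneg i) (hA.eigenvalues_pos j)
      linarith
  rw [cfc_const_mul' hA.isHermitian, Matrix.smul_mul, rt_smul, ← neg_sub A B, Matrix.mul_neg,
    rt_neg] at h
  unfold pw
  linarith

theorem delta_err {s δ M : ℝ} (hs0 : 0 < s) (hs1 : s < 1) (hδ : 0 ≤ δ) (hδ1 : δ ≤ 1)
    (w : Matrix ι ι' ℂ) (hM : ‖w * wᴴ‖ ≤ M) :
    rt (pw (Hm s δ w) (1 + s)) ≤ rt (pw (wᴴ * w) (s⁻¹ + 1))
        + Fintype.card ι * ((1 + s) * δ * (M ^ s⁻¹ + 1) ^ s) ∧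
      rt (pw (wᴴ * w) (s⁻¹ + 1)) ≤ rt (Hm s δ w * (w * wᴴ)) := by
  have hP := Matrix.posSemidef_self_mul_conjTranspose w
  have hr : 0 < s⁻¹ := inv_pos.2 hs0
  have e0 : rt (pw (wᴴ * w) (s⁻¹ + 1)) = rt (pw (w * wᴴ) (s⁻¹ + 1)) :=
    (rt_cfc_mul_conjTranspose w (f := fun t => t ^ (s⁻¹ + 1))
      (Real.zero_rpow (by positivity))).symm
  rw [e0]
  constructor
  · have e1 : Hm s δ w = cfc (fun t => 1 * t ^ s⁻¹ + δ) (w * wᴴ) := by
      rw [← cfc_cfc hP.isHermitian (fun t => t ^ s⁻¹) (fun t => 1 * t + δ),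
        cfc_affine (cfc_herm _ _), one_smul]
      rfl
    rw [e1, pw, pw, cfc_cfc hP.isHermitian, rt_cfc hP.isHermitian, rt_cfc hP.isHermitian,
      ← nsmul_eq_mul, ← Finset.card_univ, ← Finset.sum_const, ← Finset.sum_add_distrib]
    refine Finset.sum_le_sum fun i _ => ?_
    have l0 := hP.eigenvalues_nonneg i
    have lM := ((le_abs_self _).trans (abs_eig_le hP.isHermitian i)).trans hM
    set l := hP.isHermitian.eigenvalues i
    have x0 : 0 ≤ l ^ s⁻¹ := Real.rpow_nonneg l0 _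
    have xM : l ^ s⁻¹ ≤ M ^ s⁻¹ := Real.rpow_le_rpow l0 lM hr.le
    have h1 := rpow_tangent (M := l ^ s⁻¹ + δ + 1) (x := l ^ s⁻¹) (y := l ^ s⁻¹ + δ) hs0 hs1
      (by positivity) x0 (by linarith) (by positivity) (by linarith)
    have e2 : (l ^ s⁻¹) ^ (1 + s) = l ^ (s⁻¹ + 1) := by
      rw [← Real.rpow_mul l0]
      congr 1
      field_simp
    have h2 : (l ^ s⁻¹ + δ) ^ s ≤ (M ^ s⁻¹ + 1) ^ s :=
      Real.rpow_le_rpow (by positivity) (by linarith) hs0.le
    have h3 : 0 ≤ (1 + s) * s / 2 * (l ^ s⁻¹ + δ + 1) ^ (s - 1) * (l ^ s⁻¹ - (l ^ s⁻¹ + δ)) ^ 2 := by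
      positivity
    have h4 := mul_le_mul_of_nonneg_left h2 (show 0 ≤ (1 + s) * δ by positivity)
    rw [one_mul, ← e2]
    linarith
  · have e2 : pw (w * wᴴ) s⁻¹ * (w * wᴴ) = pw (w * wᴴ) (s⁻¹ + 1) := by
      rw [← pw_add hP hr one_pos, pw_one hP.isHermitian]
    rw [Hm, Matrix.add_mul, rt_add, e2, Matrix.smul_mul, Matrix.one_mul, rt_smul]
    have := mul_nonneg hδ (rt_nonneg hP)
    linarith

/-- Derivative of `tr f(A(x))` for convex `f` of class `C¹` on `(0, ∞)`.  Hint: Klein gives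
`tr g(A)(B - A) ≤ tr f(B) - tr f(A) ≤ tr g(B)(B - A)`, and `g(B) → g(A)`
(`continuousOn_cfc_posDef`, `posDef_nhds`). -/
theorem hasDerivAt_rt_cfc {f g : ℝ → ℝ} (hg : ContinuousOn g (Ioi 0))
    (hfg : ∀ x y, 0 < x → 0 < y → f y + g y * (x - y) ≤ f x)
    {A : ℝ → Mat ι} {A' : Mat ι} {x : ℝ} (hA : HasDerivAt A A' x)
    (herm : ∀ᶠ y in 𝓝 x, (A y).IsHermitian) (hpos : (A x).PosDef) :
    HasDerivAt (fun y => rt (cfc f (A y))) (rt (cfc g (A x) * A')) x := by
  obtain ⟨ε, hε, hpd⟩ := posDef_nhds hpos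
  have hAc : ContinuousAt A x := hA.continuousAt
  have hev : ∀ᶠ y in 𝓝 x, (A y).PosDef := by
    have h1 : ∀ᶠ y in 𝓝 x, ‖A y - A x‖ < ε := by
      have := Metric.tendsto_nhds.1 hAc ε hε
      simpa only [dist_eq_norm] using this
    filter_upwards [herm, h1] with y h2 h3 using hpd _ h2 h3
  have hG : Tendsto (fun y => cfc g (A y)) (𝓝 x) (𝓝 (cfc g (A x))) :=
    ((continuousOn_cfc_posDef hg) (A x) hpos).tendsto.comp
      (tendsto_nhdsWithin_iff.2 ⟨hAc, hev⟩)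
  have hψ : HasDerivAt (fun y => rt (cfc g (A x) * A y)) (rt (cfc g (A x) * A')) x :=
    hasDerivAt_rt (hA.const_mul _)
  have he : HasDerivAt (fun y => rt (cfc f (A y)) - rt (cfc g (A x) * A y)) 0 x := by
    rw [hasDerivAt_iff_isLittleO]
    have o1 : (fun y => cfc g (A y) - cfc g (A x)) =o[𝓝 x] fun _ => (1 : ℝ) :=
      (Asymptotics.isLittleO_one_iff ℝ).2 (tendsto_sub_nhds_zero_iff.2 hG)
    have o2 : (fun y => A y - A x) =O[𝓝 x] fun y => y - x := hA.isBigO_sub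
    have o3 := o1.norm_left.mul_isBigO o2.norm_left
    simp only [one_mul] at o3
    refine Asymptotics.IsBigO.trans_isLittleO (Asymptotics.IsBigO.of_bound (Fintype.card ι) ?_) o3
    filter_upwards [hev] with y hy
    have k1 := klein hy.isHermitian hpos.isHermitian f g 0 fun i j => by
      have := hfg _ _ (hy.eigenvalues_pos i) (hpos.eigenvalues_pos j)
      linarith
    have k2 := klein hpos.isHermitian hy.isHermitian f g 0 fun i j => by
      have := hfg _ _ (hpos.eigenvalues_pos i) (hy.eigenvalues_pos j)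
      linarith
    have k3 := (le_abs_self _).trans (abs_rt_le ((cfc g (A y) - cfc g (A x)) * (A y - A x)))
    have k4 := mul_le_mul_of_nonneg_left (norm_mul_le (cfc g (A y) - cfc g (A x)) (A y - A x))
      (Nat.cast_nonneg (α := ℝ) (Fintype.card ι))
    simp only [Matrix.mul_sub, Matrix.sub_mul, rt_sub] at k1 k2 k3
    rw [smul_zero, sub_zero, Real.norm_eq_abs, Real.norm_eq_abs, abs_of_nonneg (by linarith),
      abs_of_nonneg (by positivity)]
    simp only [← Matrix.mul_sub, ← Matrix.sub_mul] at k3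
    linarith
  have := he.fun_add hψ
  simpa using this

end Crest.Agent.R332
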