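import Crest.Agent.R332.HJ

/-! # Row 332: the Bellman identity along a path

For `t > 0`, `φ_t(X) = tr f(μ_t + X) - tr f(μ_t - X) - (2 + log t) tr X`, `f(x) = x log x`, has
`d/dx φ_t(X(x)) = tr L_t(X) X'` (`hasDerivAt_rt_cfc` with `g = log + 1`).  FTC in `x`, then Fubini
on `(0,∞) × [a,b]` (`norm_Lt_le`, `continuousOn_Lt`, `rt_G_mul`); at diagonal end points
`φ_t(dg κ) - φ_t(dg ξ) = Σ_i ∫_{ξ_i}^{κ_i} log(1 + (κ_i² - y²)/t) dy` and `int_psi`.
-/

set_option autoImplicit false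

open MeasureTheory Set Filter Topology
open scoped Matrix Matrix.Norms.L2Operator MatrixOrder ComplexOrder

namespace Crest.Agent.R332

variable {ι ι' : Type} [Fintype ι] [DecidableEq ι] [Fintype ι'] [DecidableEq ι']

variable {s : ℝ}

namespace Bell

/-- the `t`-slice of the Bellman function -/
noncomputable def ph (κ : ι → ℝ) (t : ℝ) (X : Mat ι) : ℝ :=
  rt (cfc (fun x : ℝ => x * Real.log x) (dg (mu κ t) + X))
    - rt (cfc (fun x : ℝ => x * Real.log x) (dg (mu κ t) - X)) - (2 + Real.log t) * rt X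

theorem xlog_tangent (x y : ℝ) (hx : 0 < x) (hy : 0 < y) :
    y * Real.log y + (Real.log y + 1) * (x - y) ≤ x * Real.log x := by
  have := Real.log_le_sub_one_of_pos (div_pos hy hx)
  rw [Real.log_div hy.ne' hx.ne'] at this
  have h2 := mul_le_mul_of_nonneg_left this hx.le
  rw [mul_sub x (y / x), mul_div_cancel₀ _ hx.ne'] at h2
  linarith

theorem cfc_log_add_one {A : Mat ι} (hA : A.IsHermitian) :
    cfc (fun x => Real.log x + 1) A = cfc Real.log A + 1 := by
  have := Mono.cfc_sub' hA (fun x => Real.log x) (fun _ => -1)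
  simpa [Mono.cfc_const' hA] using this

theorem ph_deriv {κ : ι → ℝ} (hκ : ∀ i, 0 ≤ κ i) {t : ℝ} (ht : 0 < t) {X : ℝ → Mat ι}
    {X' : Mat ι} {x : ℝ} (hX : HasDerivAt X X' x) (herm : ∀ᶠ y in 𝓝 x, (X y).IsHermitian)
    (reg : Reg κ (X x)) : HasDerivAt (fun y => ph κ t (X y)) (rt (Lt κ (X x) t * X')) x := by
  obtain ⟨p1, p2⟩ := posDef_mu hκ reg ht
  have cg : ContinuousOn (fun x => Real.log x + 1) (Ioi 0) :=
    (Real.continuousOn_log.mono fun x hx => ne_of_gt hx).add continuousOn_const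
  have h1 := hasDerivAt_rt_cfc cg xlog_tangent (hX.const_add (dg (mu κ t)))
    (herm.mono fun y hy => (dg_herm _).add hy) p1
  have h2 := hasDerivAt_rt_cfc cg xlog_tangent (hX.const_sub (dg (mu κ t)))
    (herm.mono fun y hy => (dg_herm _).sub hy) p2
  refine HasDerivAt.congr_deriv ((h1.fun_sub h2).fun_sub
    ((hasDerivAt_rt hX).const_mul (2 + Real.log t))) ?_
  rw [cfc_log_add_one p1.isHermitian, cfc_log_add_one p2.isHermitian, Lt]
  simp only [Matrix.add_mul, Matrix.sub_mul, Matrix.mul_neg, Matrix.one_mul, Matrix.smul_mul,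
    rt_add, rt_sub, rt_neg, rt_smul]
  ring

theorem ph_cont (κ : ι → ℝ) (t : ℝ) : ContinuousOn (ph κ t) {X | X.IsHermitian} := by
  have h := continuousOn_cfc_herm (ι := ι) Real.continuous_mul_log
  refine ((continuous_rt.comp_continuousOn (h.comp (f := fun X => dg (mu κ t) + X) (by fun_prop)
    fun X hX => (dg_herm _).add hX)).sub (continuous_rt.comp_continuousOn
      (h.comp (f := fun X => dg (mu κ t) - X) (by fun_prop) fun X hX => (dg_herm _).sub hX))).sub
    (continuous_rt.continuousOn.const_smul (2 + Real.log t))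

theorem ph_dg {κ ξ : ι → ℝ} (h : ∀ i, |ξ i| ≤ κ i) {t : ℝ} (ht : 0 < t) :
    ph κ t (dg κ) - ph κ t (dg ξ) =
      ∑ i, ∫ y in ξ i..κ i, Real.log (1 + (κ i ^ 2 - y ^ 2) / t) := by
  simp only [ph, dg_add, dg_sub, cfc_dg, rt_dg, Finset.mul_sum, ← Finset.sum_sub_distrib]
  refine Finset.sum_congr rfl fun i _ => ?_
  have h1 := Mono.mu_sq κ ht i
  have h2 := Mono.mu_pos κ ht i
  obtain ⟨h3, h4⟩ := abs_le.1 (h i)
  have h5 : κ i < mu κ t i := by nlinarith
  generalize mu κ t i = μ at h1 h2 h5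
  have key : ∀ y ∈ uIcc (ξ i) (κ i), 0 < μ + y ∧ 0 < μ - y ∧ 0 ≤ κ i ^ 2 - y ^ 2 := by
    intro y hy
    rw [uIcc_of_le h4] at hy
    refine ⟨by linarith [hy.1], by linarith [hy.2], by nlinarith [hy.1, hy.2]⟩
  refine (intervalIntegral.integral_eq_sub_of_hasDerivAt (f := fun y => (μ + y) * Real.log (μ + y)
    - (μ - y) * Real.log (μ - y) - (2 + Real.log t) * y) (fun y hy => ?_) ?_).symm
  · obtain ⟨k1, k2, k3⟩ := key y hy
    have d1 := (Real.hasDerivAt_mul_log k1.ne').comp y ((hasDerivAt_id y).const_add μ)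
    have d2 := (Real.hasDerivAt_mul_log k2.ne').comp y ((hasDerivAt_id y).const_sub μ)
    refine HasDerivAt.congr_deriv ((d1.fun_sub d2).fun_sub
      ((hasDerivAt_id y).const_mul (2 + Real.log t))) ?_
    have : 1 + (κ i ^ 2 - y ^ 2) / t = (μ + y) * (μ - y) / t := by field_simp; linarith
    rw [this, Real.log_div (by positivity) ht.ne', Real.log_mul k1.ne' k2.ne']
    ring
  · refine ContinuousOn.intervalIntegrable (ContinuousOn.log (by fun_prop) fun y hy => ?_)
    have := (key y hy).2.2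
    positivity

theorem cont_G (hs0 : 0 < s) (hs1 : s < 1) {κ : ι → ℝ} (hκ : ∀ i, 0 ≤ κ i) {S : Set ℝ}
    {X Y : ℝ → Mat ι} (cX : ContinuousOn X S) (cY : ContinuousOn Y S) (reg : ∀ x ∈ S, Reg κ (X x)) :
    ContinuousOn (fun x => rt (G s κ (X x) * Y x)) S :=
  continuous_rt.comp_continuousOn (((continuousOn_G hs0 hs1).comp (f := fun x => (κ, X x))
    (continuousOn_const.prodMk cX) fun x hx => ⟨hκ, reg x hx⟩).mul cY)

end Bell

open Bell

theorem bell (hs0 : 0 < s) (hs1 : s < 1) {κ ξ : ι → ℝ} (hκ : ∀ i, 0 ≤ κ i) {a b : ℝ} (hab : a ≤ b)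
    {X X' : ℝ → Mat ι} (cX : ContinuousOn X (Icc a b)) (cX' : ContinuousOn X' (Icc a b))
    (hX : ∀ x ∈ Ioo a b, HasDerivAt X (X' x) x) (reg : ∀ x ∈ Icc a b, Reg κ (X x))
    (Xa : X a = dg κ) (Xb : X b = dg ξ) :
    ∑ i, psi s (κ i) (ξ i) = -∫ x in a..b, rt (G s κ (X x) * X' x) := by
  have hξ : ∀ i, |ξ i| ≤ κ i := (reg_dg_iff κ ξ).1 (Xb ▸ reg b ⟨hab, le_rfl⟩)
  have cL : ContinuousOn (fun p : ℝ × ℝ => rt (Lt κ (X p.1) p.2 * X' p.1)) (Icc a b ×ˢ Ioi 0) :=
    continuous_rt.comp_continuousOn ((continuousOn_Lt.comp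
      (f := fun p : ℝ × ℝ => (κ, X p.1, p.2)) (continuousOn_const.prodMk
        ((cX.comp continuousOn_fst fun p hp => hp.1).prodMk continuousOn_snd))
      fun p hp => ⟨hκ, reg _ hp.1, hp.2⟩).mul (cX'.comp continuousOn_fst fun p hp => hp.1))
  have h1 : ∀ t ∈ Ioi (0 : ℝ), ∫ x in a..b, t ^ (s - 1) * rt (Lt κ (X x) t * X' x) =
      -∑ i, t ^ (s - 1) * ∫ y in ξ i..κ i, Real.log (1 + (κ i ^ 2 - y ^ 2) / t) := by
    intro t ht
    rw [intervalIntegral.integral_const_mul, ← Finset.mul_sum, ← ph_dg hξ ht,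
      intervalIntegral.integral_eq_sub_of_hasDerivAt_of_le hab (f := fun x => ph κ t (X x))
        ((ph_cont κ t).comp cX fun x hx => (reg x hx).herm) (fun x hx => ph_deriv hκ ht (hX x hx)
          (by filter_upwards [Icc_mem_nhds hx.1 hx.2] with y hy using (reg y hy).herm)
          (reg x (Ioo_subset_Icc_self hx)))
        (ContinuousOn.intervalIntegrable_of_Icc hab (cL.comp (f := fun x => (x, t)) (by fun_prop)
          fun x hx => ⟨hx, ht⟩)), Xa, Xb]
    ring
  set R := ∑ i, κ i ^ 2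
  have R0 : 0 ≤ R := by positivity
  have hR : ∀ i, κ i ^ 2 ≤ R := fun i =>
    Finset.single_le_sum (f := fun i => κ i ^ 2) (fun i _ => by positivity) (Finset.mem_univ i)
  obtain ⟨M, hM⟩ := isCompact_Icc.exists_bound_of_continuousOn cX'
  have hint : Integrable (Function.uncurry fun x t => t ^ (s - 1) * rt (Lt κ (X x) t * X' x))
      ((volume.restrict (uIoc a b)).prod (volume.restrict (Ioi 0))) := by
    rw [uIoc_of_le hab]
    have hb := (((int_log hs0 hs1 (show 0 ≤ R + 1 by linarith)).1.integrable.const_mul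
      (Fintype.card ι * 25 * M)).comp_snd (volume.restrict (Ioc a b)))
    refine hb.mono' ?_ ?_
    · rw [Measure.prod_restrict]
      refine ContinuousOn.aestronglyMeasurable ?_ (measurableSet_Ioc.prod measurableSet_Ioi)
      refine ContinuousOn.mul (continuousOn_snd.rpow_const fun p hp => Or.inl (ne_of_gt hp.2))
        (cL.mono (prod_mono Ioc_subset_Icc_self subset_rfl))
    · rw [Measure.prod_restrict]
      filter_upwards [ae_restrict_mem (measurableSet_Ioc.prod measurableSet_Ioi)] with p hp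
      have hp1 := Ioc_subset_Icc_self hp.1
      have hp2 : 0 < p.2 := hp.2
      have e1 := abs_rt_le (Lt κ (X p.1) p.2 * X' p.1)
      have e2 := norm_mul_le (Lt κ (X p.1) p.2) (X' p.1)
      have e3 := norm_Lt_le hκ R0 hR (reg _ hp1) hp2
      have e4 := mul_le_mul e3 (hM _ hp1) (norm_nonneg _) ((norm_nonneg _).trans e3)
      have e5 : 0 < p.2 ^ (s - 1) := by positivity
      have e6 := mul_le_mul_of_nonneg_left (e2.trans e4) (Nat.cast_nonneg (Fintype.card ι))
      simp only [Function.uncurry, Real.norm_eq_abs, abs_mul, abs_of_pos e5]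
      nlinarith
  rw [intervalIntegral.integral_congr (g := fun x => (cI s)⁻¹ *
      ∫ t in Ioi (0 : ℝ), t ^ (s - 1) * rt (Lt κ (X x) t * X' x))
    (fun x hx => (rt_G_mul hs0 hs1 hκ (reg x (uIcc_of_le hab ▸ hx)) _).2),
    intervalIntegral.integral_const_mul, intervalIntegral_integral_swap hint,
    setIntegral_congr_fun measurableSet_Ioi h1, integral_neg,
    integral_finsetSum _ fun i _ => (int_psi hs0 hs1 (hξ i)).1]
  simp only [fun i => (int_psi hs0 hs1 (hξ i)).2]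
  rw [← Finset.mul_sum]
  have := cI_pos hs0 hs1
  field_simp

theorem bell_dfc (hs0 : 0 < s) (hs1 : s < 1) {κ ξ : ι → ℝ} (hκ : ∀ i, 0 ≤ κ i) {a b : ℝ}
    (hab : a ≤ b) {X H E : ℝ → Mat ι} (cX : ContinuousOn X (Icc a b))
    (cH : ContinuousOn H (Icc a b)) (cE : ContinuousOn E (Icc a b))
    (hH : ∀ x ∈ Icc a b, (H x).IsHermitian)
    (hX : ∀ x ∈ Ioo a b, HasDerivAt X (Zm κ (X x) - (s⁻¹ + 1) • H x - E x) x)
    (reg : ∀ x ∈ Icc a b, Reg κ (X x)) (Xa : X a = dg κ) (Xb : X b = dg ξ) :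
    ∫ x in a..b, dfc s κ (X x) (H x) = s⁻¹ * (∫ x in a..b, rt (pw (H x) (1 + s)))
      - ∑ i, psi s (κ i) (ξ i) + ∫ x in a..b, rt (G s κ (X x) * E x) := by
  have cZ : ContinuousOn (fun x => Zm κ (X x) - (s⁻¹ + 1) • H x) (Icc a b) :=
    (continuous_Zm.comp_continuousOn (f := fun x => (κ, X x)) (continuousOn_const.prodMk cX)).sub
      (cH.fun_const_smul (s⁻¹ + 1))
  have i1 : IntervalIntegrable (fun x => rt (pw (H x) (1 + s))) volume a b :=
    (continuous_rt.comp_continuousOn ((continuousOn_pw (by linarith)).comp cH hH)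
      ).intervalIntegrable_of_Icc hab
  have i2 := (cont_G hs0 hs1 hκ cX (cZ.sub cE) reg).intervalIntegrable_of_Icc (μ := volume) hab
  have i3 := (cont_G hs0 hs1 hκ cX cE reg).intervalIntegrable_of_Icc (μ := volume) hab
  rw [bell hs0 hs1 hκ hab cX (cZ.sub cE) hX reg Xa Xb, sub_neg_eq_add,
    ← intervalIntegral.integral_const_mul, ← intervalIntegral.integral_add (i1.const_mul _) i2,
    ← intervalIntegral.integral_add ((i1.const_mul _).add i2) i3]
  refine intervalIntegral.integral_congr fun x _ => ?_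
  simp only [dfc, Pi.sub_apply, Matrix.mul_sub, rt_sub]
  ring

theorem bell_le (hs0 : 0 < s) (hs1 : s < 1) {κ ξ : ι → ℝ} (hκ : ∀ i, 0 ≤ κ i) {a b : ℝ}
    (hab : a ≤ b) {X H : ℝ → Mat ι} (cX : ContinuousOn X (Icc a b))
    (cH : ContinuousOn H (Icc a b)) (hH : ∀ x ∈ Icc a b, (H x).PosSemidef)
    (hX : ∀ x ∈ Ioo a b, HasDerivAt X (Zm κ (X x) - (s⁻¹ + 1) • H x) x)
    (reg : ∀ x ∈ Icc a b, Reg κ (X x)) (Xa : X a = dg κ) (Xb : X b = dg ξ) :
    ∑ i, psi s (κ i) (ξ i) ≤ s⁻¹ * ∫ x in a..b, rt (pw (H x) (1 + s)) := by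
  have h1 := bell_dfc hs0 hs1 hκ hab cX cH (E := fun _ => 0) continuousOn_const
    (fun x hx => (hH x hx).isHermitian) (by simpa using hX) reg Xa Xb
  have h2 : 0 ≤ ∫ x in a..b, dfc s κ (X x) (H x) := intervalIntegral.integral_nonneg hab
    fun x hx => dfc_nonneg hs0 hs1 hκ (reg x hx) (hH x hx)
  simp only [Matrix.mul_zero, rt_zero, intervalIntegral.integral_zero] at h1
  linarith

end Crest.Agent.R332
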