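import Crest.Agent.Lib.Mod2Chain.Cross

/-! # Brouwer's fixed point theorem (bounded maps of a finite dimensional space)

Hint: transport to `Fin d → ℝ` (sup norm, `M` enlarged).  Take a big simplex `Δ` containing the
ball of radius `M`, so `f` maps `Δ` into `Δ`.  If `f` has no fixed point, label `x ∈ Δ` by a vertex
`j` whose barycentric coordinate satisfies `λ_j(f x) < λ_j(x)` (then `λ_j(x) > 0`, so this is a
Sperner labelling).  `Mod2Chain.sperner` gives for every `k` a fully labelled simplex of the `k`-th
barycentric subdivision; these are eventually small (`eventually_small` in `Subdiv`, for the open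
cover by the sets `{λ_j(f x) > λ_j(x)}`, on each of which the label `j` does not occur), a
contradiction.  Any other proof is fine.
-/

set_option autoImplicit false

namespace Crest.Agent.R332

open Crest.Agent.Mod2Chain MvPolynomial Filter

/-- A continuous version of Sperner's lemma. -/
theorem kkm_contra {F : Type*} [NormedAddCommGroup F] [NormedSpace ℝ F] {ι : Type} [Fintype ι]
    [Nonempty ι] (q : ι → F) (lab : F → ι) (U : ι → Set F) (hU : ∀ j, IsOpen (U j))
    (hcov : ∀ x, ∃ j, x ∈ U j) (hlabU : ∀ x, x ∉ U (lab x))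
    (hlab : ∀ (j : ι) (x : F), x ∈ convexHull ℝ (q '' {i | i ≠ j}) → lab x ≠ j) : False := by
  classical
  let q' : ι × Bool → F := fun y => q y.1
  let lab' : F → ι × Bool := fun x => (lab x, true)
  have hs := sperner (Finset.univ : Finset ι) q' lab' (fun s hs x hx => by
    by_contra h
    refine hlab (lab x) x (convexHull_mono ?_ hx) rfl
    rintro _ ⟨y, hy, rfl⟩
    refine ⟨y.1, fun h' => h ?_, rfl⟩
    have : lab' x = y := Prod.ext h'.symm (hs y hy).2.symm
    rwa [this])
  have hC : IsCompact (convexHull ℝ (Set.range q')) := (Set.finite_range q').isCompact_convexHull ℝ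
  have hp : rename q' (monomial (plus (Finset.univ : Finset ι)) (1 : ZMod 2)) ∈
      Ch (fun s => s ⊆ convexHull ℝ (Set.range q')) (plus (Finset.univ : Finset ι)).degree :=
    Ch.rename q' (S := fun _ => True) (S' := fun s => s ⊆ convexHull ℝ (Set.range q'))
      (fun s _ => (Set.image_subset_range _ _).trans (subset_convexHull ℝ _))
      (monomial_mem_Ch trivial)
  obtain ⟨k, hk⟩ := (eventually_small (𝒰 := Set.range U) (by rintro _ ⟨j, rfl⟩; exact hU j) hC
    (convex_convexHull ℝ _) (fun x _ => by
      obtain ⟨j, hj⟩ := hcov x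
      exact ⟨_, ⟨j, rfl⟩, hj⟩) (plus (Finset.univ : Finset ι)).degree).exists
  have h1 := Ch.rename lab' (S' := fun t => ∃ j, (j, true) ∉ t) ?_ (hk _ le_rfl _ hp)
  · obtain ⟨⟨j, hj⟩, -⟩ := h1 _ (by rw [hs k]; exact one_ne_zero)
    exact hj ((mem_support_plus _ _).2 ⟨Finset.mem_univ _, rfl⟩)
  · rintro s ⟨-, h2⟩
    rcases s.eq_empty_or_nonempty with rfl | hne
    · exact ⟨Classical.arbitrary ι, by simp⟩
    · obtain ⟨_, ⟨j, rfl⟩, h3⟩ := h2 hne
      refine ⟨j, ?_⟩
      rintro ⟨x, hx, h4⟩
      have h5 : lab x = j := congrArg Prod.fst h4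
      exact hlabU x (h5 ▸ h3 hx)

theorem brouwer_pi {d : ℕ} (f : (Fin d → ℝ) → (Fin d → ℝ)) (hf : Continuous f) (M : ℝ)
    (hM : ∀ x, ‖f x‖ ≤ M) : ∃ x, f x = x := by
  by_contra hne
  push Not at hne
  let lam : Option (Fin d) → (Fin d → ℝ) → ℝ := fun o x =>
    o.elim (d * M - ∑ i, x i) fun i => x i + M
  have hsum : ∀ x, ∑ o, lam o x = 2 * d * M := by
    intro x
    simp only [Fintype.sum_option, lam, Option.elim, Finset.sum_add_distrib, Finset.sum_const,
      Finset.card_univ, Fintype.card_fin, nsmul_eq_mul]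
    ring
  have hcont : ∀ o, Continuous (lam o) := by
    rintro (_ | i) <;> simp only [lam, Option.elim] <;> fun_prop
  have hinj : ∀ x y, (∀ o, lam o x = lam o y) → x = y := by
    intro x y h
    funext i
    have := h (some i)
    simpa [lam] using this
  have hex : ∀ x y, x ≠ y → ∃ o, lam o x < lam o y := by
    intro x y hxy
    by_contra h
    push Not at h
    refine hxy (hinj x y fun o => ?_)
    have := (Finset.sum_eq_sum_iff_of_le (s := Finset.univ) fun o _ => h o).1
      ((hsum y).trans (hsum x).symm) o (Finset.mem_univ o)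
    exact this.symm
  have hpos : ∀ x o, 0 ≤ lam o (f x) := by
    intro x o
    have h1 : ∀ i, |f x i| ≤ M := fun i => (norm_le_pi_norm (f x) i).trans (hM x)
    cases o with
    | none =>
      have : ∑ i, f x i ≤ ∑ _i : Fin d, M := Finset.sum_le_sum fun i _ => (abs_le.1 (h1 i)).2
      simp only [Finset.sum_const, Finset.card_univ, Fintype.card_fin, nsmul_eq_mul] at this
      simp only [lam, Option.elim]
      linarith
    | some i =>
      have := (abs_le.1 (h1 i)).1
      simp only [lam, Option.elim]
      linarith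
  choose lab hlab using fun x => hex (f x) x (hne x)
  let q : Option (Fin d) → (Fin d → ℝ) := fun o k =>
    -M + if o = some k then 2 * d * M else 0
  have hq : ∀ o o', o ≠ o' → lam o' (q o) = 0 := by
    intro o o' h
    cases o' with
    | none =>
      obtain ⟨i, rfl⟩ := Option.ne_none_iff_exists'.1 h
      simp only [lam, q, Option.elim, Finset.sum_add_distrib, Finset.sum_const, Finset.card_univ,
        Fintype.card_fin, nsmul_eq_mul, Option.some.injEq, Finset.sum_ite_eq, Finset.mem_univ,
        if_true]
      ring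
    | some k => simp [lam, q, h]
  have hconv : ∀ o, Convex ℝ {x | lam o x ≤ 0} := by
    intro o x hx y hy a b ha hb hab
    have : lam o (a • x + b • y) = a * lam o x + b * lam o y := by
      cases o with
      | none =>
        simp only [lam, Option.elim, Pi.add_apply, Pi.smul_apply, smul_eq_mul,
          Finset.sum_add_distrib, ← Finset.mul_sum]
        linear_combination (-(d * M)) * hab
      | some i =>
        simp only [lam, Option.elim, Pi.add_apply, Pi.smul_apply, smul_eq_mul]
        linear_combination (-M) * hab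
    simp only [Set.mem_ofPred_eq] at hx hy ⊢
    rw [this]
    nlinarith [mul_nonneg ha (neg_nonneg.2 hx), mul_nonneg hb (neg_nonneg.2 hy)]
  refine kkm_contra q lab (fun o => {x | lam o x < lam o (f x)})
    (fun o => isOpen_lt (hcont o) ((hcont o).comp hf)) (fun x => hex x (f x) (hne x).symm)
    (fun x h => lt_asymm h (hlab x)) ?_
  rintro j x hx rfl
  have h1 : lam (lab x) x ≤ 0 := convexHull_min (by
    rintro _ ⟨i, hi, rfl⟩
    exact (hq i _ hi).le) (hconv (lab x)) hx
  linarith [hlab x, hpos x (lab x)]

theorem brouwer {E : Type*} [NormedAddCommGroup E] [NormedSpace ℝ E] [FiniteDimensional ℝ E]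
    (f : E → E) (hf : Continuous f) (M : ℝ) (hM : ∀ x, ‖f x‖ ≤ M) : ∃ x, f x = x := by
  let e : E ≃L[ℝ] (Fin (Module.finrank ℝ E) → ℝ) :=
    ContinuousLinearEquiv.ofFinrankEq (by simp)
  obtain ⟨y, hy⟩ := brouwer_pi (fun y => e (f (e.symm y))) (by fun_prop)
    (‖(e : E →L[ℝ] (Fin (Module.finrank ℝ E) → ℝ))‖ * M) fun y =>
      ((e : E →L[ℝ] (Fin (Module.finrank ℝ E) → ℝ)).le_opNorm _).trans
        (mul_le_mul_of_nonneg_left (hM _) (norm_nonneg _))
  exact ⟨e.symm y, e.injective (by rw [hy, e.apply_symm_apply])⟩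

end Crest.Agent.R332
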