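import Crest.Agent.R332.Cfc

/-! # Row 332: calculus for matrix valued functions of a real variable -/

set_option autoImplicit false

open MeasureTheory Set Filter Topology
open scoped Matrix Matrix.Norms.L2Operator MatrixOrder ComplexOrder

namespace Crest.Agent.R332

variable {ι ι' ι'' : Type} [Fintype ι] [DecidableEq ι] [Fintype ι'] [DecidableEq ι']
  [Fintype ι''] [DecidableEq ι'']

omit [DecidableEq ι] in
theorem hasDerivAt_iff_entry {f : ℝ → Matrix ι ι' ℂ} {f' : Matrix ι ι' ℂ} {x : ℝ} :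
    HasDerivAt f f' x ↔ ∀ i j, HasDerivAt (fun y => f y i j) (f' i j) x := by
  exact (hasDerivAt_pi (φ := (f : ℝ → ι → ι' → ℂ)) (φ' := f')).trans
    (forall_congr' fun _ => hasDerivAt_pi)

omit [DecidableEq ι] in
theorem hasDerivWithinAt_iff_entry {f : ℝ → Matrix ι ι' ℂ} {f' : Matrix ι ι' ℂ} {x : ℝ}
    {S : Set ℝ} :
    HasDerivWithinAt f f' S x ↔ ∀ i j, HasDerivWithinAt (fun y => f y i j) (f' i j) S x := by
  exact (hasDerivWithinAt_pi (φ := (f : ℝ → ι → ι' → ℂ)) (φ' := f')).trans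
    (forall_congr' fun _ => hasDerivWithinAt_pi)

omit [DecidableEq ι] in
theorem hasDerivAt_matmul {f : ℝ → Matrix ι ι' ℂ} {g : ℝ → Matrix ι' ι'' ℂ} {f' : Matrix ι ι' ℂ}
    {g' : Matrix ι' ι'' ℂ} {x : ℝ} (hf : HasDerivAt f f' x) (hg : HasDerivAt g g' x) :
    HasDerivAt (fun y => f y * g y) (f' * g x + f x * g') x := by
  rw [hasDerivAt_iff_entry] at hf hg ⊢
  intro i j
  simp only [Matrix.mul_apply, Matrix.add_apply, ← Finset.sum_add_distrib]
  exact HasDerivAt.fun_sum fun k _ => (hf i k).mul (hg k j)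

theorem hasDerivAt_conjTranspose {f : ℝ → Matrix ι ι' ℂ} {f' : Matrix ι ι' ℂ} {x : ℝ}
    (hf : HasDerivAt f f' x) : HasDerivAt (fun y => (f y)ᴴ) f'ᴴ x := by
  rw [hasDerivAt_iff_entry] at hf ⊢
  intro i j
  simp only [Matrix.conjTranspose_apply]
  exact (hf j i).star

theorem hasDerivAt_submatrix {α β : Type} [Fintype α] [Fintype β] [DecidableEq β]
    {f : ℝ → Matrix ι ι' ℂ} {f' : Matrix ι ι' ℂ} {x : ℝ} (hf : HasDerivAt f f' x)
    (e : α → ι) (e' : β → ι') :
    HasDerivAt (fun y => (f y).submatrix e e') (f'.submatrix e e') x := by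
  rw [hasDerivAt_iff_entry] at hf ⊢
  exact fun i j => hf (e i) (e' j)

theorem hasDerivAt_rt {f : ℝ → Mat ι} {f' : Mat ι} {x : ℝ} (hf : HasDerivAt f f' x) :
    HasDerivAt (fun y => rt (f y)) (rt f') x := by
  rw [hasDerivAt_iff_entry] at hf
  simp only [rt_eq_sum]
  exact HasDerivAt.fun_sum fun i _ => Complex.reCLM.hasFDerivAt.comp_hasDerivAt x (hf i i)

theorem hasDerivAt_dg {v : ℝ → ι → ℝ} {v' : ι → ℝ} {x : ℝ}
    (hv : ∀ i, HasDerivAt (fun y => v y i) (v' i) x) : HasDerivAt (fun y => dg (v y)) (dg v') x := by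
  rw [hasDerivAt_iff_entry]
  intro i j
  by_cases h : i = j
  · subst h
    simp only [dg, Matrix.diagonal_apply_eq]
    exact (hv i).ofReal_comp
  · simp only [dg, Matrix.diagonal_apply_ne _ h]
    exact hasDerivAt_const _ _

theorem hasDerivAt_matinv {f : ℝ → Mat ι} {f' : Mat ι} {x : ℝ} (hf : HasDerivAt f f' x)
    (hu : IsUnit (f x)) : HasDerivAt (fun y => (f y)⁻¹) (-((f x)⁻¹ * f' * (f x)⁻¹)) x := by
  obtain ⟨u, hu⟩ := hu
  have h1 := hasFDerivAt_ringInverse (𝕜 := ℝ) u
  rw [hu] at h1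
  have h2 := h1.comp_hasDerivAt x hf
  simp only [Matrix.nonsing_inv_eq_ringInverse]
  rw [← hu, Ring.inverse_unit]
  simpa [Function.comp_def] using h2

/-- the derivative of a Hermitian-valued function is Hermitian -/
theorem herm_of_hasDerivAt {f : ℝ → Mat ι} {f' : Mat ι} {x : ℝ} (hf : HasDerivAt f f' x)
    (h : ∀ᶠ y in 𝓝 x, (f y).IsHermitian) : f'.IsHermitian := by
  have h1 := hasDerivAt_conjTranspose hf
  have h2 : HasDerivAt f f'ᴴ x := h1.congr_of_eventuallyEq (h.mono fun y hy => hy.eq.symm)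
  exact h2.unique hf

omit [DecidableEq ι] in
theorem continuous_rt : Continuous (rt : Mat ι → ℝ) := by
  unfold rt
  exact Complex.continuous_re.comp (continuous_id.matrix_trace)

omit [DecidableEq ι] [DecidableEq ι'] in
theorem continuous_fro2 : Continuous (fro2 : Matrix ι ι' ℂ → ℝ) := by
  unfold fro2
  fun_prop

omit [Fintype ι] in
theorem continuous_dg : Continuous (dg : (ι → ℝ) → Mat ι) := by
  unfold dg
  exact Continuous.matrix_diagonal (by fun_prop)

theorem continuous_Zm : Continuous (fun p : (ι → ℝ) × Mat ι => Zm p.1 p.2) := by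
  unfold Zm
  refine Continuous.sub (continuous_dg.comp (by fun_prop)) ?_
  exact continuous_snd.matrix_mul continuous_snd

omit [DecidableEq ι] in
theorem continuous_comm : Continuous (fun p : (ι → ℝ) × Mat ι => comm p.1 p.2) := by
  unfold comm
  fun_prop

theorem continuous_Hm {s : ℝ} (hs : 0 < s) :
    Continuous (fun p : ℝ × Matrix ι ι' ℂ => Hm s p.1 p.2) := by
  unfold Hm
  refine Continuous.add ?_ (continuous_fst.smul continuous_const)
  exact (continuousOn_pw (inv_pos.2 hs)).comp_continuous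
    (continuous_snd.matrix_mul continuous_snd.matrix_conjTranspose)
    fun p => Matrix.isHermitian_mul_conjTranspose_self p.2

/-- `A ↦ rt (A * M)` as a continuous linear map (to move it through Bochner integrals) -/
noncomputable def rtL (M : Mat ι) : Mat ι →L[ℝ] ℝ :=
  LinearMap.toContinuousLinearMap
    { toFun := fun A => rt (A * M)
      map_add' := fun A B => by rw [Matrix.add_mul, rt_add]
      map_smul' := fun c A => by rw [Matrix.smul_mul, rt_smul]; rfl }

omit [DecidableEq ι] in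
@[simp] theorem rtL_apply (M A : Mat ι) : rtL M A = rt (A * M) := rfl

/-- The basic identity behind `∫ |w' - X w|² ≥ 0`: integrate `(tr X w wᴴ)'` over `[a, b]`. -/
theorem bogo {a b : ℝ} (hab : a ≤ b) {w w' : ℝ → Matrix ι ι' ℂ} {X X' : ℝ → Mat ι}
    (hw : ∀ x, HasDerivAt w (w' x) x) (cw' : Continuous w') (wa : w a = 0) (wb : w b = 0)
    (cX : ContinuousOn X (Icc a b)) (cX' : ContinuousOn X' (Icc a b))
    (hX : ∀ x ∈ Ioo a b, HasDerivAt X (X' x) x) (herm : ∀ x ∈ Icc a b, (X x).IsHermitian) :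
    ∫ x in a..b, fro2 (w' x - X x * w x) =
      (∫ x in a..b, fro2 (w' x)) + ∫ x in a..b, rt ((X' x + X x * X x) * (w x * (w x)ᴴ)) := by
  have cw : Continuous w := continuous_iff_continuousAt.2 fun x => (hw x).continuousAt
  have cP : Continuous fun x => w x * (w x)ᴴ := cw.matrix_mul cw.matrix_conjTranspose
  have cP' : Continuous fun x => w' x * (w x)ᴴ + w x * (w' x)ᴴ :=
    (cw'.matrix_mul cw.matrix_conjTranspose).add (cw.matrix_mul cw'.matrix_conjTranspose)
  have hF : ∀ x ∈ Ioo a b, HasDerivAt (fun y => rt (X y * (w y * (w y)ᴴ)))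
      (rt (X' x * (w x * (w x)ᴴ) + X x * (w' x * (w x)ᴴ + w x * (w' x)ᴴ))) x := fun x hx =>
    hasDerivAt_rt (hasDerivAt_matmul (hX x hx)
      (hasDerivAt_matmul (hw x) (hasDerivAt_conjTranspose (hw x))))
  have cF : ContinuousOn (fun y => rt (X y * (w y * (w y)ᴴ))) (Icc a b) :=
    continuous_rt.comp_continuousOn (cX.mul cP.continuousOn)
  have cF' : ContinuousOn (fun x =>
      rt (X' x * (w x * (w x)ᴴ) + X x * (w' x * (w x)ᴴ + w x * (w' x)ᴴ))) (Icc a b) :=
    continuous_rt.comp_continuousOn ((cX'.mul cP.continuousOn).add (cX.mul cP'.continuousOn))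
  have iF' := cF'.intervalIntegrable_of_Icc (μ := volume) hab
  have h0 := intervalIntegral.integral_eq_sub_of_hasDerivAt_of_le hab cF hF iF'
  simp only [wa, wb, Matrix.zero_mul, Matrix.mul_zero, sub_self] at h0
  have i1 : IntervalIntegrable (fun x => fro2 (w' x)) volume a b :=
    (continuous_fro2.comp cw').intervalIntegrable _ _
  have i2 : IntervalIntegrable (fun x => rt ((X' x + X x * X x) * (w x * (w x)ᴴ))) volume a b :=
    (continuous_rt.comp_continuousOn ((cX'.add (cX.mul cX)).mul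
      cP.continuousOn)).intervalIntegrable_of_Icc hab
  rw [← intervalIntegral.integral_add i1 i2, ← sub_zero (∫ x in a..b, fro2 (w' x) + _), ← h0,
    ← intervalIntegral.integral_sub (i1.add i2) iF']
  refine intervalIntegral.integral_congr fun x hx => ?_
  rw [uIcc_of_le hab] at hx
  have e1 : rt (w' x * ((w x)ᴴ * X x)) = rt (X x * (w' x * (w x)ᴴ)) := by
    rw [← Matrix.mul_assoc, rt_mul_comm]
  have e2 : rt (X x * (w x * ((w x)ᴴ * X x))) = rt (X x * (X x * (w x * (w x)ᴴ))) := by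
    rw [← Matrix.mul_assoc (w x), ← Matrix.mul_assoc (X x), rt_mul_comm]
  simp only [fro2_eq, Matrix.conjTranspose_sub, Matrix.conjTranspose_mul, (herm x hx).eq,
    Matrix.sub_mul, Matrix.mul_sub, Matrix.add_mul, Matrix.mul_add, rt_add, rt_sub,
    Matrix.mul_assoc, e1, e2]
  ring

theorem Pot.integrable_entry' {s : ℝ} (hs : 0 < s) {m : ℕ} {W : ℝ → Mat (Fin m)} (hW : Pot s W)
    {f : ℝ → ℂ} (hf : Continuous f) {A : ℝ} (h0 : ∀ x, A ≤ |x| → f x = 0) (i j : Fin m) :
    Integrable fun x => f x * W x i j := by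
  have hcs : HasCompactSupport f := HasCompactSupport.intro (isCompact_Icc (a := -A) (b := A))
    fun x hx => h0 x (by
      by_contra h
      exact hx (Ioo_subset_Icc_self (abs_lt.1 (not_le.1 h))))
  obtain ⟨C, hC⟩ := hf.bounded_above_of_compact_support hcs
  have i1 : Integrable fun x => ‖f x‖ + C * rt (pw (W x) (1 + s)) :=
    (hf.integrable_of_hasCompactSupport hcs).norm.add (hW.int.const_mul C)
  refine i1.mono' (hf.aestronglyMeasurable.mul (hW.meas i j).aestronglyMeasurable)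
    (Eventually.of_forall fun x => ?_)
  have h1 : ‖W x i j‖ ≤ 1 + rt (pw (W x) (1 + s)) := by
    have h2 := norm_pow_le_rt_pw (hW.psd x) (p := 1 + s) (by positivity)
    refine (norm_entry_le _ i j).trans ?_
    rcases le_total ‖W x‖ 1 with h | h
    · have : 0 ≤ ‖W x‖ ^ (1 + s) := by positivity
      linarith
    · have := Real.self_le_rpow_of_one_le h (show 1 ≤ 1 + s by linarith)
      linarith
  have h3 : 0 ≤ rt (pw (W x) (1 + s)) := rt_nonneg (pw_psd (hW.psd x) _)
  rw [norm_mul]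
  calc ‖f x‖ * ‖W x i j‖ ≤ ‖f x‖ * (1 + rt (pw (W x) (1 + s))) :=
        mul_le_mul_of_nonneg_left h1 (norm_nonneg _)
    _ ≤ ‖f x‖ + C * rt (pw (W x) (1 + s)) := by
        nlinarith [mul_le_mul_of_nonneg_right (hC x) h3]

/-- Hint: `‖W i j‖ ≤ ‖W‖ ≤ 1 + ‖W‖^(1+s) ≤ 1 + rt (pw W (1+s))`. -/
theorem Pot.integrable_rt {s : ℝ} (hs : 0 < s) {m : ℕ} {W : ℝ → Mat (Fin m)} (hW : Pot s W)
    {ρ : ℝ → Mat (Fin m)} (hρ : Continuous ρ) {A : ℝ} (h0 : ∀ x, A ≤ |x| → ρ x = 0) :
    Integrable fun x => rt (ρ x * W x) := by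
  simp only [rt_eq_sum, Matrix.mul_apply, Complex.re_sum]
  refine integrable_finsetSum _ fun i _ => integrable_finsetSum _ fun j _ => ?_
  exact (hW.integrable_entry' hs (f := fun x => ρ x i j) (hρ.matrix_elem i j) (A := A)
    (fun x hx => by simp [h0 x hx]) j i).re

theorem Pot.integrable_entry {s : ℝ} (hs : 0 < s) {m : ℕ} {W : ℝ → Mat (Fin m)} (hW : Pot s W)
    {f : ℝ → ℂ} (hf : Continuous f) {A : ℝ} (h0 : ∀ x, A ≤ |x| → f x = 0) (i j : Fin m) :
    Integrable fun x => f x * W x i j := by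
  exact hW.integrable_entry' hs hf h0 i j

end Crest.Agent.R332
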