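import Crest.Agent.R332.Defs

/-! # Row 332: trace / functional calculus toolkit for Hermitian matrices -/

set_option autoImplicit false

open MeasureTheory Set
open scoped Matrix Matrix.Norms.L2Operator MatrixOrder ComplexOrder

namespace Crest.Agent.R332

variable {ι ι' ι'' : Type} [Fintype ι] [DecidableEq ι] [Fintype ι'] [DecidableEq ι']
  [Fintype ι''] [DecidableEq ι'']

section rt
omit [DecidableEq ι] [DecidableEq ι']

theorem rt_add (A B : Mat ι) : rt (A + B) = rt A + rt B := by simp [rt]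
theorem rt_sub (A B : Mat ι) : rt (A - B) = rt A - rt B := by simp [rt]
theorem rt_neg (A : Mat ι) : rt (-A) = -rt A := by simp [rt]
theorem rt_zero : rt (0 : Mat ι) = 0 := by simp [rt]
theorem rt_smul (c : ℝ) (A : Mat ι) : rt (c • A) = c * rt A := by simp [rt]
theorem rt_conjTranspose (A : Mat ι) : rt Aᴴ = rt A := by
  simp [rt, Matrix.trace_conjTranspose]
theorem rt_mul_comm (A : Matrix ι ι' ℂ) (B : Matrix ι' ι ℂ) : rt (A * B) = rt (B * A) := by
  rw [rt, rt, Matrix.trace_mul_comm]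
theorem rt_eq_sum (A : Mat ι) : rt A = ∑ i, (A i i).re := by simp [rt, Matrix.trace]
end rt

theorem rt_one : rt (1 : Mat ι) = Fintype.card ι := by simp [rt]
theorem rt_dg (v : ι → ℝ) : rt (dg v) = ∑ i, v i := by simp [rt, dg]

omit [Fintype ι] in
theorem dg_herm (v : ι → ℝ) : (dg v).IsHermitian := by
  rw [dg, Matrix.isHermitian_diagonal_iff]
  intro i
  simp [IsSelfAdjoint]
theorem dg_mul (v v' : ι → ℝ) : dg v * dg v' = dg (fun i => v i * v' i) := by
  simp [dg, Matrix.diagonal_mul_diagonal]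
omit [Fintype ι] in
theorem dg_add (v v' : ι → ℝ) : dg v + dg v' = dg (fun i => v i + v' i) := by
  simp [dg, Matrix.diagonal_add]
omit [Fintype ι] in
theorem dg_sub (v v' : ι → ℝ) : dg v - dg v' = dg (fun i => v i - v' i) := by
  simp [dg, Matrix.diagonal_sub]
omit [Fintype ι] in
theorem dg_smul (c : ℝ) (v : ι → ℝ) : c • dg v = dg (fun i => c * v i) := by
  ext i j
  by_cases h : i = j <;> simp [dg, h]
omit [Fintype ι] in
theorem dg_const (c : ℝ) : dg (fun _ : ι => c) = c • (1 : Mat ι) := by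
  ext i j
  by_cases h : i = j <;> simp [dg, h]
theorem dg_psd_iff (v : ι → ℝ) : (dg v).PosSemidef ↔ ∀ i, 0 ≤ v i := by
  simp [dg, Matrix.posSemidef_diagonal_iff]
theorem dg_posDef_iff (v : ι → ℝ) : (dg v).PosDef ↔ ∀ i, 0 < v i := by
  simp [dg, Matrix.posDef_diagonal_iff]
theorem norm_dg_le {v : ι → ℝ} {c : ℝ} (hc : 0 ≤ c) (h : ∀ i, |v i| ≤ c) : ‖dg v‖ ≤ c := by
  rw [dg, Matrix.l2_opNorm_diagonal]
  exact (pi_norm_le_iff_of_nonneg hc).2 fun i => by simpa using h i

/-- spectral theorem in the form used here -/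
theorem spec {A : Mat ι} (hA : A.IsHermitian) :
    A = (hA.eigenvectorUnitary : Mat ι) * dg hA.eigenvalues * star (hA.eigenvectorUnitary : Mat ι) := by
  conv_lhs => rw [hA.spectral_theorem, Unitary.conjStarAlgAut_apply]
  rfl

theorem cfc_spec {A : Mat ι} (hA : A.IsHermitian) (f : ℝ → ℝ) :
    cfc f A = (hA.eigenvectorUnitary : Mat ι) * dg (fun i => f (hA.eigenvalues i)) *
      star (hA.eigenvectorUnitary : Mat ι) := by
  rw [hA.cfc_eq, Matrix.IsHermitian.cfc, Unitary.conjStarAlgAut_apply]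
  rfl

theorem u_star_mul (U : Matrix.unitaryGroup ι ℂ) : star (U : Mat ι) * (U : Mat ι) = 1 :=
  Unitary.coe_star_mul_self U

theorem u_mul_star (U : Matrix.unitaryGroup ι ℂ) : (U : Mat ι) * star (U : Mat ι) = 1 :=
  Unitary.coe_mul_star_self U

omit [Fintype ι'] [DecidableEq ι'] in
theorem u_star_mul' (U : Matrix.unitaryGroup ι ℂ) (M : Matrix ι ι' ℂ) :
    star (U : Mat ι) * ((U : Mat ι) * M) = M := by
  rw [← Matrix.mul_assoc, u_star_mul, Matrix.one_mul]

omit [Fintype ι'] [DecidableEq ι'] in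
theorem u_mul_star' (U : Matrix.unitaryGroup ι ℂ) (M : Matrix ι ι' ℂ) :
    (U : Mat ι) * (star (U : Mat ι) * M) = M := by
  rw [← Matrix.mul_assoc, u_mul_star, Matrix.one_mul]

theorem conj_mul_conj (U : Matrix.unitaryGroup ι ℂ) (A B : Mat ι) :
    (U : Mat ι) * A * star (U : Mat ι) * ((U : Mat ι) * B * star (U : Mat ι)) =
      (U : Mat ι) * (A * B) * star (U : Mat ι) := by
  simp only [Matrix.mul_assoc, u_star_mul']

theorem conj_smul_one (U : Matrix.unitaryGroup ι ℂ) (c : ℝ) :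
    (U : Mat ι) * dg (fun _ => c) * star (U : Mat ι) = c • (1 : Mat ι) := by
  rw [dg_const, Matrix.mul_smul, Matrix.mul_one, Matrix.smul_mul, u_mul_star]

theorem conj_herm (U : Mat ι) {A : Mat ι} (hA : A.IsHermitian) : (U * A * star U).IsHermitian :=
  Matrix.isHermitian_mul_mul_conjTranspose U hA

theorem rt_conj (U : Matrix.unitaryGroup ι ℂ) (A : Mat ι) :
    rt ((U : Mat ι) * A * star (U : Mat ι)) = rt A := by
  rw [rt_mul_comm, u_star_mul']

theorem norm_conj (U : Matrix.unitaryGroup ι ℂ) (A : Mat ι) :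
    ‖(U : Mat ι) * A * star (U : Mat ι)‖ = ‖A‖ := by
  rw [← Unitary.coe_star, CStarRing.norm_mul_coe_unitary, CStarRing.norm_coe_unitary_mul]

theorem psd_conj_iff (U : Matrix.unitaryGroup ι ℂ) (A : Mat ι) :
    ((U : Mat ι) * A * star (U : Mat ι)).PosSemidef ↔ A.PosSemidef := by
  exact Matrix.IsUnit.posSemidef_star_right_conjugate_iff (Unitary.isUnit_coe (U := U))

theorem rt_cfc {A : Mat ι} (hA : A.IsHermitian) (f : ℝ → ℝ) :
    rt (cfc f A) = ∑ i, f (hA.eigenvalues i) := by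
  rw [cfc_spec hA, rt_conj, rt_dg]

theorem cfc_herm (f : ℝ → ℝ) (A : Mat ι) : (cfc f A).IsHermitian := by
  exact (cfc_predicate f A : IsSelfAdjoint _)

theorem intertwine_aux (U : Matrix.unitaryGroup ι ℂ) (V : Matrix.unitaryGroup ι' ℂ) {α : ι → ℝ}
    {β : ι' → ℝ} {ω : Matrix ι ι' ℂ}
    (h : (U : Mat ι) * dg α * star (U : Mat ι) * ω = ω * ((V : Mat ι') * dg β * star (V : Mat ι')))
    (f : ℝ → ℝ) : (U : Mat ι) * dg (fun i => f (α i)) * star (U : Mat ι) * ω =
      ω * ((V : Mat ι') * dg (fun j => f (β j)) * star (V : Mat ι')) := by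
  obtain ⟨M, rfl⟩ : ∃ M : Matrix ι ι' ℂ, ω = (U : Mat ι) * (M * star (V : Mat ι')) :=
    ⟨star (U : Mat ι) * (ω * (V : Mat ι')), by
      simp only [Matrix.mul_assoc, u_mul_star, u_mul_star', Matrix.mul_one]⟩
  have h1 : dg α * M = M * dg β := by
    have := congrArg (fun X => star (U : Mat ι) * (X * (V : Mat ι'))) h
    simpa only [Matrix.mul_assoc, u_star_mul, u_star_mul', Matrix.mul_one] using this
  have h2 : dg (fun i => f (α i)) * M = M * dg (fun j => f (β j)) := by
    ext i j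
    have := congrFun (congrFun h1 i) j
    simp only [dg, Matrix.diagonal_mul, Matrix.mul_diagonal] at this ⊢
    by_cases hM : M i j = 0
    · simp [hM]
    · rw [mul_comm] at this
      have e : α i = β j := by exact_mod_cast mul_left_cancel₀ hM this
      rw [e, mul_comm]
  simp only [Matrix.mul_assoc, u_star_mul']
  rw [← Matrix.mul_assoc (dg _), h2, Matrix.mul_assoc]

/-- Hint: conjugate both to diagonal form; `(α_i - β_j) ω_ij = 0`. -/
theorem cfc_intertwine {A : Mat ι} {B : Mat ι'} (hA : A.IsHermitian) (hB : B.IsHermitian)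
    {ω : Matrix ι ι' ℂ} (h : A * ω = ω * B) (f : ℝ → ℝ) : cfc f A * ω = ω * cfc f B := by
  rw [cfc_spec hA, cfc_spec hB]
  apply intertwine_aux
  rw [← spec hA, ← spec hB, h]

theorem cfc_dg (f : ℝ → ℝ) (v : ι → ℝ) : cfc f (dg v) = dg (fun i => f (v i)) := by
  have := intertwine_aux (dg_herm v).eigenvectorUnitary (1 : Matrix.unitaryGroup ι ℂ) (ω := 1)
    (β := v) (by rw [← spec (dg_herm v)]; simp) f
  rw [cfc_spec (dg_herm v)]
  simpa using this

theorem cfc_conj (U : Matrix.unitaryGroup ι ℂ) {A : Mat ι} (hA : A.IsHermitian) (f : ℝ → ℝ) :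
    cfc f ((U : Mat ι) * A * star (U : Mat ι)) = (U : Mat ι) * cfc f A * star (U : Mat ι) := by
  have := cfc_intertwine (conj_herm (U : Mat ι) hA) hA (ω := (U : Mat ι))
    (by simp only [Matrix.mul_assoc, u_star_mul, Matrix.mul_one]) f
  rw [← this, Matrix.mul_assoc (cfc f _), u_mul_star, Matrix.mul_one]

theorem cfc_conj_dg (U : Matrix.unitaryGroup ι ℂ) (v : ι → ℝ) (f : ℝ → ℝ) :
    cfc f ((U : Mat ι) * dg v * star (U : Mat ι)) =
      (U : Mat ι) * dg (fun i => f (v i)) * star (U : Mat ι) := by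
  rw [cfc_conj U (dg_herm v), cfc_dg]

theorem cfc_submatrix (e : ι' ≃ ι) {A : Mat ι} (hA : A.IsHermitian) (f : ℝ → ℝ) :
    cfc f (A.submatrix e e) = (cfc f A).submatrix e e := by
  have := cfc_intertwine (hA.submatrix e) hA (ω := (1 : Mat ι).submatrix e (Equiv.refl ι))
    (by
      have e1 := Matrix.mul_submatrix_one e (Equiv.refl ι) (A.submatrix e e)
      rw [e1, Matrix.one_submatrix_mul]
      ext i j; simp) f
  have e1 := Matrix.mul_submatrix_one e (Equiv.refl ι) (cfc f (A.submatrix e e))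
  rw [e1, Matrix.one_submatrix_mul] at this
  ext i j
  simpa using congrFun (congrFun this i) (e j)

theorem cfc_fromBlocks {A : Mat ι} {B : Mat ι'} (hA : A.IsHermitian) (hB : B.IsHermitian)
    (f : ℝ → ℝ) : cfc f (Matrix.fromBlocks A 0 0 B : Mat (ι ⊕ ι')) =
      Matrix.fromBlocks (cfc f A) 0 0 (cfc f B) := by
  have hF : (Matrix.fromBlocks A 0 0 B : Mat (ι ⊕ ι')).IsHermitian :=
    Matrix.IsHermitian.fromBlocks hA (by simp) hB
  have h1 := cfc_intertwine hF hA (ω := Matrix.fromRows (1 : Mat ι) (0 : Matrix ι' ι ℂ))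
    (by simp [Matrix.fromBlocks_mul_fromRows, Matrix.fromRows_mul]) f
  have h2 := cfc_intertwine hF hB (ω := Matrix.fromRows (0 : Matrix ι ι' ℂ) (1 : Mat ι'))
    (by simp [Matrix.fromBlocks_mul_fromRows, Matrix.fromRows_mul]) f
  rw [Matrix.fromRows_mul, Matrix.one_mul, Matrix.zero_mul] at h1 h2
  ext i j
  rcases j with j | j
  · have := congrFun (congrFun h1 i) j
    rcases i with i | i <;>
      simpa [Matrix.mul_apply, Fintype.sum_sum_type, Matrix.one_apply] using this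
  · have := congrFun (congrFun h2 i) j
    rcases i with i | i <;>
      simpa [Matrix.mul_apply, Fintype.sum_sum_type, Matrix.one_apply] using this

/-- products of functions of one Hermitian matrix (no continuity needed: finite spectrum) -/
theorem cfc_mul' {A : Mat ι} (f g : ℝ → ℝ) :
    cfc f A * cfc g A = cfc (fun t => f t * g t) A := by
  exact (cfc_mul f g A (A.finite_real_spectrum.continuousOn f)
    (A.finite_real_spectrum.continuousOn g)).symm

theorem cfc_cfc {A : Mat ι} (hA : A.IsHermitian) (f g : ℝ → ℝ) :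
    cfc g (cfc f A) = cfc (fun t => g (f t)) A := by
  rw [cfc_spec hA f, cfc_conj_dg, cfc_spec hA]

theorem cfc_congr' {A : Mat ι} (hA : A.IsHermitian) {f g : ℝ → ℝ}
    (h : ∀ i, f (hA.eigenvalues i) = g (hA.eigenvalues i)) : cfc f A = cfc g A := by
  rw [cfc_spec hA, cfc_spec hA, funext h]

theorem cfc_affine {A : Mat ι} (hA : A.IsHermitian) (c d : ℝ) :
    cfc (fun t => c * t + d) A = c • A + d • (1 : Mat ι) := by
  rw [cfc_spec hA, ← dg_add, ← dg_smul, Matrix.mul_add, Matrix.add_mul, conj_smul_one,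
    Matrix.mul_smul, Matrix.smul_mul, ← spec hA]

theorem cfc_psd {A : Mat ι} (hA : A.IsHermitian) {f : ℝ → ℝ}
    (h : ∀ i, 0 ≤ f (hA.eigenvalues i)) : (cfc f A).PosSemidef := by
  rw [cfc_spec hA, psd_conj_iff, dg_psd_iff]
  exact h

theorem cfc_sub_psd {A : Mat ι} (hA : A.IsHermitian) {f g : ℝ → ℝ}
    (h : ∀ i, f (hA.eigenvalues i) ≤ g (hA.eigenvalues i)) : (cfc g A - cfc f A).PosSemidef := by
  rw [cfc_spec hA, cfc_spec hA, ← Matrix.sub_mul, ← Matrix.mul_sub, dg_sub, psd_conj_iff,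
    dg_psd_iff]
  exact fun i => sub_nonneg.2 (h i)

theorem norm_cfc_le' {A : Mat ι} (hA : A.IsHermitian) {f : ℝ → ℝ} {c : ℝ} (hc : 0 ≤ c)
    (h : ∀ i, |f (hA.eigenvalues i)| ≤ c) : ‖cfc f A‖ ≤ c := by
  rw [cfc_spec hA, norm_conj]
  exact norm_dg_le hc h

theorem le_eig {A : Mat ι} (hA : A.IsHermitian) {c : ℝ} :
    (A - c • (1 : Mat ι)).PosSemidef ↔ ∀ i, c ≤ hA.eigenvalues i := by
  conv_lhs => rw [spec hA, ← conj_smul_one hA.eigenvectorUnitary, ← Matrix.sub_mul,
    ← Matrix.mul_sub, dg_sub, psd_conj_iff, dg_psd_iff]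
  simp only [sub_nonneg]

theorem eig_le {A : Mat ι} (hA : A.IsHermitian) {c : ℝ} :
    (c • (1 : Mat ι) - A).PosSemidef ↔ ∀ i, hA.eigenvalues i ≤ c := by
  conv_lhs => rw [spec hA, ← conj_smul_one hA.eigenvectorUnitary, ← Matrix.sub_mul,
    ← Matrix.mul_sub, dg_sub, psd_conj_iff, dg_psd_iff]
  simp only [sub_nonneg]

theorem abs_eig_le {A : Mat ι} (hA : A.IsHermitian) (i : ι) : |hA.eigenvalues i| ≤ ‖A‖ := by
  conv_rhs => rw [spec hA, norm_conj, dg, Matrix.l2_opNorm_diagonal]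
  simpa using norm_le_pi_norm (fun i => (hA.eigenvalues i : ℂ)) i

theorem norm_le_of_eig {A : Mat ι} (hA : A.IsHermitian) {c : ℝ} (hc : 0 ≤ c)
    (h : ∀ i, |hA.eigenvalues i| ≤ c) : ‖A‖ ≤ c := by
  rw [spec hA, norm_conj]
  exact norm_dg_le hc h

theorem norm_sub_psd {A : Mat ι} (hA : A.IsHermitian) : (‖A‖ • (1 : Mat ι) - A).PosSemidef :=
  (eig_le hA).2 fun i => (abs_le.1 (abs_eig_le hA i)).2

theorem norm_add_psd {A : Mat ι} (hA : A.IsHermitian) : (‖A‖ • (1 : Mat ι) + A).PosSemidef := by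
  have := (le_eig hA (c := -‖A‖)).2 fun i => (abs_le.1 (abs_eig_le hA i)).1
  rwa [neg_smul, sub_neg_eq_add, add_comm] at this

omit [Fintype ι] in
theorem smul_one_psd {c : ℝ} (hc : 0 ≤ c) : (c • (1 : Mat ι)).PosSemidef :=
  Matrix.PosSemidef.one.smul hc

omit [Fintype ι] in
theorem smul_one_herm (c : ℝ) : (c • (1 : Mat ι)).IsHermitian := dg_const (ι := ι) c ▸ dg_herm _

theorem exists_eig_eq_norm [Nonempty ι] {A : Mat ι} (hA : A.PosSemidef) :
    ∃ i, hA.isHermitian.eigenvalues i = ‖A‖ := by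
  obtain ⟨i, hi⟩ := Finite.exists_max hA.isHermitian.eigenvalues
  refine ⟨i, le_antisymm ((le_abs_self _).trans (abs_eig_le _ i)) ?_⟩
  refine norm_le_of_eig hA.isHermitian (hA.eigenvalues_nonneg i) fun j => ?_
  rw [abs_of_nonneg (hA.eigenvalues_nonneg j)]
  exact hi j

theorem norm_le_of_psd {A : Mat ι} {c : ℝ} (hc : 0 ≤ c) (h1 : (c • (1 : Mat ι) - A).PosSemidef)
    (h2 : (c • (1 : Mat ι) + A).PosSemidef) : ‖A‖ ≤ c := by
  have hA : A.IsHermitian := by
    have := (smul_one_herm c).sub h1.isHermitian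
    rwa [sub_sub_cancel] at this
  have h3 : (A - (-c) • (1 : Mat ι)).PosSemidef := by
    rwa [neg_smul, sub_neg_eq_add, add_comm]
  exact norm_le_of_eig hA hc fun i => abs_le.2 ⟨(le_eig hA).1 h3 i, (eig_le hA).1 h1 i⟩

theorem norm_mono_psd {A B : Mat ι} (hA : A.PosSemidef) (h : (B - A).PosSemidef) : ‖A‖ ≤ ‖B‖ := by
  have hB : B.IsHermitian := by
    have := h.isHermitian.add hA.isHermitian
    rwa [sub_add_cancel] at this
  refine norm_le_of_psd (norm_nonneg _) ?_ ((smul_one_psd (norm_nonneg _)).add hA)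
  have := (norm_sub_psd hB).add h
  rwa [sub_add_sub_cancel] at this

/-- simultaneous diagonalisation of two commuting Hermitian matrices -/
theorem exists_joint_diag {A B : Mat ι} (hA : A.IsHermitian) (hB : B.IsHermitian)
    (h : A * B = B * A) : ∃ (U : Matrix.unitaryGroup ι ℂ) (v v' : ι → ℝ),
      A = (U : Mat ι) * dg v * star (U : Mat ι) ∧ B = (U : Mat ι) * dg v' * star (U : Mat ι) := by
  classical
  set α := hA.eigenvalues with hα
  set β := hB.eigenvalues with hβ
  obtain ⟨T, hT⟩ := (Set.finite_range fun p : ι × ι × ι × ι =>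
    (β p.1 - β p.2.1) / (α p.2.2.1 - α p.2.2.2)).exists_notMem
  have key : ∀ i j i' j', β j + T * α i = β j' + T * α i' → α i = α i' := by
    intro i j i' j' e
    by_contra hne
    refine hT ⟨(j', j, i, i'), ?_⟩
    have : α i - α i' ≠ 0 := sub_ne_zero.2 hne
    field_simp
    linarith
  let g : ℝ → ℝ := fun x => if hx : ∃ p : ι × ι, x = β p.2 + T * α p.1 then α hx.choose.1 else 0
  have hg : ∀ i j, g (β j + T * α i) = α i := by
    intro i j
    have hx : ∃ p : ι × ι, β j + T * α i = β p.2 + T * α p.1 := ⟨(i, j), rfl⟩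
    simp only [g, dif_pos hx]
    exact (key _ _ _ _ hx.choose_spec).symm
  have hC : (B + T • A).IsHermitian := hB.add (IsSelfAdjoint.smul (.all T) hA)
  have hgC : cfc g (B + T • A) = A := by
    have h0 : (cfc g (B + T • A) - A) * (hA.eigenvectorUnitary : Mat ι) = 0 := by
      ext k i
      set P : Mat ι := cfc (fun t => if t = α i then 1 else 0) A with hP
      have hAP : A * P = α i • P := by
        rw [hP, cfc_spec hA]
        refine (congrArg (· * _) (spec hA)).trans ?_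
        rw [conj_mul_conj, dg_mul, ← Matrix.smul_mul, ← Matrix.mul_smul, dg_smul]
        congr 3
        funext j
        rw [← hα]
        split_ifs with e <;> simp [e]
      have hBP : B * P = P * B := by
        have := cfc_intertwine hA hA h fun t => if t = α i then 1 else 0
        exact this.symm
      have hD : (B + (T * α i) • (1 : Mat ι)).IsHermitian := hB.add (smul_one_herm _)
      have h1 := cfc_intertwine hC hD (ω := P) (by
        rw [Matrix.add_mul, Matrix.mul_add, hBP, Matrix.smul_mul, hAP, Matrix.mul_smul,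
          Matrix.mul_one, smul_smul]) g
      have h2 : cfc g (B + (T * α i) • (1 : Mat ι)) = α i • (1 : Mat ι) := by
        have e1 := cfc_affine hB 1 (T * α i)
        have e2 := cfc_affine hB 0 (α i)
        rw [one_smul] at e1
        rw [zero_smul, zero_add] at e2
        rw [← e1, cfc_cfc hB, ← e2]
        exact cfc_congr' hB fun j => by rw [one_mul, zero_mul, zero_add]; exact hg i j
      have h3 : (cfc g (B + T • A) - A) * P = 0 := by
        rw [Matrix.sub_mul, h1, h2, hAP, Matrix.mul_smul, Matrix.mul_one, sub_self]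
      rw [hP, cfc_spec hA] at h3
      have h4 := congrArg (fun X => X * (hA.eigenvectorUnitary : Mat ι)) h3
      simp only [Matrix.mul_assoc, u_star_mul, Matrix.mul_one, Matrix.zero_mul] at h4
      rw [← Matrix.mul_assoc] at h4
      have h5 := congrFun (congrFun h4 k) i
      simpa [dg, Matrix.mul_diagonal, ← hα] using h5
    have := congrArg (fun X => X * star (hA.eigenvectorUnitary : Mat ι)) h0
    simp only [Matrix.mul_assoc, u_mul_star, Matrix.mul_one, Matrix.zero_mul] at this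
    exact sub_eq_zero.1 this
  refine ⟨hC.eigenvectorUnitary, fun i => g (hC.eigenvalues i),
    fun i => hC.eigenvalues i - T * g (hC.eigenvalues i), ?_, ?_⟩
  · rw [← cfc_spec hC, hgC]
  · rw [← dg_sub, ← dg_smul, Matrix.mul_sub, Matrix.sub_mul, Matrix.mul_smul, Matrix.smul_mul,
      ← cfc_spec hC, hgC, ← spec hC, add_sub_cancel_right]

theorem cfc_id'' {A : Mat ι} (hA : A.IsHermitian) : cfc (fun t : ℝ => t) A = A := by
  rw [cfc_spec hA, ← spec hA]

theorem cfc_mul_self {A : Mat ι} (hA : A.IsHermitian) (g : ℝ → ℝ) :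
    cfc g A * A = cfc (fun t => g t * t) A := by
  rw [← cfc_mul', cfc_id'' hA]

theorem cfc_mul_conjTranspose (w : Matrix ι ι' ℂ) (g : ℝ → ℝ) :
    cfc (fun t => g t * t) (w * wᴴ) = w * cfc g (wᴴ * w) * wᴴ := by
  rw [← cfc_mul_self (Matrix.isHermitian_mul_conjTranspose_self w), ← Matrix.mul_assoc,
    cfc_intertwine (Matrix.isHermitian_mul_conjTranspose_self w)
      (Matrix.isHermitian_conjTranspose_mul_self w) (ω := w) (Matrix.mul_assoc _ _ _)]

/-- Hint: `f t = t * g t` with `g t = f t / t`; use `cfc_intertwine` for `(w wᴴ) w = w (wᴴ w)`. -/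
theorem rt_cfc_mul_conjTranspose (w : Matrix ι ι' ℂ) {f : ℝ → ℝ} (hf : f 0 = 0) :
    rt (cfc f (w * wᴴ)) = rt (cfc f (wᴴ * w)) := by
  have e : f = fun t => f t / t * t := by
    funext t
    by_cases h : t = 0
    · simp [h, hf]
    · field_simp
  rw [e, cfc_mul_conjTranspose, Matrix.mul_assoc, rt_mul_comm, Matrix.mul_assoc,
    cfc_mul_self (Matrix.isHermitian_conjTranspose_mul_self w)]

theorem pw_herm (A : Mat ι) (p : ℝ) : (pw A p).IsHermitian := cfc_herm _ _

theorem pw_psd {A : Mat ι} (hA : A.PosSemidef) (p : ℝ) : (pw A p).PosSemidef := by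
  exact cfc_psd hA.isHermitian fun i => Real.rpow_nonneg (hA.eigenvalues_nonneg i) p

theorem pw_one {A : Mat ι} (hA : A.IsHermitian) : pw A 1 = A := by
  simp only [pw, Real.rpow_one]
  exact cfc_id'' hA

theorem pw_add {A : Mat ι} (hA : A.PosSemidef) {p q : ℝ} (hp : 0 < p) (hq : 0 < q) :
    pw A p * pw A q = pw A (p + q) := by
  rw [pw, pw, pw, cfc_mul']
  exact cfc_congr' hA.isHermitian fun i =>
    (Real.rpow_add' (hA.eigenvalues_nonneg i) (by positivity)).symm

theorem pw_pw {A : Mat ι} (hA : A.PosSemidef) (p q : ℝ) : pw (pw A p) q = pw A (p * q) := by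
  rw [pw, pw, pw, cfc_cfc hA.isHermitian]
  exact cfc_congr' hA.isHermitian fun i => (Real.rpow_mul (hA.eigenvalues_nonneg i) p q).symm

theorem cfc_const_mul' {A : Mat ι} (hA : A.IsHermitian) (c : ℝ) (f : ℝ → ℝ) :
    cfc (fun t => c * f t) A = c • cfc f A := by
  rw [cfc_spec hA, cfc_spec hA, ← dg_smul, Matrix.mul_smul, Matrix.smul_mul]

theorem pw_smul {A : Mat ι} (hA : A.PosSemidef) {c : ℝ} (hc : 0 ≤ c) (p : ℝ) :
    pw (c • A) p = c ^ p • pw A p := by
  have e := cfc_affine hA.isHermitian c 0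
  rw [zero_smul, add_zero] at e
  rw [pw, pw, ← e, cfc_cfc hA.isHermitian, ← cfc_const_mul' hA.isHermitian]
  exact cfc_congr' hA.isHermitian fun i => by
    rw [add_zero, Real.mul_rpow hc (hA.eigenvalues_nonneg i)]

theorem pw_zero_mat {p : ℝ} (hp : 0 < p) : pw (0 : Mat ι) p = 0 := by
  have e : dg (fun _ : ι => (0 : ℝ)) = 0 := by rw [dg_const, zero_smul]
  rw [pw, ← e, cfc_dg, Real.zero_rpow hp.ne']

theorem norm_pw_le {A : Mat ι} (hA : A.PosSemidef) {p : ℝ} (hp : 0 ≤ p) :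
    ‖pw A p‖ ≤ ‖A‖ ^ p := by
  refine norm_cfc_le' hA.isHermitian (Real.rpow_nonneg (norm_nonneg _) p) fun i => ?_
  rw [abs_of_nonneg (Real.rpow_nonneg (hA.eigenvalues_nonneg i) p)]
  exact Real.rpow_le_rpow (hA.eigenvalues_nonneg i)
    ((le_abs_self _).trans (abs_eig_le hA.isHermitian i)) hp

theorem pw_mul_conjTranspose (w : Matrix ι ι' ℂ) {p : ℝ} (hp : 1 < p) :
    pw (w * wᴴ) p = w * pw (wᴴ * w) (p - 1) * wᴴ := by
  rw [pw, pw, ← cfc_mul_conjTranspose]
  refine cfc_congr' (Matrix.isHermitian_mul_conjTranspose_self w) fun i => ?_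
  have h := (Matrix.posSemidef_self_mul_conjTranspose w).eigenvalues_nonneg i
  rw [← Real.rpow_add_one' h (by linarith), sub_add_cancel]

theorem rt_nonneg {A : Mat ι} (hA : A.PosSemidef) : 0 ≤ rt A := by
  exact (Complex.le_def.1 hA.trace_nonneg).1

theorem rt_mul_nonneg {A B : Mat ι} (hA : A.PosSemidef) (hB : B.PosSemidef) : 0 ≤ rt (A * B) := by
  have e : pw A (1 / 2) * pw A (1 / 2) = A := by
    rw [pw_add hA (by norm_num) (by norm_num), add_halves, pw_one hA.isHermitian]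
  have h := rt_nonneg (hB.mul_mul_conjTranspose_same (pw A (1 / 2)))
  rwa [(pw_herm A (1 / 2)).eq, rt_mul_comm, ← Matrix.mul_assoc, e] at h

theorem rt_mul_le {A E : Mat ι} {c : ℝ} (hA : (c • (1 : Mat ι) - A).PosSemidef)
    (hE : E.PosSemidef) : rt (A * E) ≤ c * rt E := by
  have h := rt_mul_nonneg hA hE
  rw [Matrix.sub_mul, Matrix.smul_mul, Matrix.one_mul, rt_sub, rt_smul] at h
  linarith

theorem abs_rt_mul_le {A E : Mat ι} (hA : A.IsHermitian) (hE : E.PosSemidef) :
    |rt (A * E)| ≤ ‖A‖ * rt E := by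
  have h := rt_mul_nonneg (norm_add_psd hA) hE
  rw [Matrix.add_mul, Matrix.smul_mul, Matrix.one_mul, rt_add, rt_smul] at h
  exact abs_le.2 ⟨by linarith, rt_mul_le (norm_sub_psd hA) hE⟩

theorem norm_entry_le (A : Matrix ι ι' ℂ) (i : ι) (j : ι') : ‖A i j‖ ≤ ‖A‖ := by
  have h := Matrix.l2_opNorm_mulVec A (EuclideanSpace.single j (1 : ℂ))
  have h2 := PiLp.norm_apply_le
    ((EuclideanSpace.equiv ι ℂ).symm (A *ᵥ (EuclideanSpace.single j (1 : ℂ)))) i
  simpa using h2.trans h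

theorem abs_rt_le (A : Mat ι) : |rt A| ≤ Fintype.card ι * ‖A‖ := by
  rw [rt_eq_sum]
  calc |∑ i, (A i i).re| ≤ ∑ i, |(A i i).re| := Finset.abs_sum_le_sum_abs _ _
    _ ≤ ∑ _i : ι, ‖A‖ := Finset.sum_le_sum fun i _ =>
        (Complex.abs_re_le_norm _).trans (norm_entry_le A i i)
    _ = _ := by simp

theorem rt_eq_sum_eig {A : Mat ι} (hA : A.IsHermitian) : rt A = ∑ i, hA.eigenvalues i := by
  rw [← rt_cfc hA fun t => t, cfc_id'' hA]

theorem norm_le_rt {A : Mat ι} (hA : A.PosSemidef) : ‖A‖ ≤ rt A := by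
  refine norm_le_of_eig hA.isHermitian (rt_nonneg hA) fun i => ?_
  rw [abs_of_nonneg (hA.eigenvalues_nonneg i), rt_eq_sum_eig hA.isHermitian]
  exact Finset.single_le_sum (fun j _ => hA.eigenvalues_nonneg j) (Finset.mem_univ i)

theorem norm_pow_le_rt_pw {A : Mat ι} (hA : A.PosSemidef) {p : ℝ} (hp : 0 < p) :
    ‖A‖ ^ p ≤ rt (pw A p) := by
  rcases isEmpty_or_nonempty ι with h | h
  · rw [Subsingleton.elim A 0, norm_zero, Real.zero_rpow hp.ne', pw_zero_mat hp, rt_zero]
  · obtain ⟨i, hi⟩ := exists_eig_eq_norm hA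
    rw [pw, rt_cfc hA.isHermitian, ← hi]
    exact Finset.single_le_sum (f := fun j => hA.isHermitian.eigenvalues j ^ p)
      (fun j _ => Real.rpow_nonneg (hA.eigenvalues_nonneg j) p) (Finset.mem_univ i)

omit [DecidableEq ι] [DecidableEq ι'] in
theorem fro2_nonneg (A : Matrix ι ι' ℂ) : 0 ≤ fro2 A := by
  unfold fro2; positivity

omit [DecidableEq ι] [DecidableEq ι'] in
theorem fro2_eq (A : Matrix ι ι' ℂ) : fro2 A = rt (A * Aᴴ) := by
  simp only [fro2, rt_eq_sum, Matrix.mul_apply, Matrix.conjTranspose_apply, Complex.re_sum,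
    Complex.star_def, Complex.mul_conj, Complex.ofReal_re, Complex.normSq_eq_norm_sq]

omit [DecidableEq ι] [DecidableEq ι'] in
theorem fro2_eq' (A : Matrix ι ι' ℂ) : fro2 A = rt (Aᴴ * A) := by
  rw [fro2_eq, rt_mul_comm]

omit [DecidableEq ι] [DecidableEq ι'] in
theorem fro2_conjTranspose (A : Matrix ι ι' ℂ) : fro2 Aᴴ = fro2 A := by
  rw [fro2_eq, fro2_eq', Matrix.conjTranspose_conjTranspose]

omit [DecidableEq ι] [DecidableEq ι'] in
theorem fro2_eq_zero {A : Matrix ι ι' ℂ} (h : fro2 A = 0) : A = 0 := by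
  ext i j
  have h1 := (Finset.sum_eq_zero_iff_of_nonneg fun i _ => by positivity).1 h i (Finset.mem_univ i)
  have h2 := (Finset.sum_eq_zero_iff_of_nonneg fun j _ => by positivity).1 h1 j (Finset.mem_univ j)
  simpa using h2

omit [DecidableEq ι] [DecidableEq ι'] in
theorem fro2_add_le (A B : Matrix ι ι' ℂ) : fro2 (A + B) ≤ 2 * fro2 A + 2 * fro2 B := by
  simp only [fro2, Finset.mul_sum, ← Finset.sum_add_distrib]
  refine Finset.sum_le_sum fun i _ => Finset.sum_le_sum fun j _ => ?_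
  have h := pow_le_pow_left₀ (norm_nonneg _) (norm_add_le (A i j) (B i j)) 2
  rw [Matrix.add_apply]
  nlinarith [sq_nonneg (‖A i j‖ - ‖B i j‖)]

omit [DecidableEq ι] in
theorem norm_sq_le_fro2 (A : Matrix ι ι' ℂ) : ‖A‖ ^ 2 ≤ fro2 A := by
  rw [fro2_eq', sq, ← Matrix.l2_opNorm_conjTranspose_mul_self]
  exact norm_le_rt (Matrix.posSemidef_conjTranspose_mul_self A)

omit [DecidableEq ι] in
theorem fro2_le_card_mul (A : Matrix ι ι' ℂ) : fro2 A ≤ Fintype.card ι' * ‖A‖ ^ 2 := by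
  rw [fro2_eq', sq, ← Matrix.l2_opNorm_conjTranspose_mul_self]
  exact (le_abs_self _).trans (abs_rt_le _)

omit [DecidableEq ι] [DecidableEq ι''] in
theorem fro2_mul_le_left (A : Matrix ι ι' ℂ) (B : Matrix ι' ι'' ℂ) :
    fro2 (A * B) ≤ ‖A‖ ^ 2 * fro2 B := by
  have h := abs_rt_mul_le (Matrix.isHermitian_conjTranspose_mul_self A)
    (Matrix.posSemidef_self_mul_conjTranspose B)
  rw [Matrix.l2_opNorm_conjTranspose_mul_self, ← sq, ← fro2_eq] at h
  refine le_trans (le_of_eq ?_) ((le_abs_self _).trans h)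
  rw [fro2_eq', Matrix.conjTranspose_mul, Matrix.mul_assoc, rt_mul_comm]
  simp only [Matrix.mul_assoc]

omit [DecidableEq ι] [DecidableEq ι'] in
theorem fro2_mul_le_right (A : Matrix ι ι' ℂ) (B : Matrix ι' ι'' ℂ) :
    fro2 (A * B) ≤ fro2 A * ‖B‖ ^ 2 := by
  classical
  rw [← fro2_conjTranspose, Matrix.conjTranspose_mul, mul_comm, ← fro2_conjTranspose A,
    ← Matrix.l2_opNorm_conjTranspose]
  exact fro2_mul_le_left _ _

omit [DecidableEq ι] [DecidableEq ι'] in
/-- Cauchy–Schwarz for the trace -/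
theorem norm_trace_mul_le (A : Matrix ι ι' ℂ) (B : Matrix ι' ι ℂ) :
    ‖Matrix.trace (A * B)‖ ≤ √(fro2 A) * √(fro2 B) := by
  have h := Real.sum_mul_le_sqrt_mul_sqrt (Finset.univ : Finset (ι × ι'))
    (fun p => ‖A p.1 p.2‖) (fun p => ‖B p.2 p.1‖)
  simp only [Fintype.sum_prod_type] at h
  rw [fro2, fro2, Finset.sum_comm (f := fun i j => ‖B i j‖ ^ 2)]
  refine le_trans ?_ h
  refine (norm_sum_le _ _).trans (Finset.sum_le_sum fun i _ => ?_)
  refine (norm_sum_le _ _).trans (Finset.sum_le_sum fun j _ => ?_)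
  exact (norm_mul _ _).le

omit [DecidableEq ι] [DecidableEq ι''] in
/-- deleting / reindexing rows does not increase the operator norm -/
theorem norm_submatrix_row_le (A : Matrix ι ι' ℂ) {e : ι'' → ι} (he : Function.Injective e) :
    ‖A.submatrix e id‖ ≤ ‖A‖ := by
  classical
  have e1 : A.submatrix e id = (1 : Mat ι).submatrix e (Equiv.refl ι) * A := by
    rw [Matrix.one_submatrix_mul]; rfl
  have e2 : ‖(1 : Mat ι).submatrix e (Equiv.refl ι)‖ ≤ 1 := by
    have h := Matrix.l2_opNorm_conjTranspose_mul_self ((1 : Mat ι).submatrix e (Equiv.refl ι))ᴴ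
    rw [Matrix.conjTranspose_conjTranspose, Matrix.l2_opNorm_conjTranspose,
      Matrix.one_submatrix_mul] at h
    have h1 : (((1 : Mat ι).submatrix e (Equiv.refl ι))ᴴ).submatrix ((Equiv.refl ι).symm ∘ e) id
        = dg fun _ => 1 := by
      ext i j
      by_cases hij : i = j
      · simp [dg, hij, Matrix.one_apply]
      · simp [dg, hij, he.eq_iff]
    have h2 : ‖dg fun _ : ι'' => (1 : ℝ)‖ ≤ 1 := norm_dg_le zero_le_one fun _ => by simp
    rw [h1] at h
    nlinarith [norm_nonneg ((1 : Mat ι).submatrix e (Equiv.refl ι))]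
  rw [e1]
  exact (Matrix.l2_opNorm_mul _ _).trans (mul_le_of_le_one_left (norm_nonneg _) e2)

theorem Reg.herm {κ : ι → ℝ} {X : Mat ι} (h : Reg κ X) : X.IsHermitian := by
  have := h.1.isHermitian.sub (dg_herm κ)
  rwa [add_sub_cancel_left] at this

theorem Reg.norm_le {κ : ι → ℝ} {X : Mat ι} (h : Reg κ X) {c : ℝ} (hc : 0 ≤ c)
    (hκ : ∀ i, κ i ≤ c) : ‖X‖ ≤ c := by
  have h0 : (c • (1 : Mat ι) - dg κ).PosSemidef := by
    rw [← dg_const, dg_sub, dg_psd_iff]
    exact fun i => sub_nonneg.2 (hκ i)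
  refine norm_le_of_psd hc ?_ ?_
  · have := h0.add h.2
    rwa [sub_add_sub_cancel] at this
  · have := h0.add h.1
    rwa [← add_assoc, sub_add_cancel] at this

theorem reg_dg_iff (κ ξ : ι → ℝ) : Reg κ (dg ξ) ↔ ∀ i, |ξ i| ≤ κ i := by
  rw [Reg, dg_add, dg_sub, dg_psd_iff, dg_psd_iff, ← forall_and]
  refine forall_congr' fun i => ?_
  rw [abs_le]
  constructor <;> rintro ⟨h1, h2⟩ <;> constructor <;> linarith

theorem Reg.submatrix {κ : ι → ℝ} {X : Mat ι} (h : Reg κ X) {e : ι' → ι}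
    (he : Function.Injective e) : Reg (κ ∘ e) (X.submatrix e e) := by
  have e1 : dg (κ ∘ e) = (dg κ).submatrix e e := by
    rw [dg, dg, Matrix.submatrix_diagonal _ _ he]; rfl
  rw [Reg, e1]
  exact ⟨h.1.submatrix e, h.2.submatrix e⟩

theorem Zm_herm (κ : ι → ℝ) {X : Mat ι} (hX : X.IsHermitian) : (Zm κ X).IsHermitian := by
  refine (dg_herm _).sub ?_
  have := Matrix.isHermitian_mul_conjTranspose_self X
  rwa [hX.eq] at this

theorem Hm_sub_psd (s δ : ℝ) (w : Matrix ι ι' ℂ) : (Hm s δ w - δ • (1 : Mat ι)).PosSemidef := by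
  rw [Hm, add_sub_cancel_right]
  exact pw_psd (Matrix.posSemidef_self_mul_conjTranspose w) _

theorem Hm_psd (s : ℝ) {δ : ℝ} (hδ : 0 ≤ δ) (w : Matrix ι ι' ℂ) : (Hm s δ w).PosSemidef := by
  exact (pw_psd (Matrix.posSemidef_self_mul_conjTranspose w) _).add (smul_one_psd hδ)

theorem isClosed_psd : IsClosed {A : Mat ι | A.PosSemidef} := by
  simp only [Matrix.posSemidef_iff_dotProduct_mulVec, Matrix.IsHermitian, ofPred_and, ofPred_forall]
  refine IsClosed.inter (isClosed_eq (by fun_prop) continuous_id) (isClosed_iInter fun x => ?_)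
  exact isClosed_le continuous_const (by fun_prop)

/-- positive definite matrices are open among the Hermitian ones -/
theorem posDef_nhds {A : Mat ι} (hA : A.PosDef) :
    ∃ ε > 0, ∀ B : Mat ι, B.IsHermitian → ‖B - A‖ < ε → B.PosDef := by
  obtain ⟨ε, hε, h⟩ : ∃ ε > 0, ∀ i, ε ≤ hA.isHermitian.eigenvalues i := by
    rcases isEmpty_or_nonempty ι with h | h
    · exact ⟨1, one_pos, fun i => isEmptyElim i⟩
    · obtain ⟨i, hi⟩ := Finite.exists_min hA.isHermitian.eigenvalues
      exact ⟨_, hA.eigenvalues_pos i, hi⟩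
  refine ⟨ε, hε, fun B hB hBA => ?_⟩
  have h1 := (le_eig hA.isHermitian).2 h
  have h2 := norm_add_psd (hB.sub hA.isHermitian)
  have h3 : ((ε - ‖B - A‖) • (1 : Mat ι)).PosDef := Matrix.PosDef.one.smul (sub_pos.2 hBA)
  have h4 := h3.add_posSemidef (h1.add h2)
  convert h4 using 1
  rw [sub_smul]
  abel

/-- Hint: `Continuous.cfc_of_mem_nhdsSet` / `ContinuousOn.cfc_of_mem_nhdsSet`. -/
theorem continuousOn_cfc_herm {f : ℝ → ℝ} (hf : Continuous f) :
    ContinuousOn (fun A : Mat ι => cfc f A) {A | A.IsHermitian} := by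
  exact continuousOn_id.cfc_of_mem_nhdsSet f (s := univ) Filter.univ_mem (fun _ hA => hA)
    hf.continuousOn

theorem continuousOn_cfc_posDef {f : ℝ → ℝ} (hf : ContinuousOn f (Ioi 0)) :
    ContinuousOn (fun A : Mat ι => cfc f A) {A | A.PosDef} := by
  refine continuousOn_id.cfc_of_mem_nhdsSet f (s := Ioi 0) ?_ (fun _ hA => hA.isHermitian) hf
  refine isOpen_Ioi.mem_nhdsSet.2 ?_
  simp only [iUnion_subset_iff, id]
  intro A hA x hx
  rw [hA.isHermitian.spectrum_real_eq_range_eigenvalues] at hx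
  obtain ⟨i, rfl⟩ := hx
  exact hA.eigenvalues_pos i

theorem continuousOn_pw {p : ℝ} (hp : 0 < p) :
    ContinuousOn (fun A : Mat ι => pw A p) {A | A.IsHermitian} :=
  continuousOn_cfc_herm (Real.continuous_rpow_const hp.le)

end Crest.Agent.R332
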