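import Crest.Agent.R332.Calc

/-! # Row 332: soliton sums are closed under (essentially) uniform limits

Take `η_k = 1/(k+1)`.  `‖S_k(x)‖ ≤ M + 2` a.e., hence everywhere by continuity (`M` a bound for
`S_0`), so `(r+1) a_{k,i}² ≤ M + 2` (evaluate at `c_{k,i}`; `norm_conj`, `norm_entry_le`).  Pass to a
subsequence along which `U_k`, `a_k` converge and each `c_{k,i}` converges in `EReal` / either
converges or `|c_{k,i}| → ∞` (e.g. compactness for `arctan c_{k,i}`).  If `a_i > 0` and
`|c_{k,i}| → ∞` the soliton tends to `0` pointwise: replace `a_i` by `0`.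
-/

set_option autoImplicit false

open MeasureTheory Set Filter Topology
open scoped Matrix Matrix.Norms.L2Operator MatrixOrder ComplexOrder

namespace Crest.Agent.R332

open Crest.MathPhysics.LiebThirring

namespace CloseAux

/-- the soliton in a compact parametrisation (`τ = tanh (r a c)`) -/
noncomputable def sol (r a τ x : ℝ) : ℝ :=
  (r + 1) * a ^ 2 * (1 - τ ^ 2) / (Real.cosh (r * a * x) - τ * Real.sinh (r * a * x)) ^ 2

theorem soliton_eq (r a c x : ℝ) : soliton r a c x = sol r a (Real.tanh (r * a * c)) x := by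
  have h := Real.cosh_pos (r * a * c)
  have h1 := Real.cosh_pos (r * a * (x - c))
  have h2 := Real.cosh_sq (r * a * c)
  have e : Real.cosh (r * a * x) - Real.tanh (r * a * c) * Real.sinh (r * a * x) =
      Real.cosh (r * a * (x - c)) / Real.cosh (r * a * c) := by
    rw [mul_sub, Real.cosh_sub, Real.tanh_eq_sinh_div_cosh]
    field_simp
  have e2 : 1 - Real.tanh (r * a * c) ^ 2 = 1 / Real.cosh (r * a * c) ^ 2 := by
    rw [Real.tanh_eq_sinh_div_cosh]
    field_simp
    linarith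
  rw [soliton, sol, e, e2]
  field_simp

theorem den_ne {τ : ℝ} (h : τ ∈ Icc (-1 : ℝ) 1) (p : ℝ) : Real.cosh p - τ * Real.sinh p ≠ 0 := by
  have h1 : τ * Real.sinh p ≤ |Real.sinh p| := by
    refine (le_abs_self _).trans ?_
    rw [abs_mul]
    exact mul_le_of_le_one_left (abs_nonneg _) (abs_le.2 h)
  have h2 : |Real.sinh p| < Real.cosh p := by
    refine abs_lt_of_sq_lt_sq ?_ (Real.cosh_pos p).le
    rw [Real.cosh_sq]; linarith
  linarith

theorem exists_sol {r a τ : ℝ} (hr : 0 < r) (ha : 0 ≤ a) (h : τ ∈ Icc (-1 : ℝ) 1) :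
    ∃ a' c : ℝ, 0 ≤ a' ∧ ∀ x, sol r a τ x = soliton r a' c x := by
  by_cases h0 : a ^ 2 * (1 - τ ^ 2) = 0
  · refine ⟨0, 0, le_rfl, fun x => ?_⟩
    rw [sol, mul_assoc, h0]; simp [soliton]
  · have ha' : a ≠ 0 := by rintro rfl; simp at h0
    have h1 : τ ∈ Ioo (-1 : ℝ) 1 := by
      refine ⟨lt_of_le_of_ne h.1 ?_, lt_of_le_of_ne h.2 ?_⟩
      · rintro rfl; simp at h0
      · rintro rfl; simp at h0
    refine ⟨a, Real.artanh τ / (r * a), ha, fun x => ?_⟩
    rw [soliton_eq, mul_div_cancel₀ _ (mul_ne_zero hr.ne' ha'), Real.tanh_artanh h1]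

theorem soliton_cont (r a c : ℝ) : Continuous (soliton r a c) := by
  unfold soliton
  exact continuous_const.div (by fun_prop) fun x => (pow_pos (Real.cosh_pos _) 2).ne'

theorem soliton_abs_le {r : ℝ} (hr : 0 < r) (a c x : ℝ) : |soliton r a c x| ≤ (r + 1) * a ^ 2 := by
  have h := Real.one_le_cosh (r * a * (x - c))
  rw [soliton, abs_of_nonneg (by positivity)]
  exact div_le_self (by positivity) (one_le_pow₀ h)

end CloseAux

open CloseAux in
theorem close {s : ℝ} (hs0 : 0 < s) {m : ℕ} (W : ℝ → Mat (Fin m))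
    (h : ∀ η > 0, ∃ (U : Matrix.unitaryGroup (Fin m) ℂ) (a c : Fin m → ℝ), (∀ i, 0 ≤ a i) ∧
      ∀ᵐ x, ‖W x - solMat s U a c x‖ ≤ η) :
    ∃ (U : Matrix.unitaryGroup (Fin m) ℂ) (a c : Fin m → ℝ), (∀ i, 0 ≤ a i) ∧
      ∀ᵐ x, W x = solMat s U a c x := by
  have hr : 0 < s⁻¹ := inv_pos.2 hs0
  choose U a c ha hW using fun k : ℕ => h (1 / ((k : ℝ) + 1)) Nat.one_div_pos_of_nat
  have cS : ∀ k, Continuous (solMat s (U k) (a k) (c k)) := fun k =>
    (continuous_const.mul (continuous_dg.comp (continuous_pi fun i => soliton_cont _ _ _))).mul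
      continuous_const
  set M : ℝ := ∑ i, (s⁻¹ + 1) * a 0 i ^ 2 with hM
  have M0 : 0 ≤ M := by positivity
  have b0 : ∀ x, ‖solMat s (U 0) (a 0) (c 0) x‖ ≤ M := fun x => by
    rw [solMat, norm_conj]
    exact norm_dg_le M0 fun i => (soliton_abs_le hr _ _ _).trans
      (Finset.single_le_sum (f := fun i => (s⁻¹ + 1) * a 0 i ^ 2) (fun _ _ => by positivity)
        (Finset.mem_univ i))
  have b1 : ∀ k x, ‖solMat s (U k) (a k) (c k) x‖ ≤ M + 2 := by
    intro k
    have h1 : ∀ᵐ x, ‖solMat s (U k) (a k) (c k) x‖ ≤ M + 2 := by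
      filter_upwards [hW k, hW 0] with x h1 h2
      have h3 : (1 : ℝ) / ((k : ℝ) + 1) ≤ 1 := by
        rw [div_le_one (by positivity)]; linarith [(Nat.cast_nonneg k : (0 : ℝ) ≤ k)]
      have h4 := norm_sub_le (solMat s (U 0) (a 0) (c 0) x + (W x - solMat s (U 0) (a 0) (c 0) x))
        (W x - solMat s (U k) (a k) (c k) x)
      have h5 := norm_add_le (solMat s (U 0) (a 0) (c 0) x) (W x - solMat s (U 0) (a 0) (c 0) x)
      rw [add_sub_cancel, sub_sub_cancel] at h4
      rw [add_sub_cancel] at h5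
      have := b0 x
      simp only [Nat.cast_zero, zero_add, div_one] at h2
      linarith
    have h2 : IsClosed {x | ‖solMat s (U k) (a k) (c k) x‖ ≤ M + 2} :=
      isClosed_le (cS k).norm continuous_const
    intro x
    have h3 := (Measure.dense_of_ae h1).closure_eq
    rw [h2.closure_eq] at h3
    exact (h3.symm ▸ mem_univ x : x ∈ {x | ‖solMat s (U k) (a k) (c k) x‖ ≤ M + 2})
  have b2 : ∀ k i, a k i ≤ M + 3 := by
    intro k i
    have h1 := b1 k (c k i)
    rw [solMat, norm_conj] at h1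
    have h2 := (norm_entry_le _ i i).trans h1
    simp only [dg, Matrix.diagonal_apply_eq, soliton, sub_self, mul_zero, Real.cosh_zero, one_pow,
      div_one, Complex.norm_real, Real.norm_eq_abs] at h2
    have h3 := (le_abs_self _).trans h2
    nlinarith [sq_nonneg (a k i - 1), sq_nonneg (a k i)]
  have : ProperSpace (Mat (Fin m)) := FiniteDimensional.proper ℂ _
  have hK : IsCompact ((Metric.closedBall (0 : Mat (Fin m)) 1 ∩ (unitary (Mat (Fin m)) : Set _)) ×ˢ
      (Set.pi univ fun _ : Fin m => Icc (0 : ℝ) (M + 3)) ×ˢ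
      (Set.pi univ fun _ : Fin m => Icc (-1 : ℝ) 1)) :=
    ((isCompact_closedBall _ _).inter_right isClosed_unitary).prod
      ((isCompact_univ_pi fun _ => isCompact_Icc).prod (isCompact_univ_pi fun _ => isCompact_Icc))
  obtain ⟨⟨V, a', τ⟩, ⟨⟨-, hV⟩, ha', hτ⟩, φ, hφ, hlim⟩ := hK.tendsto_subseq
    (x := fun k => ((U k : Mat (Fin m)), a k, fun i => Real.tanh (s⁻¹ * a k i * c k i))) fun k => by
      refine ⟨⟨?_, (U k).2⟩, fun i _ => ⟨ha k i, b2 k i⟩, fun i _ =>
        ⟨(Real.neg_one_lt_tanh _).le, (Real.tanh_lt_one _).le⟩⟩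
      have h1 := CStarRing.norm_star_mul_self (x := (U k : Mat (Fin m)))
      rw [u_star_mul] at h1
      have h2 : ‖(1 : Mat (Fin m))‖ ≤ 1 := by
        have := norm_dg_le (v := fun _ : Fin m => (1 : ℝ)) zero_le_one fun _ => by simp
        rwa [dg_const, one_smul] at this
      rw [mem_closedBall_zero_iff]
      nlinarith [norm_nonneg (U k : Mat (Fin m))]
  choose a'' c'' ha'' hs using fun i => exists_sol hr (ha' i trivial).1 (hτ i trivial)
  refine ⟨⟨V, hV⟩, a'', c'', ha'', ?_⟩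
  filter_upwards [ae_all_iff.2 hW] with x hx
  have l1 : Tendsto (fun k => solMat s (U (φ k)) (a (φ k)) (c (φ k)) x) atTop (𝓝 (W x)) := by
    rw [tendsto_iff_norm_sub_tendsto_zero]
    refine squeeze_zero (fun _ => norm_nonneg _) (fun k => ?_)
      (tendsto_one_div_add_atTop_nhds_zero_nat.comp hφ.tendsto_atTop)
    rw [norm_sub_rev]; exact hx _
  have c1 : ContinuousAt (fun p : Mat (Fin m) × (Fin m → ℝ) × (Fin m → ℝ) =>
      p.1 * dg (fun i => sol s⁻¹ (p.2.1 i) (p.2.2 i) x) * star p.1) (V, a', τ) := by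
    refine (continuousAt_fst.mul (continuous_dg.continuousAt.comp
      (continuousAt_pi.2 fun i => ?_))).mul continuousAt_fst.star
    unfold sol
    exact ContinuousAt.div (by fun_prop) (by fun_prop) (pow_ne_zero 2 (den_ne (hτ i trivial) _))
  have l2 := c1.tendsto.comp hlim
  simp only [Function.comp_def, ← soliton_eq, hs] at l2
  exact tendsto_nhds_unique l1 l2

end Crest.Agent.R332
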