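import Crest.Agent.R332.Calc

/-! # Row 332: reduction of a trial family to the negative eigenvectors of its energy matrix

Let `Φ(x)` be the `m × n` matrix with columns `φ_k(x)`.  The energy matrix is
`A = ∫ (Φ'ᴴ Φ' - Φᴴ W Φ)` (entrywise; integrable by `Pot.integrable_entry`), Hermitian.  With
`A = U (dg e) Uᴴ` (`spec`), `ι = {k // e k < 0}`, `u = (Uᴴ Φᴴ).submatrix (↑) id`, `lam = -e`.
-/

set_option autoImplicit false

open MeasureTheory Set Filter Topology
open scoped Matrix Matrix.Norms.L2Operator MatrixOrder ComplexOrder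

namespace Crest.Agent.R332

open Crest.MathPhysics.LiebThirring

section aux
variable {ι ι' : Type} [Fintype ι] [DecidableEq ι] [Fintype ι'] [DecidableEq ι']

/-- entrywise integral -/
noncomputable def redI (F : ℝ → Mat ι) : Mat ι := Matrix.of fun k l => ∫ x, F x k l

omit [DecidableEq ι] in
theorem red_integral_rt {F : ℝ → Mat ι} (hF : ∀ k l, Integrable fun x => F x k l) (M : Mat ι) :
    ∫ x, rt (M * F x) = rt (M * redI F) := by
  have h1 : ∀ k, Integrable fun x => ∑ l, M k l * F x l k := fun k =>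
    integrable_finsetSum _ fun l _ => (hF l k).const_mul _
  have h2 : Integrable fun x => ∑ k, ∑ l, M k l * F x l k := integrable_finsetSum _ fun k _ => h1 k
  have h3 : ∀ x, rt (M * F x) = RCLike.re (∑ k, ∑ l, M k l * F x l k) := fun x => by
    simp [rt, Matrix.trace, Matrix.mul_apply]
  simp only [h3]
  rw [integral_re h2, integral_finsetSum _ fun k _ => h1 k]
  have h4 : ∀ k, ∫ x, ∑ l, M k l * F x l k = ∑ l, M k l * redI F l k := fun k => by
    rw [integral_finsetSum _ fun l _ => (hF l k).const_mul _]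
    exact Finset.sum_congr rfl fun l _ => integral_const_mul _ _
  simp [h4, rt, Matrix.trace, Matrix.mul_apply]

omit [DecidableEq ι] [DecidableEq ι'] in
theorem red_integral_conj {F : ℝ → Mat ι} (hF : ∀ k l, Integrable fun x => F x k l)
    (V : Matrix ι' ι ℂ) (M : Mat ι') :
    ∫ x, rt (M * (V * F x * Vᴴ)) = rt (M * (V * redI F * Vᴴ)) := by
  have h : ∀ A : Mat ι, rt (M * (V * A * Vᴴ)) = rt ((Vᴴ * M * V) * A) := fun A => by
    rw [← Matrix.mul_assoc M, rt_mul_comm]
    simp only [Matrix.mul_assoc]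
  simp only [h]
  exact red_integral_rt hF _

omit [Fintype ι] [DecidableEq ι] in
theorem redI_herm {F : ℝ → Mat ι} (hF : ∀ x, (F x).IsHermitian) : (redI F).IsHermitian := by
  ext k l
  simp only [redI, Matrix.conjTranspose_apply, Matrix.of_apply]
  rw [RCLike.star_def, ← integral_conj]
  exact integral_congr_ae (Eventually.of_forall fun x => (hF x).apply k l)

end aux

/-- the matrix whose rows are the conjugates of the vectors `v k` -/
def redM {m n : ℕ} (v : Fin n → Vec m) : Matrix (Fin n) (Fin m) ℂ :=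
  Matrix.of fun k a => star (v k a)

theorem redM_mul {m n : ℕ} (v : Fin n → Vec m) (k l : Fin n) :
    (redM v * (redM v)ᴴ) k l = inner ℂ (v k) (v l) := by
  simp [redM, Matrix.mul_apply, PiLp.inner_apply, mul_comm]

theorem redM_mul' {m n : ℕ} (v : Fin n → Vec m) (W : Mat (Fin m)) (k l : Fin n) :
    (redM v * W * (redM v)ᴴ) k l = ∑ a, ∑ b, (star (v k a) * v l b) * W a b := by
  simp only [redM, Matrix.mul_apply, Matrix.of_apply, Matrix.conjTranspose_apply, star_star,
    Finset.sum_mul]
  rw [Finset.sum_comm]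
  exact Finset.sum_congr rfl fun a _ => Finset.sum_congr rfl fun b _ => by ring

theorem redM_mul'' {m n : ℕ} (v : Fin n → Vec m) (W : Mat (Fin m)) (k l : Fin n) :
    (redM v * W * (redM v)ᴴ) k l = inner ℂ (v k) (Matrix.toEuclideanLin W (v l)) := by
  rw [redM_mul']
  simp only [PiLp.inner_apply, Matrix.toLpLin_apply, Matrix.mulVec, dotProduct,
    RCLike.inner_apply, Finset.sum_mul]
  exact Finset.sum_congr rfl fun a _ => Finset.sum_congr rfl fun b _ => by
    simp only [RCLike.star_def]; ring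

theorem redM_continuous {m n : ℕ} {v : Fin n → ℝ → Vec m} (hv : ∀ k, Continuous (v k)) :
    Continuous fun x => redM fun k => v k x := by
  refine continuous_matrix fun k a => ?_
  have := hv k
  simp only [redM, Matrix.of_apply]
  fun_prop

theorem redM_hasDerivAt {m n : ℕ} {v : Fin n → ℝ → Vec m} {v' : Fin n → Vec m} {x : ℝ}
    (hv : ∀ k, HasDerivAt (v k) (v' k) x) :
    HasDerivAt (fun x => redM fun k => v k x) (redM v') x := by
  refine hasDerivAt_iff_entry.2 fun k a => ?_
  have h := ((EuclideanSpace.proj (𝕜 := ℂ) a).restrictScalars ℝ).hasFDerivAt.comp_hasDerivAt x (hv k)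
  exact h.star

theorem red_supp {m n : ℕ} {φ : Fin n → ℝ → Vec m} (h : ∀ k, HasCompactSupport (φ k)) :
    ∃ A : ℝ, ∀ x, A ≤ |x| → ∀ k, φ k x = 0 ∧ deriv (φ k) x = 0 := by
  have h1 : IsCompact (⋃ k, tsupport (φ k)) := isCompact_iUnion fun k => (h k).isCompact
  obtain ⟨A, hA⟩ := h1.isBounded.subset_ball 0
  refine ⟨A, fun x hx k => ?_⟩
  have h2 : x ∉ tsupport (φ k) := fun h2 => by
    have := hA (mem_iUnion.2 ⟨k, h2⟩)
    rw [mem_ball_zero_iff, Real.norm_eq_abs] at this
    linarith
  exact ⟨image_eq_zero_of_notMem_tsupport h2,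
    Function.notMem_support.1 fun h3 => h2 (support_deriv_subset h3)⟩

theorem red {s : ℝ} (hs0 : 0 < s) {m n : ℕ} {W : ℝ → Mat (Fin m)} (hW : Pot s W)
    {φ : Fin n → ℝ → Vec m} (hφ : IsTrialFamily φ) {γ : ℝ} (hγ : 0 < γ) :
    ∃ (ι : Type) (_ : Fintype ι) (_ : DecidableEq ι) (u u' : ℝ → Matrix ι (Fin m) ℂ)
      (lam : ι → ℝ) (A : ℝ), (∀ x, HasDerivAt u (u' x) x) ∧ Continuous u' ∧
      (∀ x, A ≤ |x| → u x = 0 ∧ u' x = 0) ∧ (∀ i, 0 < lam i) ∧
      negMoment (energyMatrix W φ) γ = ∑ i, lam i ^ γ ∧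
      (∀ M : Mat ι, ∫ x, rt (M * (u x * (u x)ᴴ)) = rt M) ∧
      ∀ M : Mat ι, ∫ x, rt (M * (u x * W x * (u x)ᴴ)) =
        (∫ x, rt (M * (u' x * (u' x)ᴴ))) + rt (M * dg lam) := by
  obtain ⟨hsm, hcs, hon⟩ := hφ
  obtain ⟨A, hA⟩ := red_supp hcs
  have hc : ∀ k, Continuous (φ k) := fun k => (hsm k).continuous
  have hc' : ∀ k, Continuous (deriv (φ k)) := fun k => (hsm k).continuous_deriv (by simp)
  have hd : ∀ k x, HasDerivAt (φ k) (deriv (φ k) x) x := fun k x =>
    ((hsm k).differentiable (by simp) x).hasDerivAt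
  set Ψ : ℝ → Matrix (Fin n) (Fin m) ℂ := fun x => redM fun k => φ k x with hΨ
  set Ψ' : ℝ → Matrix (Fin n) (Fin m) ℂ := fun x => redM fun k => deriv (φ k) x with hΨ'
  have i0 : ∀ k l, Integrable fun x => (Ψ x * (Ψ x)ᴴ) k l := fun k l => by
    simp only [hΨ, redM_mul]
    refine ((hc k).inner (hc l)).integrable_of_hasCompactSupport ?_
    exact (hcs k).mono fun x hx h => hx (by simp [h])
  have i1 : ∀ k l, Integrable fun x => (Ψ' x * (Ψ' x)ᴴ) k l := fun k l => by
    simp only [hΨ', redM_mul]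
    refine ((hc' k).inner (hc' l)).integrable_of_hasCompactSupport ?_
    exact (hcs k).deriv.mono fun x hx h => hx (by simp [h])
  have i2 : ∀ k l, Integrable fun x => (Ψ x * W x * (Ψ x)ᴴ) k l := fun k l => by
    simp only [hΨ, redM_mul']
    refine integrable_finsetSum _ fun a _ => integrable_finsetSum _ fun b _ => ?_
    have h1 := hc k
    have h2 := hc l
    refine hW.integrable_entry hs0 (f := fun x => star (φ k x a) * φ l x b) (by fun_prop)
      (A := A) (fun x hx => ?_) a b
    simp [(hA x hx k).1]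
  have e0 : redI (fun x => Ψ x * (Ψ x)ᴴ) = 1 := by
    ext k l
    simp only [redI, Matrix.of_apply, hΨ, redM_mul, hon, Matrix.one_apply]
  have e1 : energyMatrix W φ =
      redI (fun x => Ψ' x * (Ψ' x)ᴴ) - redI (fun x => Ψ x * W x * (Ψ x)ᴴ) := by
    ext k l
    simp only [redI, Matrix.of_apply, Matrix.sub_apply, energyMatrix]
    rw [← integral_sub (i1 k l) (i2 k l)]
    simp only [hΨ, hΨ', redM_mul, redM_mul'']
  have hE : (energyMatrix W φ).IsHermitian := by
    rw [e1]
    exact (redI_herm fun x => Matrix.isHermitian_mul_conjTranspose_self _).sub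
      (redI_herm fun x => Matrix.isHermitian_mul_mul_conjTranspose _ (hW.psd x).isHermitian)
  set U : Mat (Fin n) := (hE.eigenvectorUnitary : Mat (Fin n)) with hU
  have hU1 : star U * U = 1 := Unitary.coe_star_mul_self _
  set e := hE.eigenvalues with he
  set V : Matrix {k // e k < 0} (Fin n) ℂ := (star U).submatrix (↑) id with hV
  have hVV : ∀ B : Mat (Fin n), V * B * Vᴴ = (star U * B * U).submatrix (↑) (↑) := fun B => by
    ext k l
    simp [hV, Matrix.mul_apply, Matrix.star_apply]
  have hV1 : V * (1 : Mat (Fin n)) * Vᴴ = 1 := by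
    rw [hVV, Matrix.mul_one, hU1, Matrix.submatrix_one _ Subtype.val_injective]
  have hV2 : V * energyMatrix W φ * Vᴴ = -dg fun i : {k // e k < 0} => -e i := by
    have : star U * energyMatrix W φ * U = dg e := by
      conv_lhs => rw [spec hE]
      rw [← hU, ← he, ← Matrix.mul_assoc, ← Matrix.mul_assoc, hU1, Matrix.one_mul,
        Matrix.mul_assoc, hU1, Matrix.mul_one]
    rw [hVV, this, dg, Matrix.submatrix_diagonal _ _ Subtype.val_injective]
    ext k l
    by_cases h : k = l
    · subst h; simp [dg]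
    · simp [dg, h]
  have m0 : ∀ B : Matrix (Fin n) (Fin m) ℂ, V * B * (V * B)ᴴ = V * (B * Bᴴ) * Vᴴ := fun B => by
    simp only [Matrix.conjTranspose_mul, Matrix.mul_assoc]
  have m1 : ∀ (B : Matrix (Fin n) (Fin m) ℂ) (C : Mat (Fin m)),
      V * B * C * (V * B)ᴴ = V * (B * C * Bᴴ) * Vᴴ := fun B C => by
    simp only [Matrix.conjTranspose_mul, Matrix.mul_assoc]
  refine ⟨{k // e k < 0}, inferInstance, inferInstance, fun x => V * Ψ x, fun x => V * Ψ' x,
    fun i => -e i, A, fun x => ?_, ?_, fun x hx => ?_, fun i => neg_pos.2 i.2, ?_, fun M => ?_,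
    fun M => ?_⟩
  · have := hasDerivAt_matmul (hasDerivAt_const x V) (redM_hasDerivAt fun k => hd k x)
    rwa [Matrix.zero_mul, zero_add] at this
  · exact continuous_const.matrix_mul (redM_continuous hc')
  · have h1 : Ψ x = 0 := by
      ext k a
      simp [hΨ, redM, (hA x hx k).1]
    have h2 : Ψ' x = 0 := by
      ext k a
      simp [hΨ', redM, (hA x hx k).2]
    simp [h1, h2]
  · have h1 : negMoment (energyMatrix W φ) γ = ∑ k, max (-e k) 0 ^ γ := rt_cfc hE _
    rw [h1, ← Finset.sum_subtype (Finset.univ.filter fun k => e k < 0) (by simp)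
      (fun k => (-e k) ^ γ), Finset.sum_filter]
    refine Finset.sum_congr rfl fun k _ => ?_
    split_ifs with h
    · rw [max_eq_left (by linarith)]
    · rw [max_eq_right (by linarith), Real.zero_rpow hγ.ne']
  · simp only [m0]
    rw [red_integral_conj i0, e0, hV1, Matrix.mul_one]
  · simp only [m0, m1]
    rw [red_integral_conj i1, red_integral_conj i2, ← rt_add, ← Matrix.mul_add]
    rw [e1, Matrix.mul_sub, Matrix.sub_mul] at hV2
    rw [← sub_neg_eq_add, ← hV2, sub_sub_cancel]

end Crest.Agent.R332
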