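import Crest.Agent.R332.Fix
import Crest.Agent.R332.Red

/-! # Row 332: the main construction

`γ = s + 1/2`, `c = cs s`, `ι, u, lam, A` from `red`, `n = card ι`, `[a,b] = [-A', A']` with
`A' > max A L 0`.  Choose `ε` with `n c ε^γ ≤ η/4`; `B(Θ) = √(γ c) cfc (max · ε)^((γ-1)/2) Θ` if
`γ < 1` and `B(Θ) = √(γ c) dg (lam^((γ-1)/2))` otherwise (`exists_B`).  `‖B(Θ) u(x)‖² ≤ M`
uniformly; choose `δ ≤ min 1 (η/2)` with `r (b-a) n (1+s) δ (M^r+1)^s ≤ η/4` (`delta_err`), then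
`R`, and apply `exists_fix` to `H Θ x = Hm s δ (B(Θ) u(x))`.  Put `w = Uᴴ B(Θ) u`, `N = B(Θ)²`.
`∫ tr ρ W = ∫ fro2 w' + tr N Λ` (`red`), `∫ fro2 (w' - X w) = ∫ fro2 w' + tr Θ N - (r+1) ∫ tr H P`
(`bogo`, `red`), so the sum of the three remainders is
`C1 ∫ tr W^(1+s) - tr N (Λ - Θ) - Σ psi + ∫ (tr ρ^(r+1) - (r+1) tr H P + r tr H^(1+s))`
`≤ C1 ∫ tr W^(1+s) - c Σ lam^γ + η/2`; each remainder is `≥ 0` (`yng_nonneg`, `bell_le`).
-/

set_option autoImplicit false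

open MeasureTheory Set Filter Topology
open scoped Matrix Matrix.Norms.L2Operator MatrixOrder ComplexOrder

namespace Crest.Agent.R332

open Crest.MathPhysics.LiebThirring

variable {ι ι' : Type} [Fintype ι] [DecidableEq ι] [Fintype ι'] [DecidableEq ι']

omit [Fintype ι] in
theorem core_herm_of_sub {Θ : Mat ι} {ε : ℝ} (h : (Θ - ε • (1 : Mat ι)).PosSemidef) :
    Θ.IsHermitian := by
  have h1 : Θ = (Θ - ε • (1 : Mat ι)) + dg (fun _ => ε) := by rw [dg_const]; abel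
  rw [h1]
  exact h.isHermitian.add (dg_herm _)

theorem core_posDef_of_sub {Θ : Mat ι} {ε : ℝ} (hε : 0 < ε)
    (h : (Θ - ε • (1 : Mat ι)).PosSemidef) : Θ.PosDef := by
  have h1 : Θ = (Θ - ε • (1 : Mat ι)) + dg (fun _ => ε) := by rw [dg_const]; abel
  rw [h1]
  exact Matrix.PosDef.posSemidef_add h ((dg_posDef_iff _).2 fun _ => hε)

omit [Fintype ι] [DecidableEq ι] in
theorem core_herm_smul {A : Mat ι} (hA : A.IsHermitian) (c : ℝ) : (c • A).IsHermitian := by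
  unfold Matrix.IsHermitian at *
  rw [Matrix.conjTranspose_smul, hA]; simp

omit [Fintype ι] [DecidableEq ι] in
theorem core_psd_smul {A : Mat ι} (hA : A.PosSemidef) {c : ℝ} (hc : 0 ≤ c) :
    (c • A).PosSemidef := hA.smul hc

theorem exists_B {γ c ε : ℝ} (hγ : 0 < γ) (hc : 0 < c) (hε : 0 < ε) {lam : ι → ℝ}
    (hlam : ∀ i, 0 < lam i) : ∃ (B : Mat ι → Mat ι) (M : ℝ),
      ContinuousOn B {Θ | Θ.IsHermitian} ∧ (∀ Θ : Mat ι, Θ.IsHermitian → (B Θ).IsHermitian ∧ ‖B Θ‖ ≤ M) ∧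
      ∀ Θ : Mat ι, (Θ - ε • (1 : Mat ι)).PosSemidef →
        (B Θ * B Θ).PosSemidef ∧
        c * (∑ i, lam i ^ γ - rt (pw Θ γ)) ≤ rt (B Θ * B Θ * (dg lam - Θ)) := by
  have hγc : 0 ≤ γ * c := by positivity
  have hsq : √(γ * c) * √(γ * c) = γ * c := Real.mul_self_sqrt hγc
  have hΛ : rt (pw (dg lam) γ) = ∑ i, lam i ^ γ := by rw [pw, cfc_dg, rt_dg]
  have hΛpd : (dg lam).PosDef := (dg_posDef_iff _).2 hlam
  rcases le_total γ 1 with h1 | h1
  · set f : ℝ → ℝ := fun t => (max t ε) ^ ((γ - 1) / 2) with hf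
    have hfc : Continuous f := by
      refine Continuous.rpow_const (by fun_prop) fun t => Or.inl ?_
      exact (lt_of_lt_of_le hε (le_max_right _ _)).ne'
    refine ⟨fun Θ => √(γ * c) • cfc f Θ, √(γ * c) * ε ^ ((γ - 1) / 2), ?_, ?_, ?_⟩
    · exact (continuousOn_cfc_herm (ι := ι) hfc).const_smul (√(γ * c))
    · intro Θ hΘ
      refine ⟨core_herm_smul (cfc_herm _ _) _, ?_⟩
      rw [norm_smul, Real.norm_of_nonneg (Real.sqrt_nonneg _)]
      refine mul_le_mul_of_nonneg_left ?_ (Real.sqrt_nonneg _)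
      refine norm_cfc_le' hΘ (by positivity) fun i => ?_
      have h2 : 0 < max (hΘ.eigenvalues i) ε := lt_of_lt_of_le hε (le_max_right _ _)
      rw [hf, abs_of_nonneg (by positivity)]
      exact Real.rpow_le_rpow_of_nonpos hε (le_max_right _ _) (by linarith)
    · intro Θ hΘ
      have hh := core_herm_of_sub hΘ
      have hpd := core_posDef_of_sub hε hΘ
      have hN : (√(γ * c) • cfc f Θ) * (√(γ * c) • cfc f Θ) = (γ * c) • pw Θ (γ - 1) := by
        rw [Matrix.smul_mul, Matrix.mul_smul, smul_smul, hsq, cfc_mul', pw]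
        congr 1
        refine cfc_congr' hh fun i => ?_
        have h2 := (le_eig hh).1 hΘ i
        simp only [hf]
        rw [max_eq_left h2, ← Real.rpow_add (lt_of_lt_of_le hε h2)]
        congr 1; ring
      simp only [hN]
      refine ⟨core_psd_smul (pw_psd hpd.posSemidef _) hγc, ?_⟩
      have h3 := klein_concave hγ h1 hΛpd.posSemidef hpd
      rw [Matrix.smul_mul, rt_smul, ← hΛ]
      nlinarith [mul_le_mul_of_nonneg_left h3 hc.le]
  · refine ⟨fun _ => √(γ * c) • dg (fun i => lam i ^ ((γ - 1) / 2)),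
      ‖√(γ * c) • dg (fun i => lam i ^ ((γ - 1) / 2))‖, continuousOn_const,
      fun Θ _ => ⟨core_herm_smul (dg_herm _) _, le_rfl⟩, ?_⟩
    intro Θ hΘ
    have hpd := core_posDef_of_sub hε hΘ
    have hN : (√(γ * c) • dg (fun i => lam i ^ ((γ - 1) / 2))) *
        (√(γ * c) • dg (fun i => lam i ^ ((γ - 1) / 2))) = (γ * c) • pw (dg lam) (γ - 1) := by
      rw [Matrix.smul_mul, Matrix.mul_smul, smul_smul, hsq, dg_mul, pw, cfc_dg]
      congr 2
      funext i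
      rw [← Real.rpow_add (hlam i)]
      congr 1; ring
    simp only [hN]
    refine ⟨core_psd_smul (pw_psd hΛpd.posSemidef _) hγc, ?_⟩
    have h3 := klein_convex h1 hΛpd hpd.posSemidef
    rw [Matrix.smul_mul, rt_smul, ← hΛ]
    nlinarith [mul_le_mul_of_nonneg_left h3 hc.le]

omit [DecidableEq ι'] in
theorem core_Hm_conj (s δ : ℝ) (U : Matrix.unitaryGroup ι ℂ) (v : Matrix ι ι' ℂ) :
    star (U : Mat ι) * Hm s δ v * (U : Mat ι) = Hm s δ (star (U : Mat ι) * v) := by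
  have h1 : (star (U : Mat ι) * v) * (star (U : Mat ι) * v)ᴴ =
      ((star U : Matrix.unitaryGroup ι ℂ) : Mat ι) * (v * vᴴ) *
        star ((star U : Matrix.unitaryGroup ι ℂ) : Mat ι) := by
    simp only [Matrix.conjTranspose_mul, Matrix.mul_assoc, Unitary.coe_star,
      Matrix.star_eq_conjTranspose]
  have h2 : star (U : Mat ι) * (U : Mat ι) = 1 := Unitary.coe_star_mul_self U
  rw [Hm, Hm, h1, pw, pw, cfc_conj _ (Matrix.isHermitian_mul_conjTranspose_self v)]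
  simp only [Unitary.coe_star, star_star, Matrix.mul_add, Matrix.add_mul, Matrix.mul_smul,
    Matrix.smul_mul, Matrix.mul_one, h2]

theorem core_int_eq {f : ℝ → ℝ} {a b : ℝ} (h : ∀ x, x ∉ Ioo a b → f x = 0) :
    ∫ x in a..b, f x = ∫ x, f x :=
  intervalIntegral.integral_eq_integral_of_support_subset fun x hx => by
    by_contra h'
    exact hx (h x fun h'' => h' (Ioo_subset_Ioc_self h''))

theorem core_integrable {f : ℝ → ℝ} {a b : ℝ} (hf : Continuous f)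
    (h : ∀ x, x ∉ Ioo a b → f x = 0) : Integrable f :=
  hf.integrable_of_hasCompactSupport (HasCompactSupport.intro (isCompact_Icc (a := a) (b := b))
    fun x hx => h x fun h' => hx (Ioo_subset_Icc_self h'))

theorem core_cont_rt_pw {f : ℝ → Mat ι} (hf : Continuous f) (hh : ∀ x, (f x).IsHermitian) {p : ℝ}
    (hp : 0 < p) : Continuous fun x => rt (pw (f x) p) :=
  continuous_rt.comp ((continuousOn_pw hp).comp_continuous hf hh)

omit [DecidableEq ι] in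
theorem core_psi_sum {s ε : ℝ} (hs0 : 0 < s) {κ ξ : ι → ℝ} (hε : 0 < ε) (hκ : ∀ i, 0 ≤ κ i)
    (hξ : ∀ i, |ξ i| ≤ κ i) (h : ∀ i, ξ i = -κ i ∨ κ i ^ 2 = ε) :
    cs s * ∑ i, κ i ^ (1 + 2 * s) ≤ ∑ i, psi s (κ i) (ξ i) +
      Fintype.card ι * (cs s * ε ^ (s + 1 / 2)) := by
  have hc := cs_pos hs0
  rw [Finset.mul_sum, ← nsmul_eq_mul, ← Finset.card_univ, ← Finset.sum_const,
    ← Finset.sum_add_distrib]
  refine Finset.sum_le_sum fun i _ => ?_
  rcases h i with h | h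
  · rw [h, psi_neg hs0 (hκ i)]
    have : 0 ≤ cs s * ε ^ (s + 1 / 2) := by positivity
    linarith
  · have h1 : κ i ^ (1 + 2 * s) = ε ^ (s + 1 / 2) := by
      rw [← h, ← Real.rpow_natCast, ← Real.rpow_mul (hκ i)]
      congr 1; push_cast; ring
    rw [h1]
    linarith [psi_nonneg (s := s) (hξ i)]

theorem core_eQ {m : ℕ} {W : ℝ → Mat (Fin m)} {u u' : ℝ → Matrix ι (Fin m) ℂ} {lam : ι → ℝ}
    {a b : ℝ} (h0 : ∀ x, x ∉ Ioo a b → u' x = 0)
    (h2 : ∀ N : Mat ι, ∫ x, rt (N * (u x * W x * (u x)ᴴ)) =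
        (∫ x, rt (N * (u' x * (u' x)ᴴ))) + rt (N * dg lam)) (C : Mat ι) :
    ∫ x, rt ((C * u x)ᴴ * (C * u x) * W x) =
      (∫ x in a..b, fro2 (C * u' x)) + rt (Cᴴ * C * dg lam) := by
  have e1 : ∀ x, rt ((C * u x)ᴴ * (C * u x) * W x) = rt (Cᴴ * C * (u x * W x * (u x)ᴴ)) := by
    intro x
    simp only [Matrix.conjTranspose_mul, Matrix.mul_assoc]
    rw [rt_mul_comm]
    simp only [Matrix.mul_assoc]
  have e2 : ∀ x, fro2 (C * u' x) = rt (Cᴴ * C * (u' x * (u' x)ᴴ)) := by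
    intro x
    simp only [fro2_eq', Matrix.conjTranspose_mul, Matrix.mul_assoc]
    rw [rt_mul_comm]
    simp only [Matrix.mul_assoc]
  simp only [e1, e2]
  rw [h2, core_int_eq (fun x hx => by simp [h0 x hx, rt_zero])]

theorem core_eK {m : ℕ} {u : ℝ → Matrix ι (Fin m) ℂ} {a b : ℝ}
    (h0 : ∀ x, x ∉ Ioo a b → u x = 0)
    (h1 : ∀ N : Mat ι, ∫ x, rt (N * (u x * (u x)ᴴ)) = rt N) (C K : Mat ι) :
    ∫ x in a..b, rt (K * (C * u x * (C * u x)ᴴ)) = rt (Cᴴ * K * C) := by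
  have e1 : ∀ x, rt (K * (C * u x * (C * u x)ᴴ)) = rt (Cᴴ * K * C * (u x * (u x)ᴴ)) := by
    intro x
    simp only [Matrix.conjTranspose_mul]
    rw [← Matrix.mul_assoc (C * u x), ← Matrix.mul_assoc K, rt_mul_comm]
    simp only [Matrix.mul_assoc]
  simp only [e1]
  rw [core_int_eq (fun x hx => by simp [h0 x hx, rt_zero]), h1]

theorem core_eB {s : ℝ} {w w' : ℝ → Matrix ι ι' ℂ} {a b : ℝ} (hab : a < b) {κ : ι → ℝ}
    {X H : ℝ → Mat ι} (hw : ∀ x, HasDerivAt w (w' x) x) (cw' : Continuous w')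
    (supp : ∀ x, x ∉ Ioo a b → w x = 0) (cX : Continuous X) (cH : Continuous H)
    (herm : ∀ x, (X x).IsHermitian)
    (hX : ∀ x ∈ Ioo a b, HasDerivAt X (Zm κ (X x) - (s⁻¹ + 1) • H x) x) :
    ∫ x in a..b, fro2 (w' x - X x * w x) = (∫ x in a..b, fro2 (w' x)) +
      (∫ x in a..b, rt (dg (fun i => κ i ^ 2) * (w x * (w x)ᴴ))) -
        (s⁻¹ + 1) * ∫ x in a..b, rt (H x * (w x * (w x)ᴴ)) := by
  have cw : Continuous w := continuous_iff_continuousAt.2 fun x => (hw x).continuousAt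
  have cP : Continuous fun x => w x * (w x)ᴴ := cw.matrix_mul cw.matrix_conjTranspose
  have cZ : Continuous fun x => Zm κ (X x) :=
    (continuous_Zm (ι := ι)).comp (f := fun x => (κ, X x)) (continuous_const.prodMk cX)
  have cZH : Continuous fun x => Zm κ (X x) - (s⁻¹ + 1) • H x := cZ.sub (cH.const_smul (s⁻¹ + 1))
  have cK : Continuous fun x => rt (dg (fun i => κ i ^ 2) * (w x * (w x)ᴴ)) :=
    continuous_rt.comp (continuous_const.matrix_mul cP)
  have cHP : Continuous fun x => rt (H x * (w x * (w x)ᴴ)) :=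
    continuous_rt.comp (cH.matrix_mul cP)
  have e1 : ∀ x, rt ((Zm κ (X x) - (s⁻¹ + 1) • H x + X x * X x) * (w x * (w x)ᴴ)) =
      rt (dg (fun i => κ i ^ 2) * (w x * (w x)ᴴ)) - (s⁻¹ + 1) * rt (H x * (w x * (w x)ᴴ)) := by
    intro x
    have e : Zm κ (X x) - (s⁻¹ + 1) • H x + X x * X x =
        dg (fun i => κ i ^ 2) - (s⁻¹ + 1) • H x := by rw [Zm]; abel
    rw [e, Matrix.sub_mul, rt_sub, Matrix.smul_mul, rt_smul]
  have e2 := bogo hab.le hw cw' (supp a (by simp)) (supp b (by simp)) cX.continuousOn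
    cZH.continuousOn hX fun x _ => herm x
  simp only [e1] at e2
  rw [e2, intervalIntegral.integral_sub (cK.intervalIntegrable _ _)
    ((cHP.intervalIntegrable _ _).const_mul _), intervalIntegral.integral_const_mul]
  ring

theorem core_assemble {s : ℝ} (hs0 : 0 < s) (hs1 : s < 1) {m : ℕ} {W : ℝ → Mat (Fin m)}
    (hW : Pot s W) {w w' : ℝ → Matrix ι (Fin m) ℂ} {A a b L η δ ε M Sl NL NK : ℝ}
    (hw : ∀ x, HasDerivAt w (w' x) x) (cw' : Continuous w')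
    (hsupp : ∀ x, A ≤ |x| → w x = 0 ∧ w' x = 0) (hA : ∀ x, x ∉ Ioo a b → A ≤ |x|)
    (hab : a < b) (ha : a ≤ -L) (hb : L ≤ b) (hδ : 0 < δ) (hδ1 : δ ≤ 1)
    (hδη : δ ≤ η / 2) (hε : 0 < ε) (hεη : Fintype.card ι * (cs s * ε ^ (s + 1 / 2)) ≤ η / 4)
    (hδM : s⁻¹ * ((b - a) * (Fintype.card ι * ((1 + s) * δ * (M ^ s⁻¹ + 1) ^ s))) ≤ η / 4)
    (hM : ∀ x, ‖w x * (w x)ᴴ‖ ≤ M)
    {κ ξ : ι → ℝ} {X : ℝ → Mat ι} (hκ : ∀ i, 0 ≤ κ i) (hξ : ∀ i, ξ i = -κ i ∨ κ i ^ 2 = ε)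
    (cX : Continuous X) (reg : ∀ x, Reg κ (X x)) (Xa : ∀ x, x ≤ a → X x = dg κ)
    (Xb : ∀ x, b ≤ x → X x = dg ξ)
    (hX : ∀ x ∈ Ioo a b, HasDerivAt X (Zm κ (X x) - (s⁻¹ + 1) • Hm s δ (w x)) x)
    (eQ : ∫ x, rt ((w x)ᴴ * w x * W x) = (∫ x in a..b, fro2 (w' x)) + NL) (N0 : 0 ≤ NL)
    (eK : ∫ x in a..b, rt (dg (fun i => κ i ^ 2) * (w x * (w x)ᴴ)) = NK)
    (key : cs s * (Sl - ∑ i, κ i ^ (1 + 2 * s)) ≤ NL - NK) :
    Nonempty (Data s W ι L (C1 s * (∫ x, rt (pw (W x) (1 + s))) - cs s * Sl + η)) := by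
  have hr : 0 < s⁻¹ := inv_pos.2 hs0
  have cw : Continuous w := continuous_iff_continuousAt.2 fun x => (hw x).continuousAt
  have supp : ∀ x, x ∉ Ioo a b → w x = 0 := fun x hx => (hsupp x (hA x hx)).1
  have supp' : ∀ x, x ∉ Ioo a b → w' x = 0 := fun x hx => (hsupp x (hA x hx)).2
  have cρ : Continuous fun x => (w x)ᴴ * w x := cw.matrix_conjTranspose.matrix_mul cw
  have cP : Continuous fun x => w x * (w x)ᴴ := cw.matrix_mul cw.matrix_conjTranspose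
  have ρpsd : ∀ x, ((w x)ᴴ * w x).PosSemidef := fun x =>
    Matrix.posSemidef_conjTranspose_mul_self _
  have cH : Continuous fun x => Hm s δ (w x) :=
    (continuous_Hm hs0).comp (f := fun x => (δ, w x)) (continuous_const.prodMk cw)
  have Hpsd : ∀ x, (Hm s δ (w x)).PosSemidef := fun x => Hm_psd s hδ.le _
  have cρp : Continuous fun x => rt (pw ((w x)ᴴ * w x) (s⁻¹ + 1)) :=
    core_cont_rt_pw cρ (fun x => (ρpsd x).isHermitian) (by positivity)
  have cHp : Continuous fun x => rt (pw (Hm s δ (w x)) (1 + s)) :=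
    core_cont_rt_pw cH (fun x => (Hpsd x).isHermitian) (by positivity)
  have cHP : Continuous fun x => rt (Hm s δ (w x) * (w x * (w x)ᴴ)) :=
    continuous_rt.comp (cH.matrix_mul cP)
  have ρp0 : ∀ x, x ∉ Ioo a b → rt (pw ((w x)ᴴ * w x) (s⁻¹ + 1)) = 0 := fun x hx => by
    rw [supp x hx, Matrix.mul_zero, pw_zero_mat (by positivity), rt_zero]
  have iρp : Integrable fun x => rt (pw ((w x)ᴴ * w x) (s⁻¹ + 1)) := core_integrable cρp ρp0
  have iρW : Integrable fun x => rt ((w x)ᴴ * w x * W x) :=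
    hW.integrable_rt hs0 cρ (A := A) fun x hx => by simp [(hsupp x hx).1]
  have eY : (fun x => yng s ((s⁻¹ + 1)⁻¹ • W x) ((w x)ᴴ * w x)) = fun x =>
      C1 s * rt (pw (W x) (1 + s)) + rt (pw ((w x)ᴴ * w x) (s⁻¹ + 1)) -
        rt ((w x)ᴴ * w x * W x) := funext fun x => yng_scaled hs0 (hW.psd x)
  have iW : Integrable fun x => C1 s * rt (pw (W x) (1 + s)) := hW.int.const_mul _
  have iWρ : Integrable fun x => C1 s * rt (pw (W x) (1 + s)) +
    rt (pw ((w x)ᴴ * w x) (s⁻¹ + 1)) := iW.add iρp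
  have iY : Integrable fun x => yng s ((s⁻¹ + 1)⁻¹ • W x) ((w x)ᴴ * w x) := by
    rw [eY]; exact iWρ.sub iρW
  have eYint : ∫ x, yng s ((s⁻¹ + 1)⁻¹ • W x) ((w x)ᴴ * w x) =
      C1 s * (∫ x, rt (pw (W x) (1 + s))) + (∫ x in a..b, rt (pw ((w x)ᴴ * w x) (s⁻¹ + 1))) -
        ∫ x, rt ((w x)ᴴ * w x * W x) := by
    rw [eY, integral_sub iWρ iρW, integral_add iW iρp, integral_const_mul, core_int_eq ρp0]
  have eB := core_eB hab hw cw' supp cX cH (fun x => (reg x).herm) hX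
  have Y0 : 0 ≤ ∫ x, yng s ((s⁻¹ + 1)⁻¹ • W x) ((w x)ᴴ * w x) :=
    integral_nonneg fun x => yng_nonneg hs0 hs1 ((hW.psd x).smul (by positivity)) (ρpsd x)
  have B0 : 0 ≤ ∫ x in a..b, fro2 (w' x - X x * w x) :=
    intervalIntegral.integral_nonneg hab.le fun x _ => fro2_nonneg _
  have H0 : ∑ i, psi s (κ i) (ξ i) ≤ s⁻¹ * ∫ x in a..b, rt (pw (Hm s δ (w x)) (1 + s)) :=
    bell_le hs0 hs1 hκ hab.le cX.continuousOn cH.continuousOn (fun x _ => Hpsd x) hX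
      (fun x _ => reg x) (Xa a le_rfl) (Xb b le_rfl)
  have hξ' : ∀ i, |ξ i| ≤ κ i := (reg_dg_iff κ ξ).1 (by rw [← Xb b le_rfl]; exact reg b)
  have hψ := core_psi_sum hs0 hε hκ hξ' hξ
  have d1 : ∫ x in a..b, rt (pw (Hm s δ (w x)) (1 + s)) ≤
      (∫ x in a..b, rt (pw ((w x)ᴴ * w x) (s⁻¹ + 1))) +
        (b - a) * (Fintype.card ι * ((1 + s) * δ * (M ^ s⁻¹ + 1) ^ s)) := by
    have := intervalIntegral.integral_mono_on hab.le (cHp.intervalIntegrable (μ := volume) a b)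
      ((cρp.intervalIntegrable a b).add (intervalIntegrable_const
        (c := Fintype.card ι * ((1 + s) * δ * (M ^ s⁻¹ + 1) ^ s))))
      fun x _ => (delta_err hs0 hs1 hδ.le hδ1 (w x) (hM x)).1
    rwa [intervalIntegral.integral_add (cρp.intervalIntegrable a b) intervalIntegrable_const,
      intervalIntegral.integral_const, smul_eq_mul] at this
  have d2 : ∫ x in a..b, rt (pw ((w x)ᴴ * w x) (s⁻¹ + 1)) ≤
      ∫ x in a..b, rt (Hm s δ (w x) * (w x * (w x)ᴴ)) :=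
    intervalIntegral.integral_mono_on hab.le (cρp.intervalIntegrable a b)
      (cHP.intervalIntegrable a b) fun x _ => (delta_err hs0 hs1 hδ.le hδ1 (w x) (hM x)).2
  have d1' := mul_le_mul_of_nonneg_left d1 hr.le
  have d2' := mul_le_mul_of_nonneg_left d2 (show 0 ≤ s⁻¹ + 1 by positivity)
  have total : (∫ x, yng s ((s⁻¹ + 1)⁻¹ • W x) ((w x)ᴴ * w x)) +
      (∫ x in a..b, fro2 (w' x - X x * w x)) +
      (s⁻¹ * (∫ x in a..b, rt (pw (Hm s δ (w x)) (1 + s))) - ∑ i, psi s (κ i) (ξ i)) ≤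
      C1 s * (∫ x, rt (pw (W x) (1 + s))) - cs s * Sl + η / 2 := by
    rw [eYint, eB, eQ, eK]
    linarith
  refine ⟨⟨κ, ξ, a, b, δ, w, w', X, hκ, hδ, ?_, hab, ha, hb, hw, cw', supp, supp', cX, reg, Xa, Xb,
    hX, iY, ?_, ?_, ?_, ?_, ?_⟩⟩
  · linarith
  · linarith
  · linarith
  · linarith
  · rw [eQ]; linarith
  · linarith

theorem core_exists_eps {γ K η : ℝ} (hγ : 0 < γ) (hK : 0 ≤ K) (hη : 0 < η) :
    ∃ ε > 0, K * ε ^ γ ≤ η := by
  refine ⟨(η / (K + 1)) ^ γ⁻¹, by positivity, ?_⟩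
  rw [Real.rpow_inv_rpow (by positivity) hγ.ne', ← mul_div_assoc, div_le_iff₀ (by positivity)]
  nlinarith

theorem core_exists_R {γ c K ε : ℝ} (hγ : 0 < γ) (hc : 0 < c) :
    ∃ R, ε < R ∧ K < c * R ^ γ := by
  have h1 : Tendsto (fun R : ℝ => c * R ^ γ) atTop atTop :=
    (tendsto_rpow_atTop hγ).const_mul_atTop hc
  exact ((eventually_gt_atTop ε).and (h1.eventually_gt_atTop K)).exists

theorem core_Hm_bound {s δ M : ℝ} (hs0 : 0 < s) (hδ : 0 ≤ δ) (hδ1 : δ ≤ 1) (w : Matrix ι ι' ℂ)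
    (hM : ‖w * wᴴ‖ ≤ M) :
    rt (pw (Hm s δ w) (1 + s)) ≤ Fintype.card ι * (M ^ s⁻¹ + ‖(1 : Mat ι)‖) ^ (1 + s) := by
  have h1 : ‖Hm s δ w‖ ≤ M ^ s⁻¹ + ‖(1 : Mat ι)‖ := by
    refine (norm_add_le _ _).trans (add_le_add ?_ ?_)
    · exact (norm_pw_le (Matrix.posSemidef_self_mul_conjTranspose w) (by positivity)).trans
        (Real.rpow_le_rpow (norm_nonneg _) hM (by positivity))
    · rw [norm_smul, Real.norm_of_nonneg hδ]
      exact mul_le_of_le_one_left (norm_nonneg _) hδ1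
  refine (le_abs_self _).trans ((abs_rt_le _).trans ?_)
  refine mul_le_mul_of_nonneg_left ?_ (Nat.cast_nonneg _)
  exact (norm_pw_le (Hm_psd s hδ w) (by positivity)).trans
    (Real.rpow_le_rpow (norm_nonneg _) h1 (by positivity))

theorem core {s : ℝ} (hs0 : 0 < s) (hs1 : s < 1) {m n : ℕ} {W : ℝ → Mat (Fin m)} (hW : Pot s W)
    {φ : Fin n → ℝ → Vec m} (hφ : IsTrialFamily φ) (L : ℝ) {η : ℝ} (hη : 0 < η) :
    ∃ (ι : Type) (_ : Fintype ι) (_ : DecidableEq ι), Nonempty (Data s W ι L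
      (C1 s * (∫ x, rt (pw (W x) (1 + s))) - cs s * negMoment (energyMatrix W φ) (s + 1 / 2) + η)) := by
  have hγ : 0 < s + 1 / 2 := by positivity
  have hc := cs_pos hs0
  have hr : 0 < s⁻¹ := inv_pos.2 hs0
  obtain ⟨ι, _, _, u, u', lam, A, hu, cu', hsupp, hlam, hneg, h1, h2⟩ := red hs0 hW hφ hγ
  refine ⟨ι, inferInstance, inferInstance, ?_⟩
  rw [hneg]
  obtain ⟨b, hb0, hbA, hbL⟩ : ∃ b : ℝ, 0 < b ∧ A ≤ b ∧ L ≤ b :=
    ⟨max (max A L) 1, lt_of_lt_of_le one_pos (le_max_right _ _),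
      (le_max_left _ _).trans (le_max_left _ _), (le_max_right _ _).trans (le_max_left _ _)⟩
  have hab : -b < b := by linarith
  have hA : ∀ x, x ∉ Ioo (-b) b → A ≤ |x| := fun x hx => by
    by_contra h
    exact hx (abs_lt.1 (lt_of_lt_of_le (not_le.1 h) hbA))
  have cu : Continuous u := continuous_iff_continuousAt.2 fun x => (hu x).continuousAt
  have cP : Continuous fun x => u x * (u x)ᴴ := cu.matrix_mul cu.matrix_conjTranspose
  obtain ⟨Mu, hMu⟩ : ∃ Mu : ℝ, ∀ x, ‖u x * (u x)ᴴ‖ ≤ Mu :=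
    cP.bounded_above_of_compact_support (HasCompactSupport.intro
      (isCompact_Icc (a := -b) (b := b)) fun x hx => by
        simp [(hsupp x (hA x fun h' => hx (Ioo_subset_Icc_self h'))).1])
  obtain ⟨ε, hε, hεη⟩ := core_exists_eps (K := Fintype.card ι * cs s) hγ (by positivity)
    (show 0 < η / 4 by positivity)
  obtain ⟨B, MB, cB, hB, hBk⟩ := exists_B hγ hc hε hlam
  have hMB : 0 ≤ MB := (norm_nonneg _).trans (hB 0 Matrix.isHermitian_zero).2
  have hMu0 : 0 ≤ Mu := (norm_nonneg _).trans (hMu 0)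
  have hM : ∀ Θ : Mat ι, Θ.IsHermitian → ∀ x, ‖B Θ * u x * (B Θ * u x)ᴴ‖ ≤ MB * Mu * MB := by
    intro Θ hΘ x
    have e : B Θ * u x * (B Θ * u x)ᴴ = B Θ * (u x * (u x)ᴴ) * B Θ := by
      rw [Matrix.conjTranspose_mul, (hB Θ hΘ).1.eq]
      simp only [Matrix.mul_assoc]
    rw [e]
    refine (norm_mul_le _ _).trans (mul_le_mul ((norm_mul_le _ _).trans ?_) (hB Θ hΘ).2
      (norm_nonneg _) (by positivity))
    exact mul_le_mul (hB Θ hΘ).2 (hMu x) (norm_nonneg _) hMB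
  obtain ⟨M, hMdef⟩ : ∃ M, M = MB * Mu * MB := ⟨_, rfl⟩
  rw [← hMdef] at hM
  have hM0 : 0 ≤ M := by rw [hMdef]; positivity
  obtain ⟨δ, hδ, hδ1, hδη, hδM⟩ : ∃ δ : ℝ, 0 < δ ∧ δ ≤ 1 ∧ δ ≤ η / 2 ∧
      s⁻¹ * ((b - -b) * (Fintype.card ι * ((1 + s) * δ * (M ^ s⁻¹ + 1) ^ s))) ≤ η / 4 := by
    obtain ⟨K, hK⟩ : ∃ K : ℝ,
      K = s⁻¹ * ((b - -b) * (Fintype.card ι * ((1 + s) * (M ^ s⁻¹ + 1) ^ s))) := ⟨_, rfl⟩
    have hK0 : 0 ≤ K := by
      have : 0 ≤ b - -b := by linarith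
      rw [hK]; positivity
    obtain ⟨δ₀, hδ₀, h⟩ := core_exists_eps one_pos hK0 (show 0 < η / 4 by positivity)
    rw [Real.rpow_one] at h
    refine ⟨min δ₀ (min 1 (η / 2)), by positivity, (min_le_right _ _).trans (min_le_left _ _),
      (min_le_right _ _).trans (min_le_right _ _), ?_⟩
    have h3 := mul_le_mul_of_nonneg_left (min_le_left δ₀ (min 1 (η / 2))) hK0
    refine le_trans (le_of_eq ?_) (h3.trans h)
    rw [hK]; ring
  obtain ⟨R, hεR, hR⟩ := core_exists_R (ε := ε)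
    (K := s⁻¹ * ((b - -b) * (Fintype.card ι * (M ^ s⁻¹ + ‖(1 : Mat ι)‖) ^ (1 + s)))) hγ hc
  have cH : ∀ Θ : Mat ι, Continuous fun x => Hm s δ (B Θ * u x) := fun Θ =>
    (continuous_Hm hs0).comp (f := fun x => (δ, B Θ * u x))
      (continuous_const.prodMk (continuous_const.matrix_mul cu))
  have hHc : ContinuousOn (fun p : Mat ι × ℝ => Hm s δ (B p.1 * u p.2)) {p | p.1.IsHermitian} := by
    rw [continuousOn_iff_continuous_domRestrict]
    have c1 : Continuous fun p : {p : Mat ι × ℝ | p.1.IsHermitian} => B p.1.1 :=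
      cB.comp_continuous (continuous_fst.comp continuous_subtype_val) fun p => p.2
    have c2 : Continuous fun p : {p : Mat ι × ℝ | p.1.IsHermitian} => u p.1.2 :=
      cu.comp (continuous_snd.comp continuous_subtype_val)
    exact (continuous_Hm hs0).comp
      (f := fun p : {p : Mat ι × ℝ | p.1.IsHermitian} => (δ, B p.1.1 * u p.1.2))
      (continuous_const.prodMk (c1.matrix_mul c2))
  obtain ⟨U, κ, ξ, X, hκ, hξ, cX, reg, Xa, Xb, hX⟩ := exists_fix hs0 hs1 hab hε hεR hδ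
    (fun Θ x => Hm s δ (B Θ * u x)) hHc (fun Θ x _ => Hm_sub_psd s δ _) (fun Θ hΘ => by
      refine lt_of_le_of_lt (mul_le_mul_of_nonneg_left ?_ hr.le) hR
      have := intervalIntegral.integral_mono_on hab.le
        ((core_cont_rt_pw (cH Θ) (fun x => (Hm_psd s hδ.le _).isHermitian)
          (show 0 < 1 + s by positivity)).intervalIntegrable (μ := volume) (-b) b)
        (intervalIntegrable_const
          (c := Fintype.card ι * (M ^ s⁻¹ + ‖(1 : Mat ι)‖) ^ (1 + s)))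
        fun x _ => core_Hm_bound hs0 hδ.le hδ1 (B Θ * u x) (hM Θ hΘ x)
      rwa [intervalIntegral.integral_const, smul_eq_mul] at this)
  obtain ⟨Θ, hΘ⟩ : ∃ Θ : Mat ι, Θ = (U : Mat ι) * dg (fun i => κ i ^ 2) * star (U : Mat ι) :=
    ⟨_, rfl⟩
  rw [← hΘ] at hX
  have hUU : (U : Mat ι) * star (U : Mat ι) = 1 := Unitary.coe_mul_star_self U
  have hΘε : (Θ - ε • (1 : Mat ι)).PosSemidef := by
    have e : Θ - ε • (1 : Mat ι) =
        (U : Mat ι) * dg (fun i => κ i ^ 2 - ε) * star (U : Mat ι) := by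
      rw [← dg_sub, dg_const, Matrix.mul_sub, Matrix.sub_mul, ← hΘ, Matrix.mul_smul,
        Matrix.smul_mul, Matrix.mul_one, hUU]
    rw [e, psd_conj_iff, dg_psd_iff]
    exact fun i => sub_nonneg.2 (hκ i).2
  have hΘh := core_herm_of_sub hΘε
  have hBh := (hB Θ hΘh).1
  obtain ⟨hN, hk⟩ := hBk Θ hΘε
  obtain ⟨C, hC⟩ : ∃ C : Mat ι, C = star (U : Mat ι) * B Θ := ⟨_, rfl⟩
  have hCH : Cᴴ = B Θ * (U : Mat ι) := by
    rw [hC, Matrix.conjTranspose_mul, hBh.eq, ← Matrix.star_eq_conjTranspose, star_star]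
  have hCC : Cᴴ * C = B Θ * B Θ := by
    rw [hCH, hC, Matrix.mul_assoc, ← Matrix.mul_assoc (U : Mat ι), hUU, Matrix.one_mul]
  have hCK : rt (Cᴴ * dg (fun i => κ i ^ 2) * C) = rt (B Θ * B Θ * Θ) := by
    have e : Cᴴ * dg (fun i => κ i ^ 2) * C = B Θ * Θ * B Θ := by
      rw [hCH, hC]
      conv_rhs => arg 1; arg 2; rw [hΘ]
      simp only [Matrix.mul_assoc]
    rw [e, rt_mul_comm, Matrix.mul_assoc]
  have hΘγ : rt (pw Θ (s + 1 / 2)) = ∑ i, κ i ^ (1 + 2 * s) := by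
    rw [hΘ, pw, cfc_conj_dg, rt_conj, rt_dg]
    refine Finset.sum_congr rfl fun i _ => ?_
    rw [← Real.rpow_natCast, ← Real.rpow_mul (hκ i).1.le]
    congr 1; push_cast; ring
  refine core_assemble hs0 hs1 hW (w := fun x => C * u x) (w' := fun x => C * u' x) (A := A)
    (M := M) (ε := ε) (δ := δ) (fun x => ?_) (continuous_const.matrix_mul cu') (fun x hx => ?_) hA
    hab (by linarith) hbL hδ hδ1 hδη hε (by linarith) hδM (fun x => ?_) (fun i => (hκ i).1.le)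
    hξ cX reg Xa Xb (fun x hx => ?_)
    (core_eQ (fun x hx => (hsupp x (hA x hx)).2) h2 C) ?_
    (core_eK (fun x hx => (hsupp x (hA x hx)).1) h1 C _) ?_
  · simpa using hasDerivAt_matmul (hasDerivAt_const x C) (hu x)
  · simp [(hsupp x hx).1, (hsupp x hx).2]
  · have e : C * u x * (C * u x)ᴴ = ((star U : Matrix.unitaryGroup ι ℂ) : Mat ι) *
        (B Θ * u x * (B Θ * u x)ᴴ) * star ((star U : Matrix.unitaryGroup ι ℂ) : Mat ι) := by
      simp only [hC, Matrix.conjTranspose_mul, Matrix.mul_assoc, Unitary.coe_star,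
        Matrix.star_eq_conjTranspose]
    rw [e, norm_conj]
    exact hM Θ hΘh x
  · have := hX x hx
    rwa [core_Hm_conj, ← Matrix.mul_assoc, ← hC] at this
  · rw [hCC]
    exact rt_mul_nonneg hN ((dg_psd_iff _).2 fun i => (hlam i).le)
  · rw [hCC, hCK, ← rt_sub, ← Matrix.mul_sub, ← hΘγ]
    exact hk

end Crest.Agent.R332
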