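import Crest.Prelude.Def_LiebThirring

/-!
# Row 332 (sharp 1D matrix Lieb–Thirring, `1/2 < γ < 3/2`): definitions

Notation: `s = γ - 1/2 ∈ (0,1)`, `r = s⁻¹`, `K = dg κ` (diagonal), `Z = K² - X²`.

Plan of the proof.
* `G s κ X = cI⁻¹ ∫₀^∞ t^(s-1) [log(μ_t + X) + log(μ_t - X) - log t] dt`, `μ_t = √(K² + t)`, is minus
  the gradient of a Bellman function on the region `-K ≤ X ≤ K` (file `Bell`), equals `Z^s` when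
  `X` commutes with `K` (file `GFun`) and satisfies the Hamilton–Jacobi inequality
  `(r+1) tr G H ≤ r tr H^(1+s) + tr G Z` for all `H ≥ 0` (files `GT`, `Mono`, `HJ`).
* For a trial family `u` with energy matrix `-Λ`, a Brouwer fixed point argument (files `Ode`,
  `Fix`, `Core`) gives `K`, `w = B u` and a solution of `X' = K² - X² - (r+1)((w wᴴ)^r + δ)` running
  from `K` to (almost) `-K`; this gives the inequality with three explicit nonnegative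
  remainders (`Data`).
* Equality case: compactness (`Split`, `Limit`, `Struct`, `Close`) and `Easy`.
-/

set_option autoImplicit false

open MeasureTheory Set
open scoped Matrix Matrix.Norms.L2Operator MatrixOrder ComplexOrder

namespace Crest.Agent.R332

/-- square complex matrices -/
abbrev Mat (ι : Type) : Type := Matrix ι ι ℂ

section defs
variable {ι ι' : Type} [Fintype ι] [DecidableEq ι] [Fintype ι'] [DecidableEq ι']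

/-- real part of the trace -/
def rt (A : Mat ι) : ℝ := (Matrix.trace A).re

/-- real power of a (positive semidefinite) matrix -/
noncomputable def pw (A : Mat ι) (p : ℝ) : Mat ι := cfc (fun t : ℝ => t ^ p) A

/-- squared Frobenius norm -/
noncomputable def fro2 (A : Matrix ι ι' ℂ) : ℝ := ∑ i, ∑ j, ‖A i j‖ ^ 2

/-- real diagonal matrix -/
def dg (v : ι → ℝ) : Mat ι := Matrix.diagonal fun i => (v i : ℂ)

/-- the region `-K ≤ X ≤ K` -/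
def Reg (κ : ι → ℝ) (X : Mat ι) : Prop := (dg κ + X).PosSemidef ∧ (dg κ - X).PosSemidef

/-- `Z = K² - X²` -/
def Zm (κ : ι → ℝ) (X : Mat ι) : Mat ι := dg (fun i => κ i ^ 2) - X * X

/-- `μ_t = √(K² + t)` -/
noncomputable def mu (κ : ι → ℝ) (t : ℝ) : ι → ℝ := fun i => √(κ i ^ 2 + t)

/-- `L_t = log (μ_t + X) + log (μ_t - X) - log t` -/
noncomputable def Lt (κ : ι → ℝ) (X : Mat ι) (t : ℝ) : Mat ι :=
  cfc Real.log (dg (mu κ t) + X) + cfc Real.log (dg (mu κ t) - X) - Real.log t • (1 : Mat ι)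

/-- normalising constant -/
noncomputable def cI (s : ℝ) : ℝ := ∫ t in Ioi (0 : ℝ), t ^ (s - 1) * Real.log (1 + 1 / t)

/-- minus the gradient of the Bellman function -/
noncomputable def G (s : ℝ) (κ : ι → ℝ) (X : Mat ι) : Mat ι :=
  (cI s)⁻¹ • ∫ t in Ioi (0 : ℝ), t ^ (s - 1) • Lt κ X t

/-- scalar Bellman function -/
noncomputable def psi (s k ξ : ℝ) : ℝ := ∫ y in ξ..k, (k ^ 2 - y ^ 2) ^ s

/-- `c_s = ∫_{-1}^1 (1 - y²)^s dy` -/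
noncomputable def cs (s : ℝ) : ℝ := ∫ y in (-1 : ℝ)..1, (1 - y ^ 2) ^ s

/-- `C₁ = r (r+1)^(-1-s)` -/
noncomputable def C1 (s : ℝ) : ℝ := s⁻¹ * (s⁻¹ + 1) ^ (-(1 + s))

/-- Hamilton–Jacobi deficiency -/
noncomputable def dfc (s : ℝ) (κ : ι → ℝ) (X H : Mat ι) : ℝ :=
  s⁻¹ * rt (pw H (1 + s)) + rt (G s κ X * (Zm κ X - (s⁻¹ + 1) • H))

/-- `‖[K², X]‖_F²` -/
noncomputable def comm (κ : ι → ℝ) (X : Mat ι) : ℝ :=
  ∑ i, ∑ j, (κ i ^ 2 - κ j ^ 2) ^ 2 * ‖X i j‖ ^ 2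

/-- Young deficiency -/
noncomputable def yng (s : ℝ) (H P : Mat ι) : ℝ :=
  s⁻¹ * rt (pw H (1 + s)) + rt (pw P (s⁻¹ + 1)) - (s⁻¹ + 1) * rt (P * H)

/-- `H = (w wᴴ)^r + δ` -/
noncomputable def Hm (s δ : ℝ) (w : Matrix ι ι' ℂ) : Mat ι := pw (w * wᴴ) s⁻¹ + δ • (1 : Mat ι)

/-- penalty for an eigenvalue of `H` above `η` -/
noncomputable def phi (s η h : ℝ) : ℝ :=
  s⁻¹ * ((max h η) ^ (1 + s) - η ^ (1 + s)) - (s⁻¹ + 1) * η ^ s * (max h η - η)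

end defs

/-- The standing assumptions on the potential. -/
structure Pot (s : ℝ) {m : ℕ} (W : ℝ → Mat (Fin m)) : Prop where
  meas : ∀ i j, Measurable fun x => W x i j
  psd : ∀ x, (W x).PosSemidef
  int : Integrable fun x => rt (pw (W x) (1 + s))

/-- Output of the main construction: a solution of the Riccati equation on `[a, b] ⊇ [-L, L]`
with all three remainders at most `D`. -/
structure Data (s : ℝ) {m : ℕ} (W : ℝ → Mat (Fin m)) (ι : Type) [Fintype ι] [DecidableEq ι]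
    (L D : ℝ) where
  κ : ι → ℝ
  ξ : ι → ℝ
  a : ℝ
  b : ℝ
  δ : ℝ
  w : ℝ → Matrix ι (Fin m) ℂ
  w' : ℝ → Matrix ι (Fin m) ℂ
  X : ℝ → Mat ι
  κ_nonneg : ∀ i, 0 ≤ κ i
  δ_pos : 0 < δ
  δ_le : δ ≤ D
  hab : a < b
  ha : a ≤ -L
  hb : L ≤ b
  hw : ∀ x, HasDerivAt w (w' x) x
  cw' : Continuous w'
  supp : ∀ x, x ∉ Ioo a b → w x = 0
  supp' : ∀ x, x ∉ Ioo a b → w' x = 0
  cX : Continuous X
  reg : ∀ x, Reg κ (X x)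
  Xa : ∀ x, x ≤ a → X x = dg κ
  Xb : ∀ x, b ≤ x → X x = dg ξ
  hX : ∀ x ∈ Ioo a b, HasDerivAt X (Zm κ (X x) - (s⁻¹ + 1) • Hm s δ (w x)) x
  iY : Integrable fun x => yng s ((s⁻¹ + 1)⁻¹ • W x) ((w x)ᴴ * w x)
  dY : ∫ x, yng s ((s⁻¹ + 1)⁻¹ • W x) ((w x)ᴴ * w x) ≤ D
  dB : ∫ x in a..b, fro2 (w' x - X x * w x) ≤ D
  dH : s⁻¹ * (∫ x in a..b, rt (pw (Hm s δ (w x)) (1 + s))) - ∑ i, psi s (κ i) (ξ i) ≤ D
  hT : ∫ x in a..b, fro2 (w' x) ≤ ∫ x, rt ((w x)ᴴ * w x * W x)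
  hκ : cs s * ∑ i, κ i ^ (1 + 2 * s) ≤
    s⁻¹ * (∫ x in a..b, rt (pw ((w x)ᴴ * w x) (s⁻¹ + 1))) + D

/-- The top block of a `Data`, in fixed dimensions, with uniform bounds `C`; the rest of the
spectrum of `K²` lies below `η`. -/
structure Top (s : ℝ) {m : ℕ} (W : ℝ → Mat (Fin m)) (q : ℕ) (η C L D : ℝ) where
  κ : Fin q → ℝ
  a : ℝ
  b : ℝ
  δ : ℝ
  ω : ℝ → Matrix (Fin q) (Fin m) ℂ
  ω' : ℝ → Matrix (Fin q) (Fin m) ℂ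
  ρ : ℝ → Mat (Fin m)
  X : ℝ → Mat (Fin q)
  E : ℝ → Mat (Fin q)
  κ_nonneg : ∀ i, 0 ≤ κ i
  κ_le : ∀ i, κ i ≤ C
  δ_nonneg : 0 ≤ δ
  δ_le : δ ≤ D
  ha : a ≤ -L
  hb : L ≤ b
  hab : a < b
  hω : ∀ x, HasDerivAt ω (ω' x) x
  cω' : Continuous ω'
  cE : Continuous E
  ω_le : ∀ x, ‖ω x‖ ≤ C
  ρ_le : ∀ x, ‖ρ x‖ ≤ C
  ω_hold : ∀ x y, ‖ω x - ω y‖ ≤ C * √|x - y|
  ρ_hold : ∀ x y, ‖ρ x - ρ y‖ ≤ C * √|x - y|
  X_lip : ∀ x y, ‖X x - X y‖ ≤ C * |x - y|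
  reg : ∀ x, Reg κ (X x)
  ρ_psd : ∀ x, (ρ x).PosSemidef
  ρS_psd : ∀ x, (ρ x - (ω x)ᴴ * ω x).PosSemidef
  hX : ∀ x ∈ Ioo a b, HasDerivAt X (Zm κ (X x) -
    (s⁻¹ + 1) • (ω x * pw (ρ x) (s⁻¹ - 1) * (ω x)ᴴ + δ • (1 : Mat (Fin q))) - E x) x
  iY : Integrable fun x => yng s ((s⁻¹ + 1)⁻¹ • W x) (ρ x)
  dY : ∫ x, yng s ((s⁻¹ + 1)⁻¹ • W x) (ρ x) ≤ D
  dC : ∫ x in a..b, comm κ (X x) ≤ D
  dE : ∫ x in a..b, ‖E x‖ ≤ D
  dH : ∫ x in a..b, dfc s κ (X x)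
    (ω x * pw (ρ x) (s⁻¹ - 1) * (ω x)ᴴ + δ • (1 : Mat (Fin q))) ≤ D
  dB : ∫ x in a..b, fro2 (ω' x - X x * ω x) ≤ D
  dP : ∫ x in a..b, fro2 (ω x * pw (ρ x) (s⁻¹ - 1) * (ρ x - (ω x)ᴴ * ω x)) ≤ D
  dT : ∫ x in a..b, phi s η
    ‖pw (ρ x) ((s⁻¹ - 1) / 2) * (ρ x - (ω x)ᴴ * ω x) * pw (ρ x) ((s⁻¹ - 1) / 2)‖ ≤ D

/-- The exact relations satisfied by a limit of top blocks. -/
structure Lim (s : ℝ) (m q : ℕ) (η : ℝ) where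
  κ : Fin q → ℝ
  ω : ℝ → Matrix (Fin q) (Fin m) ℂ
  ρ : ℝ → Mat (Fin m)
  X : ℝ → Mat (Fin q)
  κ_nonneg : ∀ i, 0 ≤ κ i
  reg : ∀ x, Reg κ (X x)
  ρ_psd : ∀ x, (ρ x).PosSemidef
  ρS_psd : ∀ x, (ρ x - (ω x)ᴴ * ω x).PosSemidef
  hcomm : ∀ x, dg κ * X x = X x * dg κ
  hX : ∀ x, HasDerivAt X (-(s⁻¹ • Zm κ (X x))) x
  hω : ∀ x, HasDerivAt ω (X x * ω x) x
  hZ : ∀ x, Zm κ (X x) = ω x * pw (ρ x) (s⁻¹ - 1) * (ω x)ᴴ
  hP : ∀ x, ω x * pw (ρ x) (s⁻¹ - 1) * (ρ x - (ω x)ᴴ * ω x) = 0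
  hT : ∀ x, ‖pw (ρ x) ((s⁻¹ - 1) / 2) * (ρ x - (ω x)ᴴ * ω x) * pw (ρ x) ((s⁻¹ - 1) / 2)‖ ≤ η

open Crest.MathPhysics.LiebThirring in
/-- the soliton sum of the statement -/
noncomputable def solMat (s : ℝ) {m : ℕ} (U : Matrix.unitaryGroup (Fin m) ℂ) (a c : Fin m → ℝ)
    (x : ℝ) : Mat (Fin m) :=
  (U : Mat (Fin m)) * dg (fun i => soliton s⁻¹ (a i) (c i) x) * star (U : Mat (Fin m))

end Crest.Agent.R332
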