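import Crest.Agent.R332.Defs

/-! # Row 332: scalar integrals -/

set_option autoImplicit false

open MeasureTheory Set Filter Topology
open scoped Matrix Matrix.Norms.L2Operator MatrixOrder ComplexOrder

namespace Crest.Agent.R332

open Crest.MathPhysics.LiebThirring

variable {s : ℝ}

theorem scalar_log_nonneg {z t : ℝ} (hz : 0 ≤ z) (ht : 0 < t) : 0 ≤ Real.log (1 + z / t) :=
  Real.log_nonneg (le_add_of_nonneg_right (div_nonneg hz ht.le))

theorem scalar_int_log_one (hs0 : 0 < s) (hs1 : s < 1) :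
    IntegrableOn (fun t : ℝ => t ^ (s - 1) * Real.log (1 + 1 / t)) (Ioi 0) := by
  have hm : Measurable fun t : ℝ => t ^ (s - 1) * Real.log (1 + 1 / t) := by fun_prop
  rw [← Ioc_union_Ioi_eq_Ioi zero_le_one]
  refine IntegrableOn.union ?_ ?_
  · have h1 : IntegrableOn (fun t : ℝ => (2 ^ (s / 2) / (s / 2)) * t ^ (s / 2 - 1)) (Ioc 0 1) :=
      ((intervalIntegral.intervalIntegrable_rpow' (a := 0) (b := 1)
        (show -1 < s / 2 - 1 by linarith)).const_mul _).1
    refine h1.mono' hm.aestronglyMeasurable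
      (ae_restrict_of_forall_mem measurableSet_Ioc fun t ht => ?_)
    have ht0 := ht.1
    rw [Real.norm_of_nonneg (mul_nonneg (by positivity) (scalar_log_nonneg zero_le_one ht0))]
    have h2 : Real.log (1 + 1 / t) ≤ Real.log (2 / t) := by
      refine Real.log_le_log (by positivity) ?_
      have : 1 ≤ 1 / t := (one_le_div ht0).2 ht.2
      rw [show 2 / t = 1 / t + 1 / t by ring]
      linarith
    have h3 := Real.log_le_rpow_div (show 0 ≤ 2 / t by positivity) (show 0 < s / 2 by positivity)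
    calc t ^ (s - 1) * Real.log (1 + 1 / t) ≤ t ^ (s - 1) * ((2 / t) ^ (s / 2) / (s / 2)) :=
          mul_le_mul_of_nonneg_left (h2.trans h3) (by positivity)
      _ = _ := by
          rw [Real.div_rpow zero_le_two ht0.le, show s / 2 - 1 = s - 1 - s / 2 by ring,
            Real.rpow_sub ht0 (s - 1)]
          ring
  · refine (integrableOn_Ioi_rpow_of_lt (show s - 2 < -1 by linarith) zero_lt_one).mono'
      hm.aestronglyMeasurable (ae_restrict_of_forall_mem measurableSet_Ioi fun t ht => ?_)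
    have ht0 : 0 < t := zero_lt_one.trans ht
    rw [Real.norm_of_nonneg (mul_nonneg (by positivity) (scalar_log_nonneg zero_le_one ht0))]
    have h2 : Real.log (1 + 1 / t) ≤ 1 / t := by
      have := Real.log_le_sub_one_of_pos (show 0 < 1 + 1 / t by positivity)
      linarith
    calc t ^ (s - 1) * Real.log (1 + 1 / t) ≤ t ^ (s - 1) * (1 / t) :=
          mul_le_mul_of_nonneg_left h2 (by positivity)
      _ = _ := by
          rw [show s - 2 = s - 1 - 1 by ring, Real.rpow_sub_one ht0.ne' (s - 1)]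
          ring

/-- Hint: `z = 0` trivial; for `z > 0` substitute `t = z u` (`integral_comp_mul_left_Ioi`).
Integrability: `log(1+1/t) ≤ 1/t` at infinity, `log(1+1/t) ≤ C t^(-s/2)` near `0`. -/
theorem int_log (hs0 : 0 < s) (hs1 : s < 1) {z : ℝ} (hz : 0 ≤ z) :
    IntegrableOn (fun t : ℝ => t ^ (s - 1) * Real.log (1 + z / t)) (Ioi 0) ∧
      ∫ t in Ioi (0 : ℝ), t ^ (s - 1) * Real.log (1 + z / t) = cI s * z ^ s := by
  rcases hz.eq_or_lt with rfl | hz
  · simp [Real.zero_rpow hs0.ne']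
  have key : EqOn (fun u : ℝ => z ^ (s - 1) * (u ^ (s - 1) * Real.log (1 + 1 / u)))
      (fun u : ℝ => (z * u) ^ (s - 1) * Real.log (1 + z / (z * u))) (Ioi 0) := fun u hu => by
    have hu0 : 0 < u := hu
    simp only
    rw [Real.mul_rpow hz.le hu0.le, show z / (z * u) = 1 / u by field_simp, mul_assoc]
  constructor
  · have h := (integrableOn_Ioi_comp_mul_left_iff
      (fun t : ℝ => t ^ (s - 1) * Real.log (1 + z / t)) 0 hz).1
      (IntegrableOn.congr_fun ((scalar_int_log_one hs0 hs1).const_mul (z ^ (s - 1))) key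
        measurableSet_Ioi)
    rwa [mul_zero] at h
  · have h := integral_comp_mul_left_Ioi'
      (fun t : ℝ => t ^ (s - 1) * Real.log (1 + z / t)) 0 hz
    rw [mul_zero, ← setIntegral_congr_fun measurableSet_Ioi key, integral_const_mul] at h
    rw [← h, smul_eq_mul, Real.rpow_sub_one hz.ne', cI]
    field_simp

theorem cI_pos (hs0 : 0 < s) (hs1 : s < 1) : 0 < cI s := by
  have hpos : ∀ t ∈ Ioi (0 : ℝ), 0 < t ^ (s - 1) * Real.log (1 + 1 / t) := fun t ht => by
    have ht0 : 0 < t := ht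
    exact mul_pos (by positivity) (Real.log_pos (lt_add_of_pos_right _ (by positivity)))
  rw [cI, setIntegral_pos_iff_support_of_nonneg_ae
    (ae_restrict_of_forall_mem measurableSet_Ioi fun t ht => (hpos t ht).le)
    (scalar_int_log_one hs0 hs1), inter_eq_right.2 fun t ht => Function.mem_support.2 (hpos t ht).ne']
  simp

/-- Fubini. -/
theorem scalar_fubini (hs0 : 0 < s) (hs1 : s < 1) {a b : ℝ} (hab : a ≤ b) {z : ℝ → ℝ}
    (hz : Continuous z) (hz0 : ∀ y ∈ Ioc a b, 0 ≤ z y) :
    IntegrableOn (fun t : ℝ => t ^ (s - 1) * ∫ y in a..b, Real.log (1 + z y / t)) (Ioi 0) ∧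
      ∫ t in Ioi (0 : ℝ), t ^ (s - 1) * ∫ y in a..b, Real.log (1 + z y / t)
        = cI s * ∫ y in a..b, z y ^ s := by
  have hm : Measurable z := hz.measurable
  have hI : Integrable (Function.uncurry fun y t : ℝ => t ^ (s - 1) * Real.log (1 + z y / t))
      ((volume.restrict (Ioc a b)).prod (volume.restrict (Ioi 0))) := by
    rw [integrable_prod_iff (Measurable.aestronglyMeasurable (by
      unfold Function.uncurry; fun_prop))]
    refine ⟨ae_restrict_of_forall_mem measurableSet_Ioc fun y hy =>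
      (int_log hs0 hs1 (hz0 y hy)).1, ?_⟩
    have h1 : IntegrableOn (fun y => cI s * z y ^ s) (Ioc a b) :=
      ((continuous_const.mul (hz.rpow_const fun _ => .inr hs0.le)).intervalIntegrable a b).1
    refine IntegrableOn.congr_fun h1 (fun y hy => ?_) measurableSet_Ioc
    simp only [Function.uncurry_apply_pair]
    rw [← (int_log hs0 hs1 (hz0 y hy)).2]
    refine setIntegral_congr_fun measurableSet_Ioi fun t ht => ?_
    have ht0 : 0 < t := ht
    exact (Real.norm_of_nonneg (mul_nonneg (by positivity) (scalar_log_nonneg (hz0 y hy) ht0))).symm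
  simp only [intervalIntegral.integral_of_le hab, ← integral_const_mul]
  refine ⟨hI.integral_prod_right, ?_⟩
  rw [← integral_integral_swap hI]
  exact setIntegral_congr_fun measurableSet_Ioc fun y hy => (int_log hs0 hs1 (hz0 y hy)).2

/-- Hint: `(t+h) log(1+h/t) - h = ∫₀^h log(1+z/t) dz` and Fubini/Tonelli with `int_log`. -/
theorem int_klog (hs0 : 0 < s) (hs1 : s < 1) {h : ℝ} (hh : 0 ≤ h) :
    IntegrableOn (fun t : ℝ => t ^ (s - 1) * ((t + h) * Real.log (1 + h / t) - h)) (Ioi 0) ∧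
      ∫ t in Ioi (0 : ℝ), t ^ (s - 1) * ((t + h) * Real.log (1 + h / t) - h)
        = cI s * (h ^ (1 + s) / (1 + s)) := by
  obtain ⟨h1, h2⟩ := scalar_fubini hs0 hs1 hh continuous_id fun y hy => hy.1.le
  have key : EqOn (fun t : ℝ => t ^ (s - 1) * ∫ y in (0 : ℝ)..h, Real.log (1 + id y / t))
      (fun t : ℝ => t ^ (s - 1) * ((t + h) * Real.log (1 + h / t) - h)) (Ioi 0) := fun t ht => by
    have ht0 : 0 < t := ht
    simp only [id]
    congr 1
    have hpos : ∀ y ∈ uIcc (0 : ℝ) h, 0 < 1 + y / t := fun y hy => by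
      rw [uIcc_of_le hh] at hy
      have := hy.1
      positivity
    have hd : ∀ y ∈ uIcc (0 : ℝ) h, HasDerivAt (fun y => (t + y) * Real.log (1 + y / t) - y)
        (Real.log (1 + y / t)) y := fun y hy => by
      refine HasDerivAt.congr_deriv ((((hasDerivAt_id' y).const_add t).fun_mul
        ((((hasDerivAt_id' y).div_const t).const_add 1).log (hpos y hy).ne')).fun_sub
          (hasDerivAt_id' y)) ?_
      have h4 : t + y ≠ 0 := by
        rw [uIcc_of_le hh] at hy
        have := hy.1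
        positivity
      field_simp
      ring
    rw [intervalIntegral.integral_eq_sub_of_hasDerivAt hd
      (ContinuousOn.log (by fun_prop) fun y hy => (hpos y hy).ne').intervalIntegrable]
    simp
  refine ⟨h1.congr_fun key measurableSet_Ioi, ?_⟩
  rw [← setIntegral_congr_fun measurableSet_Ioi key, h2]
  simp only [id]
  rw [integral_rpow (.inl (by linarith)), Real.zero_rpow (by linarith), sub_zero, add_comm s]

theorem scalar_cont (hs0 : 0 < s) (k : ℝ) : Continuous fun y : ℝ => (k ^ 2 - y ^ 2) ^ s :=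
  Continuous.rpow_const (by fun_prop) fun _ => .inr hs0.le

theorem scalar_cont_one (hs0 : 0 < s) : Continuous fun y : ℝ => (1 - y ^ 2) ^ s :=
  Continuous.rpow_const (by fun_prop) fun _ => .inr hs0.le

theorem cs_pos (hs0 : 0 < s) : 0 < cs s := by
  refine intervalIntegral.intervalIntegral_pos_of_pos_on
    ((scalar_cont_one hs0).intervalIntegrable _ _) (fun y hy => ?_) (by norm_num)
  exact Real.rpow_pos_of_pos (by nlinarith [hy.1, hy.2]) _

theorem psi_neg (hs0 : 0 < s) {k : ℝ} (hk : 0 ≤ k) : psi s k (-k) = cs s * k ^ (1 + 2 * s) := by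
  rcases hk.eq_or_lt with rfl | hk
  · simp [psi, Real.zero_rpow (show 1 + 2 * s ≠ 0 by positivity)]
  have h := intervalIntegral.integral_comp_mul_left (a := -1) (b := 1)
    (fun y : ℝ => (k ^ 2 - y ^ 2) ^ s) hk.ne'
  rw [mul_neg, mul_one, intervalIntegral.integral_congr
    (g := fun y : ℝ => k ^ (2 * s) * (1 - y ^ 2) ^ s) (fun y hy => ?_),
    intervalIntegral.integral_const_mul, smul_eq_mul] at h
  · rw [psi, Real.rpow_add hk, Real.rpow_one, cs]
    field_simp at h
    linear_combination -h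
  · rw [uIcc_of_le (by norm_num)] at hy
    simp only
    rw [show k ^ 2 - (k * y) ^ 2 = k ^ 2 * (1 - y ^ 2) by ring,
      Real.mul_rpow (by positivity) (by nlinarith [hy.1, hy.2]), Real.rpow_mul hk.le]
    norm_num

theorem psi_nonneg {k ξ : ℝ} (h : |ξ| ≤ k) : 0 ≤ psi s k ξ := by
  obtain ⟨h1, h2⟩ := abs_le.1 h
  exact intervalIntegral.integral_nonneg h2 fun y hy =>
    Real.rpow_nonneg (by nlinarith [hy.1, hy.2]) _

theorem psi_le (hs0 : 0 < s) {k ξ : ℝ} (h : |ξ| ≤ k) : psi s k ξ ≤ cs s * k ^ (1 + 2 * s) := by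
  obtain ⟨h1, h2⟩ := abs_le.1 h
  rw [← psi_neg hs0 ((abs_nonneg _).trans h)]
  exact intervalIntegral.integral_mono_interval h1 h2 le_rfl
    (ae_restrict_of_forall_mem measurableSet_Ioc fun y hy =>
      Real.rpow_nonneg (by nlinarith [hy.1, hy.2]) _) ((scalar_cont hs0 k).intervalIntegrable _ _)

/-- Fubini with `int_log`. -/
theorem int_psi (hs0 : 0 < s) (hs1 : s < 1) {k ξ : ℝ} (h : |ξ| ≤ k) :
    IntegrableOn (fun t : ℝ => t ^ (s - 1) * ∫ y in ξ..k, Real.log (1 + (k ^ 2 - y ^ 2) / t))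
        (Ioi 0) ∧
      ∫ t in Ioi (0 : ℝ), t ^ (s - 1) * ∫ y in ξ..k, Real.log (1 + (k ^ 2 - y ^ 2) / t)
        = cI s * psi s k ξ := by
  obtain ⟨h1, h2⟩ := abs_le.1 h
  exact scalar_fubini hs0 hs1 h2 (z := fun y => k ^ 2 - y ^ 2) (by fun_prop)
    fun y hy => by nlinarith [hy.1, hy.2]

theorem scalar_beta (hs0 : 0 < s) : ∫ u in (0 : ℝ)..1, u ^ s * (1 - u) ^ s =
    Real.Gamma (s + 1) * Real.Gamma (s + 1) / Real.Gamma (2 * (s + 1)) := by
  have h1 : Complex.betaIntegral (s + 1 : ℝ) (s + 1 : ℝ) =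
      ((∫ u in (0 : ℝ)..1, u ^ s * (1 - u) ^ s : ℝ) : ℂ) := by
    rw [Complex.betaIntegral, ← intervalIntegral.integral_ofReal]
    refine intervalIntegral.integral_congr fun u hu => ?_
    rw [uIcc_of_le zero_le_one] at hu
    rw [Complex.ofReal_mul, Complex.ofReal_cpow hu.1, Complex.ofReal_cpow (sub_nonneg.2 hu.2)]
    push_cast
    simp only [add_sub_cancel_right]
  have h2 := ProbabilityTheory.beta_eq_betaIntegralReal (s + 1) (s + 1) (by linarith) (by linarith)
  rw [h1, Complex.ofReal_re, ProbabilityTheory.beta] at h2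
  rw [← h2, two_mul]

theorem scalar_cs_eq (hs0 : 0 < s) :
    cs s = √Real.pi * Real.Gamma (s + 1) / Real.Gamma (s + 1 + 1 / 2) := by
  have h := intervalIntegral.integral_comp_mul_add (a := 0) (b := 1)
    (fun y : ℝ => (1 - y ^ 2) ^ s) (two_ne_zero) (-1)
  rw [intervalIntegral.integral_congr
    (g := fun u : ℝ => 2 ^ (2 * s) * (u ^ s * (1 - u) ^ s)) (fun u hu => ?_),
    intervalIntegral.integral_const_mul, smul_eq_mul, scalar_beta hs0] at h
  · have h2 := Real.Gamma_mul_Gamma_add_half_of_pos (show 0 < s + 1 by linarith)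
    have g1 := Real.Gamma_pos_of_pos (show 0 < s + 1 + 1 / 2 by linarith)
    have g2 := Real.Gamma_pos_of_pos (show 0 < 2 * (s + 1) by linarith)
    have h3 : (2 : ℝ) ^ (1 - 2 * (s + 1)) * (2 * 2 ^ (2 * s)) = 1 := by
      rw [← Real.rpow_one_add' zero_le_two (by positivity), ← Real.rpow_add two_pos]
      ring_nf
      simp
    norm_num at h
    rw [cs, eq_div_iff g1.ne']
    field_simp at h
    have h4 : Real.Gamma (2 * (s + 1)) * ((∫ y in (-1 : ℝ)..1, (1 - y ^ 2) ^ s) *
        Real.Gamma (s + 1 + 1 / 2)) = Real.Gamma (2 * (s + 1)) * (√Real.pi * Real.Gamma (s + 1)) := by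
      linear_combination (-Real.Gamma (s + 1 + 1 / 2)) * h +
        (2 * 2 ^ (2 * s) * Real.Gamma (s + 1)) * h2 +
        (Real.Gamma (2 * (s + 1)) * √Real.pi * Real.Gamma (s + 1)) * h3
    exact mul_left_cancel₀ g2.ne' h4
  · rw [uIcc_of_le zero_le_one] at hu
    have h1 := hu.1
    have h2 := sub_nonneg.2 hu.2
    simp only
    rw [show 1 - (2 * u + -1) ^ 2 = 2 ^ 2 * (u * (1 - u)) by ring,
      Real.mul_rpow (by positivity) (by positivity), Real.mul_rpow h1 h2,
      Real.rpow_mul zero_le_two]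
    norm_num

/-- Hint: `y = 2u - 1` turns `cs s` into `2 · 4^s · B(s+1, s+1)`; `Complex.Gamma_mul_Gamma_eq_betaIntegral`
and the duplication formula `Real.Gamma_mul_Gamma_add_half` give
`cs s = √π Γ(s+1) / Γ(s+3/2)`. -/
theorem sharpConst_eq (hs0 : 0 < s) : sharpConst (s + 1 / 2) = C1 s / cs s := by
  have g1 := Real.Gamma_pos_of_pos (show 0 < s + 1 + 1 / 2 by linarith)
  have g2 := Real.Gamma_pos_of_pos (show 0 < s + 1 by linarith)
  have hpi : 0 < √Real.pi := Real.sqrt_pos.2 Real.pi_pos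
  have h1 : C1 s = (s / (s + 1)) ^ s / (s + 1) := by
    rw [C1, Real.rpow_neg (by positivity), ← Real.inv_rpow (by positivity),
      show (s⁻¹ + 1)⁻¹ = s / (s + 1) by field_simp; ring, Real.rpow_add (by positivity),
      Real.rpow_one]
    field_simp
  rw [scalar_cs_eq hs0, h1, sharpConst, show s + 1 / 2 - 1 / 2 = s by ring,
    show s + 1 / 2 + 1 / 2 = s + 1 by ring, show s + 1 / 2 + 1 = s + 1 + 1 / 2 by ring,
    show s + 1 / 2 + 3 / 2 = s + 1 + 1 by ring, Real.Gamma_add_one (s := s + 1) (by positivity)]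
  field_simp

theorem scalar_tanh_deriv (x : ℝ) : HasDerivAt Real.tanh (1 / Real.cosh x ^ 2) x := by
  have h := (Real.hasDerivAt_sinh x).div (Real.hasDerivAt_cosh x) (Real.cosh_pos x).ne'
  have e : Real.tanh = Real.sinh / Real.cosh := funext fun y => Real.tanh_eq_sinh_div_cosh y
  rw [e]
  refine h.congr_deriv ?_
  congr 1
  have := Real.cosh_sq x
  nlinarith

theorem scalar_tanh_sq (x : ℝ) : 1 - Real.tanh x ^ 2 = 1 / Real.cosh x ^ 2 := by
  have := (Real.cosh_pos x).ne'
  rw [Real.tanh_eq_sinh_div_cosh]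
  field_simp
  have := Real.cosh_sq x
  linarith

/-- Hint: substitute `y = tanh (r a (x - c))`, i.e. an antiderivative is
`x ↦ const · ∫_{-1}^{tanh (r a (x-c))} (1 - y²)^s dy` (`integral_of_hasDerivAt_of_tendsto`,
`integrable_of_intervalIntegral_norm_bounded` or `integrableOn_Ioi_deriv_of_nonneg`). -/
theorem int_soliton (hs0 : 0 < s) {a : ℝ} (ha : 0 ≤ a) (c : ℝ) :
    Integrable (fun x => soliton s⁻¹ a c x ^ (1 + s)) ∧
      C1 s * ∫ x, soliton s⁻¹ a c x ^ (1 + s) = cs s * a ^ (1 + 2 * s) := by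
  rcases ha.eq_or_lt with rfl | ha
  · simp [soliton, Real.zero_rpow (show 1 + s ≠ 0 by positivity),
      Real.zero_rpow (show 1 + 2 * s ≠ 0 by positivity)]
  have hr : 0 < s⁻¹ * a := by positivity
  have hd : ∀ x ∈ (univ : Set ℝ), HasDerivWithinAt (fun x => Real.tanh (s⁻¹ * a * (x - c)))
      (1 / Real.cosh (s⁻¹ * a * (x - c)) ^ 2 * (s⁻¹ * a)) univ x := fun x _ => by
    have h1 : HasDerivAt (fun x => s⁻¹ * a * (x - c)) (s⁻¹ * a) x := by
      simpa using ((hasDerivAt_id' x).sub_const c).const_mul (s⁻¹ * a)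
    exact ((scalar_tanh_deriv _).comp x h1).hasDerivWithinAt
  have hinj : InjOn (fun x => Real.tanh (s⁻¹ * a * (x - c))) univ := fun x _ y _ h => by
    have := mul_left_cancel₀ hr.ne' (Real.tanh_injective h)
    linarith
  have him : (fun x => Real.tanh (s⁻¹ * a * (x - c))) '' univ = Ioo (-1) 1 := by
    ext y
    constructor
    · rintro ⟨x, -, rfl⟩
      exact ⟨Real.neg_one_lt_tanh _, Real.tanh_lt_one _⟩
    · intro hy
      obtain ⟨x, -, rfl⟩ := Real.tanh_bijOn.surjOn hy
      refine ⟨x / (s⁻¹ * a) + c, trivial, ?_⟩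
      simp only
      congr 1
      field_simp
      ring
  have key : (fun x => soliton s⁻¹ a c x ^ (1 + s)) = fun x =>
      ((s⁻¹ + 1) * a ^ 2) ^ (1 + s) / (s⁻¹ * a) *
        (|1 / Real.cosh (s⁻¹ * a * (x - c)) ^ 2 * (s⁻¹ * a)| •
          (1 - Real.tanh (s⁻¹ * a * (x - c)) ^ 2) ^ s) := by
    funext x
    have hc := Real.cosh_pos (s⁻¹ * a * (x - c))
    rw [scalar_tanh_sq, abs_of_pos (by positivity), smul_eq_mul, soliton, div_eq_mul_one_div,
      Real.mul_rpow (by positivity) (by positivity), Real.rpow_add (x := 1 / _) (by positivity),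
      Real.rpow_one]
    field_simp
  have i1 := (integrableOn_image_iff_integrableOn_abs_deriv_smul MeasurableSet.univ hd hinj
    (fun y : ℝ => (1 - y ^ 2) ^ s)).1 (by
      rw [him]
      exact ((scalar_cont_one hs0).intervalIntegrable (-1) 1).1.mono_set Ioo_subset_Ioc_self)
  have i2 := integral_image_eq_integral_abs_deriv_smul MeasurableSet.univ hd hinj
    (fun y : ℝ => (1 - y ^ 2) ^ s)
  rw [integrableOn_univ] at i1
  rw [him, Measure.restrict_univ, ← integral_Ioc_eq_integral_Ioo,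
    ← intervalIntegral.integral_of_le (by norm_num)] at i2
  rw [key]
  refine ⟨i1.const_mul _, ?_⟩
  rw [integral_const_mul, ← i2, C1, Real.mul_rpow (by positivity) (by positivity),
    Real.rpow_neg (by positivity), ← Real.rpow_natCast a 2, ← Real.rpow_mul ha.le,
    show ((2 : ℕ) : ℝ) * (1 + s) = 1 + (1 + 2 * s) by push_cast; ring, Real.rpow_add ha,
    Real.rpow_one, cs]
  have : 0 < (s⁻¹ + 1) ^ (1 + s) := by positivity
  field_simp

theorem int_res_log {α : ℝ} (hα : 0 < α) :
    IntegrableOn (fun u : ℝ => 1 / (1 + u) - 1 / (α + u)) (Ioi 0) ∧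
      ∫ u in Ioi (0 : ℝ), (1 / (1 + u) - 1 / (α + u)) = Real.log α := by
  have hd : ∀ u ∈ Ici (0 : ℝ), HasDerivAt (fun u => Real.log (1 + (1 - α) / (α + u)))
      (1 / (1 + u) - 1 / (α + u)) u := fun u hu => by
    have hu0 : 0 ≤ u := hu
    have h1 : 0 < α + u := by positivity
    have h2 : 1 + (1 - α) / (α + u) = (1 + u) / (α + u) := by field_simp; ring
    have h3 := (((hasDerivAt_const u (1 - α)).fun_div ((hasDerivAt_id' u).const_add α)
      h1.ne').const_add 1).log (by rw [h2]; positivity)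
    refine h3.congr_deriv ?_
    rw [h2]
    field_simp
    ring
  have ht : Tendsto (fun u => Real.log (1 + (1 - α) / (α + u))) atTop (𝓝 0) := by
    have h1 : Tendsto (fun u : ℝ => 1 + (1 - α) / (α + u)) atTop (𝓝 (1 + 0)) :=
      (tendsto_const_nhds.div_atTop (tendsto_atTop_add_const_left _ _ tendsto_id)).const_add 1
    simpa using h1.log (by norm_num)
  have hI : IntegrableOn (fun u : ℝ => 1 / (1 + u) - 1 / (α + u)) (Ioi 0) := by
    rcases le_total α 1 with h | h
    · refine integrableOn_Ioi_deriv_of_nonpos' hd (fun u hu => ?_) ht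
      have hu0 : 0 < u := hu
      exact sub_nonpos.2 (one_div_le_one_div_of_le (by positivity) (by linarith))
    · refine integrableOn_Ioi_deriv_of_nonneg' hd (fun u hu => ?_) ht
      have hu0 : 0 < u := hu
      exact sub_nonneg.2 (one_div_le_one_div_of_le (by positivity) (by linarith))
  refine ⟨hI, ?_⟩
  rw [integral_Ioi_of_hasDerivAt_of_tendsto' hd hI ht,
    show 1 + (1 - α) / (α + 0) = α⁻¹ by field_simp; ring, Real.log_inv]
  ring

theorem int_res_two {α : ℝ} (hα : 0 < α) :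
    IntegrableOn (fun u : ℝ => α ^ 2 / (α + u) ^ 2) (Ioi 0) ∧
      ∫ u in Ioi (0 : ℝ), α ^ 2 / (α + u) ^ 2 = α := by
  have hd : ∀ u ∈ Ici (0 : ℝ), HasDerivAt (fun u => -α ^ 2 / (α + u))
      (α ^ 2 / (α + u) ^ 2) u := fun u hu => by
    have hu0 : 0 ≤ u := hu
    have h1 : 0 < α + u := by positivity
    refine ((hasDerivAt_const u (-α ^ 2)).fun_div ((hasDerivAt_id' u).const_add α)
      h1.ne').congr_deriv ?_
    ring
  have ht : Tendsto (fun u : ℝ => -α ^ 2 / (α + u)) atTop (𝓝 0) :=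
    tendsto_const_nhds.div_atTop (tendsto_atTop_add_const_left _ _ tendsto_id)
  refine ⟨integrableOn_Ioi_deriv_of_nonneg' hd (fun u _ => by positivity) ht, ?_⟩
  rw [integral_Ioi_of_hasDerivAt_of_nonneg' hd (fun u _ => by positivity) ht]
  field_simp
  ring

theorem int_res_one {α : ℝ} (hα : 0 < α) :
    IntegrableOn (fun u : ℝ => 1 / (1 + u) - u / (α + u) ^ 2) (Ioi 0) ∧
      ∫ u in Ioi (0 : ℝ), (1 / (1 + u) - u / (α + u) ^ 2) = Real.log α + 1 := by
  obtain ⟨h1, h2⟩ := int_res_log hα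
  obtain ⟨h3, h4⟩ := int_res_two hα
  have key : EqOn (fun u : ℝ => (1 / (1 + u) - 1 / (α + u)) + α⁻¹ * (α ^ 2 / (α + u) ^ 2))
      (fun u : ℝ => 1 / (1 + u) - u / (α + u) ^ 2) (Ioi 0) := fun u hu => by
    have hu0 : 0 < u := hu
    simp only
    field_simp
    ring
  refine ⟨IntegrableOn.congr_fun (h1.add (h3.const_mul α⁻¹)) key measurableSet_Ioi, ?_⟩
  rw [← setIntegral_congr_fun measurableSet_Ioi key, integral_add h1 (h3.const_mul α⁻¹),
    integral_const_mul, h2, h4, inv_mul_cancel₀ hα.ne']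

theorem scalar_phi_strictMono (hs0 : 0 < s) {η : ℝ} (hη : 0 < η) : StrictMonoOn
    (fun m : ℝ => s⁻¹ * (m ^ (1 + s) - η ^ (1 + s)) - (s⁻¹ + 1) * η ^ s * (m - η)) (Ici η) := by
  have hd : ∀ m : ℝ, HasDerivAt
      (fun m : ℝ => s⁻¹ * (m ^ (1 + s) - η ^ (1 + s)) - (s⁻¹ + 1) * η ^ s * (m - η))
      ((s⁻¹ + 1) * (m ^ s - η ^ s)) m := fun m => by
    refine ((((Real.hasDerivAt_rpow_const (x := m) (p := 1 + s) (.inr (by linarith))).sub_const
      (η ^ (1 + s))).const_mul s⁻¹).fun_sub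
      (((hasDerivAt_id' m).sub_const η).const_mul ((s⁻¹ + 1) * η ^ s))).congr_deriv ?_
    rw [add_sub_cancel_left]
    field_simp
  refine strictMonoOn_of_deriv_pos (convex_Ici η)
    (fun m _ => (hd m).continuousAt.continuousWithinAt) fun m hm => ?_
  rw [interior_Ici] at hm
  rw [(hd m).deriv]
  exact mul_pos (by positivity) (sub_pos.2 (Real.rpow_lt_rpow hη.le hm hs0))

theorem phi_nonneg (hs0 : 0 < s) {η : ℝ} (hη : 0 < η) (h : ℝ) : 0 ≤ phi s η h := by
  have := (scalar_phi_strictMono hs0 hη).monotoneOn self_mem_Ici (le_max_right h η)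
    (le_max_right h η)
  simpa [phi] using this

/-- Hint: `r (1+s) = r + 1` and strict convexity of `x^(1+s)`. -/
theorem le_of_phi_eq_zero (hs0 : 0 < s) {η h : ℝ} (hη : 0 < η) (h0 : phi s η h = 0) : h ≤ η := by
  by_contra hcon
  have hlt := not_le.1 hcon
  have := scalar_phi_strictMono hs0 hη self_mem_Ici hlt.le hlt
  rw [phi, max_eq_left hlt.le] at h0
  simp only [h0] at this
  simp at this

theorem phi_mono (hs0 : 0 < s) {η : ℝ} (hη : 0 < η) : Monotone (phi s η) := fun _ _ h =>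
  (scalar_phi_strictMono hs0 hη).monotoneOn (le_max_right _ η) (le_max_right _ η)
    (max_le_max_right η h)

theorem continuous_phi (hs0 : 0 < s) (η : ℝ) : Continuous (phi s η) := by
  have h1 : Continuous fun h : ℝ => (max h η) ^ (1 + s) :=
    Continuous.rpow_const (by fun_prop) fun _ => .inr (by linarith)
  unfold phi
  fun_prop

end Crest.Agent.R332
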