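import Crest.Agent.R332.Calc
import Crest.Agent.R332.Scalar

/-! # Row 332: soliton sums are extremal -/

set_option autoImplicit false

open MeasureTheory Set Filter Topology
open scoped Matrix Matrix.Norms.L2Operator MatrixOrder ComplexOrder

namespace Crest.Agent.R332

open Crest.MathPhysics.LiebThirring
open scoped ContDiff

/-- the ground state of the soliton potential -/
noncomputable def easyU (s a c x : ℝ) : ℝ := Real.cosh (s⁻¹ * a * (x - c)) ^ (-s)

/-- its logarithmic derivative -/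
noncomputable def easyX (s a c x : ℝ) : ℝ :=
  -a * (Real.sinh (s⁻¹ * a * (x - c)) / Real.cosh (s⁻¹ * a * (x - c)))

lemma easy_lin (s a c x : ℝ) : HasDerivAt (fun x => s⁻¹ * a * (x - c)) (s⁻¹ * a) x := by
  simpa using ((hasDerivAt_id x).sub_const c).const_mul (s⁻¹ * a)

lemma easyU_deriv {s : ℝ} (hs0 : 0 < s) (a c x : ℝ) :
    HasDerivAt (easyU s a c) (easyX s a c x * easyU s a c x) x := by
  have hp := Real.cosh_pos (s⁻¹ * a * (x - c))
  have h := ((easy_lin s a c x).cosh).rpow_const (p := -s) (Or.inl hp.ne')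
  refine HasDerivAt.congr_deriv (f := easyU s a c) h ?_
  unfold easyX easyU
  rw [Real.rpow_sub_one hp.ne']
  field_simp

lemma easyX_deriv (s a c x : ℝ) :
    HasDerivAt (easyX s a c) (a ^ 2 - soliton s⁻¹ a c x - easyX s a c x ^ 2) x := by
  have hp := Real.cosh_pos (s⁻¹ * a * (x - c))
  have h := (((easy_lin s a c x).sinh).div ((easy_lin s a c x).cosh) hp.ne').const_mul (-a)
  refine HasDerivAt.congr_deriv (f := easyX s a c) h ?_
  unfold easyX soliton
  have h1 := Real.cosh_sq (s⁻¹ * a * (x - c))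
  generalize Real.cosh (s⁻¹ * a * (x - c)) = C at *
  generalize Real.sinh (s⁻¹ * a * (x - c)) = S at *
  generalize s⁻¹ = r at *
  field_simp
  linear_combination (-a ^ 2 * (1 + r)) * h1

lemma easyU_smooth (s a c : ℝ) : ContDiff ℝ ∞ (easyU s a c) := by
  unfold easyU
  refine ContDiff.rpow_const_of_ne ?_ fun x => (Real.cosh_pos _).ne'
  exact Real.contDiff_cosh.comp (by fun_prop)

lemma easyU_pos (s a c x : ℝ) : 0 < easyU s a c x := Real.rpow_pos_of_pos (Real.cosh_pos _) _

lemma easyU_le {s : ℝ} (hs0 : 0 < s) (a c x : ℝ) : easyU s a c x ≤ 1 :=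
  Real.rpow_le_one_of_one_le_of_nonpos (Real.one_le_cosh _) (by linarith)

lemma easyX_cont (s a c : ℝ) : Continuous (easyX s a c) :=
  continuous_iff_continuousAt.2 fun x => (easyX_deriv s a c x).continuousAt

lemma easy_sol_cont (r a c : ℝ) : Continuous (soliton r a c) := by
  unfold soliton
  refine Continuous.div continuous_const (by fun_prop) fun x => ?_
  exact pow_ne_zero _ (Real.cosh_pos _).ne'

lemma easy_int {χ g : ℝ → ℝ} (hχ : HasCompactSupport χ) (hg : Continuous g)
    (h : ∀ x, χ x = 0 → deriv χ x = 0 → g x = 0) : Integrable g := by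
  refine hg.integrable_of_hasCompactSupport (HasCompactSupport.intro hχ fun x hx => ?_)
  refine h x (image_eq_zero_of_notMem_tsupport hx) ?_
  by_contra hne
  exact hx (support_deriv_subset hne)

/-- ground state substitution -/
lemma easy_gs {s : ℝ} (hs0 : 0 < s) (a c : ℝ) {χ : ℝ → ℝ} (h1 : ContDiff ℝ ∞ χ)
    (h2 : HasCompactSupport χ) :
    ∫ x, (deriv (fun x => χ x * easyU s a c x) x ^ 2 -
        soliton s⁻¹ a c x * (χ x * easyU s a c x) ^ 2) =
      (∫ x, (deriv χ x * easyU s a c x) ^ 2) - a ^ 2 * ∫ x, (χ x * easyU s a c x) ^ 2 := by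
  have hd : ∀ x, HasDerivAt χ (deriv χ x) x := fun x =>
    (h1.differentiable (by simp) x).hasDerivAt
  have c1 : Continuous χ := h1.continuous
  have c2 : Continuous (deriv χ) := h1.continuous_deriv (by simp)
  have c3 : Continuous (easyU s a c) := (easyU_smooth s a c).continuous
  have c4 := easyX_cont s a c
  have c5 := easy_sol_cont s⁻¹ a c
  let g : ℝ → ℝ := fun x => χ x ^ 2 * easyX s a c x * easyU s a c x ^ 2
  let g' : ℝ → ℝ := fun x => (2 * χ x * deriv χ x * easyX s a c x +
    χ x ^ 2 * (a ^ 2 - soliton s⁻¹ a c x + easyX s a c x ^ 2)) * easyU s a c x ^ 2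
  have hg : ∀ x, HasDerivAt g (g' x) x := fun x => by
    have := (((hd x).pow 2).mul (easyX_deriv s a c x)).mul ((easyU_deriv hs0 a c x).pow 2)
    refine HasDerivAt.congr_deriv (f := g) this ?_
    simp only [g', Pi.mul_apply, Pi.pow_apply]
    norm_num
    ring
  have ig' : Integrable g' := easy_int h2 (by fun_prop) fun x h _ => by simp [g', h]
  have ig : Integrable g := easy_int h2 (by fun_prop) fun x h _ => by simp [g, h]
  have h0 := integral_eq_zero_of_hasDerivAt_of_integrable hg ig' ig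
  have i1 : Integrable fun x => (deriv χ x * easyU s a c x) ^ 2 :=
    easy_int h2 (by fun_prop) fun x _ h => by simp [h]
  have i2 : Integrable fun x => (χ x * easyU s a c x) ^ 2 :=
    easy_int h2 (by fun_prop) fun x h _ => by simp [h]
  have e : ∀ x, deriv (fun x => χ x * easyU s a c x) x ^ 2 -
      soliton s⁻¹ a c x * (χ x * easyU s a c x) ^ 2 =
      ((deriv χ x * easyU s a c x) ^ 2 - a ^ 2 * (χ x * easyU s a c x) ^ 2) + g' x := fun x => by
    have : deriv (fun x => χ x * easyU s a c x) x =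
        deriv χ x * easyU s a c x + χ x * (easyX s a c x * easyU s a c x) :=
      ((hd x).mul (easyU_deriv hs0 a c x)).deriv
    rw [this]
    simp only [g']
    ring
  simp_rw [e]
  have i3 : Integrable fun x => (deriv χ x * easyU s a c x) ^ 2 -
      a ^ 2 * (χ x * easyU s a c x) ^ 2 := i1.sub (i2.const_mul _)
  rw [integral_add i3 ig', h0, add_zero, integral_sub i1 (i2.const_mul _),
    integral_const_mul]

/-- cutoff functions -/
lemma easy_cut (c : ℝ) : ∃ (χ : ℝ → ℝ → ℝ) (K : ℝ), (∀ L, ContDiff ℝ ∞ (χ L)) ∧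
    (∀ L, 0 < L → HasCompactSupport (χ L)) ∧ χ 1 c = 1 ∧ (∀ x, 0 ≤ χ 1 x) ∧
    (∀ L, 2 ≤ L → ∀ x, χ 1 x ≤ χ L x) ∧ ∀ L, 0 < L → ∫ x, deriv (χ L) x ^ 2 = K / L := by
  let b : ContDiffBump (0 : ℝ) := ⟨1, 2, one_pos, one_lt_two⟩
  have hb : ContDiff ℝ ∞ b := b.contDiff
  refine ⟨fun L x => b ((x - c) / L), ∫ x, deriv b x ^ 2, fun L => hb.comp (by fun_prop),
    fun L hL => ?_, ?_, fun x => b.nonneg, fun L hL x => ?_, fun L hL => ?_⟩
  · refine HasCompactSupport.intro (isCompact_Icc (a := c - 2 * L) (b := c + 2 * L)) fun x hx => ?_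
    refine b.zero_of_le_dist ?_
    show (2 : ℝ) ≤ _
    rw [Real.dist_eq, sub_zero, abs_div, abs_of_pos hL, le_div_iff₀ hL]
    rw [mem_Icc, not_and_or, not_le, not_le] at hx
    rcases hx with hx | hx
    · rw [abs_of_neg (by linarith)]; linarith
    · rw [abs_of_pos (by linarith)]; linarith
  · refine b.one_of_mem_closedBall ?_
    simp [b]
  · by_cases hx : |x - c| ≤ 2
    · have : b ((x - c) / L) = 1 := by
        refine b.one_of_mem_closedBall ?_
        show dist _ _ ≤ (1 : ℝ)
        have hL0 : 0 < L := by linarith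
        rw [Real.dist_eq, sub_zero, abs_div, abs_of_pos hL0, div_le_one hL0]
        linarith
      simp only [this]
      exact b.le_one
    · have : b ((x - c) / 1) = 0 := by
        refine b.zero_of_le_dist ?_
        show (2 : ℝ) ≤ _
        rw [Real.dist_eq, sub_zero, div_one]
        linarith [not_le.1 hx]
      simp only [this]
      exact b.nonneg
  · have e : ∀ x, deriv (fun x => b ((x - c) / L)) x ^ 2 =
        (L ^ 2)⁻¹ * (fun y => deriv b (y / L) ^ 2) (x - c) := fun x => by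
      have h1 : HasDerivAt (fun x => (x - c) / L) (1 / L) x :=
        ((hasDerivAt_id x).sub_const c).div_const L
      have h2 := ((hb.differentiable (by simp) ((x - c) / L)).hasDerivAt.comp x h1).deriv
      have h3 : deriv (fun x => b ((x - c) / L)) x = deriv b ((x - c) / L) * (1 / L) := h2
      rw [h3]
      field_simp
    simp_rw [e]
    rw [integral_const_mul, integral_sub_right_eq_self (fun y => deriv b (y / L) ^ 2) c,
      Measure.integral_comp_div (fun y => deriv b y ^ 2) L, abs_of_pos hL, smul_eq_mul]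
    field_simp

/-- For `a = 0` any normalised bump works.  For `a > 0`: `u = cosh(r a (x-c))^(-s)` solves
`u'' = (a² - V) u`; for a smooth cutoff `χ_L(x) = χ((x-c)/L)` (`ContDiffBump`),
`∫ (χu)'² - V (χu)² = ∫ χ'² u² - a² ∫ (χu)²` (integrate `(χ² u u')'`), `∫ χ_L'² u² ≤ C/L`
(`u ≤ 1`) and `∫ (χ_L u)² ≥ ∫_{c-1}^{c+1} u² > 0`; normalise. -/
theorem easy_scalar {s : ℝ} (hs0 : 0 < s) {a : ℝ} (ha : 0 ≤ a) (c : ℝ) {ε : ℝ} (hε : 0 < ε) :
    ∃ f : ℝ → ℝ, ContDiff ℝ ∞ f ∧ HasCompactSupport f ∧ ∫ x, f x ^ 2 = 1 ∧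
      a ^ (1 + 2 * s) - ε <
        (max (-(∫ x, (deriv f x ^ 2 - soliton s⁻¹ a c x * f x ^ 2))) 0) ^ (s + 1 / 2) := by
  obtain ⟨χ, K, h1, h2, h3, h4, h5, h6⟩ := easy_cut c
  have c3 : Continuous (easyU s a c) := (easyU_smooth s a c).continuous
  have i2 : ∀ L, 0 < L → Integrable fun x => (χ L x * easyU s a c x) ^ 2 := fun L hL =>
    easy_int (h2 L hL) (((h1 L).continuous.mul c3).pow 2) fun x h _ => by simp [h]
  have hN : 0 < ∫ x, (χ 1 x * easyU s a c x) ^ 2 := by
    refine Continuous.integral_pos_of_hasCompactSupport_nonneg_nonzero (x := c)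
      (((h1 1).continuous.mul c3).pow 2) ?_ (fun x => sq_nonneg _) ?_
    · exact HasCompactSupport.intro (h2 1 one_pos) fun x hx => by
        simp [image_eq_zero_of_notMem_tsupport hx]
    · rw [h3, one_mul]
      exact pow_ne_zero _ (easyU_pos s a c c).ne'
  set N₀ := ∫ x, (χ 1 x * easyU s a c x) ^ 2
  have hK : 0 ≤ K := by
    have := h6 1 one_pos
    rw [div_one] at this
    rw [← this]
    exact integral_nonneg fun x => sq_nonneg _
  obtain ⟨δ, hδ, hδ'⟩ : ∃ δ > 0, a ^ (1 + 2 * s) - ε < (max (a ^ 2 - δ) 0) ^ (s + 1 / 2) := by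
    have hc : Continuous fun δ : ℝ => (max (a ^ 2 - δ) 0) ^ (s + 1 / 2) :=
      Continuous.rpow_const (by fun_prop) fun _ => Or.inr (by linarith)
    have h0 : a ^ (1 + 2 * s) - ε < (fun δ : ℝ => (max (a ^ 2 - δ) 0) ^ (s + 1 / 2)) 0 := by
      simp only [sub_zero]
      rw [max_eq_left (sq_nonneg a), ← Real.rpow_natCast, ← Real.rpow_mul ha]
      have : ((2 : ℕ) : ℝ) * (s + 1 / 2) = 1 + 2 * s := by push_cast; ring
      rw [this]
      linarith
    have hev := (hc.tendsto 0).eventually (lt_mem_nhds h0)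
    obtain ⟨δ, h, h'⟩ := ((hev.filter_mono nhdsWithin_le_nhds).and
      (self_mem_nhdsWithin (s := Ioi (0 : ℝ)))).exists
    exact ⟨δ, h', h⟩
  set L : ℝ := 2 + K / (δ * N₀) with hLdef
  have hL2 : 2 ≤ L := by
    have : 0 ≤ K / (δ * N₀) := by positivity
    linarith
  have hL : 0 < L := by linarith
  have hNL : N₀ ≤ ∫ x, (χ L x * easyU s a c x) ^ 2 := by
    refine integral_mono (i2 1 one_pos) (i2 L hL) fun x => ?_
    have := easyU_pos s a c x
    exact pow_le_pow_left₀ (mul_nonneg (h4 x) this.le)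
      (mul_le_mul_of_nonneg_right (h5 L hL2 x) this.le) 2
  have hgs := easy_gs hs0 a c (h1 L) (h2 L hL)
  have hA : ∫ x, (deriv (χ L) x * easyU s a c x) ^ 2 ≤ K / L := by
    rw [← h6 L hL]
    have c2 : Continuous (deriv (χ L)) := (h1 L).continuous_deriv (by simp)
    refine integral_mono (easy_int (h2 L hL) ((c2.mul c3).pow 2) fun x _ h => by simp [h])
      (easy_int (h2 L hL) (c2.pow 2) fun x _ h => by simp [h]) fun x => ?_
    have h7 : easyU s a c x ^ 2 ≤ 1 := pow_le_one₀ (easyU_pos s a c x).le (easyU_le hs0 a c x)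
    show (deriv (χ L) x * easyU s a c x) ^ 2 ≤ deriv (χ L) x ^ 2
    rw [mul_pow]
    exact mul_le_of_le_one_right (sq_nonneg _) h7
  set N := ∫ x, (χ L x * easyU s a c x) ^ 2 with hNdef
  have hNpos : 0 < N := hN.trans_le hNL
  have hk : (√N)⁻¹ ^ 2 = N⁻¹ := by rw [inv_pow, Real.sq_sqrt hNpos.le]
  refine ⟨fun x => (√N)⁻¹ * (χ L x * easyU s a c x),
    contDiff_const.mul ((h1 L).mul (easyU_smooth s a c)), ((h2 L hL).mul_right).mul_left, ?_, ?_⟩
  · simp_rw [mul_pow (√N)⁻¹]
    rw [integral_const_mul, hk, ← hNdef, inv_mul_cancel₀ hNpos.ne']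
  · have e : ∀ x, deriv (fun x => (√N)⁻¹ * (χ L x * easyU s a c x)) x ^ 2 -
        soliton s⁻¹ a c x * ((√N)⁻¹ * (χ L x * easyU s a c x)) ^ 2 =
        N⁻¹ * (deriv (fun x => χ L x * easyU s a c x) x ^ 2 -
          soliton s⁻¹ a c x * (χ L x * easyU s a c x) ^ 2) := fun x => by
      rw [deriv_const_mul_field, mul_pow, mul_pow (√N)⁻¹, hk]
      ring
    simp_rw [e]
    rw [integral_const_mul, hgs]
    refine hδ'.trans_le (Real.rpow_le_rpow (le_max_right _ _) (max_le_max_right _ ?_)
      (by linarith))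
    have h8 : K / L ≤ δ * N := by
      have h9 : K / L ≤ δ * N₀ := by
        rw [div_le_iff₀ hL, hLdef, mul_add, mul_div_cancel₀ _ (by positivity)]
        have : 0 < δ * N₀ := by positivity
        linarith
      exact h9.trans (mul_le_mul_of_nonneg_left hNL hδ.le)
    have h10 : N⁻¹ * (∫ x, (deriv (χ L) x * easyU s a c x) ^ 2) ≤ δ := by
      rw [inv_mul_le_iff₀ hNpos]
      linarith
    rw [mul_sub, mul_comm (a ^ 2), ← mul_assoc, inv_mul_cancel₀ hNpos.ne', one_mul]
    linarith

/-- `φ_i(x) = f_i(x) • (i-th column of U)`; the energy matrix is `dg` of the scalar energies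
(`cfc_dg`, `rt_dg`), and `∫ tr W^(1+s) = Σ ∫ soliton^(1+s)` (`cfc_conj_dg`, `int_soliton`). -/
theorem easy {s : ℝ} (hs0 : 0 < s) {m : ℕ} {W : ℝ → Mat (Fin m)}
    (U : Matrix.unitaryGroup (Fin m) ℂ) (a c : Fin m → ℝ) (ha : ∀ i, 0 ≤ a i)
    (hW : ∀ᵐ x, W x = solMat s U a c x) {ε : ℝ} (hε : 0 < ε) :
    ∃ (n : ℕ) (φ : Fin n → ℝ → Vec m), IsTrialFamily φ ∧
      C1 s / cs s * (∫ x, rt (pw (W x) (1 + s))) - ε < negMoment (energyMatrix W φ) (s + 1 / 2) := by
  have hε' : 0 < ε / (m + 1) := by positivity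
  choose f hf1 hf2 hf3 hf4 using fun i => easy_scalar hs0 (ha i) (c i) hε'
  let v : Fin m → Vec m := fun k => WithLp.toLp 2 fun j => (U : Mat (Fin m)) j k
  have hU : star (U : Mat (Fin m)) * (U : Mat (Fin m)) = 1 := U.2.1
  have hv : ∀ k l, inner ℂ (v k) (v l) = if k = l then (1 : ℂ) else 0 := fun k l => by
    have := congrFun (congrFun hU k) l
    rw [Matrix.mul_apply, Matrix.one_apply] at this
    rw [← this, PiLp.inner_apply]
    refine Finset.sum_congr rfl fun j _ => ?_
    simp [v, mul_comm]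
  have hWv : ∀ x l, Matrix.toEuclideanLin (solMat s U a c x) (v l) =
      ((soliton s⁻¹ (a l) (c l) x : ℝ) : ℂ) • v l := fun x l => by
    have h1 : solMat s U a c x * (U : Mat (Fin m)) =
        (U : Mat (Fin m)) * dg fun i => soliton s⁻¹ (a i) (c i) x := by
      rw [solMat, Matrix.mul_assoc, hU, Matrix.mul_one]
    ext j
    have h2 := congrFun (congrFun h1 j) l
    rw [dg, Matrix.mul_diagonal, Matrix.mul_apply] at h2
    simp only [v, Matrix.toLpLin_apply, PiLp.smul_apply, smul_eq_mul]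
    rw [mul_comm, ← h2]
    rfl
  let φ : Fin m → ℝ → Vec m := fun k x => ((f k x : ℝ) : ℂ) • v k
  have hd : ∀ k x, deriv (φ k) x = ((deriv (f k) x : ℝ) : ℂ) • v k := fun k x =>
    ((((hf1 k).differentiable (by simp) x).hasDerivAt.ofReal_comp).smul_const (v k)).deriv
  refine ⟨m, φ, ⟨fun k => ?_, fun k => ?_, fun k l => ?_⟩, ?_⟩
  · exact (Complex.ofRealCLM.contDiff.comp (hf1 k)).smul contDiff_const
  · exact HasCompactSupport.intro (hf2 k) fun x hx => by
      simp [φ, image_eq_zero_of_notMem_tsupport hx]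
  · simp only [φ, inner_smul_left, inner_smul_right, hv, Complex.conj_ofReal]
    split_ifs with h
    · subst h
      have : ∀ x, ((f k x : ℝ) : ℂ) * (((f k x : ℝ) : ℂ) * 1) = ((f k x ^ 2 : ℝ) : ℂ) := fun x => by
        push_cast; ring
      simp_rw [this]
      rw [integral_complex_ofReal, hf3]
      simp
    · simp
  · have hE : energyMatrix W φ =
        dg fun i => ∫ x, (deriv (f i) x ^ 2 - soliton s⁻¹ (a i) (c i) x * f i x ^ 2) := by
      ext k l
      rw [energyMatrix, Matrix.of_apply, dg, Matrix.diagonal_apply]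
      have h1 : ∀ᵐ x, (inner ℂ (deriv (φ k) x) (deriv (φ l) x) -
          inner ℂ (φ k x) (Matrix.toEuclideanLin (W x) (φ l x))) =
          if k = l then ((deriv (f k) x ^ 2 - soliton s⁻¹ (a k) (c k) x * f k x ^ 2 : ℝ) : ℂ)
          else 0 := by
        filter_upwards [hW] with x hx
        rw [hx, hd, hd]
        simp only [φ, map_smul, hWv, inner_smul_left, inner_smul_right, hv, Complex.conj_ofReal]
        split_ifs with h
        · subst h
          push_cast; ring
        · simp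
      rw [integral_congr_ae h1]
      split_ifs with h
      · exact integral_ofReal
      · simp
    have hI : ∫ x, rt (pw (W x) (1 + s)) = ∑ i, ∫ x, soliton s⁻¹ (a i) (c i) x ^ (1 + s) := by
      rw [← integral_finsetSum _ fun i _ => (int_soliton hs0 (ha i) (c i)).1]
      refine integral_congr_ae ?_
      filter_upwards [hW] with x hx
      rw [hx, pw, solMat, cfc_conj_dg, rt_conj, rt_dg]
    have hcs := cs_pos hs0
    have hS : C1 s / cs s * ∑ i, ∫ x, soliton s⁻¹ (a i) (c i) x ^ (1 + s) =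
        ∑ i, a i ^ (1 + 2 * s) := by
      rw [Finset.mul_sum]
      refine Finset.sum_congr rfl fun i _ => ?_
      rw [div_mul_eq_mul_div, (int_soliton hs0 (ha i) (c i)).2, mul_div_cancel_left₀ _ hcs.ne']
    have hn : negMoment (energyMatrix W φ) (s + 1 / 2) = ∑ i, (max (-(∫ x, (deriv (f i) x ^ 2 -
        soliton s⁻¹ (a i) (c i) x * f i x ^ 2))) 0) ^ (s + 1 / 2) := by
      rw [hE, negMoment, cfc_dg]
      exact rt_dg _
    rw [hI, hS, hn]
    have h2 := Finset.sum_le_sum fun i (_ : i ∈ Finset.univ) => (hf4 i).le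
    rw [Finset.sum_sub_distrib, Finset.sum_const, Finset.card_univ, Fintype.card_fin,
      nsmul_eq_mul] at h2
    have h3 : (m : ℝ) * (ε / (m + 1)) < ε := by
      rw [← mul_div_assoc, div_lt_iff₀ (by positivity)]
      linarith
    linarith

end Crest.Agent.R332
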