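import Crest.Agent.R332.HJ

/-! # Row 332: passing to the limit in a sequence of top blocks -/

set_option autoImplicit false

open MeasureTheory Set Filter Topology
open scoped Matrix Matrix.Norms.L2Operator MatrixOrder ComplexOrder

namespace Crest.Agent.R332

/-- Arzelà–Ascoli, pointwise version.  Hint: subsequence converging at all rationals (the space
`ℚ → closedBall 0 C` is compact and first countable), then Cauchy at every point. -/
theorem aa_subseq {E : Type*} [NormedAddCommGroup E] [ProperSpace E] (f : ℕ → ℝ → E) (C : ℝ)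
    (h1 : ∀ k x, ‖f k x‖ ≤ C) (h2 : ∀ k x y, ‖f k x - f k y‖ ≤ C * (√|x - y| + |x - y|)) :
    ∃ (φ : ℕ → ℕ) (g : ℝ → E), StrictMono φ ∧ Continuous g ∧
      ∀ x, Tendsto (fun k => f (φ k) x) atTop (𝓝 (g x)) := by
  have hm : ∀ y : ℝ, Tendsto (fun x : ℝ => C * (√|x - y| + |x - y|)) (𝓝 y) (𝓝 0) := fun y => by
    have : Continuous fun x : ℝ => C * (√|x - y| + |x - y|) := by fun_prop
    simpa using this.tendsto y
  have hK : IsCompact (Set.pi univ fun _ : ℚ => Metric.closedBall (0 : E) C) :=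
    isCompact_univ_pi fun _ => isCompact_closedBall _ _
  obtain ⟨u, -, φ, hφ, hu⟩ := hK.tendsto_subseq (x := fun k (r : ℚ) => f k r)
    fun k r _ => by simpa using h1 k r
  have hu' : ∀ r : ℚ, CauchySeq fun k => f (φ k) r := fun r =>
    (((continuous_apply r).tendsto u).comp hu).cauchySeq
  have hc : ∀ x, CauchySeq fun k => f (φ k) x := fun x => by
    rw [Metric.cauchySeq_iff]
    intro ε hε
    have h3 : ∀ᶠ y in 𝓝 x, C * (√|y - x| + |y - x|) < ε / 3 :=
      (tendsto_order.1 (hm x)).2 _ (by positivity)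
    obtain ⟨_, ⟨r, rfl⟩, h4⟩ := Rat.denseRange_cast.inter_nhds_nonempty h3
    obtain ⟨N, hN⟩ := Metric.cauchySeq_iff.1 (hu' r) (ε / 3) (by positivity)
    refine ⟨N, fun i hi j hj => ?_⟩
    have a1 := h2 (φ i) r x
    have a2 := h2 (φ j) r x
    have a3 := hN i hi j hj
    rw [← dist_eq_norm] at a1 a2
    have a4 := dist_triangle4 (f (φ i) x) (f (φ i) r) (f (φ j) r) (f (φ j) x)
    rw [dist_comm] at a1
    simp only [mem_ofPred_eq] at h4
    linarith
  choose g hg using fun x => cauchySeq_tendsto_of_complete (hc x)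
  refine ⟨φ, g, hφ, continuous_iff_continuousAt.2 fun y => ?_, hg⟩
  rw [ContinuousAt, tendsto_iff_norm_sub_tendsto_zero]
  refine squeeze_zero (fun _ => norm_nonneg _) (fun x => ?_) (hm y)
  exact le_of_tendsto' ((hg x).sub (hg y)).norm fun k => h2 _ _ _

/-- Fatou (`lintegral_liminf_le'` applied to `ofReal (indicator (Ioc a_k b_k) F_k)`) -/
theorem fatou_zero (F : ℕ → ℝ → ℝ) (g : ℝ → ℝ) (a b D : ℕ → ℝ) (hab : ∀ k, a k ≤ b k)
    (ha : Tendsto a atTop atBot) (hb : Tendsto b atTop atTop) (hD : Tendsto D atTop (𝓝 0))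
    (hF : ∀ k, IntervalIntegrable (F k) volume (a k) (b k)) (h0 : ∀ k x, 0 ≤ F k x)
    (hI : ∀ k, ∫ x in a k..b k, F k x ≤ D k)
    (hg : ∀ x, Tendsto (fun k => F k x) atTop (𝓝 (g x))) : ∀ᵐ x, g x = 0 := by
  set G : ℕ → ℝ → ℝ := fun k => (Ioc (a k) (b k)).indicator (F k) with hG
  have iG : ∀ k, Integrable (G k) := fun k =>
    (integrable_indicator_iff measurableSet_Ioc).2 (hF k).1
  have G0 : ∀ k x, 0 ≤ G k x := fun k => indicator_nonneg fun x _ => h0 k x
  have tG : ∀ x, Tendsto (fun k => G k x) atTop (𝓝 (g x)) := fun x => by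
    refine (hg x).congr' ?_
    filter_upwards [ha.eventually_lt_atBot x, hb.eventually_ge_atTop x] with k h1 h2
    rw [hG]; simp only
    rw [indicator_of_mem (show x ∈ Ioc (a k) (b k) from ⟨h1, h2⟩)]
  have mG : ∀ k, AEMeasurable (fun x => ENNReal.ofReal (G k x)) := fun k =>
    (iG k).aemeasurable.ennreal_ofReal
  have h1 := lintegral_liminf_le' (μ := volume) (u := atTop) mG
  have h2 : ∀ x, liminf (fun k => ENNReal.ofReal (G k x)) atTop = ENNReal.ofReal (g x) := fun x =>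
    (ENNReal.tendsto_ofReal (tG x)).liminf_eq
  have h3 : Tendsto (fun k => ∫⁻ x, ENNReal.ofReal (G k x)) atTop (𝓝 0) := by
    have : Tendsto (fun k => ENNReal.ofReal (D k)) atTop (𝓝 0) := by
      simpa using ENNReal.tendsto_ofReal hD
    refine tendsto_of_tendsto_of_tendsto_of_le_of_le tendsto_const_nhds this
      (fun k => zero_le) fun k => ?_
    show ∫⁻ x, ENNReal.ofReal (G k x) ≤ ENNReal.ofReal (D k)
    rw [← ofReal_integral_eq_lintegral_ofReal (iG k) (Eventually.of_forall (G0 k))]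
    refine ENNReal.ofReal_le_ofReal (le_trans (le_of_eq ?_) (hI k))
    rw [intervalIntegral.integral_of_le (hab k), hG]
    exact integral_indicator measurableSet_Ioc
  rw [h3.liminf_eq] at h1
  simp only [h2] at h1
  have mg : AEMeasurable g := aemeasurable_of_tendsto_metrizable_ae atTop
    (fun k => (iG k).aemeasurable) (Eventually.of_forall tG)
  filter_upwards [(lintegral_eq_zero_iff' mg.ennreal_ofReal).1 (le_zero_iff.1 h1)] with x hx
  exact le_antisymm (ENNReal.ofReal_eq_zero.1 hx) (ge_of_tendsto' (hg x) fun k => h0 k x)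

/-- passing to the limit in an approximate ODE `f_k' = v_k + e_k`, `∫ ‖e_k‖ → 0` locally -/
theorem ode_limit {E : Type*} [NormedAddCommGroup E] [NormedSpace ℝ E] [CompleteSpace E]
    (f v e : ℕ → ℝ → E) (g u : ℝ → E) (a b : ℕ → ℝ) (C : ℝ)
    (ha : Tendsto a atTop atBot) (hb : Tendsto b atTop atTop)
    (hf : ∀ k, ∀ x ∈ Ioo (a k) (b k), HasDerivAt (f k) (v k x + e k x) x)
    (cv : ∀ k, Continuous (v k)) (ce : ∀ k, Continuous (e k)) (hv : ∀ k x, ‖v k x‖ ≤ C)
    (he : ∀ x y, x ≤ y → Tendsto (fun k => ∫ z in x..y, ‖e k z‖) atTop (𝓝 0))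
    (hg : ∀ x, Tendsto (fun k => f k x) atTop (𝓝 (g x)))
    (hu : ∀ x, Tendsto (fun k => v k x) atTop (𝓝 (u x))) (cu : Continuous u) (x : ℝ) :
    HasDerivAt g (u x) x := by
  have key : ∀ y z, y ≤ z → g z - g y = ∫ t in y..z, u t := fun y z hyz => by
    refine tendsto_nhds_unique ((hg z).sub (hg y)) ?_
    have t1 : Tendsto (fun k => ∫ t in y..z, v k t) atTop (𝓝 (∫ t in y..z, u t)) :=
      intervalIntegral.tendsto_integral_filter_of_dominated_convergence (fun _ => C)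
        (Eventually.of_forall fun k => (cv k).aestronglyMeasurable)
        (Eventually.of_forall fun k => Eventually.of_forall fun t _ => hv k t)
        (continuous_const.intervalIntegrable _ _) (Eventually.of_forall fun t _ => hu t)
    have t2 : Tendsto (fun k => ∫ t in y..z, e k t) atTop (𝓝 0) :=
      squeeze_zero_norm (fun k => intervalIntegral.norm_integral_le_integral_norm hyz) (he y z hyz)
    have t3 := t1.add t2
    rw [add_zero] at t3
    refine t3.congr' ?_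
    filter_upwards [ha.eventually_lt_atBot y, hb.eventually_gt_atTop z] with k h1 h2
    rw [← intervalIntegral.integral_add ((cv k).intervalIntegrable _ _)
      ((ce k).intervalIntegrable _ _)]
    refine intervalIntegral.integral_eq_sub_of_hasDerivAt (fun t ht => hf k t ?_)
      (((cv k).add (ce k)).intervalIntegrable _ _)
    rw [uIcc_of_le hyz] at ht
    exact ⟨h1.trans_le ht.1, ht.2.trans_lt h2⟩
  have key2 : g = fun z => g x + ∫ t in x..z, u t := by
    funext z
    rcases le_total x z with h | h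
    · rw [← key x z h]; abel
    · rw [intervalIntegral.integral_symm, ← key z x h]; abel
  rw [key2]
  exact (cu.integral_hasStrictDerivAt x x).hasDerivAt.const_add _

namespace LimB

theorem tendsto_on {α β : Type*} [TopologicalSpace α] [TopologicalSpace β] {f : α → β} {S : Set α}
    (hf : ContinuousOn f S) {u : ℕ → α} {a : α} (hu : Tendsto u atTop (𝓝 a)) (h1 : ∀ k, u k ∈ S)
    (h2 : a ∈ S) : Tendsto (fun k => f (u k)) atTop (𝓝 (f a)) :=
  (hf a h2).tendsto.comp (tendsto_nhdsWithin_iff.2 ⟨hu, Eventually.of_forall h1⟩)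

theorem cont2 {α β γ : Type*} [TopologicalSpace α] [TopologicalSpace β] [TopologicalSpace γ]
    (f : α → β → γ) (hf : Continuous fun p : α × β => f p.1 p.2) {u : ℝ → α} {v : ℝ → β}
    (hu : Continuous u) (hv : Continuous v) : Continuous fun x => f (u x) (v x) :=
  hf.comp (hu.prodMk hv)

theorem tend2 {α β γ : Type*} [TopologicalSpace α] [TopologicalSpace β] [TopologicalSpace γ]
    (f : α → β → γ) (hf : Continuous fun p : α × β => f p.1 p.2) {u : ℕ → α} {v : ℕ → β}
    {a : α} {b : β} (hu : Tendsto u atTop (𝓝 a)) (hv : Tendsto v atTop (𝓝 b)) :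
    Tendsto (fun k => f (u k) (v k)) atTop (𝓝 (f a b)) :=
  (hf.tendsto (a, b)).comp (hu.prodMk_nhds hv)

theorem cont3 {α β γ δ : Type*} [TopologicalSpace α] [TopologicalSpace β] [TopologicalSpace γ]
    [TopologicalSpace δ] (f : α → β → γ → δ)
    (hf : Continuous fun p : α × β × γ => f p.1 p.2.1 p.2.2) {u : ℝ → α} {v : ℝ → β} {w : ℝ → γ}
    (hu : Continuous u) (hv : Continuous v) (hw : Continuous w) :
    Continuous fun x => f (u x) (v x) (w x) :=
  hf.comp (hu.prodMk (hv.prodMk hw))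

theorem tend3 {α β γ δ : Type*} [TopologicalSpace α] [TopologicalSpace β] [TopologicalSpace γ]
    [TopologicalSpace δ] (f : α → β → γ → δ)
    (hf : Continuous fun p : α × β × γ => f p.1 p.2.1 p.2.2) {u : ℕ → α} {v : ℕ → β} {w : ℕ → γ}
    {a : α} {b : β} {c : γ} (hu : Tendsto u atTop (𝓝 a)) (hv : Tendsto v atTop (𝓝 b))
    (hw : Tendsto w atTop (𝓝 c)) :
    Tendsto (fun k => f (u k) (v k) (w k)) atTop (𝓝 (f a b c)) :=
  (hf.tendsto (a, b, c)).comp (hu.prodMk_nhds (hv.prodMk_nhds hw))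

theorem cont_of_hold {E : Type*} [NormedAddCommGroup E] {f : ℝ → E} {C : ℝ}
    (h : ∀ x y, ‖f x - f y‖ ≤ C * √|x - y|) : Continuous f := by
  refine continuous_iff_continuousAt.2 fun y => ?_
  rw [ContinuousAt, tendsto_iff_norm_sub_tendsto_zero]
  refine squeeze_zero (fun _ => norm_nonneg _) (fun x => h x y) ?_
  have : Continuous fun x : ℝ => C * √|x - y| := by fun_prop
  simpa using this.tendsto y

theorem cont_of_lip {E : Type*} [NormedAddCommGroup E] {f : ℝ → E} {C : ℝ}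
    (h : ∀ x y, ‖f x - f y‖ ≤ C * |x - y|) : Continuous f := by
  refine continuous_iff_continuousAt.2 fun y => ?_
  rw [ContinuousAt, tendsto_iff_norm_sub_tendsto_zero]
  refine squeeze_zero (fun _ => norm_nonneg _) (fun x => h x y) ?_
  have : Continuous fun x : ℝ => C * |x - y| := by fun_prop
  simpa using this.tendsto y

theorem zero_of_cont (F : ℕ → ℝ → ℝ) (g : ℝ → ℝ) (a b D : ℕ → ℝ) (hab : ∀ k, a k ≤ b k)
    (ha : Tendsto a atTop atBot) (hb : Tendsto b atTop atTop) (hD : Tendsto D atTop (𝓝 0))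
    (hF : ∀ k, Continuous (F k)) (h0 : ∀ k x, 0 ≤ F k x)
    (hI : ∀ k, ∫ x in a k..b k, F k x ≤ D k)
    (hg : ∀ x, Tendsto (fun k => F k x) atTop (𝓝 (g x))) (cg : Continuous g) (x : ℝ) :
    g x = 0 := by
  have h := fatou_zero F g a b D hab ha hb hD (fun k => (hF k).intervalIntegrable _ _) h0 hI hg
  have h2 : g = fun _ => 0 := (cg.ae_eq_iff_eq volume continuous_const).1 h
  rw [h2]

/-- local integrals of a nonnegative function are eventually bounded by `D k` -/
theorem ev_le (F : ℕ → ℝ → ℝ) (a b D : ℕ → ℝ)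
    (ha : Tendsto a atTop atBot) (hb : Tendsto b atTop atTop)
    (hF : ∀ k, Continuous (F k)) (h0 : ∀ k x, 0 ≤ F k x)
    (hI : ∀ k, ∫ x in a k..b k, F k x ≤ D k) {x y : ℝ} (hxy : x ≤ y) :
    ∀ᶠ k in atTop, ∫ z in x..y, F k z ≤ D k := by
  filter_upwards [ha.eventually_le_atBot x, hb.eventually_ge_atTop y] with k h1 h2
  refine le_trans ?_ (hI k)
  exact intervalIntegral.integral_mono_interval h1 hxy h2 (Eventually.of_forall (h0 k))
    ((hF k).intervalIntegrable _ _)

theorem tendsto_int (F : ℕ → ℝ → ℝ) (a b D : ℕ → ℝ)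
    (ha : Tendsto a atTop atBot) (hb : Tendsto b atTop atTop) (hD : Tendsto D atTop (𝓝 0))
    (hF : ∀ k, Continuous (F k)) (h0 : ∀ k x, 0 ≤ F k x)
    (hI : ∀ k, ∫ x in a k..b k, F k x ≤ D k) {x y : ℝ} (hxy : x ≤ y) :
    Tendsto (fun k => ∫ z in x..y, F k z) atTop (𝓝 0) :=
  squeeze_zero' (Eventually.of_forall fun k =>
    intervalIntegral.integral_nonneg hxy fun z _ => h0 k z) (ev_le F a b D ha hb hF h0 hI hxy) hD

theorem tendsto_int_sq (F e : ℕ → ℝ → ℝ) (hF : ∀ k, Continuous (F k)) (he : ∀ k, Continuous (e k))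
    (h0 : ∀ k x, 0 ≤ e k x) (h1 : ∀ k x, e k x ^ 2 ≤ F k x) {x y : ℝ} (hxy : x ≤ y)
    (h : Tendsto (fun k => ∫ z in x..y, F k z) atTop (𝓝 0)) :
    Tendsto (fun k => ∫ z in x..y, e k z) atTop (𝓝 0) := by
  refine tendsto_order.2 ⟨fun c hc => Eventually.of_forall fun k => hc.trans_le
    (intervalIntegral.integral_nonneg hxy fun z _ => h0 k z), fun ε hε => ?_⟩
  have hl : 0 < y - x + 1 := by linarith
  set θ := ε / (y - x + 1) with hθ
  have hθ0 : 0 < θ := by positivity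
  have hθ1 : θ * (y - x + 1) = ε := by rw [hθ]; field_simp
  filter_upwards [(tendsto_order.1 h).2 (θ * θ) (by positivity)] with k hk
  have h2 : ∫ z in x..y, e k z ≤ ∫ z in x..y, (θ + θ⁻¹ * F k z) := by
    refine intervalIntegral.integral_mono_on hxy ((he k).intervalIntegrable _ _)
      ((continuous_const.add (continuous_const.mul (hF k))).intervalIntegrable _ _) fun z _ => ?_
    have h3 : θ * e k z ≤ θ * (θ + θ⁻¹ * F k z) := by
      rw [mul_add, ← mul_assoc, mul_inv_cancel₀ hθ0.ne', one_mul]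
      nlinarith [h1 k z, h0 k z, sq_nonneg (θ - e k z)]
    exact le_of_mul_le_mul_left h3 hθ0
  have c1 : Continuous fun z => θ⁻¹ * F k z := continuous_const.mul (hF k)
  rw [intervalIntegral.integral_add (continuous_const.intervalIntegrable _ _)
    (c1.intervalIntegrable _ _), intervalIntegral.integral_const,
    intervalIntegral.integral_const_mul, smul_eq_mul] at h2
  have h4 : θ⁻¹ * ∫ z in x..y, F k z < θ := by
    rw [inv_mul_lt_iff₀ hθ0]; exact hk
  nlinarith

theorem comm_of_zero {q : ℕ} {κ : Fin q → ℝ} {X : Mat (Fin q)} (hκ : ∀ i, 0 ≤ κ i)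
    (h : comm κ X = 0) : dg κ * X = X * dg κ := by
  unfold comm at h
  rw [Finset.sum_eq_zero_iff_of_nonneg fun i _ => by positivity] at h
  ext i j
  have h1 := h i (Finset.mem_univ _)
  rw [Finset.sum_eq_zero_iff_of_nonneg fun i _ => by positivity] at h1
  have h2 := h1 j (Finset.mem_univ _)
  simp only [dg, Matrix.diagonal_mul, Matrix.mul_diagonal]
  rcases mul_eq_zero.1 h2 with h3 | h3
  · have h4 : κ i ^ 2 = κ j ^ 2 := by
      have := pow_eq_zero_iff (two_ne_zero) |>.1 h3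
      linarith
    rw [(pow_left_inj₀ (hκ i) (hκ j) two_ne_zero).1 h4, mul_comm]
  · have h4 : X i j = 0 := by simpa using h3
    simp [h4]

end LimB

open LimB in
theorem lim_of_tendsto {s : ℝ} (hs0 : 0 < s) (hs1 : s < 1) {m q : ℕ} {W : ℝ → Mat (Fin m)}
    (hW : Pot s W) {η C : ℝ} (hη : 0 < η) (L D : ℕ → ℝ) (T : ∀ k, Top s W q η C (L k) (D k))
    (hL : Tendsto L atTop atTop) (hD : Tendsto D atTop (𝓝 0)) (κ : Fin q → ℝ)
    (X : ℝ → Mat (Fin q)) (ω : ℝ → Matrix (Fin q) (Fin m) ℂ) (ρ : ℝ → Mat (Fin m))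
    (cX : Continuous X) (cω : Continuous ω) (cρ : Continuous ρ)
    (tκ : Tendsto (fun k => (T k).κ) atTop (𝓝 κ))
    (tX : ∀ x, Tendsto (fun k => (T k).X x) atTop (𝓝 (X x)))
    (tω : ∀ x, Tendsto (fun k => (T k).ω x) atTop (𝓝 (ω x)))
    (tρ : ∀ x, Tendsto (fun k => (T k).ρ x) atTop (𝓝 (ρ x))) :
    ∃ l : Lim s m q η, ∀ᵐ x, W x = (s⁻¹ + 1) • pw (l.ρ x) s⁻¹ := by
  have hr : 0 < s⁻¹ - 1 := sub_pos.2 ((one_lt_inv₀ hs0).2 hs1)
  have hr1 : 0 < s⁻¹ + 1 := by positivity
  have hC : 0 ≤ C := (norm_nonneg _).trans ((T 0).ω_le 0)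
  have hab : ∀ k, (T k).a ≤ (T k).b := fun k => (T k).hab.le
  have ha : Tendsto (fun k => (T k).a) atTop atBot :=
    tendsto_atBot_mono (fun k => (T k).ha) (tendsto_neg_atTop_atBot.comp hL)
  have hb : Tendsto (fun k => (T k).b) atTop atTop := tendsto_atTop_mono (fun k => (T k).hb) hL
  have tδ : Tendsto (fun k => (T k).δ) atTop (𝓝 0) :=
    squeeze_zero (fun k => (T k).δ_nonneg) (fun k => (T k).δ_le) hD
  have cXk : ∀ k, Continuous (T k).X := fun k => cont_of_lip (T k).X_lip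
  have cωk : ∀ k, Continuous (T k).ω := fun k => cont_of_hold (T k).ω_hold
  have cρk : ∀ k, Continuous (T k).ρ := fun k => cont_of_hold (T k).ρ_hold
  have hκ : ∀ i, 0 ≤ κ i := fun i =>
    ge_of_tendsto' (((continuous_apply i).tendsto κ).comp tκ) fun k => (T k).κ_nonneg i
  have tdg : Tendsto (fun k => dg (T k).κ) atTop (𝓝 (dg κ)) := (continuous_dg.tendsto κ).comp tκ
  have reg : ∀ x, Reg κ (X x) := fun x =>
    ⟨isClosed_psd.mem_of_tendsto (tdg.add (tX x)) (Eventually.of_forall fun k => ((T k).reg x).1),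
     isClosed_psd.mem_of_tendsto (tdg.sub (tX x)) (Eventually.of_forall fun k => ((T k).reg x).2)⟩
  have ρ_psd : ∀ x, (ρ x).PosSemidef := fun x =>
    isClosed_psd.mem_of_tendsto (tρ x) (Eventually.of_forall fun k => (T k).ρ_psd x)
  have cS : Continuous fun p : Matrix (Fin q) (Fin m) ℂ × Mat (Fin m) => p.2 - p.1ᴴ * p.1 := by
    fun_prop
  have tS : ∀ x, Tendsto (fun k => (T k).ρ x - ((T k).ω x)ᴴ * (T k).ω x) atTop
      (𝓝 (ρ x - (ω x)ᴴ * ω x)) := fun x =>
    tend2 (fun A B => B - Aᴴ * A) cS (tω x) (tρ x)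
  have ρS_psd : ∀ x, (ρ x - (ω x)ᴴ * ω x).PosSemidef := fun x =>
    isClosed_psd.mem_of_tendsto (tS x) (Eventually.of_forall fun k => (T k).ρS_psd x)
  -- powers of `ρ`
  have cp : ∀ {p : ℝ}, 0 < p → Continuous fun x => pw (ρ x) p := fun hp =>
    (continuousOn_pw hp).comp_continuous cρ fun x => (ρ_psd x).isHermitian
  have cpk : ∀ {p : ℝ}, 0 < p → ∀ k, Continuous fun x => pw ((T k).ρ x) p := fun hp k =>
    (continuousOn_pw hp).comp_continuous (cρk k) fun x => ((T k).ρ_psd x).isHermitian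
  have tp : ∀ {p : ℝ}, 0 < p → ∀ x, Tendsto (fun k => pw ((T k).ρ x) p) atTop (𝓝 (pw (ρ x) p)) :=
    fun hp x => tendsto_on (continuousOn_pw hp) (tρ x) (fun k => ((T k).ρ_psd x).isHermitian)
      (ρ_psd x).isHermitian
  -- commutation
  have hcomm : ∀ x, dg κ * X x = X x * dg κ := fun x => by
    refine comm_of_zero hκ (zero_of_cont (fun k x => comm (T k).κ ((T k).X x))
      (fun x => comm κ (X x)) _ _ D hab ha hb hD (fun k => ?_) (fun k x => ?_) (fun k => (T k).dC)
      (fun x => ?_) ?_ x)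
    · exact cont2 comm continuous_comm continuous_const (cXk k)
    · unfold comm; positivity
    · exact tend2 comm continuous_comm tκ (tX x)
    · exact cont2 comm continuous_comm continuous_const cX
  -- the Hamilton–Jacobi deficiency
  set H : ℝ → Mat (Fin q) := fun x => ω x * pw (ρ x) (s⁻¹ - 1) * (ω x)ᴴ with hH
  set Hk : ℕ → ℝ → Mat (Fin q) := fun k x => (T k).ω x * pw ((T k).ρ x) (s⁻¹ - 1) * ((T k).ω x)ᴴ
    + (T k).δ • (1 : Mat (Fin q)) with hHk
  have H_psd : ∀ x, (H x).PosSemidef := fun x =>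
    (pw_psd (ρ_psd x) _).mul_mul_conjTranspose_same _
  have Hk_psd : ∀ k x, (Hk k x).PosSemidef := fun k x => by
    refine ((pw_psd ((T k).ρ_psd x) _).mul_mul_conjTranspose_same _).add ?_
    rw [← dg_const]
    exact (dg_psd_iff _).2 fun _ => (T k).δ_nonneg
  have cH : Continuous H := by
    have := cp hr
    exact (cω.matrix_mul this).matrix_mul cω.matrix_conjTranspose
  have cHk : ∀ k, Continuous (Hk k) := fun k =>
    (((cωk k).matrix_mul (cpk hr k)).matrix_mul (cωk k).matrix_conjTranspose).add continuous_const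
  have c3 : Continuous fun p : Matrix (Fin q) (Fin m) ℂ × Mat (Fin m) × ℝ =>
      p.1 * p.2.1 * p.1ᴴ + p.2.2 • (1 : Mat (Fin q)) := by fun_prop
  have tH : ∀ x, Tendsto (fun k => Hk k x) atTop (𝓝 (H x)) := fun x => by
    have := tend3 (fun A B (d : ℝ) => A * B * Aᴴ + d • (1 : Mat (Fin q))) c3 (tω x) (tp hr x) tδ
    rw [zero_smul, add_zero] at this
    exact this
  have hZ : ∀ x, Zm κ (X x) = H x := fun x => by
    refine (eq_of_dfc_eq_zero hs0 hs1 hκ (reg x) (H_psd x) (hcomm x) ?_).symm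
    refine zero_of_cont (fun k x => dfc s (T k).κ ((T k).X x) (Hk k x))
      (fun x => dfc s κ (X x) (H x)) _ _ D hab ha hb hD (fun k => ?_) (fun k x => ?_)
      (fun k => (T k).dH) (fun x => ?_) ?_ x
    · exact (continuousOn_dfc hs0 hs1).comp_continuous
        (f := fun x => ((T k).κ, (T k).X x, Hk k x))
        (continuous_const.prodMk ((cXk k).prodMk (cHk k)))
        fun x => ⟨(T k).κ_nonneg, (T k).reg x, (Hk_psd k x).isHermitian⟩
    · exact dfc_nonneg hs0 hs1 (T k).κ_nonneg ((T k).reg x) (Hk_psd k x)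
    · exact tendsto_on (continuousOn_dfc hs0 hs1) (u := fun k => ((T k).κ, (T k).X x, Hk k x))
        (a := (κ, X x, H x)) (tκ.prodMk_nhds ((tX x).prodMk_nhds (tH x)))
        (fun k => ⟨(T k).κ_nonneg, (T k).reg x, (Hk_psd k x).isHermitian⟩)
        ⟨hκ, reg x, (H_psd x).isHermitian⟩
    · exact (continuousOn_dfc hs0 hs1).comp_continuous (f := fun x => (κ, X x, H x))
        (continuous_const.prodMk (cX.prodMk cH)) fun x => ⟨hκ, reg x, (H_psd x).isHermitian⟩
  have cSk : ∀ k, Continuous fun x => (T k).ρ x - ((T k).ω x)ᴴ * (T k).ω x := fun k =>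
    cont2 (fun A B => B - Aᴴ * A) cS (cωk k) (cρk k)
  have cS' : Continuous fun x => ρ x - (ω x)ᴴ * ω x :=
    cont2 (fun A B => B - Aᴴ * A) cS cω cρ
  have hP : ∀ x, ω x * pw (ρ x) (s⁻¹ - 1) * (ρ x - (ω x)ᴴ * ω x) = 0 := fun x => by
    have c4 : Continuous fun p : Matrix (Fin q) (Fin m) ℂ × Mat (Fin m) × Mat (Fin m) =>
        fro2 (p.1 * p.2.1 * p.2.2) := continuous_fro2.comp (by fun_prop)
    refine fro2_eq_zero (zero_of_cont (fun k x => fro2 ((T k).ω x * pw ((T k).ρ x) (s⁻¹ - 1) *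
      ((T k).ρ x - ((T k).ω x)ᴴ * (T k).ω x)))
      (fun x => fro2 (ω x * pw (ρ x) (s⁻¹ - 1) * (ρ x - (ω x)ᴴ * ω x))) _ _ D hab ha hb hD
      (fun k => ?_) (fun k x => fro2_nonneg _) (fun k => (T k).dP) (fun x => ?_) ?_ x)
    · exact cont3 (fun A B B' => fro2 (A * B * B')) c4 (cωk k) (cpk hr k) (cSk k)
    · exact tend3 (fun A B B' => fro2 (A * B * B')) c4 (tω x) (tp hr x) (tS x)
    · exact cont3 (fun A B B' => fro2 (A * B * B')) c4 cω (cp hr) cS'
  have hT : ∀ x, ‖pw (ρ x) ((s⁻¹ - 1) / 2) * (ρ x - (ω x)ᴴ * ω x) * pw (ρ x) ((s⁻¹ - 1) / 2)‖ ≤ η :=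
    fun x => by
    have hr2 : 0 < (s⁻¹ - 1) / 2 := by positivity
    have c5 : Continuous fun p : Mat (Fin m) × Mat (Fin m) => phi s η ‖p.1 * p.2 * p.1‖ :=
      (continuous_phi hs0 η).comp (by fun_prop)
    refine le_of_phi_eq_zero hs0 hη (zero_of_cont (fun k x => phi s η
      ‖pw ((T k).ρ x) ((s⁻¹ - 1) / 2) * ((T k).ρ x - ((T k).ω x)ᴴ * (T k).ω x) *
        pw ((T k).ρ x) ((s⁻¹ - 1) / 2)‖)
      (fun x => phi s η ‖pw (ρ x) ((s⁻¹ - 1) / 2) * (ρ x - (ω x)ᴴ * ω x) *
        pw (ρ x) ((s⁻¹ - 1) / 2)‖) _ _ D hab ha hb hD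
      (fun k => ?_) (fun k x => phi_nonneg hs0 hη _) (fun k => (T k).dT) (fun x => ?_) ?_ x)
    · exact cont2 (fun A B => phi s η ‖A * B * A‖) c5 (cpk hr2 k) (cSk k)
    · exact tend2 (fun A B => phi s η ‖A * B * A‖) c5 (tp hr2 x) (tS x)
    · exact cont2 (fun A B => phi s η ‖A * B * A‖) c5 (cp hr2) cS'
  have nX : ∀ k x, ‖(T k).X x‖ ≤ C := fun k x => ((T k).reg x).norm_le hC (T k).κ_le
  -- the equation for `X`
  have hX : ∀ x, HasDerivAt X (-(s⁻¹ • Zm κ (X x))) x := fun x => by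
    obtain ⟨B, hB⟩ := tδ.bddAbove_range
    have hB' : ∀ k, (T k).δ ≤ B := fun k => hB ⟨k, rfl⟩
    have h := ode_limit (fun k => (T k).X)
      (fun k x => Zm (T k).κ ((T k).X x) - (s⁻¹ + 1) • Hk k x) (fun k x => -(T k).E x) X
      (fun x => Zm κ (X x) - (s⁻¹ + 1) • H x) _ _
      ((C ^ 2 + C * C) + (s⁻¹ + 1) * (C * C ^ (s⁻¹ - 1) * C + B)) ha hb
      (fun k x hx => by rw [← sub_eq_add_neg]; exact (T k).hX x hx)
      (fun k => (cont2 Zm continuous_Zm continuous_const (cXk k)).sub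
        ((cHk k).const_smul (s⁻¹ + 1))) (fun k => (T k).cE.neg) (fun k x => ?_) (fun x y hxy => ?_) tX
      (fun x => (tend2 Zm continuous_Zm tκ (tX x)).sub ((tH x).const_smul _))
      ((cont2 Zm continuous_Zm continuous_const cX).sub (cH.const_smul (s⁻¹ + 1))) x
    · have e : Zm κ (X x) - (s⁻¹ + 1) • H x = -(s⁻¹ • Zm κ (X x)) := by
        rw [← hZ x, add_smul, one_smul]
        abel
      rw [← e]
      exact h
    · refine (norm_sub_le _ _).trans (add_le_add ?_ ?_)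
      · refine (norm_sub_le _ _).trans (add_le_add ?_ ?_)
        · refine norm_dg_le (by positivity) fun i => ?_
          rw [abs_of_nonneg (by positivity)]
          exact pow_le_pow_left₀ ((T k).κ_nonneg i) ((T k).κ_le i) 2
        · exact (norm_mul_le _ _).trans (mul_le_mul (nX k x) (nX k x) (norm_nonneg _) hC)
      · rw [norm_smul, Real.norm_of_nonneg hr1.le]
        refine mul_le_mul_of_nonneg_left ((norm_add_le _ _).trans (add_le_add ?_ ?_)) hr1.le
        · have h1 : ‖pw ((T k).ρ x) (s⁻¹ - 1)‖ ≤ C ^ (s⁻¹ - 1) :=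
            (norm_pw_le ((T k).ρ_psd x) hr.le).trans
              (Real.rpow_le_rpow (norm_nonneg _) ((T k).ρ_le x) hr.le)
          refine (Matrix.l2_opNorm_mul _ _).trans ?_
          rw [Matrix.l2_opNorm_conjTranspose]
          refine mul_le_mul ((Matrix.l2_opNorm_mul _ _).trans ?_) ((T k).ω_le x) (norm_nonneg _)
            (by positivity)
          exact mul_le_mul ((T k).ω_le x) h1 (norm_nonneg _) hC
        · rw [← dg_const]
          refine norm_dg_le ((T k).δ_nonneg.trans (hB' k)) fun _ => ?_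
          rw [abs_of_nonneg (T k).δ_nonneg]
          exact hB' k
    · simp only [norm_neg]
      exact tendsto_int (fun k x => ‖(T k).E x‖) _ _ D ha hb hD (fun k => (T k).cE.norm)
        (fun k x => norm_nonneg _) (fun k => (T k).dE) hxy
  -- the equation for `ω`
  have hω : ∀ x, HasDerivAt ω (X x * ω x) x := fun x => by
    have c6 : Continuous fun p : Mat (Fin q) × Matrix (Fin q) (Fin m) ℂ => p.1 * p.2 := by fun_prop
    have ce : ∀ k, Continuous fun x => (T k).ω' x - (T k).X x * (T k).ω x := fun k =>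
      (T k).cω'.sub ((cXk k).matrix_mul (cωk k))
    refine ode_limit (fun k => (T k).ω) (fun k x => (T k).X x * (T k).ω x)
      (fun k x => (T k).ω' x - (T k).X x * (T k).ω x) ω (fun x => X x * ω x) _ _ (C * C) ha hb
      (fun k x _ => by simpa using (T k).hω x) (fun k => (cXk k).matrix_mul (cωk k)) ce
      (fun k x => ?_) (fun x y hxy => ?_) tω
      (fun x => tend2 (fun A B => A * B) c6 (tX x) (tω x)) (cX.matrix_mul cω) x
    · exact (Matrix.l2_opNorm_mul _ _).trans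
        (mul_le_mul (nX k x) ((T k).ω_le x) (norm_nonneg _) hC)
    · refine tendsto_int_sq (fun k x => fro2 ((T k).ω' x - (T k).X x * (T k).ω x))
        (fun k x => ‖(T k).ω' x - (T k).X x * (T k).ω x‖)
        (fun k => continuous_fro2.comp (ce k)) (fun k => (ce k).norm) (fun k x => norm_nonneg _)
        (fun k x => norm_sq_le_fro2 _) hxy ?_
      exact tendsto_int _ _ _ D ha hb hD (fun k => continuous_fro2.comp (ce k))
        (fun k x => fro2_nonneg _) (fun k => (T k).dB) hxy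
  refine ⟨⟨κ, ω, ρ, X, hκ, reg, ρ_psd, ρS_psd, hcomm, hX, hω, hZ, hP, hT⟩, ?_⟩
  have W_psd : ∀ x, ((s⁻¹ + 1)⁻¹ • W x).PosSemidef := fun x =>
    (hW.psd x).smul (inv_nonneg.2 hr1.le)
  have y0 : ∀ k x, 0 ≤ yng s ((s⁻¹ + 1)⁻¹ • W x) ((T k).ρ x) := fun k x =>
    yng_nonneg hs0 hs1 (W_psd x) ((T k).ρ_psd x)
  have h := fatou_zero (fun k x => yng s ((s⁻¹ + 1)⁻¹ • W x) ((T k).ρ x))
    (fun x => yng s ((s⁻¹ + 1)⁻¹ • W x) (ρ x)) _ _ D hab ha hb hD
    (fun k => (T k).iY.intervalIntegrable) y0 (fun k => ?_) (fun x => ?_)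
  · filter_upwards [h] with x hx
    have h2 := yng_eq_zero hs0 hs1 (W_psd x) (ρ_psd x) hx
    show W x = (s⁻¹ + 1) • pw (ρ x) s⁻¹
    rw [← h2, smul_smul, mul_inv_cancel₀ hr1.ne', one_smul]
  · refine le_trans ?_ (T k).dY
    rw [intervalIntegral.integral_of_le (hab k)]
    exact setIntegral_le_integral (T k).iY (Eventually.of_forall (y0 k))
  · exact tendsto_on (continuousOn_yng hs0 _) (tρ x) (fun k => ((T k).ρ_psd x).isHermitian)
      (ρ_psd x).isHermitian

/-- Apply `aa_subseq` to `x ↦ (κ_k, X_k x, ω_k x, ρ_k x)`.  `fatou_zero` and continuity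
(`Continuous.ae_eq_iff_eq`) for `dC`, `dH` (`continuousOn_dfc`, `dfc_nonneg`,
`eq_of_dfc_eq_zero`), `dP`, `dT` (`le_of_phi_eq_zero`), `dY` (`yng_eq_zero`);  `ode_limit` for
`hX` and `hω` (`‖A‖ ≤ (θ + fro2 A / θ) / 2`). -/
theorem exists_lim {s : ℝ} (hs0 : 0 < s) (hs1 : s < 1) {m q : ℕ} {W : ℝ → Mat (Fin m)}
    (hW : Pot s W) {η C : ℝ} (hη : 0 < η) (L D : ℕ → ℝ) (T : ∀ k, Top s W q η C (L k) (D k))
    (hL : Tendsto L atTop atTop) (hD : Tendsto D atTop (𝓝 0)) :
    ∃ l : Lim s m q η, ∀ᵐ x, W x = (s⁻¹ + 1) • pw (l.ρ x) s⁻¹ := by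
  have hC : 0 ≤ C := (norm_nonneg _).trans ((T 0).ω_le 0)
  have : ProperSpace ((Fin q → ℝ) × Mat (Fin q) × Matrix (Fin q) (Fin m) ℂ × Mat (Fin m)) :=
    FiniteDimensional.proper_real _
  have h1 : ∀ k x, ‖((T k).κ, (T k).X x, (T k).ω x, (T k).ρ x)‖ ≤ C := fun k x => by
    simp only [Prod.norm_mk, max_le_iff]
    refine ⟨(pi_norm_le_iff_of_nonneg hC).2 fun i => ?_, ((T k).reg x).norm_le hC (T k).κ_le,
      (T k).ω_le x, (T k).ρ_le x⟩
    rw [Real.norm_of_nonneg ((T k).κ_nonneg i)]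
    exact (T k).κ_le i
  have h2 : ∀ k x y, ‖((T k).κ, (T k).X x, (T k).ω x, (T k).ρ x) -
      ((T k).κ, (T k).X y, (T k).ω y, (T k).ρ y)‖ ≤ C * (√|x - y| + |x - y|) := fun k x y => by
    have h1 : 0 ≤ C * √|x - y| := by positivity
    have h2 : 0 ≤ C * |x - y| := by positivity
    simp only [Prod.mk_sub_mk, Prod.norm_mk, max_le_iff, sub_self, norm_zero, mul_add]
    exact ⟨by positivity, by linarith [(T k).X_lip x y], by linarith [(T k).ω_hold x y],
      by linarith [(T k).ρ_hold x y]⟩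
  obtain ⟨φ, g, hφ, cg, tg⟩ := aa_subseq
    (fun k x => ((T k).κ, (T k).X x, (T k).ω x, (T k).ρ x)) C h1 h2
  exact lim_of_tendsto hs0 hs1 hW hη (fun k => L (φ k)) (fun k => D (φ k)) (fun k => T (φ k))
    (hL.comp hφ.tendsto_atTop) (hD.comp hφ.tendsto_atTop) (g 0).1 (fun x => (g x).2.1)
    (fun x => (g x).2.2.1) (fun x => (g x).2.2.2) cg.snd.fst cg.snd.snd.fst cg.snd.snd.snd
    (tg 0).fst_nhds (fun x => (tg x).snd_nhds.fst_nhds)
    (fun x => (tg x).snd_nhds.snd_nhds.fst_nhds) (fun x => (tg x).snd_nhds.snd_nhds.snd_nhds)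

end Crest.Agent.R332
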