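import Crest.Agent.R332.Bell

/-! # Row 332: block estimates used to split off the top block -/

set_option autoImplicit false

open MeasureTheory Set Filter Topology
open scoped Matrix Matrix.Norms.L2Operator MatrixOrder ComplexOrder

namespace Crest.Agent.R332.Split0

open Sum

section blocks
variable {α β γ ι : Type} [Fintype α] [DecidableEq α] [Fintype β] [DecidableEq β]
  [Fintype γ] [DecidableEq γ] [Fintype ι] [DecidableEq ι]

omit [Fintype α] [Fintype ι] in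
theorem dg_sub_inj (v : ι → ℝ) {e : α → ι} (he : Function.Injective e) :
    (dg v).submatrix e e = dg (v ∘ e) := by
  unfold dg
  rw [Matrix.submatrix_diagonal _ _ he]
  rfl

omit [DecidableEq α] [DecidableEq β] in
theorem sq_inl {X : Mat (α ⊕ β)} (hX : X.IsHermitian) :
    (X * X).submatrix inl inl = X.submatrix inl inl * X.submatrix inl inl
      + X.submatrix inl inr * (X.submatrix inl inr)ᴴ := by
  ext i j
  simp [Matrix.mul_apply, Fintype.sum_sum_type, hX.apply]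

omit [DecidableEq α] [DecidableEq β] in
theorem sq_inr {X : Mat (α ⊕ β)} (hX : X.IsHermitian) :
    (X * X).submatrix inr inr = X.submatrix inr inr * X.submatrix inr inr
      + (X.submatrix inl inr)ᴴ * ((X.submatrix inl inr)ᴴ)ᴴ := by
  ext i j
  simp [Matrix.mul_apply, Fintype.sum_sum_type, hX.apply, add_comm]

omit [DecidableEq α] [DecidableEq β] [Fintype γ] [DecidableEq γ] in
theorem rho_sub (w : Matrix (α ⊕ β) γ ℂ) :
    wᴴ * w - (w.submatrix inl id)ᴴ * w.submatrix inl id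
      = (w.submatrix inr id)ᴴ * w.submatrix inr id := by
  ext i j
  simp [Matrix.mul_apply, Fintype.sum_sum_type]

omit [DecidableEq α] [DecidableEq β] [Fintype γ] [DecidableEq γ] in
theorem res_inl (w w' : Matrix (α ⊕ β) γ ℂ) (X : Mat (α ⊕ β)) :
    w'.submatrix inl id - X.submatrix inl inl * w.submatrix inl id
      = (w' - X * w).submatrix inl id + X.submatrix inl inr * w.submatrix inr id := by
  ext i j
  simp [Matrix.mul_apply, Fintype.sum_sum_type]
  ring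

omit [DecidableEq α] [DecidableEq β] [DecidableEq γ] in
theorem fro2_inl_le (A : Matrix (α ⊕ β) γ ℂ) : fro2 (A.submatrix inl id) ≤ fro2 A := by
  unfold fro2
  rw [Fintype.sum_sum_type]
  simp only [Matrix.submatrix_apply, id]
  have : 0 ≤ ∑ j : β, ∑ k, ‖A (inr j) k‖ ^ 2 := by positivity
  linarith

omit [DecidableEq α] [DecidableEq β] in
theorem comm_inl_le (κ : α ⊕ β → ℝ) (X : Mat (α ⊕ β)) :
    comm (κ ∘ inl) (X.submatrix inl inl) ≤ comm κ X := by
  unfold comm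
  rw [Fintype.sum_sum_type]
  simp only [Fintype.sum_sum_type, Finset.sum_add_distrib, Matrix.submatrix_apply,
    Function.comp_apply]
  have h1 : 0 ≤ ∑ i : α, ∑ j : β, (κ (inl i) ^ 2 - κ (inr j) ^ 2) ^ 2 * ‖X (inl i) (inr j)‖ ^ 2 := by
    positivity
  have h2 : 0 ≤ ∑ i : β, ∑ j : α, (κ (inr i) ^ 2 - κ (inl j) ^ 2) ^ 2 * ‖X (inr i) (inl j)‖ ^ 2 := by
    positivity
  have h3 : 0 ≤ ∑ i : β, ∑ j : β, (κ (inr i) ^ 2 - κ (inr j) ^ 2) ^ 2 * ‖X (inr i) (inr j)‖ ^ 2 := by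
    positivity
  linarith

omit [DecidableEq α] [DecidableEq β] in
theorem gap_le_comm (κ : α ⊕ β → ℝ) (X : Mat (α ⊕ β)) {g : ℝ} (hg : 0 < g)
    (h : ∀ i j, g ≤ κ (inl i) ^ 2 - κ (inr j) ^ 2) :
    g ^ 2 * fro2 (X.submatrix inl inr) ≤ comm κ X := by
  unfold comm fro2
  rw [Fintype.sum_sum_type]
  simp only [Fintype.sum_sum_type, Finset.sum_add_distrib, Matrix.submatrix_apply, Finset.mul_sum]
  have h1 : 0 ≤ ∑ i : α, ∑ j : α, (κ (inl i) ^ 2 - κ (inl j) ^ 2) ^ 2 * ‖X (inl i) (inl j)‖ ^ 2 := by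
    positivity
  have h2 : 0 ≤ ∑ i : β, ∑ j : α, (κ (inr i) ^ 2 - κ (inl j) ^ 2) ^ 2 * ‖X (inr i) (inl j)‖ ^ 2 := by
    positivity
  have h3 : 0 ≤ ∑ i : β, ∑ j : β, (κ (inr i) ^ 2 - κ (inr j) ^ 2) ^ 2 * ‖X (inr i) (inr j)‖ ^ 2 := by
    positivity
  have h4 : ∑ i : α, ∑ j : β, g ^ 2 * ‖X (inl i) (inr j)‖ ^ 2 ≤
      ∑ i : α, ∑ j : β, (κ (inl i) ^ 2 - κ (inr j) ^ 2) ^ 2 * ‖X (inl i) (inr j)‖ ^ 2 := by
    refine Finset.sum_le_sum fun i _ => Finset.sum_le_sum fun j _ => ?_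
    exact mul_le_mul_of_nonneg_right (pow_le_pow_left₀ hg.le (h i j) 2) (by positivity)
  linarith

theorem norm_sub2_le (A : Mat ι) {e : α → ι} (he : Function.Injective e) :
    ‖A.submatrix e e‖ ≤ ‖A‖ := by
  have h1 : A.submatrix e e = ((A.submatrix e id)ᴴ.submatrix e id)ᴴ := by
    ext i j; simp
  rw [h1, Matrix.l2_opNorm_conjTranspose]
  refine (norm_submatrix_row_le _ he).trans ?_
  rw [Matrix.l2_opNorm_conjTranspose]
  exact norm_submatrix_row_le _ he

omit [Fintype α] [Fintype β] [DecidableEq α] [DecidableEq β] [Fintype ι] [DecidableEq ι]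
  [DecidableEq γ] in
theorem conj_submatrix (w : Matrix ι γ ℂ) (P : Mat γ) (e : α → ι) (f : β → ι) :
    (w * P * wᴴ).submatrix e f = w.submatrix e id * P * (w.submatrix f id)ᴴ := by
  ext i j
  simp [Matrix.mul_apply]

omit [Fintype α] in
theorem Hm_sub {s δ : ℝ} (hs0 : 0 < s) (hs1 : s < 1) (w : Matrix ι γ ℂ) {e : α → ι}
    (he : Function.Injective e) :
    (Hm s δ w).submatrix e e =
      w.submatrix e id * pw (wᴴ * w) (s⁻¹ - 1) * (w.submatrix e id)ᴴ + δ • (1 : Mat α) := by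
  have hr : 1 < s⁻¹ := one_lt_inv_iff₀.2 ⟨hs0, hs1⟩
  rw [Hm, pw_mul_conjTranspose w hr, Matrix.submatrix_add, Matrix.submatrix_smul]
  simp only [Pi.add_apply, Pi.smul_apply]
  rw [conj_submatrix, Matrix.submatrix_one _ he]

theorem Hm_off {s δ : ℝ} (hs0 : 0 < s) (hs1 : s < 1) (w : Matrix (α ⊕ β) γ ℂ) :
    (Hm s δ w).submatrix inl inr =
      w.submatrix inl id * pw (wᴴ * w) (s⁻¹ - 1) * (w.submatrix inr id)ᴴ := by
  have hr : 1 < s⁻¹ := one_lt_inv_iff₀.2 ⟨hs0, hs1⟩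
  rw [Hm, pw_mul_conjTranspose w hr, ← conj_submatrix]
  ext i j
  simp

theorem norm_mul_conjTranspose (B : Matrix α β ℂ) : ‖B * Bᴴ‖ = ‖Bᴴ * B‖ := by
  have h := Matrix.l2_opNorm_conjTranspose_mul_self Bᴴ
  rw [Matrix.conjTranspose_conjTranspose, Matrix.l2_opNorm_conjTranspose] at h
  rw [h, Matrix.l2_opNorm_conjTranspose_mul_self]

theorem norm_Hm_le {s δ C : ℝ} (hs0 : 0 < s) (hδ0 : 0 ≤ δ) (hδ : δ ≤ 1) {w : Matrix ι γ ℂ}
    (hw : ‖w‖ ≤ C) : ‖Hm s δ w‖ ≤ (C * C) ^ s⁻¹ + 1 := by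
  have h1 : ‖w * wᴴ‖ ≤ C * C := by
    rw [norm_mul_conjTranspose, Matrix.l2_opNorm_conjTranspose_mul_self]
    exact mul_le_mul hw hw (norm_nonneg _) ((norm_nonneg _).trans hw)
  have h2 : ‖pw (w * wᴴ) s⁻¹‖ ≤ (C * C) ^ s⁻¹ :=
    (norm_pw_le (Matrix.posSemidef_self_mul_conjTranspose w) (by positivity)).trans
      (Real.rpow_le_rpow (norm_nonneg _) h1 (by positivity))
  have h3 : ‖δ • (1 : Mat ι)‖ ≤ 1 := by
    rw [← dg_const]
    exact norm_dg_le zero_le_one fun _ => by rwa [abs_of_nonneg hδ0]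
  exact (norm_add_le _ _).trans (add_le_add h2 h3)

theorem norm_Zm_le {C : ℝ} (hC : 0 ≤ C) {κ : ι → ℝ} {X : Mat ι} (hκ0 : ∀ i, 0 ≤ κ i)
    (hκ : ∀ i, κ i ≤ C) (hX : Reg κ X) : ‖Zm κ X‖ ≤ C ^ 2 + C ^ 2 := by
  have h1 : ‖dg fun i => κ i ^ 2‖ ≤ C ^ 2 :=
    norm_dg_le (by positivity) fun i => by
      rw [abs_of_nonneg (by positivity)]; exact pow_le_pow_left₀ (hκ0 i) (hκ i) 2
  have h2 := hX.norm_le hC hκ
  have h3 : ‖X * X‖ ≤ C ^ 2 := (norm_mul_le _ _).trans (by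
    rw [sq]; exact mul_le_mul h2 h2 (norm_nonneg _) hC)
  exact (norm_sub_le _ _).trans (add_le_add h1 h3)

/-- the penalty term is controlled by the norm of the lower block of `H` -/
theorem norm_tail_le {s δ : ℝ} (hs0 : 0 < s) (hs1 : s < 1) (hδ : 0 ≤ δ) (w : Matrix (α ⊕ β) γ ℂ) :
    ‖pw (wᴴ * w) ((s⁻¹ - 1) / 2) * ((w.submatrix inr id)ᴴ * w.submatrix inr id)
      * pw (wᴴ * w) ((s⁻¹ - 1) / 2)‖ ≤ ‖(Hm s δ w).submatrix inr inr‖ := by
  have hr : 1 < s⁻¹ := one_lt_inv_iff₀.2 ⟨hs0, hs1⟩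
  have hρ : (wᴴ * w).PosSemidef := Matrix.posSemidef_conjTranspose_mul_self w
  set P := pw (wᴴ * w) ((s⁻¹ - 1) / 2) with hP
  have hPh : Pᴴ = P := pw_herm _ _
  have hPP : P * P = pw (wᴴ * w) (s⁻¹ - 1) := by
    rw [hP, pw_add hρ (by linarith) (by linarith)]; congr 1; ring
  set B := w.submatrix inr id * P with hB
  have e1 : P * ((w.submatrix inr id)ᴴ * w.submatrix inr id) * P = Bᴴ * B := by
    rw [hB, Matrix.conjTranspose_mul, hPh]; simp only [Matrix.mul_assoc]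
  have e2 : B * Bᴴ = w.submatrix inr id * pw (wᴴ * w) (s⁻¹ - 1) * (w.submatrix inr id)ᴴ := by
    rw [hB, Matrix.conjTranspose_mul, hPh, ← hPP]; simp only [Matrix.mul_assoc]
  rw [e1, ← norm_mul_conjTranspose]
  refine norm_mono_psd (Matrix.posSemidef_self_mul_conjTranspose B) ?_
  rw [Hm_sub hs0 hs1 w inr_injective, ← e2, add_sub_cancel_left]
  exact Matrix.PosSemidef.one.smul hδ

end blocks

section data
variable {s : ℝ} {m : ℕ} {W : ℝ → Mat (Fin m)} {L D : ℝ}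
variable {α β ι : Type} [Fintype α] [DecidableEq α] [Fintype β] [DecidableEq β]
  [Fintype ι] [DecidableEq ι]

theorem cw (d : Data s W ι L D) : Continuous d.w :=
  continuous_iff_continuousAt.2 fun x => (d.hw x).continuousAt

theorem cH (hs0 : 0 < s) (d : Data s W ι L D) : Continuous fun x => Hm s d.δ (d.w x) :=
  (continuous_Hm hs0).comp (f := fun x => (d.δ, d.w x)) (continuous_const.prodMk (cw d))

theorem cdfc (hs0 : 0 < s) (hs1 : s < 1) {κ : ι → ℝ} (hκ : ∀ i, 0 ≤ κ i) {X H : ℝ → Mat ι}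
    (cX : Continuous X) (cH : Continuous H) (reg : ∀ x, Reg κ (X x))
    (hH : ∀ x, (H x).IsHermitian) : Continuous fun x => dfc s κ (X x) (H x) :=
  (continuousOn_dfc hs0 hs1).comp_continuous (f := fun x => (κ, X x, H x))
    (continuous_const.prodMk (cX.prodMk cH)) fun x => ⟨hκ, reg x, hH x⟩

theorem crtpw (hs0 : 0 < s) {H : ℝ → Mat ι} (cH : Continuous H) (hH : ∀ x, (H x).IsHermitian) :
    Continuous fun x => rt (pw (H x) (1 + s)) :=
  continuous_rt.comp ((continuousOn_pw (by linarith)).comp_continuous cH hH)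

omit [DecidableEq ι] in
theorem ccomm (κ : ι → ℝ) {X : ℝ → Mat ι} (cX : Continuous X) :
    Continuous fun x => comm κ (X x) :=
  continuous_comm.comp (f := fun x => (κ, X x)) (continuous_const.prodMk cX)

theorem int_mono {a b : ℝ} (hab : a < b) {f g : ℝ → ℝ} (hf : Continuous f) (hg : Continuous g)
    (h : ∀ x, f x ≤ g x) : ∫ x in a..b, f x ≤ ∫ x in a..b, g x :=
  intervalIntegral.integral_mono_on hab.le (hf.intervalIntegrable _ _) (hg.intervalIntegrable _ _)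
    fun x _ => h x

theorem int_dfc_le (hs0 : 0 < s) (hs1 : s < 1) (d : Data s W ι L D) :
    ∫ x in d.a..d.b, dfc s d.κ (d.X x) (Hm s d.δ (d.w x)) ≤ D := by
  have h := bell_dfc hs0 hs1 d.κ_nonneg d.hab.le (X := d.X) (H := fun x => Hm s d.δ (d.w x))
    (E := fun _ => 0) d.cX.continuousOn (cH hs0 d).continuousOn continuousOn_const
    (fun x _ => (Hm_psd s d.δ_pos.le (d.w x)).isHermitian)
    (fun x hx => by simpa using d.hX x hx) (fun x _ => d.reg x) (d.Xa _ le_rfl) (d.Xb _ le_rfl)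
  simp only [Matrix.mul_zero, rt_zero, intervalIntegral.integral_zero, add_zero] at h
  rw [h]; exact d.dH

theorem hX_block (d : Data s W ι L D) {e : α → ι} (he : Function.Injective e) {x : ℝ}
    (hx : x ∈ Ioo d.a d.b) {E : Mat α} (hE : (d.X x * d.X x).submatrix e e =
      (d.X x).submatrix e e * (d.X x).submatrix e e + E) :
    HasDerivAt (fun y => (d.X y).submatrix e e) (Zm (d.κ ∘ e) ((d.X x).submatrix e e)
      - (s⁻¹ + 1) • (Hm s d.δ (d.w x)).submatrix e e - E) x := by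
  have h := hasDerivAt_submatrix (d.hX x hx) e e
  convert h using 1
  have h1 : (Zm d.κ (d.X x) - (s⁻¹ + 1) • Hm s d.δ (d.w x)).submatrix e e =
      (dg fun i => d.κ i ^ 2).submatrix e e - (d.X x * d.X x).submatrix e e
        - (s⁻¹ + 1) • (Hm s d.δ (d.w x)).submatrix e e := by
    ext i j; simp [Zm]
  rw [h1, hE, dg_sub_inj _ he, Zm]
  simp only [Function.comp_def]
  abel

omit [DecidableEq β] in
theorem block_dfc (hs0 : 0 < s) (hs1 : s < 1) (d : Data s W ι L D) {R : ℝ} (hR0 : 0 ≤ R)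
    (hR : ∀ i, d.κ i ^ 2 ≤ R) {e : α → ι} (he : Function.Injective e) {B : ℝ → Matrix α β ℂ}
    (cB : Continuous B) (hB : ∀ x, (d.X x * d.X x).submatrix e e =
      (d.X x).submatrix e e * (d.X x).submatrix e e + B x * (B x)ᴴ) :
    ∫ x in d.a..d.b, dfc s (d.κ ∘ e) ((d.X x).submatrix e e) ((Hm s d.δ (d.w x)).submatrix e e)
      ≤ s⁻¹ * (∫ x in d.a..d.b, rt (pw ((Hm s d.δ (d.w x)).submatrix e e) (1 + s)))
        - ∑ i, psi s (d.κ (e i)) (d.ξ (e i))
        + 25 * (R + 1) ^ s * ∫ x in d.a..d.b, fro2 (B x) := by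
  have cXe : Continuous fun x => (d.X x).submatrix e e := d.cX.matrix_submatrix e e
  have cE : Continuous fun x => B x * (B x)ᴴ := cB.matrix_mul cB.matrix_conjTranspose
  have hreg : ∀ x, Reg (d.κ ∘ e) ((d.X x).submatrix e e) := fun x => (d.reg x).submatrix he
  have h := bell_dfc hs0 hs1 (κ := d.κ ∘ e) (ξ := d.ξ ∘ e) (fun i => d.κ_nonneg _) d.hab.le
    (X := fun x => (d.X x).submatrix e e) (H := fun x => (Hm s d.δ (d.w x)).submatrix e e)
    (E := fun x => B x * (B x)ᴴ) cXe.continuousOn ((cH hs0 d).matrix_submatrix e e).continuousOn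
    cE.continuousOn (fun x _ => (Hm_psd s d.δ_pos.le (d.w x)).isHermitian.submatrix e)
    (fun x hx => hX_block d he hx (hB x)) (fun x _ => hreg x)
    (by simp only [d.Xa _ le_rfl, dg_sub_inj _ he]) (by simp only [d.Xb _ le_rfl, dg_sub_inj _ he])
  rw [h]
  have cG : Continuous fun x => G s (d.κ ∘ e) ((d.X x).submatrix e e) :=
    (continuousOn_G hs0 hs1).comp_continuous (f := fun x => (d.κ ∘ e, (d.X x).submatrix e e))
      (continuous_const.prodMk cXe) fun x => ⟨fun i => d.κ_nonneg _, hreg x⟩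
  have h2 : ∫ x in d.a..d.b, rt (G s (d.κ ∘ e) ((d.X x).submatrix e e) * (B x * (B x)ᴴ)) ≤
      ∫ x in d.a..d.b, 25 * (R + 1) ^ s * fro2 (B x) := by
    refine int_mono d.hab (continuous_rt.comp (cG.matrix_mul cE))
      (continuous_const.mul (continuous_fro2.comp cB)) fun x => ?_
    refine (le_abs_self _).trans ((abs_rt_mul_le (G_herm hs0 hs1 (fun i => d.κ_nonneg _) (hreg x))
      (Matrix.posSemidef_self_mul_conjTranspose _)).trans ?_)
    rw [← fro2_eq]
    exact mul_le_mul_of_nonneg_right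
      (norm_G_le hs0 hs1 (fun i => d.κ_nonneg _) hR0 (fun i => hR _) (hreg x)) (fro2_nonneg _)
  rw [intervalIntegral.integral_const_mul] at h2
  simp only [Function.comp_apply]
  linarith

theorem X_lip (hs0 : 0 < s) (d : Data s W ι L D) (hD : D ≤ 1) {C : ℝ} (hC : 0 ≤ C)
    (hw : ∀ x, ‖d.w x‖ ≤ C) (hκ : ∀ i, d.κ i ≤ C) (x y : ℝ) :
    ‖d.X x - d.X y‖ ≤ (C ^ 2 + C ^ 2 + (s⁻¹ + 1) * ((C * C) ^ s⁻¹ + 1)) * |x - y| := by
  set K := C ^ 2 + C ^ 2 + (s⁻¹ + 1) * ((C * C) ^ s⁻¹ + 1) with hK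
  have hK0 : 0 ≤ K := by positivity
  have h1 : LipschitzOnWith ⟨K, hK0⟩ d.X (Ioo d.a d.b) := by
    refine (convex_Ioo d.a d.b).lipschitzOnWith_of_nnnorm_hasDerivWithin_le
      (fun x hx => (d.hX x hx).hasDerivWithinAt) fun x _ => ?_
    change ‖_‖ ≤ K
    refine (norm_sub_le _ _).trans (add_le_add (norm_Zm_le hC d.κ_nonneg hκ (d.reg x)) ?_)
    rw [norm_smul, Real.norm_of_nonneg (by positivity)]
    exact mul_le_mul_of_nonneg_left (norm_Hm_le hs0 d.δ_pos.le (d.δ_le.trans hD) (hw x))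
      (by positivity)
  have h2 : LipschitzOnWith ⟨K, hK0⟩ d.X (Icc d.a d.b) := by
    rw [← closure_Ioo d.hab.ne]
    exact LipschitzOnWith.closure d.cX.continuousOn h1
  have h3 : ∀ z, d.X z = d.X (projIcc d.a d.b d.hab.le z) := by
    intro z
    rcases le_total z d.a with h | h
    · rw [projIcc_of_le_left _ h, d.Xa _ h, d.Xa _ le_rfl]
    rcases le_total d.b z with h' | h'
    · rw [projIcc_of_right_le _ h', d.Xb _ h', d.Xb _ le_rfl]
    · rw [projIcc_of_mem _ ⟨h, h'⟩]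
  rw [h3 x, h3 y, ← dist_eq_norm]
  refine (h2.dist_le_mul _ (projIcc d.a d.b d.hab.le x).2 _ (projIcc d.a d.b d.hab.le y).2).trans ?_
  exact mul_le_mul_of_nonneg_left (abs_projIcc_sub_projIcc d.hab.le) hK0

theorem int_comm_le (hs0 : 0 < s) (hs1 : s < 1) (d : Data s W ι L D) {c : ℝ} (hc : 0 < c)
    (h : ∀ x, c * comm d.κ (d.X x) ≤ dfc s d.κ (d.X x) (Hm s d.δ (d.w x))) :
    ∫ x in d.a..d.b, comm d.κ (d.X x) ≤ c⁻¹ * D := by
  have h1 := int_mono d.hab (continuous_const.mul (ccomm d.κ d.cX))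
    (cdfc hs0 hs1 d.κ_nonneg d.cX (cH hs0 d) d.reg
      fun x => (Hm_psd s d.δ_pos.le (d.w x)).isHermitian) h
  rw [le_inv_mul_iff₀ hc, ← intervalIntegral.integral_const_mul]
  exact h1.trans (int_dfc_le hs0 hs1 d)

theorem int_off_le (d : Data s W (α ⊕ β) L D) {g : ℝ} (hg : 0 < g)
    (h : ∀ i j, g ≤ d.κ (inl i) ^ 2 - d.κ (inr j) ^ 2) :
    ∫ x in d.a..d.b, fro2 ((d.X x).submatrix inl inr) ≤
      (g ^ 2)⁻¹ * ∫ x in d.a..d.b, comm d.κ (d.X x) := by
  have h1 := int_mono d.hab (continuous_const.mul (continuous_fro2.comp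
    (d.cX.matrix_submatrix inl inr))) (ccomm d.κ d.cX) fun x => gap_le_comm d.κ (d.X x) hg h
  rw [le_inv_mul_iff₀ (by positivity), ← intervalIntegral.integral_const_mul]
  exact h1

theorem blocks_sum (hs0 : 0 < s) (hs1 : s < 1) (d : Data s W (α ⊕ β) L D) {R M : ℝ} (hR0 : 0 ≤ R)
    (hR : ∀ i, d.κ i ^ 2 ≤ R) (hM : 0 < M) (hH : ∀ x, ‖Hm s d.δ (d.w x)‖ ≤ M) :
    (∫ x in d.a..d.b, dfc s (d.κ ∘ inl) ((d.X x).submatrix inl inl)
        ((Hm s d.δ (d.w x)).submatrix inl inl))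
      + (∫ x in d.a..d.b, dfc s (d.κ ∘ inr) ((d.X x).submatrix inr inr)
        ((Hm s d.δ (d.w x)).submatrix inr inr))
      + s⁻¹ * ((1 + s) * s * M ^ (s - 1)) *
        ∫ x in d.a..d.b, fro2 ((Hm s d.δ (d.w x)).submatrix inl inr)
      ≤ D + 2 * (25 * (R + 1) ^ s) * ∫ x in d.a..d.b, fro2 ((d.X x).submatrix inl inr) := by
  have cO : Continuous fun x => (d.X x).submatrix inl inr := d.cX.matrix_submatrix inl inr
  have h1 := block_dfc hs0 hs1 d hR0 hR inl_injective cO fun x => sq_inl (d.reg x).herm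
  have h2 := block_dfc hs0 hs1 d hR0 hR inr_injective cO.matrix_conjTranspose
    fun x => sq_inr (d.reg x).herm
  simp only [fro2_conjTranspose] at h2
  have hh : ∀ x, (Hm s d.δ (d.w x)).PosSemidef := fun x => Hm_psd s d.δ_pos.le (d.w x)
  have c1 := crtpw hs0 ((cH hs0 d).matrix_submatrix inl inl)
    fun x => (hh x).isHermitian.submatrix inl
  have c2 := crtpw hs0 ((cH hs0 d).matrix_submatrix inr inr)
    fun x => (hh x).isHermitian.submatrix inr
  have c3 : Continuous fun x => (1 + s) * s * M ^ (s - 1) *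
      fro2 ((Hm s d.δ (d.w x)).submatrix inl inr) :=
    continuous_const.mul (continuous_fro2.comp ((cH hs0 d).matrix_submatrix inl inr))
  have h3 := int_mono d.hab ((c1.fun_add c2).fun_add c3)
    (crtpw hs0 (cH hs0 d) fun x => (hh x).isHermitian) fun x => pinch hs0 hs1 hM (hh x) (hH x)
  rw [intervalIntegral.integral_add ((c1.fun_add c2).intervalIntegrable _ _)
      (c3.intervalIntegrable _ _),
    intervalIntegral.integral_add (c1.intervalIntegrable _ _) (c2.intervalIntegrable _ _),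
    intervalIntegral.integral_const_mul] at h3
  have h4 := mul_le_mul_of_nonneg_left h3 (inv_pos.2 hs0).le
  have h5 := d.dH
  rw [Fintype.sum_sum_type] at h5
  linarith

theorem rho_hold {γ : Type} [Fintype γ] [DecidableEq γ] {u v : Matrix ι γ ℂ} {C t : ℝ}
    (hu : ‖u‖ ≤ C) (hv : ‖v‖ ≤ C) (h : ‖u - v‖ ≤ t) : ‖uᴴ * u - vᴴ * v‖ ≤ 2 * C * t := by
  have e : uᴴ * u - vᴴ * v = (u - v)ᴴ * u + vᴴ * (u - v) := by
    rw [Matrix.conjTranspose_sub, Matrix.sub_mul, Matrix.mul_sub]; abel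
  have hC : 0 ≤ C := (norm_nonneg _).trans hu
  have ht : 0 ≤ t := (norm_nonneg _).trans h
  have h1 : ‖(u - v)ᴴ * u‖ ≤ t * C := (Matrix.l2_opNorm_mul _ _).trans (by
    rw [Matrix.l2_opNorm_conjTranspose]; exact mul_le_mul h hu (norm_nonneg _) ht)
  have h2 : ‖vᴴ * (u - v)‖ ≤ C * t := (Matrix.l2_opNorm_mul _ _).trans (by
    rw [Matrix.l2_opNorm_conjTranspose]; exact mul_le_mul hv h (norm_nonneg _) hC)
  rw [e]
  exact (norm_add_le _ _).trans (by linarith)

theorem int_E_le (d : Data s W (α ⊕ β) L D) :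
    ∫ x in d.a..d.b, ‖(d.X x).submatrix inl inr * ((d.X x).submatrix inl inr)ᴴ‖ ≤
      ∫ x in d.a..d.b, fro2 ((d.X x).submatrix inl inr) := by
  have cO : Continuous fun x => (d.X x).submatrix inl inr := d.cX.matrix_submatrix inl inr
  refine int_mono d.hab (cO.matrix_mul cO.matrix_conjTranspose).norm (continuous_fro2.comp cO)
    fun x => ?_
  rw [fro2_eq]
  exact norm_le_rt (Matrix.posSemidef_self_mul_conjTranspose _)

theorem int_B_le (d : Data s W (α ⊕ β) L D) {C : ℝ} (hw : ∀ x, ‖d.w x‖ ≤ C) :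
    ∫ x in d.a..d.b, fro2 ((d.w' x).submatrix inl id
        - (d.X x).submatrix inl inl * (d.w x).submatrix inl id) ≤
      2 * D + 2 * C ^ 2 * ∫ x in d.a..d.b, fro2 ((d.X x).submatrix inl inr) := by
  have cO : Continuous fun x => (d.X x).submatrix inl inr := d.cX.matrix_submatrix inl inr
  have c1 : Continuous fun x => 2 * fro2 (d.w' x - d.X x * d.w x) :=
    continuous_const.mul (continuous_fro2.comp (d.cw'.sub (d.cX.matrix_mul (cw d))))
  have c2 : Continuous fun x => 2 * C ^ 2 * fro2 ((d.X x).submatrix inl inr) :=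
    continuous_const.mul (continuous_fro2.comp cO)
  have h := int_mono d.hab (f := fun x => fro2 ((d.w' x).submatrix inl id
        - (d.X x).submatrix inl inl * (d.w x).submatrix inl id))
    (continuous_fro2.comp ((d.cw'.matrix_submatrix inl id).sub
      ((d.cX.matrix_submatrix inl inl).matrix_mul ((cw d).matrix_submatrix inl id))))
    (c1.fun_add c2) fun x => by
      rw [res_inl]
      refine (fro2_add_le _ _).trans ?_
      have h1 := fro2_inl_le (d.w' x - d.X x * d.w x)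
      have h2 := fro2_mul_le_right ((d.X x).submatrix inl inr) ((d.w x).submatrix inr id)
      have h3 : ‖(d.w x).submatrix inr id‖ ^ 2 ≤ C ^ 2 :=
        pow_le_pow_left₀ (norm_nonneg _) ((norm_submatrix_row_le _ inr_injective).trans (hw x)) 2
      have h4 := mul_le_mul_of_nonneg_left h3 (fro2_nonneg ((d.X x).submatrix inl inr))
      linarith
  rw [intervalIntegral.integral_add (c1.intervalIntegrable _ _) (c2.intervalIntegrable _ _),
    intervalIntegral.integral_const_mul, intervalIntegral.integral_const_mul] at h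
  have := d.dB
  linarith

theorem int_P_le (hs0 : 0 < s) (hs1 : s < 1) (d : Data s W (α ⊕ β) L D) {C : ℝ}
    (hw : ∀ x, ‖d.w x‖ ≤ C) :
    ∫ x in d.a..d.b, fro2 ((d.w x).submatrix inl id * pw ((d.w x)ᴴ * d.w x) (s⁻¹ - 1) *
        ((d.w x)ᴴ * d.w x - ((d.w x).submatrix inl id)ᴴ * (d.w x).submatrix inl id)) ≤
      C ^ 2 * ∫ x in d.a..d.b, fro2 ((Hm s d.δ (d.w x)).submatrix inl inr) := by
  have e : ∀ x, (d.w x).submatrix inl id * pw ((d.w x)ᴴ * d.w x) (s⁻¹ - 1) *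
        ((d.w x)ᴴ * d.w x - ((d.w x).submatrix inl id)ᴴ * (d.w x).submatrix inl id) =
      (Hm s d.δ (d.w x)).submatrix inl inr * (d.w x).submatrix inr id := fun x => by
    rw [rho_sub, Hm_off hs0 hs1]; simp only [Matrix.mul_assoc]
  simp only [e]
  have cO : Continuous fun x => (Hm s d.δ (d.w x)).submatrix inl inr :=
    (cH hs0 d).matrix_submatrix inl inr
  rw [← intervalIntegral.integral_const_mul]
  refine int_mono d.hab (continuous_fro2.comp (cO.matrix_mul ((cw d).matrix_submatrix inr id)))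
    (continuous_const.mul (continuous_fro2.comp cO)) fun x => ?_
  refine (fro2_mul_le_right _ _).trans ?_
  rw [mul_comm]
  exact mul_le_mul_of_nonneg_right (pow_le_pow_left₀ (norm_nonneg _)
    ((norm_submatrix_row_le _ inr_injective).trans (hw x)) 2) (fro2_nonneg _)

theorem int_T_le (hs0 : 0 < s) (hs1 : s < 1) (d : Data s W (α ⊕ β) L D) {η : ℝ} (hη : 0 < η)
    (hκ : ∀ j, d.κ (inr j) ^ 2 ≤ η) :
    ∫ x in d.a..d.b, phi s η ‖pw ((d.w x)ᴴ * d.w x) ((s⁻¹ - 1) / 2) *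
        ((d.w x)ᴴ * d.w x - ((d.w x).submatrix inl id)ᴴ * (d.w x).submatrix inl id) *
        pw ((d.w x)ᴴ * d.w x) ((s⁻¹ - 1) / 2)‖ ≤
      ∫ x in d.a..d.b, dfc s (d.κ ∘ inr) ((d.X x).submatrix inr inr)
        ((Hm s d.δ (d.w x)).submatrix inr inr) := by
  have hr : 1 < s⁻¹ := one_lt_inv_iff₀.2 ⟨hs0, hs1⟩
  simp only [rho_sub]
  have hh : ∀ x, ((Hm s d.δ (d.w x)).submatrix inr inr).PosSemidef :=
    fun x => (Hm_psd s d.δ_pos.le (d.w x)).submatrix inr
  have cP : Continuous fun x => pw ((d.w x)ᴴ * d.w x) ((s⁻¹ - 1) / 2) :=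
    (continuousOn_pw (by linarith)).comp_continuous ((cw d).matrix_conjTranspose.matrix_mul (cw d))
      fun x => Matrix.isHermitian_conjTranspose_mul_self _
  have cS : Continuous fun x => (d.w x).submatrix inr id := (cw d).matrix_submatrix inr id
  refine int_mono d.hab ((continuous_phi hs0 η).comp
    ((cP.matrix_mul (cS.matrix_conjTranspose.matrix_mul cS)).matrix_mul cP).norm)
    (cdfc hs0 hs1 (fun i => d.κ_nonneg _) (d.cX.matrix_submatrix inr inr)
      ((cH hs0 d).matrix_submatrix inr inr) (fun x => (d.reg x).submatrix inr_injective)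
      fun x => (hh x).isHermitian) fun x => ?_
  exact (phi_mono hs0 hη (norm_tail_le hs0 hs1 d.δ_pos.le (d.w x))).trans
    (phi_le_dfc hs0 hs1 hη (fun i => d.κ_nonneg _) hκ ((d.reg x).submatrix inr_injective) (hh x))

theorem int_dfc_nonneg (hs0 : 0 < s) (hs1 : s < 1) (d : Data s W ι L D) {e : α → ι}
    (he : Function.Injective e) :
    0 ≤ ∫ x in d.a..d.b, dfc s (d.κ ∘ e) ((d.X x).submatrix e e)
      ((Hm s d.δ (d.w x)).submatrix e e) :=
  intervalIntegral.integral_nonneg d.hab.le fun x _ => dfc_nonneg hs0 hs1 (fun _ => d.κ_nonneg _)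
    ((d.reg x).submatrix he) ((Hm_psd s d.δ_pos.le (d.w x)).submatrix e)

end data

theorem top_aux {s : ℝ} {m : ℕ} {W : ℝ → Mat (Fin m)} (hs0 : 0 < s) (hs1 : s < 1) {η g C₀ : ℝ}
    (hη : 0 < η) (hg : 0 < g) (hC₀ : 0 < C₀) :
    ∃ C > 0, ∀ (q : ℕ) (τ : Type) [Fintype τ] [DecidableEq τ] (L D : ℝ)
      (d : Data s W (Fin q ⊕ τ) L D), D ≤ 1 → (∀ x, ‖d.w x‖ ≤ C₀) →
      (∀ x y, ‖d.w x - d.w y‖ ≤ C₀ * √|x - y|) → (∀ i, d.κ i ≤ C₀) →
      (∀ i j, g ≤ d.κ (.inl i) ^ 2 - d.κ (.inr j) ^ 2) → (∀ j, d.κ (.inr j) ^ 2 ≤ η) →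
      Nonempty (Top s W q η C L (C * D)) := by
  obtain ⟨c, hc, hhj⟩ := hj hs0 hs1 (C₀ ^ 2) (by positivity)
  obtain ⟨M, hM⟩ : ∃ M, M = (C₀ * C₀) ^ s⁻¹ + 1 := ⟨_, rfl⟩
  have hM0 : 0 < M := by rw [hM]; positivity
  obtain ⟨K, hK⟩ : ∃ K, K = C₀ ^ 2 + C₀ ^ 2 + (s⁻¹ + 1) * ((C₀ * C₀) ^ s⁻¹ + 1) := ⟨_, rfl⟩
  have hK0 : 0 < K := by rw [hK]; positivity
  obtain ⟨A, hA⟩ : ∃ A, A = (g ^ 2)⁻¹ * c⁻¹ := ⟨_, rfl⟩
  have hA0 : 0 < A := by rw [hA]; positivity
  obtain ⟨Γ, hΓ⟩ : ∃ Γ, Γ = 2 * (25 * (C₀ ^ 2 + 1) ^ s) := ⟨_, rfl⟩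
  have hΓ0 : 0 < Γ := by rw [hΓ]; positivity
  obtain ⟨c₂, hc₂⟩ : ∃ c₂, c₂ = s⁻¹ * ((1 + s) * s * M ^ (s - 1)) := ⟨_, rfl⟩
  have hc₂0 : 0 < c₂ := by rw [hc₂]; positivity
  obtain ⟨C, hC⟩ : ∃ C, C = 1 + C₀ + 2 * C₀ * C₀ + K + c⁻¹ + A + (1 + Γ * A) + (2 + 2 * C₀ ^ 2 * A)
    + C₀ ^ 2 * (c₂⁻¹ * (1 + Γ * A)) := ⟨_, rfl⟩
  have p1 : 0 < C₀ * C₀ := by positivity
  have p2 : 0 < c⁻¹ := by positivity
  have p3 : 0 < Γ * A := by positivity
  have p4 : 0 < C₀ ^ 2 * A := by positivity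
  have p5 : 0 < C₀ ^ 2 * (c₂⁻¹ * (1 + Γ * A)) := by positivity
  refine ⟨C, by linarith, fun q τ _ _ L D d hD hw hw2 hκ hgap hτ => ?_⟩
  have hD0 : 0 < D := d.δ_pos.trans_le d.δ_le
  have mono : ∀ {x a : ℝ}, x ≤ a * D → a ≤ C → x ≤ C * D := fun h1 h2 =>
    h1.trans (mul_le_mul_of_nonneg_right h2 hD0.le)
  have hR : ∀ i, d.κ i ^ 2 ≤ C₀ ^ 2 := fun i => pow_le_pow_left₀ (d.κ_nonneg i) (hκ i) 2
  have I1 := int_comm_le hs0 hs1 d hc fun x =>
    hhj _ d.κ (d.X x) _ d.κ_nonneg hR (d.reg x) (Hm_psd s d.δ_pos.le (d.w x))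
  have I2 : ∫ x in d.a..d.b, fro2 ((d.X x).submatrix inl inr) ≤ A * D := by
    refine (int_off_le d hg hgap).trans ?_
    rw [hA, mul_assoc]
    exact mul_le_mul_of_nonneg_left I1 (by positivity)
  have I3 := blocks_sum hs0 hs1 d (by positivity) hR hM0 fun x => by
    rw [hM]; exact norm_Hm_le hs0 d.δ_pos.le (d.δ_le.trans hD) (hw x)
  rw [← hc₂, ← hΓ] at I3
  have I4 := mul_le_mul_of_nonneg_left I2 hΓ0.le
  have n1 := int_dfc_nonneg hs0 hs1 d (inl_injective (α := Fin q) (β := τ))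
  have n2 := int_dfc_nonneg hs0 hs1 d (inr_injective (α := Fin q) (β := τ))
  have n3 : 0 ≤ ∫ x in d.a..d.b, fro2 ((Hm s d.δ (d.w x)).submatrix inl inr) :=
    intervalIntegral.integral_nonneg d.hab.le fun x _ => fro2_nonneg _
  have n4 := mul_nonneg hc₂0.le n3
  have I5 : ∫ x in d.a..d.b, fro2 ((Hm s d.δ (d.w x)).submatrix inl inr) ≤
      c₂⁻¹ * ((1 + Γ * A) * D) := by
    rw [le_inv_mul_iff₀ hc₂0]; linarith
  refine ⟨{
    κ := d.κ ∘ inl
    a := d.a
    b := d.b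
    δ := d.δ
    ω := fun x => (d.w x).submatrix inl id
    ω' := fun x => (d.w' x).submatrix inl id
    ρ := fun x => (d.w x)ᴴ * d.w x
    X := fun x => (d.X x).submatrix inl inl
    E := fun x => (d.X x).submatrix inl inr * ((d.X x).submatrix inl inr)ᴴ
    κ_nonneg := fun i => d.κ_nonneg _
    κ_le := fun i => (hκ _).trans (by linarith)
    δ_nonneg := d.δ_pos.le
    δ_le := mono (a := 1) (by simpa using d.δ_le) (by linarith)
    ha := d.ha
    hb := d.hb
    hab := d.hab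
    hω := fun x => hasDerivAt_submatrix (d.hw x) inl id
    cω' := d.cw'.matrix_submatrix inl id
    cE := (d.cX.matrix_submatrix inl inr).matrix_mul
      (d.cX.matrix_submatrix inl inr).matrix_conjTranspose
    ω_le := fun x => ((norm_submatrix_row_le _ inl_injective).trans (hw x)).trans (by linarith)
    ρ_le := fun x => ?_
    ω_hold := fun x y => ?_
    ρ_hold := fun x y => ?_
    X_lip := fun x y => ?_
    reg := fun x => (d.reg x).submatrix inl_injective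
    ρ_psd := fun x => Matrix.posSemidef_conjTranspose_mul_self _
    ρS_psd := fun x => by rw [rho_sub]; exact Matrix.posSemidef_conjTranspose_mul_self _
    hX := fun x hx => by
      rw [← Hm_sub hs0 hs1 _ inl_injective]
      exact hX_block d inl_injective hx (sq_inl (d.reg x).herm)
    iY := d.iY
    dY := mono (a := 1) (by simpa using d.dY) (by linarith)
    dC := mono (a := c⁻¹) ((int_mono d.hab (ccomm _ (d.cX.matrix_submatrix inl inl))
      (ccomm _ d.cX) fun x => comm_inl_le d.κ (d.X x)).trans I1) (by linarith)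
    dE := mono ((int_E_le d).trans I2) (by linarith)
    dH := ?_
    dB := ?_
    dP := ?_
    dT := ?_ }⟩
  · rw [Matrix.l2_opNorm_conjTranspose_mul_self]
    exact (mul_le_mul (hw x) (hw x) (norm_nonneg _) hC₀.le).trans (by linarith)
  · have : (d.w x).submatrix inl id - (d.w y).submatrix inl id =
        (d.w x - d.w y).submatrix (inl : Fin q → Fin q ⊕ τ) id := rfl
    rw [this]
    exact ((norm_submatrix_row_le _ inl_injective).trans (hw2 x y)).trans
      (mul_le_mul_of_nonneg_right (by linarith) (Real.sqrt_nonneg _))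
  · refine (rho_hold (hw x) (hw y) (hw2 x y)).trans ?_
    rw [← mul_assoc]
    exact mul_le_mul_of_nonneg_right (by linarith) (Real.sqrt_nonneg _)
  · have : (d.X x).submatrix inl inl - (d.X y).submatrix inl inl =
        (d.X x - d.X y).submatrix (inl : Fin q → Fin q ⊕ τ) inl := rfl
    rw [this]
    refine ((norm_sub2_le _ inl_injective).trans (X_lip hs0 d hD hC₀.le hw hκ x y)).trans ?_
    rw [← hK]
    exact mul_le_mul_of_nonneg_right (by linarith) (abs_nonneg _)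
  · simp only [← Hm_sub hs0 hs1 _ (inl_injective (α := Fin q) (β := τ))]
    exact mono (a := 1 + Γ * A) (by linarith) (by linarith)
  · have := mul_le_mul_of_nonneg_left I2 (by positivity : 0 ≤ 2 * C₀ ^ 2)
    exact mono (a := 2 + 2 * C₀ ^ 2 * A) ((int_B_le d hw).trans (by linarith)) (by linarith)
  · have := mul_le_mul_of_nonneg_left I5 (by positivity : 0 ≤ C₀ ^ 2)
    exact mono (a := C₀ ^ 2 * (c₂⁻¹ * (1 + Γ * A))) ((int_P_le hs0 hs1 d hw).trans (by linarith))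
      (by linarith)
  · exact mono (a := 1 + Γ * A) ((int_T_le hs0 hs1 d hη hτ).trans (by linarith)) (by linarith)

end Crest.Agent.R332.Split0
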