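import Crest.Agent.R332.Bell
import Crest.Agent.R332.Split0

/-! # Row 332: splitting off the top block of a nearly extremal configuration -/

set_option autoImplicit false

open MeasureTheory Set Filter Topology
open scoped Matrix Matrix.Norms.L2Operator MatrixOrder ComplexOrder

namespace Crest.Agent.R332

variable {s : ℝ} {m : ℕ} {W : ℝ → Mat (Fin m)}

/-- Uniform bounds.  With `ρ = wᴴ w`, `I = ∫ tr W^(1+s)`: `yng_scaled` and `rt_mul_le_half` give
`∫ tr ρ^(r+1) ≤ 2 (1 + 2^s C1 I)`, then `∫ tr ρ W`, `∫ fro2 w'` (`hT`) and `Σ κ^(1+2s)` (`hκ`) are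
bounded.  `‖w x - w y‖ ≤ √T √|x-y|` (FTC, Cauchy–Schwarz), and `‖w‖^(2(r+1)) ≤ tr ρ^(r+1)`
(`norm_pow_le_rt_pw`), so on `[x, x+1]` there is a point with `‖w‖` bounded. -/
theorem data_bounds (hs0 : 0 < s) (hs1 : s < 1) (hW : Pot s W) : ∃ C > 0, ∀ (ι : Type) [Fintype ι]
    [DecidableEq ι] (L D : ℝ) (d : Data s W ι L D), D ≤ 1 →
    (∀ x, ‖d.w x‖ ≤ C) ∧ (∀ x y, ‖d.w x - d.w y‖ ≤ C * √|x - y|) ∧
      ∑ i, d.κ i ^ (1 + 2 * s) ≤ C ∧ ∀ i, d.κ i ≤ C := by
  set I := ∫ x, rt (pw (W x) (1 + s)) with hI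
  have I0 : 0 ≤ I := integral_nonneg fun x => rt_nonneg (pw_psd (hW.psd x) _)
  have hC1 : 0 ≤ C1 s := by unfold C1; positivity
  have hcs := cs_pos hs0
  set B := 2 ^ s * C1 s * I with hB
  have B0 : 0 ≤ B := by positivity
  set K := (s⁻¹ * (2 + 2 * B) + 1) / cs s with hK
  have K0 : 0 ≤ K := by positivity
  refine ⟨4 + 3 * B + K, by positivity, fun ι _ _ L D d hD => ?_⟩
  have cw : Continuous d.w := continuous_iff_continuousAt.2 fun x => (d.hw x).continuousAt
  have cρ : Continuous fun x => (d.w x)ᴴ * d.w x := by fun_prop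
  have ρpsd : ∀ x, ((d.w x)ᴴ * d.w x).PosSemidef := fun x =>
    Matrix.posSemidef_conjTranspose_mul_self _
  set P : ℝ → ℝ := fun x => rt (pw ((d.w x)ᴴ * d.w x) (s⁻¹ + 1)) with hP
  have cP : Continuous P := continuous_rt.comp
    ((continuousOn_pw (by positivity)).comp_continuous cρ fun x => (ρpsd x).isHermitian)
  have P0 : ∀ x, 0 ≤ P x := fun x => rt_nonneg (pw_psd (ρpsd x) _)
  have iP : Integrable P := cP.integrable_of_hasCompactSupport
    (HasCompactSupport.intro (isCompact_Icc (a := d.a) (b := d.b)) fun x hx => by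
      simp only [hP, d.supp x fun h => hx (Ioo_subset_Icc_self h), Matrix.mul_zero,
        pw_zero_mat (show 0 < s⁻¹ + 1 by positivity), rt_zero])
  have iQ : Integrable fun x => rt ((d.w x)ᴴ * d.w x * W x) :=
    hW.integrable_rt hs0 cρ (A := max |d.a| |d.b|) fun x hx => by
      rw [d.supp x fun h => hx.not_gt (abs_lt.2
        ⟨by linarith [neg_abs_le d.a, le_max_left |d.a| |d.b|, h.1],
          by linarith [le_abs_self d.b, le_max_right |d.a| |d.b|, h.2]⟩), Matrix.mul_zero]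
  have h1 := d.dY
  simp only [fun x => yng_scaled hs0 (P := (d.w x)ᴴ * d.w x) (hW.psd x)] at h1
  rw [integral_sub (by exact (hW.int.const_mul _).add iP) iQ, integral_add (hW.int.const_mul _) iP,
    integral_const_mul] at h1
  have h2 := integral_mono iQ ((iP.div_const 2).add (hW.int.const_mul (2 ^ s * C1 s)))
    fun x => rt_mul_le_half hs0 hs1 (hW.psd x) (ρpsd x)
  simp only [Pi.add_apply] at h2
  rw [integral_add (iP.div_const 2) (hW.int.const_mul _), integral_const_mul, integral_div] at h2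
  have h3 : ∫ x, P x ≤ 2 + 2 * B := by nlinarith [mul_nonneg hC1 I0]
  have loc : ∀ {f : ℝ → ℝ}, Integrable f → (∀ x, 0 ≤ f x) → ∀ x y, x ≤ y →
      ∫ z in x..y, f z ≤ ∫ z, f z := fun hf h0 x y hxy => by
    rw [intervalIntegral.integral_of_le hxy]
    exact setIntegral_le_integral hf (Eventually.of_forall h0)
  have cF : Continuous fun x => fro2 (d.w' x) := continuous_fro2.comp d.cw'
  have sF : ∀ x, x ∉ Ioo d.a d.b → fro2 (d.w' x) = 0 := fun x hx => by simp [d.supp' x hx, fro2]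
  have iF : Integrable fun x => fro2 (d.w' x) := cF.integrable_of_hasCompactSupport
    (HasCompactSupport.intro (isCompact_Icc (a := d.a) (b := d.b)) fun x hx =>
      sF x fun h => hx (Ioo_subset_Icc_self h))
  have h4 : ∫ x, fro2 (d.w' x) ≤ 1 + 2 * B := by
    rw [← intervalIntegral.integral_eq_integral_of_support_subset (a := d.a) (b := d.b)
      fun x hx => by by_contra h; exact hx (sF x fun h' => h (Ioo_subset_Ioc_self h'))]
    linarith [d.hT]
  have hold : ∀ x y, x ≤ y → ‖d.w y - d.w x‖ ≤ (1 + B) * √(y - x) := by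
    intro x y hxy
    rcases hxy.eq_or_lt with rfl | hlt
    · simp
    have e0 : 0 < √(y - x) := Real.sqrt_pos.2 (by linarith)
    have e1 : √(y - x) * √(y - x) = y - x := Real.mul_self_sqrt (by linarith)
    generalize √(y - x) = θ at e0 e1
    rw [← intervalIntegral.integral_eq_sub_of_hasDerivAt (fun z _ => d.hw z)
      (d.cw'.intervalIntegrable _ _)]
    refine (intervalIntegral.norm_integral_le_of_norm_le hxy (g := fun z => θ⁻¹ / 2 +
      θ / 2 * fro2 (d.w' z)) (Eventually.of_forall fun z _ => ?_)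
      (Continuous.intervalIntegrable (by fun_prop) _ _)).trans ?_
    · have := norm_sq_le_fro2 (d.w' z)
      have e2 : θ * θ⁻¹ = 1 := mul_inv_cancel₀ e0.ne'
      have e3 := mul_nonneg e0.le (sq_nonneg (‖d.w' z‖ - θ⁻¹))
      have e4 : θ * (‖d.w' z‖ - θ⁻¹) ^ 2 = θ * ‖d.w' z‖ ^ 2 - 2 * ‖d.w' z‖ + θ⁻¹ := by
        field_simp; ring
      nlinarith
    · rw [intervalIntegral.integral_add (by simp) ((cF.intervalIntegrable _ _).const_mul _),
        intervalIntegral.integral_const_mul, intervalIntegral.integral_const, smul_eq_mul, ← e1]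
      have := (loc iF (fun z => fro2_nonneg _) x y hxy).trans h4
      have e4 : θ * θ * (θ⁻¹ / 2) = θ / 2 := by field_simp
      nlinarith
  have h5 : ∑ i, d.κ i ^ (1 + 2 * s) ≤ K := by
    rw [hK, le_div_iff₀ hcs]
    have := mul_le_mul_of_nonneg_left ((loc iP P0 _ _ d.hab.le).trans h3) (inv_pos.2 hs0).le
    linarith [d.hκ]
  refine ⟨fun x => ?_, fun x y => ?_, by linarith, fun i => ?_⟩
  · have e1 : ∀ y ∈ Icc x (x + 1), ‖d.w x‖ ≤ (2 + B) + P y := by
      intro y hy
      have e2 := hold x y hy.1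
      have e3 : √(y - x) ≤ 1 := Real.sqrt_le_one.2 (by linarith [hy.2])
      have e4 := norm_pow_le_rt_pw (ρpsd y) (show 0 < s⁻¹ + 1 by positivity)
      have e5 : ‖d.w y‖ ≤ 1 + P y := by
        rcases le_total ‖d.w y‖ 1 with h | h
        · linarith [P0 y]
        · rw [Matrix.l2_opNorm_conjTranspose_mul_self] at e4
          have e6 := Real.self_le_rpow_of_one_le (x := ‖d.w y‖ * ‖d.w y‖) (y := s⁻¹ + 1)
            (by nlinarith) (by linarith [inv_pos.2 hs0])
          nlinarith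
      have e6 := norm_sub_norm_le (d.w x) (d.w y)
      rw [norm_sub_rev] at e6
      nlinarith
    have e2 := intervalIntegral.integral_mono_on (μ := volume) (show x ≤ x + 1 by linarith)
      (by simp) (Continuous.intervalIntegrable (by fun_prop) _ _) e1
    rw [intervalIntegral.integral_add (by simp) (cP.intervalIntegrable _ _)] at e2
    simp only [intervalIntegral.integral_const, add_sub_cancel_left, one_smul] at e2
    linarith [loc iP P0 x (x + 1) (by linarith)]
  · have e1 : ‖d.w x - d.w y‖ ≤ (1 + B) * √|x - y| := by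
      rcases le_total x y with h | h
      · rw [norm_sub_rev, abs_sub_comm, abs_of_nonneg (by linarith)]; exact hold x y h
      · rw [abs_of_nonneg (by linarith)]; exact hold y x h
    exact e1.trans (mul_le_mul_of_nonneg_right (by linarith) (Real.sqrt_nonneg _))
  · rcases le_total (d.κ i) 1 with h | h
    · linarith
    · have e1 := Real.self_le_rpow_of_one_le h (show 1 ≤ 1 + 2 * s by linarith)
      have e2 := Finset.single_le_sum (f := fun i => d.κ i ^ (1 + 2 * s))
        (fun i _ => Real.rpow_nonneg (d.κ_nonneg i) _) (Finset.mem_univ i)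
      linarith

theorem Data.reindex {ι ι' : Type} [Fintype ι] [DecidableEq ι] [Fintype ι'] [DecidableEq ι']
    {L D : ℝ} (d : Data s W ι L D) (e : ι' ≃ ι) : ∃ d' : Data s W ι' L D, d'.κ = d.κ ∘ e := by
  have e1 : ∀ v : ι → ℝ, dg (v ∘ e) = (dg v).submatrix e e := fun v => by
    rw [dg, dg, Matrix.submatrix_diagonal_equiv]; rfl
  have e2 : ∀ w : Matrix ι (Fin m) ℂ, (w.submatrix e id)ᴴ * w.submatrix e id = wᴴ * w := fun w => by
    rw [Matrix.conjTranspose_submatrix, Matrix.submatrix_mul_equiv, Matrix.submatrix_id_id]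
  have e3 : ∀ w : Matrix ι (Fin m) ℂ, Hm s d.δ (w.submatrix e id) = (Hm s d.δ w).submatrix e e := by
    intro w
    have : w.submatrix e id * (w.submatrix e id)ᴴ = (w * wᴴ).submatrix e e := by
      rw [Matrix.conjTranspose_submatrix, Matrix.submatrix_mul _ _ _ id _ Function.bijective_id]
    rw [Hm, Hm, this, pw, cfc_submatrix e (Matrix.isHermitian_mul_conjTranspose_self w), pw]
    simp only [Matrix.submatrix_add, Matrix.submatrix_smul, Pi.add_apply, Pi.smul_apply,
      Matrix.submatrix_one_equiv]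
  have e4 : ∀ X : Mat ι, Zm (d.κ ∘ e) (X.submatrix e e) = (Zm d.κ X).submatrix e e := fun X => by
    rw [Zm, Zm, Matrix.submatrix_mul_equiv]
    simp only [Matrix.submatrix_sub, Pi.sub_apply, ← e1]
    rfl
  have e5 : ∀ w : Matrix ι (Fin m) ℂ, fro2 (w.submatrix e id) = fro2 w := fun w =>
    e.sum_comp fun i => ∑ j, ‖w i j‖ ^ 2
  have e6 : ∀ A : Mat ι, rt (A.submatrix e e) = rt A := fun A => by
    rw [rt_eq_sum, rt_eq_sum]; exact e.sum_comp fun i => (A i i).re
  have e7 : ∀ x, (d.w' x).submatrix e id - (d.X x).submatrix e e * (d.w x).submatrix e id =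
      (d.w' x - d.X x * d.w x).submatrix e id := fun x => by
    rw [Matrix.submatrix_mul_equiv]; rfl
  refine ⟨{ κ := d.κ ∘ e, ξ := d.ξ ∘ e, a := d.a, b := d.b, δ := d.δ
            w := fun x => (d.w x).submatrix e id, w' := fun x => (d.w' x).submatrix e id
            X := fun x => (d.X x).submatrix e e, κ_nonneg := fun i => d.κ_nonneg _
            δ_pos := d.δ_pos, δ_le := d.δ_le, hab := d.hab, ha := d.ha, hb := d.hb
            hw := fun x => hasDerivAt_submatrix (d.hw x) _ _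
            cw' := d.cw'.matrix_submatrix _ _
            supp := fun x hx => by rw [d.supp x hx]; rfl
            supp' := fun x hx => by rw [d.supp' x hx]; rfl
            cX := d.cX.matrix_submatrix _ _
            reg := fun x => (d.reg x).submatrix e.injective
            Xa := fun x hx => by rw [d.Xa x hx, e1]
            Xb := fun x hx => by rw [d.Xb x hx, e1]
            hX := fun x hx => by
              rw [e3, e4]; exact hasDerivAt_submatrix (d.hX x hx) e e
            iY := by simpa only [e2] using d.iY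
            dY := by simpa only [e2] using d.dY
            dB := by simpa only [e7, e5] using d.dB
            dH := ?_
            hT := by simpa only [e2, e5] using d.hT
            hκ := ?_ }, rfl⟩
  · have : ∀ x, rt (pw (Hm s d.δ ((d.w x).submatrix e id)) (1 + s)) =
        rt (pw (Hm s d.δ (d.w x)) (1 + s)) := fun x => by
      rw [e3, pw, cfc_submatrix e (Hm_psd s d.δ_pos.le _).isHermitian, e6, pw]
    simp only [this, Function.comp_apply, e.sum_comp fun i => psi s (d.κ i) (d.ξ i)]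
    exact d.dH
  · simp only [e2, Function.comp_apply, e.sum_comp fun i => d.κ i ^ (1 + 2 * s)]
    exact d.hκ

/-- pigeonhole: a gap in the spectrum between `η/2` and `η` -/
theorem exists_gap (hs0 : 0 < s) {η C : ℝ} (hη : 0 < η) : ∃ (J : ℕ) (g : ℝ), 0 < g ∧
    ∀ (ι : Type) [Fintype ι] [DecidableEq ι] (κ : ι → ℝ), (∀ i, 0 ≤ κ i) →
    ∑ i, κ i ^ (1 + 2 * s) ≤ C → ∃ q ≤ J, ∃ (τ : Type) (_ : Fintype τ) (_ : DecidableEq τ)
      (e : Fin q ⊕ τ ≃ ι), (∀ i j, g ≤ κ (e (.inl i)) ^ 2 - κ (e (.inr j)) ^ 2) ∧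
        ∀ j, κ (e (.inr j)) ^ 2 ≤ η := by
  have hβ : 0 < √(η / 2) ^ (1 + 2 * s) := by positivity
  set N := ⌈C / √(η / 2) ^ (1 + 2 * s)⌉₊ with hN
  set g := η / 2 / ((N : ℝ) + 1) with hg
  have g0 : 0 < g := by positivity
  have gN : ((N : ℝ) + 1) * g = η / 2 := by rw [hg]; field_simp
  refine ⟨N, g, g0, fun ι _ _ κ hκ hC => ?_⟩
  have hcard : (Finset.univ.filter fun i => η / 2 < κ i ^ 2).card ≤ N := by
    have h1 := Finset.card_nsmul_le_sum (Finset.univ.filter fun i => η / 2 < κ i ^ 2)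
      (fun i => κ i ^ (1 + 2 * s)) (√(η / 2) ^ (1 + 2 * s)) fun i hi =>
        Real.rpow_le_rpow (Real.sqrt_nonneg _)
          (Real.sqrt_le_iff.2 ⟨hκ i, (Finset.mem_filter.1 hi).2.le⟩) (by linarith)
    have h2 := Finset.sum_le_sum_of_subset_of_nonneg (f := fun i => κ i ^ (1 + 2 * s))
      (Finset.filter_subset (fun i => η / 2 < κ i ^ 2) Finset.univ)
      fun i _ _ => Real.rpow_nonneg (hκ i) _
    rw [nsmul_eq_mul] at h1
    exact_mod_cast ((le_div_iff₀ hβ).2 (h1.trans (h2.trans hC))).trans (Nat.le_ceil _)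
  obtain ⟨l, hl, hl'⟩ : ∃ l : ℕ, l ≤ N ∧
      ∀ i, η / 2 + l * g < κ i ^ 2 → η / 2 + (l + 1) * g < κ i ^ 2 := by
    by_contra h
    push Not at h
    have : Nonempty ι := ⟨(h 0 N.zero_le).choose⟩
    choose! f hf using h
    have := Finset.card_le_card_of_injOn (s := Finset.range (N + 1))
      (t := Finset.univ.filter fun i => η / 2 < κ i ^ 2) f (fun l hl => by
        have := (hf l (Nat.lt_succ_iff.1 (Finset.mem_range.1 hl))).1
        have : 0 ≤ (l : ℝ) * g := by positivity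
        simp only [Finset.coe_filter, Finset.mem_univ, true_and, mem_ofPred_eq]
        linarith) (fun l hl l' hl' h => by
        obtain ⟨a1, a2⟩ := hf l (Nat.lt_succ_iff.1 (Finset.mem_range.1 hl))
        obtain ⟨a3, a4⟩ := hf l' (Nat.lt_succ_iff.1 (Finset.mem_range.1 hl'))
        rw [h] at a1 a2
        have b1 : (l : ℝ) < l' + 1 := lt_of_mul_lt_mul_right (by linarith) g0.le
        have b2 : (l' : ℝ) < l + 1 := lt_of_mul_lt_mul_right (by linarith) g0.le
        norm_cast at b1 b2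
        omega)
    rw [Finset.card_range] at this
    omega
  have l0 : 0 ≤ (l : ℝ) * g := by positivity
  refine ⟨Fintype.card {i // η / 2 + l * g < κ i ^ 2}, ?_, {i // ¬ η / 2 + l * g < κ i ^ 2},
    inferInstance, inferInstance, (Equiv.sumCongr (Fintype.equivFin _).symm (Equiv.refl _)).trans
      (Equiv.sumCompl _), fun i j => ?_, fun j => ?_⟩
  · rw [Fintype.card_subtype]
    refine le_trans (Finset.card_le_card fun i hi => ?_) hcard
    simp only [Finset.mem_filter, Finset.mem_univ, true_and] at hi ⊢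
    linarith
  · have h1 := hl' _ ((Fintype.equivFin {i // η / 2 + l * g < κ i ^ 2}).symm i).2
    have h2 := not_lt.1 j.2
    simp only [Equiv.trans_apply, Equiv.sumCongr_apply, Sum.map_inl, Sum.map_inr,
      Equiv.sumCompl_apply_inl, Equiv.sumCompl_apply_inr, Equiv.refl_apply]
    linarith
  · have h2 := not_lt.1 j.2
    have h3 : (l : ℝ) * g ≤ N * g := mul_le_mul_of_nonneg_right (by exact_mod_cast hl) g0.le
    simp only [Equiv.trans_apply, Equiv.sumCongr_apply, Sum.map_inr,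
      Equiv.sumCompl_apply_inr, Equiv.refl_apply]
    linarith

/-- Notation: `T = Fin q`, `S = τ`, `H = Hm s δ w = w ρ^(r-1) wᴴ + δ` (`pw_mul_conjTranspose`),
`ω = w_T`, `ρ - ωᴴ ω = w_Sᴴ w_S`, `E = X_TS X_ST`, `E' = X_ST X_TS`; `C₀` from `data_bounds`.
* `bell_dfc` (with `E = 0`) and `dH`: `∫ dfc κ X H ≤ D`; `hj` gives `∫ comm κ X ≲ D`, hence `dC`
  and (gap) `∫ fro2 X_TS ≲ D`, hence `dE` and `dB` (`ω' - X_T ω = (w' - X w)_T + X_TS w_S`).
* The blocks solve `X_T' = Z_T - (r+1) H_T - E`, `X_S' = Z_S - (r+1) H_S - E'`; `bell_dfc` for both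
  blocks, `abs_rt_mul_le`, `norm_G_le` and `pinch` give
  `∫ dfc_T + ∫ dfc_S + c ∫ fro2 H_TS ≲ D`.  `H_TS w_S = ω ρ^(r-1) (ρ - ωᴴ ω)` gives `dP`;
  `phi_le_dfc`, `phi_mono`, `norm_mono_psd` and `‖B Bᴴ‖ = ‖Bᴴ B‖` for `B = w_S ρ^((r-1)/2)` give `dT`.
* `X_lip`: `‖X'‖` is bounded on `(a,b)` and `X` is constant outside. -/
theorem top_of_data (hs0 : 0 < s) (hs1 : s < 1) (hW : Pot s W) {η g : ℝ} (hη : 0 < η) (hg : 0 < g) :
    ∃ C > 0, ∀ (q : ℕ) (τ : Type) [Fintype τ] [DecidableEq τ] (L D : ℝ)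
      (d : Data s W (Fin q ⊕ τ) L D), D ≤ 1 →
      (∀ i j, g ≤ d.κ (.inl i) ^ 2 - d.κ (.inr j) ^ 2) → (∀ j, d.κ (.inr j) ^ 2 ≤ η) →
      Nonempty (Top s W q η C L (C * D)) := by
  obtain ⟨C₀, hC₀, hb⟩ := data_bounds hs0 hs1 hW
  obtain ⟨C, hC, h⟩ := Split0.top_aux (W := W) hs0 hs1 hη hg hC₀
  refine ⟨C, hC, fun q τ _ _ L D d hD h1 h2 => ?_⟩
  obtain ⟨b1, b2, -, b4⟩ := hb _ L D d hD
  exact h q τ L D d hD b1 b2 b4 h1 h2

theorem split (hs0 : 0 < s) (hs1 : s < 1) (hW : Pot s W) {η : ℝ} (hη : 0 < η) :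
    ∃ (J : ℕ) (C : ℝ), ∀ (ι : Type) [Fintype ι] [DecidableEq ι] (L D : ℝ), Data s W ι L D → D ≤ 1 →
      ∃ q ≤ J, Nonempty (Top s W q η C L (C * D)) := by
  obtain ⟨C₀, -, hC₀⟩ := data_bounds hs0 hs1 hW
  obtain ⟨J, g, hg, hJ⟩ := exists_gap (C := C₀) hs0 hη
  obtain ⟨C, -, hC⟩ := top_of_data hs0 hs1 hW hη hg
  refine ⟨J, C, fun ι _ _ L D d hD => ?_⟩
  obtain ⟨q, hq, τ, _, _, e, h1, h2⟩ := hJ ι d.κ d.κ_nonneg (hC₀ ι L D d hD).2.2.1
  obtain ⟨d', hd'⟩ := d.reindex e
  exact ⟨q, hq, hC q τ L D d' hD (by simpa [hd'] using h1) (by simpa [hd'] using h2)⟩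

end Crest.Agent.R332
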