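import Crest.Agent.R332.Calc

/-! # Row 332: the structure of the limit -/

set_option autoImplicit false

open MeasureTheory Set Filter Topology
open scoped Matrix Matrix.Norms.L2Operator MatrixOrder ComplexOrder

namespace Crest.Agent.R332

open Crest.MathPhysics.LiebThirring

theorem one_sub_tanh_sq (y : ℝ) : 1 - Real.tanh y ^ 2 = 1 / Real.cosh y ^ 2 := by
  have h := Real.cosh_pos y
  have h2 := Real.cosh_sq y
  rw [Real.tanh_eq_sinh_div_cosh]
  field_simp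
  linarith

theorem hasDerivAt_tanh' (y : ℝ) : HasDerivAt Real.tanh (1 - Real.tanh y ^ 2) y := by
  have h := Real.cosh_pos y
  have h1 := (Real.hasDerivAt_sinh y).div (Real.hasDerivAt_cosh y) h.ne'
  have e : Real.tanh = fun y => Real.sinh y / Real.cosh y := funext Real.tanh_eq_sinh_div_cosh
  rw [one_sub_tanh_sq, e]
  refine HasDerivAt.congr_deriv h1 ?_
  have h2 := Real.cosh_sq y
  congr 1
  nlinarith

/-- solutions of `ξ' = -r (k² - ξ²)`: `ξ ≡ ± k` (`a = 0`) or `ξ = -k tanh (r k (x - c))` (`a = k`) -/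
theorem scalar_ode {r k ξ₀ : ℝ} (hr : 0 < r) (h : |ξ₀| ≤ k) : ∃ (ξ : ℝ → ℝ) (a c : ℝ), ξ 0 = ξ₀ ∧
    0 ≤ a ∧ (∀ x, |ξ x| ≤ k) ∧ (∀ x, HasDerivAt ξ (-(r * (k ^ 2 - ξ x ^ 2))) x) ∧
    (∀ x, (r + 1) * (k ^ 2 - ξ x ^ 2) = soliton r a c x) := by
  rcases h.eq_or_lt with h1 | h1
  · have h2 : k ^ 2 - ξ₀ ^ 2 = 0 := by rw [← h1, sq_abs, sub_self]
    refine ⟨fun _ => ξ₀, 0, 0, rfl, le_rfl, fun _ => h, fun x => ?_, fun x => ?_⟩
    · simpa [h2] using hasDerivAt_const x ξ₀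
    · simp [h2, soliton]
  · have hk : 0 < k := (abs_nonneg _).trans_lt h1
    have h3 : ξ₀ / k ∈ Ioo (-1 : ℝ) 1 := by
      have := abs_lt.1 h1
      constructor
      · rw [lt_div_iff₀ hk]; linarith
      · rw [div_lt_iff₀ hk]; linarith
    refine ⟨fun x => -k * Real.tanh (r * k * (x - Real.artanh (ξ₀ / k) / (r * k))), k,
      Real.artanh (ξ₀ / k) / (r * k), ?_, hk.le, fun x => ?_, fun x => ?_, fun x => ?_⟩
    · have : r * k * (0 - Real.artanh (ξ₀ / k) / (r * k)) = -Real.artanh (ξ₀ / k) := by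
        field_simp; ring
      simp only [this, Real.tanh_neg, Real.tanh_artanh h3]
      field_simp
    · rw [abs_mul, abs_neg, abs_of_pos hk]
      exact mul_le_of_le_one_right hk.le (Real.abs_tanh_lt_one _).le
    · have h4 : HasDerivAt (fun x => r * k * (x - Real.artanh (ξ₀ / k) / (r * k))) (r * k) x := by
        simpa using ((hasDerivAt_id x).sub_const (Real.artanh (ξ₀ / k) / (r * k))).const_mul (r * k)
      have h5 := ((hasDerivAt_tanh' _).comp x h4).const_mul (-k)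
      refine HasDerivAt.congr_deriv h5 ?_
      ring
    · rw [soliton, mul_div_assoc, div_eq_mul_one_div (k ^ 2), ← one_sub_tanh_sq]
      ring

/-- the algebra at one point: with `Z = ω ρ^(r-1) ωᴴ ≥ 0`, `ρ_S = ρ - ωᴴ ω`:
`Z ω = ω ρ^r`, so `Z^p ω = ω ρ^(rp)` (`cfc_intertwine`); `Z = Z^(1-s) ω ωᴴ`;
`A := ω ωᴴ - Z^s` commutes with `Z` ... simplest: `ω ρ^(r-1) ρ_S = 0` gives that `ρ₁ ρ^r` is Hermitian
(`ρ₁ = ωᴴ ω`), so `ρ₁` commutes with `ρ^r`, hence with every function of `ρ`; then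
`ρ^(r-1) ρ₁ ρ_S = 0`, so `ρ ρ₁ ρ_S = 0`, so `ρ₁ ρ₁ ρ_S + ρ_S ρ₁ ρ_S = 0`, whence `ω ρ_S = 0`;
then `ω ρ = (ω ωᴴ) ω`, `Z = (ω ωᴴ)^r`. -/
theorem point_alg {s : ℝ} (hs0 : 0 < s) (hs1 : s < 1) {m q : ℕ} {ω : Matrix (Fin q) (Fin m) ℂ}
    {ρ : Mat (Fin m)} {Z : Mat (Fin q)} (hρ : ρ.PosSemidef) (hS : (ρ - ωᴴ * ω).PosSemidef)
    (hZ : Z = ω * pw ρ (s⁻¹ - 1) * ωᴴ) (hP : ω * pw ρ (s⁻¹ - 1) * (ρ - ωᴴ * ω) = 0) :
    ω * ωᴴ = pw Z s ∧ pw ρ s⁻¹ = ωᴴ * pw Z (1 - s) * ω +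
      pw ρ ((s⁻¹ - 1) / 2) * (ρ - ωᴴ * ω) * pw ρ ((s⁻¹ - 1) / 2) := by
  have hr : 1 < s⁻¹ := (one_lt_inv₀ hs0).2 hs1
  have hr' : 0 < s⁻¹ - 1 := by linarith
  set P := pw ρ (s⁻¹ - 1) with hPdef
  have PH : Pᴴ = P := (pw_herm _ _).eq
  have h1H : (ωᴴ * ω)ᴴ = ωᴴ * ω := by simp
  have Pρ : P * ρ = pw ρ s⁻¹ := by
    have := pw_add hρ hr' one_pos
    rwa [pw_one hρ.isHermitian, sub_add_cancel] at this
  have ρP : ρ * P = pw ρ s⁻¹ := by
    have := pw_add hρ one_pos hr'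
    rwa [pw_one hρ.isHermitian, add_sub_cancel] at this
  have e0 : ωᴴ * ω * P * (ρ - ωᴴ * ω) = 0 := by
    rw [Matrix.mul_assoc ωᴴ, Matrix.mul_assoc ωᴴ, hP, Matrix.mul_zero]
  have e1 : ωᴴ * ω * pw ρ s⁻¹ = ωᴴ * ω * P * (ωᴴ * ω) := by
    rw [Matrix.mul_sub, sub_eq_zero] at e0
    rw [← e0, ← Pρ, Matrix.mul_assoc (ωᴴ * ω)]
  have e2 : pw ρ s⁻¹ * (ωᴴ * ω) = ωᴴ * ω * pw ρ s⁻¹ := by
    have := congrArg Matrix.conjTranspose e1
    rw [Matrix.conjTranspose_mul, (pw_herm _ _).eq, h1H, Matrix.conjTranspose_mul,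
      Matrix.conjTranspose_mul (ωᴴ * ω), PH, h1H, ← Matrix.mul_assoc (ωᴴ * ω)] at this
    rw [this, e1]
  have e3 : ∀ p : ℝ, pw ρ p * (ωᴴ * ω) = ωᴴ * ω * pw ρ p := by
    intro p
    have := cfc_intertwine (pw_herm ρ s⁻¹) (pw_herm ρ s⁻¹) e2 (fun t => t ^ (s * p))
    have e : cfc (fun t : ℝ => t ^ (s * p)) (pw ρ s⁻¹) = pw ρ p := by
      have := pw_pw hρ s⁻¹ (s * p)
      rwa [← mul_assoc, inv_mul_cancel₀ hs0.ne', one_mul] at this
    rwa [e] at this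
  have e4 : ρ * (ωᴴ * ω) = ωᴴ * ω * ρ := by
    have := e3 1
    rwa [pw_one hρ.isHermitian] at this
  have e5 : pw ρ (2 - s⁻¹) * P = ρ := by
    rw [hPdef, pw, pw, cfc_mul']
    conv_rhs => rw [← cfc_id'' hρ.isHermitian]
    refine cfc_congr' hρ.isHermitian fun i => ?_
    have := hρ.eigenvalues_nonneg i
    rw [← Real.rpow_add' this (by norm_num)]
    norm_num
  have e6 : ρ * (ωᴴ * ω) * (ρ - ωᴴ * ω) = 0 := by
    have : ρ * (ωᴴ * ω) * (ρ - ωᴴ * ω) = pw ρ (2 - s⁻¹) * (ωᴴ * ω * P * (ρ - ωᴴ * ω)) := by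
      rw [← e3, ← hPdef, ← Matrix.mul_assoc (pw _ _), ← Matrix.mul_assoc (pw _ _), e5]
    rw [this, e0, Matrix.mul_zero]
  have e7 : ω * (ρ - ωᴴ * ω) = 0 := by
    apply fro2_eq_zero
    have a1 : 0 ≤ rt ((ωᴴ * ω)ᴴ * (ρ - ωᴴ * ω) * (ωᴴ * ω)) :=
      rt_nonneg (hS.conjTranspose_mul_mul_same _)
    have a2 : (ωᴴ * ω)ᴴ * (ρ - ωᴴ * ω) * (ωᴴ * ω) + (ω * (ρ - ωᴴ * ω))ᴴ * (ω * (ρ - ωᴴ * ω)) =
        ρ * (ωᴴ * ω) * (ρ - ωᴴ * ω) := by
      rw [Matrix.conjTranspose_mul ω, hS.isHermitian.eq, h1H, Matrix.mul_assoc (ρ - ωᴴ * ω) ωᴴ,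
        ← Matrix.mul_assoc ωᴴ ω]
      generalize ωᴴ * ω = A at e4 ⊢
      have : A * (ρ - A) * A + (ρ - A) * (A * (ρ - A)) - ρ * A * (ρ - A) =
          A * (ρ * A - A * ρ) := by noncomm_ring
      rw [e4, sub_self, Matrix.mul_zero, sub_eq_zero] at this
      rw [e4, this]
    have a3 := congrArg rt a2
    rw [e6, rt_zero, rt_add, ← fro2_eq'] at a3
    linarith [fro2_nonneg (ω * (ρ - ωᴴ * ω))]
  have e8 : ω * ωᴴ * ω = ω * ρ := by
    rw [Matrix.mul_sub, sub_eq_zero] at e7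
    rw [e7, Matrix.mul_assoc]
  have hw : (ω * ωᴴ).PosSemidef := Matrix.posSemidef_self_mul_conjTranspose ω
  have e9 : ∀ p : ℝ, pw (ω * ωᴴ) p * ω = ω * pw ρ p := fun p =>
    cfc_intertwine hw.isHermitian hρ.isHermitian e8 _
  have e10 : Z = pw (ω * ωᴴ) s⁻¹ := by
    have := pw_add hw hr' one_pos
    rw [pw_one hw.isHermitian, sub_add_cancel] at this
    rw [hZ, ← e9, Matrix.mul_assoc, this]
  refine ⟨by rw [e10, pw_pw hw, inv_mul_cancel₀ hs0.ne', pw_one hw.isHermitian], ?_⟩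
  have e11 : s⁻¹ * (1 - s) = s⁻¹ - 1 := by field_simp
  have e12 : pw ρ ((s⁻¹ - 1) / 2) * pw ρ ((s⁻¹ - 1) / 2) = P := by
    rw [pw_add hρ (half_pos hr') (half_pos hr'), add_halves]
  have e13 : pw ρ ((s⁻¹ - 1) / 2) * ρ = ρ * pw ρ ((s⁻¹ - 1) / 2) :=
    cfc_intertwine hρ.isHermitian hρ.isHermitian rfl _
  rw [e10, pw_pw hw, e11, Matrix.mul_assoc ωᴴ, e9, ← hPdef, ← Matrix.mul_assoc ωᴴ, Matrix.mul_sub,
    e13, e3, ← Matrix.sub_mul, Matrix.mul_assoc (ρ - _), e12, ← Matrix.add_mul, add_sub_cancel, ρP]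

namespace StructB

/-- `pick (j+1) u = u j`, and `0` off the labels -/
noncomputable def pick {q : ℕ} (t : ℝ) (u : Fin q → ℝ) : ℝ :=
  ∑ j : Fin q, if t = (j : ℝ) + 1 then u j else 0

theorem pick_eq {q : ℕ} (j : Fin q) (u : Fin q → ℝ) : pick ((j : ℝ) + 1) u = u j := by
  rw [pick, Finset.sum_eq_single j]
  · simp
  · intro i _ hi
    rw [if_neg]
    intro h
    exact hi (Fin.ext (by exact_mod_cast (add_right_cancel h).symm))
  · simp

theorem pick_not {q : ℕ} {t : ℝ} (h : ∀ j : Fin q, t ≠ (j : ℝ) + 1) (u : Fin q → ℝ) :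
    pick t u = 0 := Finset.sum_eq_zero fun j _ => if_neg (h j)

theorem ext_diag {q m : ℕ} {o : Matrix (Fin q) (Fin m) ℂ} {n : Fin q → ℝ} (h : o * oᴴ = dg n) :
    ∃ (U : Matrix.unitaryGroup (Fin m) ℂ) (l : Fin m → ℝ), ∀ d : Fin q → ℝ, oᴴ * dg d * o =
      (U : Mat (Fin m)) * dg (fun i => pick (l i) fun j => d j * n j) * star (U : Mat (Fin m)) := by
  have hH : (oᴴ * dg (fun j : Fin q => ((j : ℝ) + 1) / n j) * o).IsHermitian :=
    Matrix.isHermitian_conjTranspose_mul_mul _ (dg_herm _)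
  refine ⟨hH.eigenvectorUnitary, hH.eigenvalues, fun d => ?_⟩
  rw [← cfc_spec hH (fun t => pick t fun j => d j * n j)]
  have e1 : (fun t => pick t fun j => d j * n j) =
      fun t : ℝ => t * ((pick t fun j => d j * n j) / t) := by
    funext t
    rcases eq_or_ne t 0 with rfl | ht
    · rw [zero_mul, pick_not]
      intro j; positivity
    · field_simp
  have e2 : dg (fun j : Fin q => n j * (((j : ℝ) + 1) / n j)) * o =
      o * (oᴴ * dg (fun j : Fin q => ((j : ℝ) + 1) / n j) * o) := by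
    rw [← Matrix.mul_assoc, ← Matrix.mul_assoc, h, dg_mul]
  have e3 : cfc (fun t : ℝ => t) (oᴴ * dg (fun j : Fin q => ((j : ℝ) + 1) / n j) * o) =
      oᴴ * dg (fun j : Fin q => ((j : ℝ) + 1) / n j) * o := by
    simpa using cfc_affine hH 1 0
  rw [e1, ← cfc_mul', e3, Matrix.mul_assoc _ o (cfc _ _), ← cfc_intertwine (dg_herm _) hH e2,
    cfc_dg, Matrix.mul_assoc, Matrix.mul_assoc, ← Matrix.mul_assoc (dg _), dg_mul]
  congr 1
  rw [← sub_eq_zero, ← Matrix.sub_mul, dg_sub, ← Matrix.self_mul_conjTranspose_eq_zero,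
    Matrix.conjTranspose_mul, Matrix.mul_assoc, ← Matrix.mul_assoc o, h, (dg_herm _).eq, dg_mul,
    dg_mul]
  convert dg_const (ι := Fin q) 0 using 2
  · funext j
    rcases eq_or_ne (n j) 0 with hn | hn
    · simp [hn]
    · have : (j : ℝ) + 1 ≠ 0 := by positivity
      rw [mul_div_cancel₀ _ hn, pick_eq]
      field_simp
      simp
  · simp

end StructB

open StructB in
/-- `exists_joint_diag` for `dg κ` and `X 0`: `dg κ = V (dg k) Vᴴ`, `X 0 = V (dg ξ₀) Vᴴ`; by ODE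
uniqueness (`ODE_solution_unique_univ` on a ball) `X x = V (dg (ξ · x)) Vᴴ` with `scalar_ode`.
The rows `o_j` of `Vᴴ ω` solve `o_j' = ξ_j o_j`, so `o_j(x) = exp(∫₀^x ξ_j) o_j(0)`; by `point_alg`
they are orthogonal with `|o_j(x)|² = z_j(x)^s`, `z_j = k_j² - ξ_j²`.  The unit vectors
`o_j(0)ᴴ/|o_j(0)|` (`o_j(0) ≠ 0`) extend to an orthonormal basis
(`Orthonormal.exists_orthonormalBasis_extension_of_card_eq` or similar), and
`ωᴴ Z^(1-s) ω = Σ_j z_j e_j e_jᴴ`. -/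
theorem Lim.struct {s : ℝ} (hs0 : 0 < s) (hs1 : s < 1) {m q : ℕ} {η : ℝ} (l : Lim s m q η) :
    ∃ (U : Matrix.unitaryGroup (Fin m) ℂ) (a c : Fin m → ℝ), (∀ i, 0 ≤ a i) ∧
      ∀ x, ‖(s⁻¹ + 1) • pw (l.ρ x) s⁻¹ - solMat s U a c x‖ ≤ (s⁻¹ + 1) * η := by
  have h0 := l.reg 0
  obtain ⟨V, k, ξ₀, hk, hξ₀⟩ := exists_joint_diag (dg_herm l.κ) h0.herm (l.hcomm 0)
  have VV : star (V : Mat (Fin q)) * V = 1 := V.2.1
  have VV' : (V : Mat (Fin q)) * star (V : Mat (Fin q)) = 1 := V.2.2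
  have cmul : ∀ u v : Fin q → ℝ, (V : Mat (Fin q)) * dg u * star (V : Mat (Fin q)) *
      ((V : Mat (Fin q)) * dg v * star (V : Mat (Fin q))) =
      (V : Mat (Fin q)) * dg (fun i => u i * v i) * star (V : Mat (Fin q)) := by
    intro u v
    rw [← dg_mul]
    simp only [Matrix.mul_assoc]
    rw [← Matrix.mul_assoc (star _) (V : Mat (Fin q)), VV, Matrix.one_mul]
  have regc : ∀ u : Fin q → ℝ, Reg l.κ ((V : Mat (Fin q)) * dg u * star (V : Mat (Fin q))) ↔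
      ∀ i, |u i| ≤ k i := by
    intro u
    rw [← reg_dg_iff, Reg, Reg, hk, ← Matrix.add_mul, ← Matrix.mul_add, ← Matrix.sub_mul,
      ← Matrix.mul_sub, psd_conj_iff, psd_conj_iff]
  have Zc : ∀ u : Fin q → ℝ, Zm l.κ ((V : Mat (Fin q)) * dg u * star (V : Mat (Fin q))) =
      (V : Mat (Fin q)) * dg (fun i => k i ^ 2 - u i ^ 2) * star (V : Mat (Fin q)) := by
    intro u
    have : dg (fun i => l.κ i ^ 2) = dg l.κ * dg l.κ := by rw [dg_mul]; simp only [sq]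
    rw [Zm, this, hk, cmul, cmul, ← Matrix.sub_mul, ← Matrix.mul_sub, dg_sub]
    simp only [sq]
  have hr : 0 < s⁻¹ := inv_pos.2 hs0
  have hb : ∀ i, |ξ₀ i| ≤ k i := (regc ξ₀).1 (hξ₀ ▸ h0)
  choose ξ a c ξ0 ha ξb ξd ξs using fun i => scalar_ode hr (hb i)
  set R : ℝ := ∑ i, l.κ i with hR
  have R0 : 0 ≤ R := Finset.sum_nonneg fun i _ => l.κ_nonneg i
  have Rle : ∀ i, l.κ i ≤ R := fun i =>
    Finset.single_le_sum (fun i _ => l.κ_nonneg i) (Finset.mem_univ i)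
  have hX : l.X = fun x => (V : Mat (Fin q)) * dg (fun i => ξ i x) * star (V : Mat (Fin q)) := by
    refine ODE_solution_unique_univ (v := fun _ Y => -(s⁻¹ • Zm l.κ Y))
      (s := fun _ => Metric.closedBall 0 R) (K := (s⁻¹ * (2 * R)).toNNReal) (t₀ := 0)
      (fun _ => LipschitzOnWith.of_dist_le_mul fun Y hY Y' hY' => ?_)
      (fun x => ⟨l.hX x, by simpa using (l.reg x).norm_le R0 Rle⟩) (fun x => ⟨?_, ?_⟩) ?_
    · rw [dist_eq_norm, dist_eq_norm, Real.coe_toNNReal _ (by positivity),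
        show -(s⁻¹ • Zm l.κ Y) - -(s⁻¹ • Zm l.κ Y') = s⁻¹ • (Y * (Y - Y') + (Y - Y') * Y') by
          rw [neg_sub_neg, ← smul_sub, Zm, Zm]; congr 1; noncomm_ring,
        norm_smul, Real.norm_eq_abs, abs_of_pos hr, mul_assoc]
      refine mul_le_mul_of_nonneg_left ?_ hr.le
      have h1 := norm_mul_le Y (Y - Y')
      have h2 := norm_mul_le (Y - Y') Y'
      have h3 : ‖Y‖ ≤ R := by simpa using hY
      have h4 : ‖Y'‖ ≤ R := by simpa using hY'
      have h7 := norm_add_le (Y * (Y - Y')) ((Y - Y') * Y')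
      nlinarith [norm_nonneg (Y - Y')]
    · have := ((hasDerivAt_dg (v := fun x i => ξ i x) fun i => ξd i x).const_mul
        (V : Mat (Fin q))).mul_const (star (V : Mat (Fin q)))
      refine HasDerivAt.congr_deriv this ?_
      rw [Zc, ← neg_smul, ← Matrix.smul_mul, ← Matrix.mul_smul, dg_smul]
      simp only [neg_mul]
    · simpa using ((regc _).2 fun i => ξb i x).norm_le R0 Rle
    · simp only [ξ0]; exact hξ₀
  have hXx : ∀ x, l.X x = (V : Mat (Fin q)) * dg (fun i => ξ i x) * star (V : Mat (Fin q)) :=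
    congrFun hX
  set o : ℝ → Matrix (Fin q) (Fin m) ℂ := fun x => star (V : Mat (Fin q)) * l.ω x with ho
  have od : ∀ x, HasDerivAt o (dg (fun i => ξ i x) * o x) x := by
    intro x
    have := hasDerivAt_matmul (hasDerivAt_const x (star (V : Mat (Fin q)))) (l.hω x)
    convert this using 1
    rw [hXx, Matrix.zero_mul, zero_add]
    simp only [ho, ← Matrix.mul_assoc, VV, Matrix.one_mul]
  have cξ : ∀ i, Continuous (ξ i) := fun i =>
    continuous_iff_continuousAt.2 fun x => (ξd i x).continuousAt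
  set I : Fin q → ℝ → ℝ := fun i x => ∫ y in (0 : ℝ)..x, ξ i y with hI
  have Id : ∀ i x, HasDerivAt (I i) (ξ i x) x := fun i x =>
    intervalIntegral.integral_hasDerivAt_right ((cξ i).intervalIntegrable _ _)
      ((cξ i).stronglyMeasurableAtFilter _ _) (cξ i).continuousAt
  have oe : ∀ x, o x = dg (fun i => Real.exp (I i x)) * o 0 := by
    intro x
    have h1 : ∀ x, HasDerivAt (fun x => dg (fun i => Real.exp (-I i x)) * o x) 0 x := by
      intro x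
      have := hasDerivAt_matmul (hasDerivAt_dg (v := fun x i => Real.exp (-I i x))
        fun i => (Id i x).neg.exp) (od x)
      convert this using 1
      rw [← Matrix.mul_assoc (dg _) (dg _), dg_mul, ← Matrix.add_mul, dg_add]
      have : (fun i => Real.exp (-I i x) * -ξ i x + Real.exp (-I i x) * ξ i x) = fun _ => 0 := by
        funext i; ring
      simp only [Pi.neg_apply, this, dg_const, zero_smul, Matrix.zero_mul]
    have h2 := is_const_of_deriv_eq_zero (fun x => (h1 x).differentiableAt)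
      (fun x => (h1 x).deriv) x 0
    simp only [hI, intervalIntegral.integral_same, neg_zero, Real.exp_zero, dg_const, one_smul,
      Matrix.one_mul] at h2
    rw [← h2, ← Matrix.mul_assoc, dg_mul]
    simp only [hI, ← Real.exp_add, add_neg_cancel, Real.exp_zero, dg_const, one_smul,
      Matrix.one_mul]
  have z0 : ∀ i x, 0 ≤ k i ^ 2 - ξ i x ^ 2 := fun i x => by
    have := sq_le_sq' (abs_le.1 (ξb i x)).1 (abs_le.1 (ξb i x)).2
    linarith
  have pa := fun x => point_alg hs0 hs1 (l.ρ_psd x) (l.ρS_psd x) (l.hZ x) (l.hP x)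
  have oo : ∀ x, o x * (o x)ᴴ = dg (fun i => (k i ^ 2 - ξ i x ^ 2) ^ s) := by
    intro x
    have h1 := (pa x).1
    rw [hXx, Zc, pw, cfc_conj_dg] at h1
    simp only [ho, Matrix.conjTranspose_mul, ← Matrix.star_eq_conjTranspose (star _), star_star]
    rw [Matrix.mul_assoc, ← Matrix.mul_assoc (l.ω x), h1]
    simp only [← Matrix.mul_assoc, VV, Matrix.one_mul]
    rw [Matrix.mul_assoc, VV, Matrix.mul_one]
  obtain ⟨U, lam, hU⟩ := ext_diag (oo 0)
  have ee : ∀ i x, Real.exp (I i x) * (k i ^ 2 - ξ i 0 ^ 2) ^ s * Real.exp (I i x) =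
      (k i ^ 2 - ξ i x ^ 2) ^ s := by
    intro i x
    have h1 := oo x
    rw [oe x, Matrix.conjTranspose_mul, Matrix.mul_assoc, ← Matrix.mul_assoc (o 0), oo 0,
      (dg_herm _).eq, ← Matrix.mul_assoc, dg_mul, dg_mul] at h1
    have h2 := congrFun (congrFun h1 i) i
    simp only [dg, Matrix.diagonal_apply_eq] at h2
    exact_mod_cast h2
  refine ⟨U, fun i => pick (lam i) a, fun i => pick (lam i) c, fun i => ?_, fun x => ?_⟩
  · exact Finset.sum_nonneg fun j _ => by split_ifs; exacts [ha j, le_rfl]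
  have h1 : (s⁻¹ + 1) • ((l.ω x)ᴴ * pw (Zm l.κ (l.X x)) (1 - s) * l.ω x) =
      solMat s U (fun i => pick (lam i) a) (fun i => pick (lam i) c) x := by
    have h2 : (l.ω x)ᴴ * pw (Zm l.κ (l.X x)) (1 - s) * l.ω x =
        (o x)ᴴ * dg (fun i => (k i ^ 2 - ξ i x ^ 2) ^ (1 - s)) * o x := by
      rw [hXx, Zc, pw, cfc_conj_dg]
      simp only [ho, Matrix.conjTranspose_mul, ← Matrix.star_eq_conjTranspose (star _), star_star,
        Matrix.mul_assoc]
    have h3 : (o x)ᴴ * dg (fun i => (k i ^ 2 - ξ i x ^ 2) ^ (1 - s)) * o x = (o 0)ᴴ *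
        dg (fun i => Real.exp (I i x) * (k i ^ 2 - ξ i x ^ 2) ^ (1 - s) * Real.exp (I i x)) *
          o 0 := by
      rw [oe x, Matrix.conjTranspose_mul, (dg_herm _).eq, ← dg_mul, ← dg_mul]
      simp only [Matrix.mul_assoc]
    rw [h2, h3, hU, solMat, ← Matrix.smul_mul, ← Matrix.mul_smul, dg_smul]
    congr 3
    funext i
    by_cases h : ∃ j : Fin q, lam i = (j : ℝ) + 1
    · obtain ⟨j, hj⟩ := h
      rw [hj, pick_eq, pick_eq, pick_eq, ← ξs]
      congr 1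
      have := Real.rpow_add' (z0 j x) (show s + (1 - s) ≠ 0 by norm_num)
      rw [add_sub_cancel, Real.rpow_one, ← ee j x] at this
      linear_combination -this
    · push Not at h
      simp [pick_not h, soliton]
  rw [(pa x).2, smul_add, h1, add_sub_cancel_left, norm_smul, Real.norm_eq_abs,
    abs_of_pos (by positivity)]
  exact mul_le_mul_of_nonneg_left (l.hT x) (by positivity)

end Crest.Agent.R332
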