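import Crest.Agent.R332.Core
import Crest.Agent.R332.Split
import Crest.Agent.R332.Limit
import Crest.Agent.R332.Struct
import Crest.Agent.R332.Close
import Crest.Agent.R332.Easy

/-! # Row 332: assembly -/

set_option autoImplicit false

open MeasureTheory Set Filter Topology
open scoped Matrix Matrix.Norms.L2Operator MatrixOrder ComplexOrder

namespace Crest.Agent.R332

open Crest.MathPhysics.LiebThirring

variable {s : ℝ} {m : ℕ} {W : ℝ → Mat (Fin m)}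

theorem lt_main (hs0 : 0 < s) (hs1 : s < 1) (hW : Pot s W) {n : ℕ} {φ : Fin n → ℝ → Vec m}
    (hφ : IsTrialFamily φ) :
    negMoment (energyMatrix W φ) (s + 1 / 2) ≤ C1 s / cs s * ∫ x, rt (pw (W x) (1 + s)) := by
  have hc := cs_pos hs0
  rw [div_mul_eq_mul_div, le_div_iff₀ hc]
  refine le_of_forall_pos_le_add fun η hη => ?_
  obtain ⟨ι, _, _, ⟨d⟩⟩ := core hs0 hs1 hW hφ 0 hη
  have := d.δ_pos.le.trans d.δ_le
  linarith

theorem approx_struct (hs0 : 0 < s) (hs1 : s < 1) (hW : Pot s W)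
    (h : ∀ ε : ℝ, 0 < ε → ∃ (n : ℕ) (φ : Fin n → ℝ → Vec m), IsTrialFamily φ ∧
      C1 s / cs s * (∫ x, rt (pw (W x) (1 + s))) - ε < negMoment (energyMatrix W φ) (s + 1 / 2))
    {η : ℝ} (hη : 0 < η) :
    ∃ (U : Matrix.unitaryGroup (Fin m) ℂ) (a c : Fin m → ℝ), (∀ i, 0 ≤ a i) ∧
      ∀ᵐ x, ‖W x - solMat s U a c x‖ ≤ (s⁻¹ + 1) * η := by
  have hc := cs_pos hs0
  obtain ⟨J, C, hJ⟩ := split hs0 hs1 hW hη
  have key : ∀ k : ℕ, ∃ q ≤ J, ∃ D : ℝ, 0 ≤ D ∧ D ≤ 1 / ((k : ℝ) + 1) ∧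
      Nonempty (Top s W q η C k (C * D)) := by
    intro k
    have hk : (0 : ℝ) < 1 / ((k : ℝ) + 1) := by positivity
    obtain ⟨n, φ, hφ, h1⟩ := h (1 / ((k : ℝ) + 1) / 2 / cs s) (by positivity)
    obtain ⟨ι, _, _, ⟨d⟩⟩ := core hs0 hs1 hW hφ k (half_pos hk)
    have h2 : C1 s * (∫ x, rt (pw (W x) (1 + s))) - cs s * negMoment (energyMatrix W φ) (s + 1 / 2)
        + 1 / ((k : ℝ) + 1) / 2 ≤ 1 / ((k : ℝ) + 1) := by
      have h3 := mul_lt_mul_of_pos_left h1 hc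
      rw [mul_sub, ← mul_assoc, mul_div_cancel₀ _ hc.ne', mul_div_cancel₀ _ hc.ne'] at h3
      linarith
    have h4 : 1 / ((k : ℝ) + 1) ≤ 1 := by
      rw [div_le_one (by positivity)]; linarith [(Nat.cast_nonneg k : (0 : ℝ) ≤ k)]
    obtain ⟨q, hq, hT⟩ := hJ ι k _ d (h2.trans h4)
    exact ⟨q, hq, _, d.δ_pos.le.trans d.δ_le, h2, hT⟩
  choose q hq D hD0 hD1 hT using key
  obtain ⟨q₀, -, ψ, hψ, hq₀⟩ := (Set.finite_Iic J).isCompact.tendsto_subseq (x := q) hq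
  rw [nhds_discrete, tendsto_pure, eventually_atTop] at hq₀
  obtain ⟨k₀, hk₀⟩ := hq₀
  have hψ' : Tendsto (fun k => ψ (k + k₀)) atTop atTop :=
    hψ.tendsto_atTop.comp (tendsto_add_atTop_nat k₀)
  have hT' : ∀ k, Nonempty (Top s W q₀ η C (ψ (k + k₀) : ℕ) (C * D (ψ (k + k₀)))) := by
    intro k
    have := hT (ψ (k + k₀))
    rwa [show q (ψ (k + k₀)) = q₀ from hk₀ _ (Nat.le_add_left _ _)] at this
  have hD : Tendsto D atTop (𝓝 0) :=
    squeeze_zero hD0 hD1 tendsto_one_div_add_atTop_nhds_zero_nat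
  obtain ⟨l, hl⟩ := exists_lim hs0 hs1 hW hη (fun k => (ψ (k + k₀) : ℕ))
    (fun k => C * D (ψ (k + k₀))) (fun k => (hT' k).some)
    (tendsto_natCast_atTop_atTop.comp hψ') (by simpa using (hD.comp hψ').const_mul C)
  obtain ⟨U, a, c, ha, hU⟩ := l.struct hs0 hs1
  refine ⟨U, a, c, ha, ?_⟩
  filter_upwards [hl] with x hx
  rw [hx]; exact hU x

theorem rigid (hs0 : 0 < s) (hs1 : s < 1) (hW : Pot s W)
    (h : ∀ ε : ℝ, 0 < ε → ∃ (n : ℕ) (φ : Fin n → ℝ → Vec m), IsTrialFamily φ ∧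
      C1 s / cs s * (∫ x, rt (pw (W x) (1 + s))) - ε < negMoment (energyMatrix W φ) (s + 1 / 2)) :
    ∃ (U : Matrix.unitaryGroup (Fin m) ℂ) (a c : Fin m → ℝ), (∀ i, 0 ≤ a i) ∧
      ∀ᵐ x, W x = solMat s U a c x := by
  refine close hs0 W fun η hη => ?_
  have hr : 0 < s⁻¹ + 1 := by positivity
  have := approx_struct hs0 hs1 hW h (div_pos hη hr)
  rwa [mul_div_cancel₀ _ hr.ne'] at this

end Crest.Agent.R332
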