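import Crest.Agent.R332.Ric
import Crest.Agent.R332.Bell
import Crest.Agent.R332.Brouwer

/-! # Row 332: the fixed point

Parameter `Y ∈ selfAdjoint (Mat ι)`, `cl t = max ε (min t R)`, `Θ(Y) = cfc cl Y`,
`K(Y) = cfc (√ ∘ cl) Y`, `V = (r+1) H(Θ(Y), ·)`.  With `X, β` from `ric_stop`,
`F(Y) = Θ(Y) + (b - β) - K(Y) - X(β)` is continuous and bounded; let `F(Y) = Y` (`brouwer`),
`Y = U (dg y) Uᴴ`, `θ = cl y`, `κ = √θ`.  Then `K + X(β) = U (dg σ) Uᴴ`,
`σ_j = (b - β) - (y_j - θ_j) ≥ 0`.  If `β < b` some `σ_j = 0`, so `y_j > θ_j`, `θ_j = R`, and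
`bell_le` on `[a, β]` for `Uᴴ X U` (with `ξ = σ - κ`, `psi_neg`, `psi_nonneg`) contradicts `hR`.
So `β = b`, and `σ_j > 0` forces `y_j < θ_j`, `θ_j = ε`.
-/

set_option autoImplicit false

open MeasureTheory Set Filter Topology
open scoped Matrix Matrix.Norms.L2Operator MatrixOrder ComplexOrder

namespace Crest.Agent.R332

variable {ι ι' : Type} [Fintype ι] [DecidableEq ι] [Fintype ι'] [DecidableEq ι']

namespace FixA

theorem posDef_of_sub {A : Mat ι} {c : ℝ} (hc : 0 < c) (h : (A - c • (1 : Mat ι)).PosSemidef) :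
    A.PosDef := by
  have h1 : (c • (1 : Mat ι)).PosDef := by
    rw [← dg_const, dg_posDef_iff]; exact fun _ => hc
  have := Matrix.PosDef.posSemidef_add h h1
  simpa using this

theorem uu (U : Matrix.unitaryGroup ι ℂ) : (U : Mat ι) * star (U : Mat ι) = 1 := U.2.2
theorem uu' (U : Matrix.unitaryGroup ι ℂ) : star (U : Mat ι) * (U : Mat ι) = 1 := U.2.1

theorem unconj (U : Matrix.unitaryGroup ι ℂ) (A : Mat ι) :
    star (U : Mat ι) * ((U : Mat ι) * A * star (U : Mat ι)) * (U : Mat ι) = A := by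
  calc _ = (star (U : Mat ι) * (U : Mat ι)) * A * (star (U : Mat ι) * (U : Mat ι)) := by
        simp only [Matrix.mul_assoc]
    _ = A := by rw [uu']; simp

theorem psd_unconj (U : Matrix.unitaryGroup ι ℂ) {A : Mat ι} (h : A.PosSemidef) :
    (star (U : Mat ι) * A * (U : Mat ι)).PosSemidef := by
  have := (psd_conj_iff (star U) A).2 h
  simpa using this

theorem rt_pw_unconj (U : Matrix.unitaryGroup ι ℂ) {A : Mat ι} (h : A.IsHermitian) (p : ℝ) :
    rt (pw (star (U : Mat ι) * A * (U : Mat ι)) p) = rt (pw A p) := by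
  have h1 := cfc_conj (star U) h (fun t : ℝ => t ^ p)
  have h2 := rt_conj (star U) (pw A p)
  simp only [Unitary.coe_star, star_star] at h1 h2
  unfold pw at *
  rw [h1, h2]

theorem posDef_conj_dg (U : Matrix.unitaryGroup ι ℂ) {σ : ι → ℝ} (h : ∀ i, 0 < σ i) :
    ((U : Mat ι) * dg σ * star (U : Mat ι)).PosDef := by
  have h0 : (dg σ).PosDef := (dg_posDef_iff σ).2 h
  have h1 : ((U : Mat ι) * dg σ * star (U : Mat ι)).PosSemidef :=
    (psd_conj_iff U _).2 h0.posSemidef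
  rw [h1.posDef_iff_isUnit]
  have hU : IsUnit (U : Mat ι) := IsUnit.of_mul_eq_one _ (uu U)
  have hU' : IsUnit (star (U : Mat ι)) := IsUnit.of_mul_eq_one _ (uu' U)
  exact (hU.mul h0.isUnit).mul hU'

/-- Hermitian part -/
noncomputable def hp (Y : Mat ι) : Mat ι := (1 / 2 : ℝ) • (Y + Yᴴ)

omit [Fintype ι] [DecidableEq ι] in
theorem hp_herm (Y : Mat ι) : (hp Y).IsHermitian := by
  unfold hp Matrix.IsHermitian
  rw [Matrix.conjTranspose_smul, Matrix.conjTranspose_add, Matrix.conjTranspose_conjTranspose,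
    add_comm]
  simp

omit [Fintype ι] [DecidableEq ι] in
theorem hp_eq {Y : Mat ι} (h : Y.IsHermitian) : hp Y = Y := by
  unfold hp
  rw [h.eq, ← two_smul ℝ Y, smul_smul]
  norm_num

omit [Fintype ι] [DecidableEq ι] in
theorem continuous_hp : Continuous (hp : Mat ι → Mat ι) := by
  unfold hp
  have h : Continuous fun Y : Mat ι => Y + Yᴴ :=
    continuous_id.add (Continuous.matrix_conjTranspose (A := fun Y : Mat ι => Y) continuous_id)
  exact h.const_smul (1 / 2 : ℝ)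

end FixA

open FixA in
theorem exists_fix {s : ℝ} (hs0 : 0 < s) (hs1 : s < 1) {a b ε R δ : ℝ} (hab : a < b) (hε : 0 < ε)
    (hεR : ε < R) (hδ : 0 < δ) (H : Mat ι → ℝ → Mat ι)
    (hHc : ContinuousOn (fun p : Mat ι × ℝ => H p.1 p.2) {p | p.1.IsHermitian})
    (hHδ : ∀ Θ x, Θ.IsHermitian → (H Θ x - δ • (1 : Mat ι)).PosSemidef)
    (hR : ∀ Θ : Mat ι, Θ.IsHermitian →
      s⁻¹ * ∫ x in a..b, rt (pw (H Θ x) (1 + s)) < cs s * R ^ (s + 1 / 2)) :
    ∃ (U : Matrix.unitaryGroup ι ℂ) (κ ξ : ι → ℝ) (X : ℝ → Mat ι),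
      (∀ i, 0 < κ i ∧ ε ≤ κ i ^ 2) ∧ (∀ i, ξ i = -κ i ∨ κ i ^ 2 = ε) ∧ Continuous X ∧
      (∀ x, Reg κ (X x)) ∧ (∀ x, x ≤ a → X x = dg κ) ∧ (∀ x, b ≤ x → X x = dg ξ) ∧
      ∀ x ∈ Ioo a b, HasDerivAt X (Zm κ (X x) - (s⁻¹ + 1) • (star (U : Mat ι) *
        H ((U : Mat ι) * dg (fun i => κ i ^ 2) * star (U : Mat ι)) x * (U : Mat ι))) x := by
  set cl : ℝ → ℝ := fun t => max ε (min t R) with hcl
  have ccl : Continuous cl := continuous_const.max (continuous_id.min continuous_const)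
  have cl1 : ∀ t, ε ≤ cl t := fun t => le_max_left _ _
  have cl2 : ∀ t, cl t ≤ R := fun t => max_le hεR.le (min_le_right _ _)
  have cl0 : ∀ t, 0 < cl t := fun t => hε.trans_le (cl1 t)
  have hR0 : 0 < R := hε.trans hεR
  have hr : 0 < s⁻¹ + 1 := by positivity
  set Θ : Mat ι → Mat ι := fun Y => cfc cl (hp Y) with hΘ
  set K : Mat ι → Mat ι := fun Y => cfc (fun t => √(cl t)) (hp Y) with hK
  have cΘ : Continuous Θ := (continuousOn_cfc_herm ccl).comp_continuous continuous_hp hp_herm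
  have cK : Continuous K :=
    (continuousOn_cfc_herm (f := fun t => √(cl t)) ccl.sqrt).comp_continuous continuous_hp hp_herm
  have Θh : ∀ Y, (Θ Y).IsHermitian := fun Y => cfc_herm _ _
  have Kh : ∀ Y, (K Y).IsHermitian := fun Y => cfc_herm _ _
  have cH : Continuous fun q : Mat ι × ℝ => H (Θ q.1) q.2 :=
    hHc.comp_continuous (f := fun q : Mat ι × ℝ => (Θ q.1, q.2))
      ((cΘ.comp continuous_fst).prodMk continuous_snd) (fun q => Θh q.1)
  have Hpd : ∀ Y x, (H (Θ Y) x).PosDef := fun Y x => posDef_of_sub hδ (hHδ _ x (Θh Y))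
  have Kpd : ∀ Y, (K Y).PosDef := fun Y => by
    rw [hK]; dsimp only
    rw [cfc_spec (hp_herm Y)]
    exact posDef_conj_dg _ fun i => Real.sqrt_pos.2 (cl0 _)
  have Kn : ∀ Y, ‖K Y‖ ≤ √R := fun Y => norm_cfc_le' (hp_herm Y) (Real.sqrt_nonneg _) fun i => by
    rw [abs_of_nonneg (Real.sqrt_nonneg _)]; exact Real.sqrt_le_sqrt (cl2 _)
  have Θn : ∀ Y, ‖Θ Y‖ ≤ R := fun Y => norm_cfc_le' (hp_herm Y) hR0.le fun i => by
    rw [abs_of_nonneg (cl0 _).le]; exact cl2 _
  have Kle : ∀ Y, (√R • (1 : Mat ι) - K Y).PosSemidef := fun Y =>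
    (eig_le (Kh Y)).2 fun i => (le_abs_self _).trans ((abs_eig_le _ i).trans (Kn Y))
  obtain ⟨X, β, cX, cβ, hX⟩ := ric_stop (P := Mat ι) (ρ := √R) hab K
    (fun Y x => (s⁻¹ + 1) • H (Θ Y) x) cK (cH.const_smul (s⁻¹ + 1)) Kpd Kn
    (fun Y x => (Hpd Y x).smul hr)
  set F : Mat ι → Mat ι := fun Y => Θ Y + (b - β Y) • (1 : Mat ι) - K Y - X Y (β Y) with hF
  have cF : Continuous F :=
    ((cΘ.add ((continuous_const.sub cβ).smul continuous_const)).sub cK).sub
      (cX.comp (f := fun Y => (Y, β Y)) (continuous_id.prodMk cβ))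
  have Fn : ∀ Y, ‖F Y‖ ≤ R + (b - a) * ‖(1 : Mat ι)‖ + √R + √R := fun Y => by
    obtain ⟨hβ, -, -, hreg, -, -⟩ := hX Y
    obtain ⟨h1, h2⟩ := hreg (β Y) ⟨hβ.1, le_rfl⟩
    have hXn : ‖X Y (β Y)‖ ≤ √R := by
      refine norm_le_of_psd (Real.sqrt_nonneg _) ?_ ?_
      · convert (Kle Y).add h2 using 1; abel
      · convert (Kle Y).add h1 using 1; abel
    have h3 : ‖(b - β Y) • (1 : Mat ι)‖ ≤ (b - a) * ‖(1 : Mat ι)‖ := by
      rw [norm_smul, Real.norm_eq_abs, abs_of_nonneg (sub_nonneg.2 hβ.2)]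
      exact mul_le_mul_of_nonneg_right (by linarith [hβ.1]) (norm_nonneg _)
    calc ‖F Y‖ ≤ ‖Θ Y + (b - β Y) • (1 : Mat ι) - K Y‖ + ‖X Y (β Y)‖ := norm_sub_le _ _
      _ ≤ ‖Θ Y + (b - β Y) • (1 : Mat ι)‖ + ‖K Y‖ + ‖X Y (β Y)‖ := by
          gcongr; exact norm_sub_le _ _
      _ ≤ ‖Θ Y‖ + ‖(b - β Y) • (1 : Mat ι)‖ + ‖K Y‖ + ‖X Y (β Y)‖ := by
          gcongr; exact norm_add_le _ _
      _ ≤ _ := by linarith [Θn Y, Kn Y]
  obtain ⟨Y, hY⟩ := brouwer F cF _ Fn
  obtain ⟨hβ, hXa, hXb, hreg, hder, hstop⟩ := hX Y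
  have Xβh : (X Y (β Y)).IsHermitian := by
    have := (hreg (β Y) ⟨hβ.1, le_rfl⟩).1.isHermitian.sub (Kh Y)
    simpa using this
  have Yh : Y.IsHermitian := by
    rw [← hY]
    refine (((Θh Y).add ?_).sub (Kh Y)).sub Xβh
    rw [← dg_const]; exact dg_herm _
  set U := Yh.eigenvectorUnitary with hU
  set y := Yh.eigenvalues with hy
  set κ : ι → ℝ := fun i => √(cl (y i)) with hκ
  have κ2 : ∀ i, κ i ^ 2 = cl (y i) := fun i => Real.sq_sqrt (cl0 _).le
  have κ0 : ∀ i, 0 < κ i := fun i => Real.sqrt_pos.2 (cl0 _)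
  have eΘ : Θ Y = (U : Mat ι) * dg (fun i => κ i ^ 2) * star (U : Mat ι) := by
    rw [hΘ]; dsimp only
    rw [hp_eq Yh, cfc_spec Yh]
    simp only [κ2]; rfl
  have eK : K Y = (U : Mat ι) * dg κ * star (U : Mat ι) := by
    rw [hK]; dsimp only
    rw [hp_eq Yh, cfc_spec Yh]
  have eY : Y = (U : Mat ι) * dg y * star (U : Mat ι) := spec Yh
  set σ : ι → ℝ := fun i => κ i ^ 2 + (b - β Y) - y i with hσ
  have eσ : K Y + X Y (β Y) = (U : Mat ι) * dg σ * star (U : Mat ι) := by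
    have h1 : K Y + X Y (β Y) = Θ Y + (b - β Y) • (1 : Mat ι) - F Y := by
      rw [hF]; dsimp only; abel
    rw [h1, hY, hσ, ← dg_sub, ← dg_add, dg_const, Matrix.mul_sub, Matrix.sub_mul, ← eY,
      Matrix.mul_add, Matrix.add_mul, ← eΘ, Matrix.mul_smul, Matrix.smul_mul, Matrix.mul_one, uu]
  have σ0 : ∀ i, 0 ≤ σ i := by
    rw [← dg_psd_iff, ← psd_conj_iff U, ← eσ]
    exact (hreg (β Y) ⟨hβ.1, le_rfl⟩).1
  set Xt : ℝ → Mat ι := fun x => star (U : Mat ι) * X Y x * (U : Mat ι) with hXt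
  have eK' : dg κ = star (U : Mat ι) * K Y * (U : Mat ι) := by rw [eK, unconj]
  have cXt : Continuous Xt :=
    (continuous_const.mul (cX.comp (f := fun x => (Y, x)) (Continuous.prodMk_right Y))).mul
      continuous_const
  have regt : ∀ x ∈ Icc a (β Y), Reg κ (Xt x) := fun x hx => by
    obtain ⟨h1, h2⟩ := hreg x hx
    constructor
    · have := psd_unconj U h1
      rwa [Matrix.mul_add, Matrix.add_mul, ← eK'] at this
    · have := psd_unconj U h2
      rwa [Matrix.mul_sub, Matrix.sub_mul, ← eK'] at this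
  have Xta : ∀ x, x ≤ a → Xt x = dg κ := fun x hx => by
    rw [hXt]; dsimp only; rw [hXa x hx, eK']
  have Xtβ : Xt (β Y) = dg (fun i => σ i - κ i) := by
    rw [← dg_sub, ← unconj U (dg σ), ← eσ, eK', Matrix.mul_add, Matrix.add_mul]
    simp [hXt]
  have dXt : ∀ x ∈ Ioo a (β Y), HasDerivAt Xt (Zm κ (Xt x) - (s⁻¹ + 1) • (star (U : Mat ι) *
      H (Θ Y) x * (U : Mat ι))) x := fun x hx => by
    have h1 := ((hder x hx).const_mul (star (U : Mat ι))).mul_const (U : Mat ι)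
    refine h1.congr_deriv (Eq.symm ?_)
    have h2 : dg (fun i => κ i ^ 2) = star (U : Mat ι) * (K Y * K Y) * (U : Mat ι) := by
      have : dg (fun i => κ i ^ 2) = dg κ * dg κ := by rw [dg_mul]; simp only [sq]
      rw [this, eK']
      calc _ = star (U : Mat ι) * K Y * ((U : Mat ι) * star (U : Mat ι)) * K Y * (U : Mat ι) := by
            simp only [Matrix.mul_assoc]
        _ = _ := by rw [uu]; simp only [Matrix.mul_assoc, Matrix.one_mul]
    have h3 : Xt x * Xt x = star (U : Mat ι) * (X Y x * X Y x) * (U : Mat ι) := by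
      calc _ = star (U : Mat ι) * X Y x * ((U : Mat ι) * star (U : Mat ι)) * X Y x * (U : Mat ι) := by
            simp only [hXt, Matrix.mul_assoc]
        _ = _ := by rw [uu]; simp only [Matrix.mul_assoc, Matrix.one_mul]
    rw [Zm, h2, h3]
    simp only [Matrix.mul_sub, Matrix.sub_mul, Matrix.mul_smul, Matrix.smul_mul]
  have ξle : ∀ i, |σ i - κ i| ≤ κ i := by
    rw [← reg_dg_iff κ (fun i => σ i - κ i), ← Xtβ]
    exact regt _ ⟨hβ.1, le_rfl⟩
  have hβb : β Y = b := by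
    by_contra hne
    have hlt : β Y < b := lt_of_le_of_ne hβ.2 hne
    have h1 := hstop hlt
    rw [eσ] at h1
    obtain ⟨j, hj⟩ : ∃ j, σ j = 0 := by
      by_contra hc
      push Not at hc
      exact h1 (posDef_conj_dg U fun i => lt_of_le_of_ne (σ0 i) (hc i).symm)
    have hjR : cl (y j) = R := by
      have h2 : cl (y j) < y j := by
        have : κ j ^ 2 + (b - β Y) - y j = 0 := hj
        rw [κ2] at this; linarith
      have h3 : min (y j) R < y j := (le_max_right _ _).trans_lt h2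
      have h4 : min (y j) R = R := by
        rcases min_choice (y j) R with h | h
        · rw [h] at h3; exact absurd h3 (lt_irrefl _)
        · exact h
      rw [hcl]; dsimp only; rw [h4, max_eq_right hεR.le]
    have cHY : Continuous fun x => H (Θ Y) x :=
      cH.comp (f := fun x => (Y, x)) (Continuous.prodMk_right Y)
    have hb := bell_le hs0 hs1 (κ := κ) (ξ := fun i => σ i - κ i) (fun i => (κ0 i).le) hβ.1
      (X := Xt) (H := fun x => star (U : Mat ι) * H (Θ Y) x * (U : Mat ι)) cXt.continuousOn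
      ((continuous_const.mul cHY).mul continuous_const).continuousOn
      (fun x _ => psd_unconj U (Hpd Y x).posSemidef) dXt regt (Xta a le_rfl) Xtβ
    simp only [rt_pw_unconj U (Hpd Y _).isHermitian] at hb
    have cI : Continuous fun x => rt (pw (H (Θ Y) x) (1 + s)) :=
      continuous_rt.comp ((continuousOn_pw (by positivity)).comp_continuous cHY
        fun x => (Hpd Y x).isHermitian)
    have h5 : ∫ x in a..β Y, rt (pw (H (Θ Y) x) (1 + s)) ≤
        ∫ x in a..b, rt (pw (H (Θ Y) x) (1 + s)) :=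
      intervalIntegral.integral_mono_interval le_rfl hβ.1 hβ.2
        (Eventually.of_forall fun x => rt_nonneg (pw_psd (Hpd Y x).posSemidef _))
        (cI.intervalIntegrable _ _)
    have h6 : psi s (κ j) (σ j - κ j) ≤ ∑ i, psi s (κ i) (σ i - κ i) :=
      Finset.single_le_sum (f := fun i => psi s (κ i) (σ i - κ i))
        (fun i _ => psi_nonneg (ξle i)) (Finset.mem_univ j)
    have h7 : psi s (κ j) (σ j - κ j) = cs s * R ^ (s + 1 / 2) := by
      rw [hj, zero_sub, psi_neg hs0 (κ0 j).le]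
      congr 1
      rw [← hjR, ← κ2, ← Real.rpow_natCast, ← Real.rpow_mul (κ0 j).le]
      congr 1
      push_cast; ring
    have h8 := hR _ (Θh Y)
    have h9 := mul_le_mul_of_nonneg_left h5 (inv_pos.2 hs0).le
    linarith
  refine ⟨U, κ, fun i => σ i - κ i, Xt, fun i => ⟨κ0 i, by rw [κ2]; exact cl1 _⟩, fun i => ?_, cXt,
    fun x => ?_, Xta, fun x hx => ?_, fun x hx => ?_⟩
  · rcases (σ0 i).eq_or_lt with h | h
    · left; change σ i - κ i = -κ i; rw [← h, zero_sub]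
    · right
      have h1 : y i < cl (y i) := by
        have : 0 < κ i ^ 2 + (b - β Y) - y i := h
        rw [κ2, hβb] at this; linarith
      rw [κ2]
      rcases max_choice ε (min (y i) R) with h2 | h2
      · exact h2
      · have h3 : cl (y i) = min (y i) R := h2
        rw [h3] at h1
        exact absurd (min_le_left _ _) (not_le.2 h1)
  · rcases le_total x a with h | h
    · rw [Xta x h, ← Xta a le_rfl]; exact regt a ⟨le_rfl, hβ.1⟩
    rcases le_total x b with h' | h'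
    · exact regt x ⟨h, hβb ▸ h'⟩
    · have : Xt x = Xt (β Y) := by
        rw [hXt]; dsimp only; rw [hXb x h', hβb]
      rw [this]; exact regt _ ⟨hβ.1, le_rfl⟩
  · rw [← Xtβ, hXt]; dsimp only; rw [hXb x hx, hβb]
  · rw [← eΘ]; exact dXt x (hβb ▸ hx)

end Crest.Agent.R332
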