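import Crest.Agent.R332.Calc
import Crest.Agent.R332.Scalar

/-! # Row 332: properties of `L_t` and `G` -/

set_option autoImplicit false

open MeasureTheory Set Filter Topology
open scoped Matrix Matrix.Norms.L2Operator MatrixOrder ComplexOrder

namespace Crest.Agent.R332

variable {ι ι' : Type} [Fintype ι] [DecidableEq ι] [Fintype ι'] [DecidableEq ι']

variable {s R : ℝ} {κ : ι → ℝ} {X : Mat ι}

namespace GF

theorem psd_lower {v : ι → ℝ} {c : ℝ} (hX : (dg κ + X).PosSemidef) (h : ∀ i, c + κ i ≤ v i) :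
    (dg v + X - c • (1 : Mat ι)).PosSemidef := by
  have h1 : (dg (fun i => v i - κ i - c)).PosSemidef :=
    (dg_psd_iff _).2 fun i => by linarith [h i]
  have h2 : dg (fun i => v i - κ i - c) = dg v - dg κ - c • (1 : Mat ι) := by
    rw [← dg_const, dg_sub, dg_sub]
  rw [h2] at h1
  convert h1.add hX using 1
  abel

theorem psd_upper {v : ι → ℝ} {c : ℝ} (hX : (dg κ - X).PosSemidef) (h : ∀ i, v i + κ i ≤ c) :
    (c • (1 : Mat ι) - (dg v + X)).PosSemidef := by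
  have h1 : (dg (fun i => c - v i - κ i)).PosSemidef :=
    (dg_psd_iff _).2 fun i => by linarith [h i]
  have h2 : dg (fun i => c - v i - κ i) = c • (1 : Mat ι) - dg v - dg κ := by
    rw [← dg_const, dg_sub, dg_sub]
  rw [h2] at h1
  convert h1.add hX using 1
  abel

omit [Fintype ι] in
theorem reg_neg (hX : Reg κ X) : Reg κ (-X) :=
  ⟨by simpa [sub_eq_add_neg] using hX.2, by simpa [sub_neg_eq_add] using hX.1⟩

theorem sc_le {k R t : ℝ} (hk : 0 ≤ k) (hR : k ^ 2 ≤ R) (ht : 0 < t) :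
    √(k ^ 2 + t) + k ≤ 2 * √(R + t) := by
  have h1 : √(k ^ 2 + t) ≤ √(R + t) := Real.sqrt_le_sqrt (by linarith)
  have h2 : k ≤ √(R + t) := Real.le_sqrt_of_sq_le (by linarith)
  linarith

theorem sc_lower {k R t : ℝ} (hk : 0 ≤ k) (hR : k ^ 2 ≤ R) (ht : 0 < t) :
    t / (2 * √(R + t)) + k ≤ √(k ^ 2 + t) := by
  have h0 : 0 < √(R + t) := Real.sqrt_pos.2 (by nlinarith [sq_nonneg k])
  have h1 := sc_le hk hR ht
  have h2 : k ≤ √(k ^ 2 + t) := Real.le_sqrt_of_sq_le (by linarith)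
  have h3 : √(k ^ 2 + t) ^ 2 = k ^ 2 + t := Real.sq_sqrt (by positivity)
  rw [← le_sub_iff_add_le, div_le_iff₀ (by positivity)]
  nlinarith [mul_le_mul_of_nonneg_left h1 (sub_nonneg.2 h2)]

theorem sc_near {k t : ℝ} (hk : 0 ≤ k) (ht : 0 < t) :
    √t ≤ √(k ^ 2 + t) ∧ √(k ^ 2 + t) ≤ √t + k ∧ √(k ^ 2 + t) - √t ≤ k ^ 2 / (2 * √t) := by
  have h0 : 0 < √t := Real.sqrt_pos.2 ht
  have h1 : √t ≤ √(k ^ 2 + t) := Real.sqrt_le_sqrt (by nlinarith [sq_nonneg k])
  have h3 : √(k ^ 2 + t) ^ 2 = k ^ 2 + t := Real.sq_sqrt (by positivity)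
  have h4 : √t ^ 2 = t := Real.sq_sqrt ht.le
  refine ⟨h1, ?_, ?_⟩
  · rw [Real.sqrt_le_left (by positivity)]; nlinarith [mul_nonneg hk h0.le]
  · rw [le_div_iff₀ (by positivity)]
    nlinarith [mul_nonneg (sub_nonneg.2 h1) (sub_nonneg.2 h1)]

theorem herm_mu (hX : Reg κ X) (t : ℝ) : (dg (mu κ t) + X).IsHermitian :=
  (dg_herm _).add hX.herm

theorem eig_near (hκ : ∀ i, 0 ≤ κ i) (hR : ∀ i, κ i ^ 2 ≤ R) (hX : Reg κ X) {t : ℝ}
    (ht : 0 < t) (i : ι) : |(herm_mu hX t).eigenvalues i - √t| ≤ 2 * √R := by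
  have hk : ∀ j, κ j ≤ √R := fun j => Real.le_sqrt_of_sq_le (hR j)
  have h1 := (le_eig (herm_mu hX t) (c := √t - 2 * √R)).1 (psd_lower hX.1 fun j => by
    have := (sc_near (hκ j) ht).1
    have := Real.sqrt_nonneg R
    unfold mu; linarith [hk j]) i
  have h2 := (eig_le (herm_mu hX t) (c := √t + 2 * √R)).1 (psd_upper hX.2 fun j => by
    have := (sc_near (hκ j) ht).2.1
    unfold mu; linarith [hk j]) i
  rw [abs_le]; constructor <;> linarith

theorem log_one {y : ℝ} (hy : |y| ≤ 1 / 2) : |Real.log (1 + y) - y| ≤ 2 * y ^ 2 := by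
  have h := Real.abs_log_sub_add_sum_range_le (x := -y) (by rw [abs_neg]; linarith) 1
  simp only [Finset.sum_range_succ, Finset.sum_range_zero, abs_neg, sub_neg_eq_add] at h
  have h2 : |y| ^ (1 + 1) / (1 - |y|) ≤ 2 * y ^ 2 := by
    rw [div_le_iff₀ (by linarith), show (1 + 1 : ℕ) = 2 from rfl, sq_abs]
    nlinarith [sq_nonneg y]
  refine le_trans (le_of_eq ?_) (h.trans h2)
  congr 1; push_cast; ring

theorem log_two {y : ℝ} (hy : |y| ≤ 1 / 2) :
    |Real.log (1 + y) - y + y ^ 2 / 2| ≤ 2 * |y| ^ 3 := by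
  have h := Real.abs_log_sub_add_sum_range_le (x := -y) (by rw [abs_neg]; linarith) 2
  simp only [Finset.sum_range_succ, Finset.sum_range_zero, abs_neg, sub_neg_eq_add] at h
  have h2 : |y| ^ (2 + 1) / (1 - |y|) ≤ 2 * |y| ^ 3 := by
    rw [div_le_iff₀ (by linarith), show (2 + 1 : ℕ) = 3 from rfl]
    nlinarith [pow_nonneg (abs_nonneg y) 3]
  refine le_trans (le_of_eq ?_) (h.trans h2)
  congr 1; push_cast; ring

/-- the relative deviation of a number near `√t` -/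
theorem dev {R t l : ℝ} (hR0 : 0 ≤ R) (ht : 0 < t) (htR : 16 * R ≤ t) (hl : |l - √t| ≤ 2 * √R) :
    |l / √t - 1| ≤ 2 * √R / √t ∧ |l / √t - 1| ≤ 1 / 2 ∧
      Real.log l = Real.log (1 + (l / √t - 1)) + Real.log t / 2 := by
  have h0 : 0 < √t := Real.sqrt_pos.2 ht
  have h1 : |l / √t - 1| ≤ 2 * √R / √t := by
    rw [le_div_iff₀ h0, ← abs_of_pos h0, ← abs_mul, abs_of_pos h0, sub_mul, div_mul_cancel₀ _ h0.ne',
      one_mul]
    exact hl
  have h2 : 4 * √R ≤ √t := by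
    refine Real.le_sqrt_of_sq_le ?_
    rw [mul_pow, Real.sq_sqrt hR0]; linarith
  have h3 : 2 * √R / √t ≤ 1 / 2 := by rw [div_le_iff₀ h0]; linarith
  refine ⟨h1, h1.trans h3, ?_⟩
  have h4 : 0 < l := by
    have := (abs_le.1 hl).1
    linarith
  rw [add_sub_cancel, Real.log_div h4.ne' h0.ne', Real.log_sqrt ht.le]; ring

theorem cfc_sub' {A : Mat ι} (hA : A.IsHermitian) (f g : ℝ → ℝ) :
    cfc f A - cfc g A = cfc (fun x => f x - g x) A := by
  rw [cfc_spec hA, cfc_spec hA, cfc_spec hA, ← dg_sub, Matrix.mul_sub, Matrix.sub_mul]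

theorem log_ge {x : ℝ} (hx : 0 ≤ x) : x / (1 + x) ≤ Real.log (1 + x) := by
  have h := Real.one_sub_inv_le_log_of_pos (x := 1 + x) (by linarith)
  refine le_trans (le_of_eq ?_) h
  field_simp; ring

/-- crude bound for one logarithm -/
theorem norm_log_crude (hκ : ∀ i, 0 ≤ κ i) (hR0 : 0 ≤ R) (hR : ∀ i, κ i ^ 2 ≤ R) (hX : Reg κ X)
    {t : ℝ} (ht : 0 < t) : ‖cfc Real.log (dg (mu κ t) + X) - (Real.log t / 2) • (1 : Mat ι)‖ ≤
      Real.log 2 + Real.log (1 + R / t) / 2 := by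
  have hA := herm_mu hX t
  have hν : 0 < √(R + t) := Real.sqrt_pos.2 (by linarith)
  have e1 : (Real.log t / 2) • (1 : Mat ι) =
      cfc (fun x => 0 * x + Real.log t / 2) (dg (mu κ t) + X) := by
    rw [cfc_affine hA, zero_smul, zero_add]
  have e2 : Real.log (1 + R / t) = 2 * Real.log √(R + t) - Real.log t := by
    rw [Real.log_sqrt (by linarith), show 1 + R / t = (R + t) / t by field_simp; ring,
      Real.log_div (by linarith) ht.ne']; ring
  have p1 : 0 ≤ Real.log (1 + R / t) := Real.log_nonneg (le_add_of_nonneg_right (by positivity))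
  have p2 : 0 < Real.log 2 := Real.log_pos one_lt_two
  rw [e1, cfc_sub' hA]
  refine norm_cfc_le' hA (by linarith) fun i => ?_
  have h1 := (le_eig hA).1 (psd_lower hX.1 fun j => sc_lower (hκ j) (hR j) ht) i
  have h2 := (eig_le hA).1 (psd_upper hX.2 fun j => sc_le (hκ j) (hR j) ht) i
  have h3 := Real.log_le_log (by positivity) h1
  have h4 := Real.log_le_log (lt_of_lt_of_le (by positivity) h1) h2
  rw [Real.log_div ht.ne' (by positivity), Real.log_mul two_ne_zero hν.ne'] at h3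
  rw [Real.log_mul two_ne_zero hν.ne'] at h4
  rw [abs_le, e2]; constructor <;> linarith

/-- first order expansion of one logarithm -/
theorem norm_log_one (hκ : ∀ i, 0 ≤ κ i) (hR0 : 0 ≤ R) (hR : ∀ i, κ i ^ 2 ≤ R) (hX : Reg κ X)
    {t : ℝ} (ht : 0 < t) (htR : 16 * R ≤ t) : ‖cfc Real.log (dg (mu κ t) + X) -
      ((√t)⁻¹ • (dg (mu κ t) + X) + (Real.log t / 2 - 1) • (1 : Mat ι))‖ ≤ 8 * R / t := by
  have hA := herm_mu hX t
  rw [← cfc_affine hA, cfc_sub' hA]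
  refine norm_cfc_le' hA (by positivity) fun i => ?_
  obtain ⟨h1, h2, h3⟩ := dev hR0 ht htR (eig_near hκ hR hX ht i)
  have h4 := log_one h2
  have h5 : (hA.eigenvalues i / √t - 1) ^ 2 ≤ (2 * √R / √t) ^ 2 := by
    rw [← sq_abs]; exact pow_le_pow_left₀ (abs_nonneg _) h1 2
  rw [div_pow, mul_pow, Real.sq_sqrt hR0, Real.sq_sqrt ht.le] at h5
  refine le_trans (le_of_eq ?_) (h4.trans ?_)
  · congr 1; rw [h3]; ring
  · calc _ ≤ 2 * (2 ^ 2 * R / t) := by linarith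
      _ = _ := by ring

/-- second order expansion of the trace of one logarithm -/
theorem rt_log_two (hκ : ∀ i, 0 ≤ κ i) (hR0 : 0 ≤ R) (hR : ∀ i, κ i ^ 2 ≤ R) (hX : Reg κ X)
    {t : ℝ} (ht : 0 < t) (htR : 16 * R ≤ t) :
    |rt (cfc Real.log (dg (mu κ t) + X)) - (Fintype.card ι * (Real.log t / 2 - 3 / 2) +
      2 / √t * rt (dg (mu κ t) + X) -
        1 / (2 * t) * rt ((dg (mu κ t) + X) * (dg (mu κ t) + X)))| ≤
      Fintype.card ι * (2 * (2 * √R / √t) ^ 3) := by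
  have hA := herm_mu hX t
  have h0 : 0 < √t := Real.sqrt_pos.2 ht
  have e0 : cfc (fun x : ℝ => x) (dg (mu κ t) + X) = dg (mu κ t) + X := by
    have := cfc_affine hA 1 0
    simpa using this
  have e1 : rt (dg (mu κ t) + X) = ∑ i, hA.eigenvalues i := by
    conv_lhs => rw [← e0]
    rw [rt_cfc hA]
  have e2 : rt ((dg (mu κ t) + X) * (dg (mu κ t) + X)) =
      ∑ i, hA.eigenvalues i * hA.eigenvalues i := by
    conv_lhs => rw [← e0]
    rw [cfc_mul', rt_cfc hA]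
  rw [rt_cfc hA, e1, e2, Finset.mul_sum, Finset.mul_sum, ← nsmul_eq_mul, ← nsmul_eq_mul,
    ← Finset.card_univ, ← Finset.sum_const, ← Finset.sum_const, ← Finset.sum_add_distrib,
    ← Finset.sum_sub_distrib, ← Finset.sum_sub_distrib]
  refine (Finset.abs_sum_le_sum_abs _ _).trans (Finset.sum_le_sum fun i _ => ?_)
  obtain ⟨h1, h2, h3⟩ := dev hR0 ht htR (eig_near hκ hR hX ht i)
  have h4 := log_two h2
  have h5 := pow_le_pow_left₀ (abs_nonneg _) h1 3
  refine le_trans (le_of_eq ?_) (h4.trans (by linarith))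
  congr 1
  rw [h3]
  have h6 : t = √t ^ 2 := (Real.sq_sqrt ht.le).symm
  generalize Real.log t = L
  generalize Real.log (1 + (hA.eigenvalues i / √t - 1)) = L'
  generalize √t = τ at *
  subst h6
  field_simp
  ring

theorem psd_of_rt {A : Mat ι} (hA : A.IsHermitian)
    (h : ∀ E : Mat ι, E.PosSemidef → 0 ≤ rt (A * E)) : A.PosSemidef := by
  have h0 := spec hA
  set U := hA.eigenvectorUnitary
  rw [h0, psd_conj_iff, dg_psd_iff]
  intro i
  have h1 := h ((U : Mat ι) * dg (Pi.single i 1) * star (U : Mat ι))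
    ((psd_conj_iff U _).2 ((dg_psd_iff _).2 fun j => by
      rw [Pi.single_apply]; split_ifs <;> norm_num))
  have h2 : A * ((U : Mat ι) * dg (Pi.single i 1) * star (U : Mat ι)) =
      (U : Mat ι) * (dg hA.eigenvalues * dg (Pi.single i 1)) * star (U : Mat ι) := by
    conv_lhs => rw [h0]
    calc _ = (U : Mat ι) * dg hA.eigenvalues * (star (U : Mat ι) * (U : Mat ι)) *
          dg (Pi.single i 1) * star (U : Mat ι) := by simp only [Matrix.mul_assoc]
      _ = _ := by rw [U.2.1]; simp only [Matrix.mul_assoc, Matrix.one_mul]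
  rw [h2, rt_conj, dg_mul, rt_dg] at h1
  simpa [Pi.single_apply] using h1

theorem conj_dg_sum (U : Matrix.unitaryGroup ι ℂ) (w : ι → ℝ) :
    (U : Mat ι) * dg w * star (U : Mat ι) =
      ∑ i, w i • ((U : Mat ι) * dg (Pi.single i 1) * star (U : Mat ι)) := by
  have h : dg w = ∑ i, w i • dg (Pi.single i (1 : ℝ)) := by
    ext j k
    simp only [dg, Matrix.sum_apply, Matrix.smul_apply, Matrix.diagonal_apply, Pi.single_apply]
    split_ifs with hjk
    · simp [apply_ite]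
    · simp
  rw [h, Finset.mul_sum, Finset.sum_mul]
  simp only [Matrix.mul_smul, Matrix.smul_mul]

/-- conjugate transpose as a real continuous linear map -/
noncomputable def ctL : Mat ι →L[ℝ] Mat ι :=
  LinearMap.toContinuousLinearMap
    { toFun := fun A => Aᴴ
      map_add' := fun A B => Matrix.conjTranspose_add A B
      map_smul' := fun c A => by simp [Matrix.conjTranspose_smul] }

omit [DecidableEq ι] in
theorem exists_R (κ : ι → ℝ) : ∃ R : ℝ, 0 ≤ R ∧ ∀ i, κ i ^ 2 ≤ R :=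
  ⟨∑ i, κ i ^ 2, by positivity, fun i =>
    Finset.single_le_sum (f := fun i => κ i ^ 2) (fun _ _ => sq_nonneg _) (Finset.mem_univ i)⟩

end GF

open GF

/-- `μ_t - κ ≥ t / (2 √(R+t))` and `μ + X = (μ - K) + (K + X)` -/
theorem mu_add_lower (hκ : ∀ i, 0 ≤ κ i) (hR : ∀ i, κ i ^ 2 ≤ R) (hX : Reg κ X) {t : ℝ}
    (ht : 0 < t) : (dg (mu κ t) + X - (t / (2 * √(R + t))) • (1 : Mat ι)).PosSemidef ∧
      (dg (mu κ t) - X - (t / (2 * √(R + t))) • (1 : Mat ι)).PosSemidef := by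
  refine ⟨psd_lower hX.1 fun j => sc_lower (hκ j) (hR j) ht, ?_⟩
  rw [sub_eq_add_neg (dg (mu κ t))]
  exact psd_lower (reg_neg hX).1 fun j => sc_lower (hκ j) (hR j) ht

theorem mu_add_upper (hκ : ∀ i, 0 ≤ κ i) (hR : ∀ i, κ i ^ 2 ≤ R) (hX : Reg κ X) {t : ℝ}
    (ht : 0 < t) : ((2 * √(R + t)) • (1 : Mat ι) - (dg (mu κ t) + X)).PosSemidef ∧
      ((2 * √(R + t)) • (1 : Mat ι) - (dg (mu κ t) - X)).PosSemidef := by
  refine ⟨psd_upper hX.2 fun j => sc_le (hκ j) (hR j) ht, ?_⟩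
  rw [sub_eq_add_neg (dg (mu κ t))]
  exact psd_upper (reg_neg hX).2 fun j => sc_le (hκ j) (hR j) ht

theorem posDef_mu (hκ : ∀ i, 0 ≤ κ i) (hX : Reg κ X) {t : ℝ} (ht : 0 < t) :
    (dg (mu κ t) + X).PosDef ∧ (dg (mu κ t) - X).PosDef := by
  have h1 : (dg (mu κ t) - dg κ).PosDef := by
    rw [dg_sub, dg_posDef_iff]
    intro i
    exact sub_pos.2 (Real.lt_sqrt_of_sq_lt (by linarith))
  constructor
  · convert h1.add_posSemidef hX.1 using 1; abel
  · convert h1.add_posSemidef hX.2 using 1; abel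

theorem Lt_herm (κ : ι → ℝ) (X : Mat ι) (t : ℝ) : (Lt κ X t).IsHermitian := by
  unfold Lt
  rw [← dg_const]
  exact ((cfc_herm _ _).add (cfc_herm _ _)).sub (dg_herm _)

/-- Hint: `L_t = log(a/√t) + log(b/√t)`.  Always `‖log(a/√t)‖ ≤ log 2 + ½ log(1+R/t)`
(previous two lemmas); this suffices for `t ≤ 16 (R+1)`.  For `t ≥ 16 (R+1)` write `a/√t = 1 + α`,
`b/√t = 1 + β`, `‖α‖, ‖β‖ ≤ 2 √(R/t) ≤ 1/2`, `‖log(1+α) - α‖ ≤ ‖α‖²`, `‖α + β‖ ≤ R/t`, so
`‖L_t‖ ≤ 9 R / t`. -/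
theorem norm_Lt_le (hκ : ∀ i, 0 ≤ κ i) (hR0 : 0 ≤ R) (hR : ∀ i, κ i ^ 2 ≤ R) (hX : Reg κ X)
    {t : ℝ} (ht : 0 < t) : ‖Lt κ X t‖ ≤ 25 * Real.log (1 + (R + 1) / t) := by
  have hx : 0 < (R + 1) / t := by positivity
  have hl := log_ge hx.le
  rcases le_total t (16 * (R + 1)) with h | h
  · have h1 := norm_log_crude hκ hR0 hR hX ht
    have h2 := norm_log_crude hκ hR0 hR (reg_neg hX) ht
    have e : Lt κ X t = (cfc Real.log (dg (mu κ t) + X) - (Real.log t / 2) • (1 : Mat ι)) +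
        (cfc Real.log (dg (mu κ t) + -X) - (Real.log t / 2) • (1 : Mat ι)) := by
      rw [Lt, ← sub_eq_add_neg]
      module
    have h3 : Real.log (1 + R / t) ≤ Real.log (1 + (R + 1) / t) :=
      Real.log_le_log (by positivity) (by gcongr; linarith)
    have h4 : 1 / 16 ≤ (R + 1) / t := by rw [div_le_div_iff₀ (by norm_num) ht]; linarith
    have h5 : 1 / 17 ≤ (R + 1) / t / (1 + (R + 1) / t) := by
      rw [div_le_div_iff₀ (by norm_num) (by positivity)]; linarith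
    have h6 := Real.log_two_lt_d9
    rw [e]
    refine (norm_add_le _ _).trans ?_
    linarith
  · have h1 := norm_log_one hκ hR0 hR hX ht (by linarith)
    have h2 := norm_log_one hκ hR0 hR (reg_neg hX) ht (by linarith)
    have h0 : 0 < √t := Real.sqrt_pos.2 ht
    have e0 : dg (fun i => 2 * (√t)⁻¹ * mu κ t i - 2) =
        (2 * (√t)⁻¹) • dg (mu κ t) - (2 : ℝ) • (1 : Mat ι) := by
      rw [← dg_const, dg_smul, dg_sub]
    have e : Lt κ X t = (cfc Real.log (dg (mu κ t) + X) -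
        ((√t)⁻¹ • (dg (mu κ t) + X) + (Real.log t / 2 - 1) • (1 : Mat ι))) +
        (cfc Real.log (dg (mu κ t) + -X) -
        ((√t)⁻¹ • (dg (mu κ t) + -X) + (Real.log t / 2 - 1) • (1 : Mat ι))) +
        dg (fun i => 2 * (√t)⁻¹ * mu κ t i - 2) := by
      rw [e0, Lt, ← sub_eq_add_neg]
      module
    have h3 : ‖dg (fun i => 2 * (√t)⁻¹ * mu κ t i - 2)‖ ≤ R / t := by
      refine norm_dg_le (by positivity) fun i => ?_
      obtain ⟨a1, -, a3⟩ := sc_near (hκ i) ht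
      have e1 : 2 * (√t)⁻¹ * mu κ t i - 2 = 2 * (√t)⁻¹ * (√(κ i ^ 2 + t) - √t) := by
        unfold mu; field_simp
      rw [e1, abs_of_nonneg (mul_nonneg (by positivity) (sub_nonneg.2 a1))]
      calc _ ≤ 2 * (√t)⁻¹ * (κ i ^ 2 / (2 * √t)) := by gcongr
        _ = κ i ^ 2 / (√t ^ 2) := by field_simp
        _ ≤ R / t := by rw [Real.sq_sqrt ht.le]; gcongr; exact hR i
    have h4 : (R + 1) / t ≤ 1 / 16 := by rw [div_le_div_iff₀ ht (by norm_num)]; linarith
    have h5 : 16 / 17 * ((R + 1) / t) ≤ (R + 1) / t / (1 + (R + 1) / t) := by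
      rw [le_div_iff₀ (by positivity)]; nlinarith
    have h6 : R / t ≤ (R + 1) / t := by gcongr; linarith
    have h7 : 8 * R / t = 8 * (R / t) := by ring
    rw [e]
    refine (norm_add₃_le ..).trans ?_
    linarith

/-- Hint: `log a ≤ log ν + (a - ν)/ν` with the scalar `ν = √(R+t)`, and `a + b = 2μ ≤ 2ν`. -/
theorem Lt_le (hκ : ∀ i, 0 ≤ κ i) (hR0 : 0 ≤ R) (hR : ∀ i, κ i ^ 2 ≤ R) (hX : Reg κ X)
    {t : ℝ} (ht : 0 < t) : (Real.log (1 + R / t) • (1 : Mat ι) - Lt κ X t).PosSemidef := by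
  have hν : 0 < √(R + t) := Real.sqrt_pos.2 (by linarith)
  have key : ∀ {A : Mat ι}, A.PosDef → ((√(R + t))⁻¹ • A +
      (Real.log √(R + t) - 1) • (1 : Mat ι) - cfc Real.log A).PosSemidef := fun {A} hA => by
    rw [← cfc_affine hA.isHermitian]
    refine cfc_sub_psd hA.isHermitian fun i => ?_
    have h1 := hA.eigenvalues_pos i
    have h2 := Real.log_le_sub_one_of_pos (div_pos h1 hν)
    rw [Real.log_div h1.ne' hν.ne', div_eq_inv_mul] at h2
    linarith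
  obtain ⟨ha, hb⟩ := posDef_mu hκ hX ht
  have e2 : Real.log (1 + R / t) = 2 * Real.log √(R + t) - Real.log t := by
    rw [Real.log_sqrt (by linarith), show 1 + R / t = (R + t) / t by field_simp; ring,
      Real.log_div (by linarith) ht.ne']; ring
  have h3 : ((2 : ℝ) • (1 : Mat ι) - (2 * (√(R + t))⁻¹) • dg (mu κ t)).PosSemidef := by
    rw [← dg_const, dg_smul, dg_sub, dg_psd_iff]
    intro i
    have h1 : mu κ t i ≤ √(R + t) := Real.sqrt_le_sqrt (by linarith [hR i])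
    have h2 : (√(R + t))⁻¹ * mu κ t i ≤ 1 := by rw [inv_mul_le_iff₀ hν]; linarith
    linarith
  convert ((key ha).add (key hb)).add h3 using 1
  rw [Lt, e2]
  module

theorem continuousOn_Lt : ContinuousOn (fun p : (ι → ℝ) × Mat ι × ℝ => Lt p.1 p.2.1 p.2.2)
    {p | (∀ i, 0 ≤ p.1 i) ∧ Reg p.1 p.2.1 ∧ 0 < p.2.2} := by
  have c1 : Continuous fun p : (ι → ℝ) × Mat ι × ℝ => dg (mu p.1 p.2.2) := by
    refine continuous_dg.comp (continuous_pi fun i => ?_)
    unfold mu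
    fun_prop
  have c2 : Continuous fun p : (ι → ℝ) × Mat ι × ℝ => p.2.1 := by fun_prop
  have hl : ContinuousOn Real.log (Ioi 0) :=
    Real.continuousOn_log.mono fun x hx => ne_of_gt hx
  unfold Lt
  refine ContinuousOn.fun_sub (ContinuousOn.fun_add ?_ ?_)
    (ContinuousOn.fun_smul ?_ continuousOn_const)
  · exact (continuousOn_cfc_posDef hl).comp (c1.add c2).continuousOn
      fun p hp => (posDef_mu hp.1 hp.2.1 hp.2.2).1
  · exact (continuousOn_cfc_posDef hl).comp (c1.sub c2).continuousOn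
      fun p hp => (posDef_mu hp.1 hp.2.1 hp.2.2).2
  · exact hl.comp (f := fun p : (ι → ℝ) × Mat ι × ℝ => p.2.2) (by fun_prop) fun p hp => hp.2.2

theorem GF.meas_Lt (s : ℝ) (hκ : ∀ i, 0 ≤ κ i) (hX : Reg κ X) :
    AEStronglyMeasurable (fun t : ℝ => t ^ (s - 1) • Lt κ X t) (volume.restrict (Ioi 0)) := by
  refine ContinuousOn.aestronglyMeasurable ?_ measurableSet_Ioi
  refine ContinuousOn.smul (continuousOn_id.rpow_const fun t ht => Or.inl (ne_of_gt ht)) ?_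
  exact continuousOn_Lt.comp (f := fun t : ℝ => (κ, X, t)) (by fun_prop)
    fun t ht => ⟨hκ, hX, ht⟩

theorem GF.bound_Lt (s : ℝ) (hκ : ∀ i, 0 ≤ κ i) (hR0 : 0 ≤ R) (hR : ∀ i, κ i ^ 2 ≤ R)
    (hX : Reg κ X) : ∀ᵐ t ∂(volume.restrict (Ioi (0 : ℝ))), ‖t ^ (s - 1) • Lt κ X t‖ ≤
      25 * (t ^ (s - 1) * Real.log (1 + (R + 1) / t)) := by
  filter_upwards [ae_restrict_mem measurableSet_Ioi] with t ht
  have h1 : 0 ≤ t ^ (s - 1) := Real.rpow_nonneg (le_of_lt ht) _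
  rw [norm_smul, Real.norm_of_nonneg h1, mul_left_comm]
  exact mul_le_mul_of_nonneg_left (norm_Lt_le hκ hR0 hR hX ht) h1

theorem integrableOn_Lt (hs0 : 0 < s) (hs1 : s < 1) (hκ : ∀ i, 0 ≤ κ i) (hX : Reg κ X) :
    IntegrableOn (fun t : ℝ => t ^ (s - 1) • Lt κ X t) (Ioi 0) := by
  obtain ⟨R, hR0, hR⟩ := exists_R κ
  exact Integrable.mono' ((int_log hs0 hs1 (z := R + 1) (by linarith)).1.const_mul 25)
    (meas_Lt s hκ hX) (bound_Lt s hκ hR0 hR hX)

theorem rt_G_mul (hs0 : 0 < s) (hs1 : s < 1) (hκ : ∀ i, 0 ≤ κ i) (hX : Reg κ X) (M : Mat ι) :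
    IntegrableOn (fun t : ℝ => t ^ (s - 1) * rt (Lt κ X t * M)) (Ioi 0) ∧
      rt (G s κ X * M) = (cI s)⁻¹ * ∫ t in Ioi (0 : ℝ), t ^ (s - 1) * rt (Lt κ X t * M) := by
  have hI := integrableOn_Lt hs0 hs1 hκ hX
  have e : ∀ t : ℝ, rtL M (t ^ (s - 1) • Lt κ X t) = t ^ (s - 1) * rt (Lt κ X t * M) := fun t => by
    rw [map_smul, rtL_apply, smul_eq_mul]
  constructor
  · have := (rtL M).integrable_comp hI
    simpa only [e, IntegrableOn] using this
  · rw [← rtL_apply, G, map_smul, ← (rtL M).integral_comp_comm hI, smul_eq_mul]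
    simp only [e]

theorem G_herm (hs0 : 0 < s) (hs1 : s < 1) (hκ : ∀ i, 0 ≤ κ i) (hX : Reg κ X) :
    (G s κ X).IsHermitian := by
  have hI := integrableOn_Lt hs0 hs1 hκ hX
  have e : ∀ t : ℝ, ctL (t ^ (s - 1) • Lt κ X t) = t ^ (s - 1) • Lt κ X t := fun t => by
    rw [map_smul]; congr 1; exact Lt_herm κ X t
  change ctL (G s κ X) = G s κ X
  rw [G, map_smul, ← (ctL (ι := ι)).integral_comp_comm hI]
  simp only [e]

theorem norm_G_le (hs0 : 0 < s) (hs1 : s < 1) (hκ : ∀ i, 0 ≤ κ i) (hR0 : 0 ≤ R)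
    (hR : ∀ i, κ i ^ 2 ≤ R) (hX : Reg κ X) : ‖G s κ X‖ ≤ 25 * (R + 1) ^ s := by
  have hc := cI_pos hs0 hs1
  obtain ⟨h1, h2⟩ := int_log hs0 hs1 (z := R + 1) (by linarith)
  have h3 := norm_integral_le_of_norm_le (h1.const_mul 25) (bound_Lt s hκ hR0 hR hX)
  rw [integral_const_mul, h2] at h3
  rw [G, norm_smul, Real.norm_of_nonneg (inv_pos.2 hc).le, inv_mul_le_iff₀ hc]
  linarith

theorem G_le (hs0 : 0 < s) (hs1 : s < 1) (hκ : ∀ i, 0 ≤ κ i) (hR0 : 0 ≤ R)
    (hR : ∀ i, κ i ^ 2 ≤ R) (hX : Reg κ X) : (R ^ s • (1 : Mat ι) - G s κ X).PosSemidef := by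
  have hc := cI_pos hs0 hs1
  refine psd_of_rt ?_ fun E hE => ?_
  · rw [← dg_const]; exact (dg_herm _).sub (G_herm hs0 hs1 hκ hX)
  obtain ⟨h1, h2⟩ := int_log hs0 hs1 hR0
  obtain ⟨h3, h4⟩ := rt_G_mul hs0 hs1 hκ hX E
  have h5 : ∫ t in Ioi (0 : ℝ), t ^ (s - 1) * rt (Lt κ X t * E) ≤
      ∫ t in Ioi (0 : ℝ), t ^ (s - 1) * Real.log (1 + R / t) * rt E := by
    refine setIntegral_mono_on h3 (h1.mul_const _) measurableSet_Ioi fun t ht => ?_
    rw [mul_assoc]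
    exact mul_le_mul_of_nonneg_left (rt_mul_le (Lt_le hκ hR0 hR hX ht) hE)
      (Real.rpow_nonneg (le_of_lt ht) _)
  rw [integral_mul_const, h2] at h5
  rw [Matrix.sub_mul, rt_sub, Matrix.smul_mul, Matrix.one_mul, rt_smul, h4, sub_nonneg,
    inv_mul_le_iff₀ hc]
  linarith

/-- dominated convergence (`continuousOn_of_dominated` locally, or sequentially) -/
theorem continuousOn_G (hs0 : 0 < s) (hs1 : s < 1) :
    ContinuousOn (fun p : (ι → ℝ) × Mat ι => G s p.1 p.2) {p | (∀ i, 0 ≤ p.1 i) ∧ Reg p.1 p.2} := by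
  intro p₀ hp₀
  unfold G
  refine ContinuousWithinAt.fun_const_smul ?_ _
  obtain ⟨R, hR0, hR⟩ := exists_R p₀.1
  have hev : ∀ᶠ p : (ι → ℝ) × Mat ι in 𝓝 p₀, ∀ i, p.1 i ^ 2 ≤ R + 1 := by
    rw [eventually_all]
    intro i
    have c : Continuous fun p : (ι → ℝ) × Mat ι => p.1 i ^ 2 := by fun_prop
    exact (c.tendsto p₀).eventually (eventually_le_nhds (by linarith [hR i]))
  refine continuousWithinAt_of_dominated
    (bound := fun t => 25 * (t ^ (s - 1) * Real.log (1 + (R + 1 + 1) / t))) ?_ ?_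
    ((int_log hs0 hs1 (z := R + 1 + 1) (by linarith)).1.const_mul 25) ?_
  · filter_upwards [self_mem_nhdsWithin] with p hp using meas_Lt s hp.1 hp.2
  · filter_upwards [self_mem_nhdsWithin, nhdsWithin_le_nhds hev] with p hp hp'
      using bound_Lt s hp.1 (by linarith) hp' hp.2
  · filter_upwards [ae_restrict_mem measurableSet_Ioi] with t ht
    refine ContinuousWithinAt.fun_const_smul ?_ _
    exact continuousOn_Lt.comp (f := fun p : (ι → ℝ) × Mat ι => (p.1, p.2, t)) (by fun_prop)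
      (fun p hp => ⟨hp.1, hp.2, ht⟩) p₀ hp₀

/-- Hint: `exists_joint_diag` for `dg κ` and `X`; `dg (mu κ t) = cfc (√(·² + t)) (dg κ)`. -/
theorem G_of_comm (hs0 : 0 < s) (hs1 : s < 1) (hκ : ∀ i, 0 ≤ κ i) (hX : Reg κ X)
    (h : dg κ * X = X * dg κ) : (Zm κ X).PosSemidef ∧ G s κ X = pw (Zm κ X) s := by
  obtain ⟨U, v, v', h1, h2⟩ := exists_joint_diag (dg_herm κ) hX.herm h
  have hc := cI_pos hs0 hs1
  have cadd : ∀ w w' : ι → ℝ, (U : Mat ι) * dg w * star (U : Mat ι) +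
      (U : Mat ι) * dg w' * star (U : Mat ι) =
      (U : Mat ι) * dg (fun i => w i + w' i) * star (U : Mat ι) := fun w w' => by
    rw [← dg_add, Matrix.mul_add, Matrix.add_mul]
  have csub : ∀ w w' : ι → ℝ, (U : Mat ι) * dg w * star (U : Mat ι) -
      (U : Mat ι) * dg w' * star (U : Mat ι) =
      (U : Mat ι) * dg (fun i => w i - w' i) * star (U : Mat ι) := fun w w' => by
    rw [← dg_sub, Matrix.mul_sub, Matrix.sub_mul]
  have cconst : ∀ c : ℝ, c • (1 : Mat ι) =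
      (U : Mat ι) * dg (fun _ => c) * star (U : Mat ι) := fun c => by
    rw [dg_const, Matrix.mul_smul, Matrix.smul_mul, Matrix.mul_one, U.2.2]
  have p1 : ∀ i, 0 ≤ v i + v' i := by
    have := hX.1
    rwa [h1, h2, cadd, psd_conj_iff, dg_psd_iff] at this
  have p2 : ∀ i, 0 ≤ v i - v' i := by
    have := hX.2
    rwa [h1, h2, csub, psd_conj_iff, dg_psd_iff] at this
  have p3 : ∀ i, 0 ≤ v i ^ 2 - v' i ^ 2 := fun i => by nlinarith [mul_nonneg (p1 i) (p2 i)]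
  have eZ : Zm κ X = (U : Mat ι) * dg (fun i => v i ^ 2 - v' i ^ 2) * star (U : Mat ι) := by
    have a1 : dg (fun i => κ i ^ 2) = (U : Mat ι) * dg (fun i => v i ^ 2) * star (U : Mat ι) := by
      rw [← cfc_dg (fun x => x ^ 2) κ, h1, cfc_conj_dg]
    have a2 : X * X = (U : Mat ι) * dg (fun i => v' i ^ 2) * star (U : Mat ι) := by
      have e0 : cfc (fun x : ℝ => x) X = X := by simpa using cfc_affine hX.herm 1 0
      conv_lhs => rw [← e0, cfc_mul', h2, cfc_conj_dg]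
      simp only [sq]
    rw [Zm, a1, a2, csub]
  have eL : ∀ t : ℝ, 0 < t → Lt κ X t = (U : Mat ι) *
      dg (fun i => Real.log (1 + (v i ^ 2 - v' i ^ 2) / t)) * star (U : Mat ι) := fun t ht => by
    have a1 : dg (mu κ t) = (U : Mat ι) * dg (fun i => √(v i ^ 2 + t)) * star (U : Mat ι) := by
      rw [← cfc_conj_dg U v (fun x => √(x ^ 2 + t)), ← h1, cfc_dg]; rfl
    rw [Lt, a1]
    conv_lhs => rw [h2]
    rw [cadd, csub, cfc_conj_dg, cfc_conj_dg, cadd, cconst, csub]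
    congr 3
    funext i
    have b1 : |v' i| < √(v i ^ 2 + t) := Real.lt_sqrt_of_sq_lt (by rw [sq_abs]; linarith [p3 i])
    obtain ⟨b2, b3⟩ := abs_lt.1 b1
    have b4 : √(v i ^ 2 + t) ^ 2 = v i ^ 2 + t := Real.sq_sqrt (by positivity)
    rw [← Real.log_mul (by linarith) (by linarith),
      ← Real.log_div (mul_pos (by linarith) (by linarith)).ne' ht.ne']
    congr 1
    field_simp
    linarith
  refine ⟨by rw [eZ, psd_conj_iff, dg_psd_iff]; exact p3, ?_⟩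
  have eI : ∫ t in Ioi (0 : ℝ), t ^ (s - 1) • Lt κ X t =
      ∫ t in Ioi (0 : ℝ), ∑ i, (t ^ (s - 1) * Real.log (1 + (v i ^ 2 - v' i ^ 2) / t)) •
        ((U : Mat ι) * dg (Pi.single i 1) * star (U : Mat ι)) := by
    refine setIntegral_congr_fun measurableSet_Ioi fun t ht => ?_
    rw [eL t ht, conj_dg_sum, Finset.smul_sum]
    simp only [smul_smul]
  rw [G, eI, integral_finsetSum _ fun i _ => (int_log hs0 hs1 (p3 i)).1.smul_const _, pw, eZ,
    cfc_conj_dg, conj_dg_sum, Finset.smul_sum]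
  refine Finset.sum_congr rfl fun i _ => ?_
  rw [integral_smul_const, (int_log hs0 hs1 (p3 i)).2, smul_smul, inv_mul_cancel_left₀ hc.ne']

/-- Hint: `‖L_t‖ → 0` kills `tr L_t Z`; for `t · tr L_t` use
`|log(1+y) - y + y²/2| ≤ 2|y|³` (`|y| ≤ 1/2`) with `α, β` as in `norm_Lt_le`:
`t · tr(α + β - α²/2 - β²/2) = 2√t tr(μ - √t) - tr(μ - √t)² - tr X² → tr K² - tr X²`. -/
theorem tendsto_mt (hκ : ∀ i, 0 ≤ κ i) (hX : Reg κ X) :
    Tendsto (fun t : ℝ => rt (Lt κ X t * (t • (1 : Mat ι) + Zm κ X))) atTop (𝓝 (rt (Zm κ X))) := by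
  obtain ⟨R, hR0, hR⟩ := exists_R κ
  set n : ℝ := (Fintype.card ι : ℝ) with hn
  have hn0 : 0 ≤ n := Nat.cast_nonneg _
  have key : ∀ t : ℝ, 0 < t → 16 * R ≤ t → |rt (Lt κ X t * (t • (1 : Mat ι) + Zm κ X)) -
      rt (Zm κ X)| ≤ 32 * n * √R ^ 3 * (√t)⁻¹ + n * R ^ 2 / 2 * t⁻¹ +
        n * (25 * Real.log (1 + (R + 1) * t⁻¹) * ‖Zm κ X‖) := fun t ht htR => by
    have h0 : 0 < √t := Real.sqrt_pos.2 ht
    have h1 := rt_log_two hκ hR0 hR hX ht htR
    have h2 := rt_log_two hκ hR0 hR (reg_neg hX) ht htR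
    rw [← sub_eq_add_neg] at h2
    have h3 : |rt (Lt κ X t * Zm κ X)| ≤ n * (25 * Real.log (1 + (R + 1) * t⁻¹) * ‖Zm κ X‖) := by
      refine (abs_rt_le _).trans (mul_le_mul_of_nonneg_left ((norm_mul_le _ _).trans ?_) hn0)
      exact mul_le_mul_of_nonneg_right (norm_Lt_le hκ hR0 hR hX ht) (norm_nonneg _)
    have e1 : rt (dg (mu κ t) + X) + rt (dg (mu κ t) - X) = 2 * ∑ i, mu κ t i := by
      rw [rt_add, rt_sub, rt_dg]; ring
    have e2 : rt ((dg (mu κ t) + X) * (dg (mu κ t) + X)) +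
        rt ((dg (mu κ t) - X) * (dg (mu κ t) - X)) =
        2 * (∑ i, κ i ^ 2 + n * t) + 2 * rt (X * X) := by
      have a1 : rt (dg (mu κ t) * dg (mu κ t)) = ∑ i, κ i ^ 2 + n * t := by
        rw [dg_mul, rt_dg, hn, ← nsmul_eq_mul, ← Finset.card_univ, ← Finset.sum_const,
          ← Finset.sum_add_distrib]
        exact Finset.sum_congr rfl fun i _ => Real.mul_self_sqrt (by positivity)
      simp only [Matrix.mul_add, Matrix.add_mul, Matrix.mul_sub, Matrix.sub_mul, rt_add, rt_sub, a1]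
      ring
    have e3 : rt (Zm κ X) = ∑ i, κ i ^ 2 - rt (X * X) := by rw [Zm, rt_sub, rt_dg]
    have e4 : rt (Lt κ X t) = rt (cfc Real.log (dg (mu κ t) + X)) +
        rt (cfc Real.log (dg (mu κ t) - X)) - Real.log t * n := by
      rw [Lt, rt_sub, rt_add, rt_smul, rt_one]
    have e5 : rt (Lt κ X t * (t • (1 : Mat ι) + Zm κ X)) =
        t * rt (Lt κ X t) + rt (Lt κ X t * Zm κ X) := by
      rw [Matrix.mul_add, rt_add, Matrix.mul_smul, Matrix.mul_one, rt_smul]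
    have h4 : |4 * √t * ∑ i, mu κ t i - 4 * n * t - 2 * ∑ i, κ i ^ 2| ≤ n * R ^ 2 / 2 * t⁻¹ := by
      have a1 : 4 * √t * ∑ i, mu κ t i - 4 * n * t - 2 * ∑ i, κ i ^ 2 =
          ∑ i, (4 * √t * mu κ t i - 4 * t - 2 * κ i ^ 2) := by
        rw [Finset.sum_sub_distrib, Finset.sum_sub_distrib, Finset.sum_const, ← Finset.mul_sum,
          ← Finset.mul_sum, Finset.card_univ, nsmul_eq_mul]
        ring
      have a2 : n * R ^ 2 / 2 * t⁻¹ = ∑ _i : ι, R ^ 2 / 2 * t⁻¹ := by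
        rw [Finset.sum_const, Finset.card_univ, nsmul_eq_mul]; ring
      rw [a1, a2]
      refine (Finset.abs_sum_le_sum_abs _ _).trans (Finset.sum_le_sum fun i _ => ?_)
      obtain ⟨b1, -, b3⟩ := sc_near (hκ i) ht
      have b4 : √(κ i ^ 2 + t) ^ 2 = κ i ^ 2 + t := Real.sq_sqrt (by positivity)
      have b5 : √t ^ 2 = t := Real.sq_sqrt ht.le
      have b6 : 4 * √t * mu κ t i - 4 * t - 2 * κ i ^ 2 = -(2 * (√(κ i ^ 2 + t) - √t) ^ 2) := by
        unfold mu; nlinarith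
      have b7 : (√(κ i ^ 2 + t) - √t) ^ 2 ≤ (R / (2 * √t)) ^ 2 :=
        pow_le_pow_left₀ (sub_nonneg.2 b1) (b3.trans (by gcongr; exact hR i)) 2
      rw [div_pow, mul_pow, b5] at b7
      rw [b6, abs_neg, abs_of_nonneg (by positivity)]
      calc _ ≤ 2 * (R ^ 2 / (2 ^ 2 * t)) := by linarith
        _ = _ := by field_simp
    have e6 : t * (n * (2 * (2 * √R / √t) ^ 3)) = 16 * n * √R ^ 3 * (√t)⁻¹ := by
      have b5 : t = √t ^ 2 := (Real.sq_sqrt ht.le).symm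
      generalize √t = τ at *
      subst b5
      field_simp; ring
    have h5 := mul_le_mul_of_nonneg_left h1 ht.le
    have h6 := mul_le_mul_of_nonneg_left h2 ht.le
    rw [← hn, e6, ← abs_of_pos ht, ← abs_mul, abs_of_pos ht] at h5 h6
    have e7 : t * (2 / √t) = 2 * √t := by
      have b5 : t = √t ^ 2 := (Real.sq_sqrt ht.le).symm
      generalize √t = τ at *
      subst b5
      field_simp
    have e8 : t * (1 / (2 * t)) = 1 / 2 := by field_simp
    have e9 : rt (Lt κ X t * (t • (1 : Mat ι) + Zm κ X)) - rt (Zm κ X) =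
        t * (rt (cfc Real.log (dg (mu κ t) + X)) - (n * (Real.log t / 2 - 3 / 2) +
          2 / √t * rt (dg (mu κ t) + X) -
            1 / (2 * t) * rt ((dg (mu κ t) + X) * (dg (mu κ t) + X)))) +
        t * (rt (cfc Real.log (dg (mu κ t) - X)) - (n * (Real.log t / 2 - 3 / 2) +
          2 / √t * rt (dg (mu κ t) - X) -
            1 / (2 * t) * rt ((dg (mu κ t) - X) * (dg (mu κ t) - X)))) +
        (4 * √t * ∑ i, mu κ t i - 4 * n * t - 2 * ∑ i, κ i ^ 2) + rt (Lt κ X t * Zm κ X) := by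
      rw [e5, e4, e3]
      linear_combination (rt (dg (mu κ t) + X) + rt (dg (mu κ t) - X)) * e7 + 2 * √t * e1
        - (rt ((dg (mu κ t) + X) * (dg (mu κ t) + X)) +
          rt ((dg (mu κ t) - X) * (dg (mu κ t) - X))) * e8 - 1 / 2 * e2
    rw [e9]
    refine (abs_add_le _ _).trans ?_
    have := abs_add_three (t * (rt (cfc Real.log (dg (mu κ t) + X)) - (n * (Real.log t / 2 - 3 / 2) +
          2 / √t * rt (dg (mu κ t) + X) -
            1 / (2 * t) * rt ((dg (mu κ t) + X) * (dg (mu κ t) + X)))))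
        (t * (rt (cfc Real.log (dg (mu κ t) - X)) - (n * (Real.log t / 2 - 3 / 2) +
          2 / √t * rt (dg (mu κ t) - X) -
            1 / (2 * t) * rt ((dg (mu κ t) - X) * (dg (mu κ t) - X)))))
        (4 * √t * ∑ i, mu κ t i - 4 * n * t - 2 * ∑ i, κ i ^ 2)
    linarith
  have l1 : Tendsto (fun t : ℝ => (√t)⁻¹) atTop (𝓝 0) :=
    tendsto_inv_atTop_zero.comp Real.tendsto_sqrt_atTop
  have l2 : Tendsto (fun t : ℝ => t⁻¹) atTop (𝓝 0) := tendsto_inv_atTop_zero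
  have l3 : Tendsto (fun t : ℝ => Real.log (1 + (R + 1) * t⁻¹)) atTop (𝓝 0) := by
    have := ((l2.const_mul (R + 1)).const_add 1).log (by simp)
    simpa using this
  have l4 := ((l1.const_mul (32 * n * √R ^ 3)).add (l2.const_mul (n * R ^ 2 / 2))).add
    (((l3.const_mul 25).mul_const ‖Zm κ X‖).const_mul n)
  simp only [mul_zero, zero_mul, add_zero] at l4
  rw [tendsto_iff_dist_tendsto_zero]
  refine squeeze_zero' (Eventually.of_forall fun _ => dist_nonneg) ?_ l4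
  filter_upwards [eventually_gt_atTop 0, eventually_ge_atTop (16 * R)] with t h1 h2
  rw [Real.dist_eq]
  exact key t h1 h2

end Crest.Agent.R332
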