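import Crest.Agent.R332.Calc

/-! # Row 332: the variational form of the Golden–Thompson inequality

For positive definite `A` put `A^z = U diag(exp(z log α_i)) Uᴴ` (`z ∈ ℂ`) and
`f(z) = tr(A^(1-z) a^(z/2) b^z a^(z/2))`.  `f` is entire and bounded on the strip `0 ≤ re z ≤ 1`.
On `re z = 0`: `|tr(A V)| ≤ tr A` for a unitary `V` (contraction).  On `re z = 1`:
`f = tr(V₁ C V₂ Cᴴ)`, `C = a^(1/2) b^(1/2)`, `|f| ≤ fro2 C = tr(a b)` (`norm_trace_mul_le`).
Hadamard three lines (`Complex.HadamardThreeLines.norm_le_interp_of_mem_verticalClosedStrip'`) and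
weighted AM-GM give `re f(θ) ≤ (1-θ) tr A + θ tr(ab)` for `θ ∈ [0,1]`; `f(0) = tr A` and
`f'(0) = tr A (log a + log b - log A)`.
-/

set_option autoImplicit false

open MeasureTheory Set Filter Topology
open scoped Matrix Matrix.Norms.L2Operator MatrixOrder ComplexOrder

namespace Crest.Agent.R332

variable {ι ι' : Type} [Fintype ι] [DecidableEq ι] [Fintype ι'] [DecidableEq ι']

/-- the complex power `U diag(exp(z l_i)) Uᴴ` -/
noncomputable def cpw (U : Matrix.unitaryGroup ι ℂ) (l : ι → ℝ) (z : ℂ) : Mat ι :=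
  (U : Mat ι) * Matrix.diagonal (fun i => Complex.exp (z * l i)) * star (U : Mat ι)

theorem cpw_mul (U : Matrix.unitaryGroup ι ℂ) (l : ι → ℝ) (z w : ℂ) :
    cpw U l z * cpw U l w = cpw U l (z + w) := by
  have h : star (U : Mat ι) * (U : Mat ι) = 1 := Unitary.coe_star_mul_self U
  simp only [cpw]
  calc (U : Mat ι) * Matrix.diagonal (fun i => Complex.exp (z * l i)) * star (U : Mat ι) *
        ((U : Mat ι) * Matrix.diagonal (fun i => Complex.exp (w * l i)) * star (U : Mat ι))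
      = (U : Mat ι) * (Matrix.diagonal (fun i => Complex.exp (z * l i)) *
          (star (U : Mat ι) * (U : Mat ι)) * Matrix.diagonal (fun i => Complex.exp (w * l i))) *
          star (U : Mat ι) := by simp only [Matrix.mul_assoc]
    _ = _ := by
      rw [h, Matrix.mul_one, Matrix.diagonal_mul_diagonal]
      simp only [add_mul, Complex.exp_add]

theorem cpw_zero (U : Matrix.unitaryGroup ι ℂ) (l : ι → ℝ) : cpw U l 0 = 1 := by
  have h : (U : Mat ι) * star (U : Mat ι) = 1 := Unitary.coe_mul_star_self U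
  simp [cpw, h]

theorem cpw_conjTranspose (U : Matrix.unitaryGroup ι ℂ) (l : ι → ℝ) (z : ℂ) :
    (cpw U l z)ᴴ = cpw U l (starRingEnd ℂ z) := by
  simp only [cpw, Matrix.conjTranspose_mul, Matrix.star_eq_conjTranspose,
    Matrix.conjTranspose_conjTranspose, Matrix.diagonal_conjTranspose, Matrix.mul_assoc]
  congr 3
  funext i
  simp [← Complex.exp_conj]

theorem cpw_one {A : Mat ι} (hA : A.PosDef) :
    cpw hA.1.eigenvectorUnitary (fun i => Real.log (hA.1.eigenvalues i)) 1 = A := by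
  conv_rhs => rw [spec hA.1]
  simp only [cpw, dg, one_mul]
  congr 3
  funext i
  rw [← Complex.ofReal_exp, Real.exp_log (hA.eigenvalues_pos i)]

theorem norm_cpw_le (U : Matrix.unitaryGroup ι ℂ) (l : ι → ℝ) {z : ℂ} (hz : |z.re| ≤ 1) :
    ‖cpw U l z‖ ≤ Real.exp ‖l‖ := by
  rw [cpw, norm_conj, Matrix.l2_opNorm_diagonal]
  refine (pi_norm_le_iff_of_nonneg (Real.exp_pos _).le).2 fun i => ?_
  rw [Complex.norm_exp, Real.exp_le_exp]
  simp only [Complex.mul_re, Complex.ofReal_re, Complex.ofReal_im, mul_zero, sub_zero]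
  calc z.re * l i ≤ |z.re * l i| := le_abs_self _
    _ = |z.re| * |l i| := abs_mul _ _
    _ ≤ 1 * ‖l‖ := mul_le_mul hz (norm_le_pi_norm l i) (abs_nonneg _) zero_le_one
    _ = ‖l‖ := one_mul _

theorem hasDerivAt_cpw (U : Matrix.unitaryGroup ι ℂ) (l : ι → ℝ) (z : ℂ) :
    HasDerivAt (cpw U l) (cpw U l z * ((U : Mat ι) * dg l * star (U : Mat ι))) z := by
  have h : star (U : Mat ι) * (U : Mat ι) = 1 := Unitary.coe_star_mul_self U
  let D : (ι → ℂ) →L[ℂ] Mat ι := LinearMap.toContinuousLinearMap (Matrix.diagonalLinearMap ι ℂ ℂ)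
  have h1 : HasDerivAt (fun z : ℂ => fun i => Complex.exp (z * l i))
      (fun i => Complex.exp (z * l i) * l i) z := by
    refine hasDerivAt_pi.2 fun i => ?_
    simpa using ((hasDerivAt_id z).mul_const (l i : ℂ)).cexp
  have h2 : HasDerivAt (fun z : ℂ => Matrix.diagonal fun i => Complex.exp (z * l i))
      (Matrix.diagonal fun i => Complex.exp (z * l i) * l i) z :=
    D.hasFDerivAt.comp_hasDerivAt z h1
  have h3 := (h2.const_mul (U : Mat ι)).mul_const (star (U : Mat ι))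
  refine h3.congr_deriv (Eq.symm ?_)
  simp only [cpw, dg]
  calc (U : Mat ι) * Matrix.diagonal (fun i => Complex.exp (z * l i)) * star (U : Mat ι) *
        ((U : Mat ι) * Matrix.diagonal (fun i => (l i : ℂ)) * star (U : Mat ι))
      = (U : Mat ι) * (Matrix.diagonal (fun i => Complex.exp (z * l i)) *
          (star (U : Mat ι) * (U : Mat ι)) * Matrix.diagonal (fun i => (l i : ℂ))) *
          star (U : Mat ι) := by simp only [Matrix.mul_assoc]
    _ = _ := by rw [h, Matrix.mul_one, Matrix.diagonal_mul_diagonal]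

theorem norm_trace_le_card (M : Mat ι) : ‖Matrix.trace M‖ ≤ Fintype.card ι * ‖M‖ := by
  calc ‖Matrix.trace M‖ ≤ ∑ i, ‖M i i‖ := norm_sum_le _ _
    _ ≤ ∑ _i : ι, ‖M‖ := Finset.sum_le_sum fun i _ => norm_entry_le M i i
    _ = _ := by simp

/-- one-parameter groups with the adjoint rule -/
structure OneP (P : ℂ → Mat ι) : Prop where
  mul : ∀ z w, P z * P w = P (z + w)
  zero : P 0 = 1
  adj : ∀ z, (P z)ᴴ = P (starRingEnd ℂ z)

theorem oneP_cpw (U : Matrix.unitaryGroup ι ℂ) (l : ι → ℝ) : OneP (cpw U l) :=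
  ⟨cpw_mul U l, cpw_zero U l, cpw_conjTranspose U l⟩

theorem OneP.mul' {P : ℂ → Mat ι} (h : OneP P) (z w : ℂ) (M : Mat ι) :
    P z * (P w * M) = P (z + w) * M := by rw [← Matrix.mul_assoc, h.mul]

theorem gt_cs {P Q R : ℂ → Mat ι} (hP : OneP P) (hQ : OneP Q) (hR : OneP R) (z : ℂ) :
    ‖Matrix.trace (P (1 - z) * Q (z / 2) * R z * Q (z / 2))‖ ≤
      √(rt (P (1 - z.re) * Q (z / 2) * R z.re * Q (starRingEnd ℂ (z / 2)))) *
        √(rt (P (1 - z.re) * Q (starRingEnd ℂ (z / 2)) * R z.re * Q (z / 2))) := by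
  have e1 : z / 2 + z / 2 = z := by ring
  have e2 : (1 - z) / 2 + (1 - z) / 2 = 1 - z := by ring
  have e3 : z / 2 + starRingEnd ℂ (z / 2) = z.re := by
    rw [Complex.add_conj]; simp; ring
  have e3' : starRingEnd ℂ (z / 2) + z / 2 = z.re := by rw [add_comm, e3]
  have e4 : (1 - z) / 2 + starRingEnd ℂ ((1 - z) / 2) = 1 - z.re := by
    rw [Complex.add_conj]; simp; ring
  have e4' : starRingEnd ℂ ((1 - z) / 2) + (1 - z) / 2 = 1 - z.re := by rw [add_comm, e4]
  have h := norm_trace_mul_le (P ((1 - z) / 2) * (Q (z / 2) * R (z / 2)))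
    (R (z / 2) * (Q (z / 2) * P ((1 - z) / 2)))
  have a1 : Matrix.trace (P ((1 - z) / 2) * (Q (z / 2) * R (z / 2)) *
      (R (z / 2) * (Q (z / 2) * P ((1 - z) / 2)))) =
      Matrix.trace (P (1 - z) * Q (z / 2) * R z * Q (z / 2)) := by
    rw [← Matrix.mul_assoc, ← Matrix.mul_assoc, Matrix.trace_mul_comm]
    simp only [Matrix.mul_assoc, hP.mul', hR.mul', e1, e2]
  have a2 : fro2 (P ((1 - z) / 2) * (Q (z / 2) * R (z / 2))) =
      rt (P (1 - z.re) * Q (z / 2) * R z.re * Q (starRingEnd ℂ (z / 2))) := by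
    rw [fro2_eq]
    simp only [Matrix.conjTranspose_mul, hP.adj, hQ.adj, hR.adj]
    rw [← Matrix.mul_assoc, rt_mul_comm]
    simp only [Matrix.mul_assoc, hP.mul', hR.mul', e3, e4']
  have a3 : fro2 (R (z / 2) * (Q (z / 2) * P ((1 - z) / 2))) =
      rt (P (1 - z.re) * Q (starRingEnd ℂ (z / 2)) * R z.re * Q (z / 2)) := by
    rw [fro2_eq']
    simp only [Matrix.conjTranspose_mul, hP.adj, hQ.adj, hR.adj]
    rw [← Matrix.mul_assoc, ← Matrix.mul_assoc, rt_mul_comm]
    simp only [Matrix.mul_assoc, hP.mul', hR.mul', e3', e4]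
  rwa [a1, a2, a3] at h

theorem gt_left {P Q R : ℂ → Mat ι} (hP : OneP P) (hQ : OneP Q) (hR : OneP R) {z : ℂ}
    (hz : z.re = 0) (h0 : 0 ≤ rt (P 1)) :
    ‖Matrix.trace (P (1 - z) * Q (z / 2) * R z * Q (z / 2))‖ ≤ rt (P 1) := by
  have e3 : z / 2 + starRingEnd ℂ (z / 2) = 0 := by
    rw [Complex.add_conj]; simp [hz]
  have e3' : starRingEnd ℂ (z / 2) + z / 2 = 0 := by rw [add_comm, e3]
  have h := gt_cs hP hQ hR z
  simp only [hz, Complex.ofReal_zero, sub_zero, hR.zero, Matrix.mul_one, Matrix.mul_assoc, hQ.mul,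
    e3, e3', hQ.zero] at h
  rw [Real.mul_self_sqrt h0] at h
  simpa only [Matrix.mul_assoc] using h

theorem gt_right {P Q R : ℂ → Mat ι} (hP : OneP P) (hQ : OneP Q) (hR : OneP R) {z : ℂ}
    (hz : z.re = 1) (h0 : 0 ≤ rt (Q 1 * R 1)) :
    ‖Matrix.trace (P (1 - z) * Q (z / 2) * R z * Q (z / 2))‖ ≤ rt (Q 1 * R 1) := by
  have e3 : z / 2 + starRingEnd ℂ (z / 2) = 1 := by
    rw [Complex.add_conj]; simp [hz]
  have e3' : starRingEnd ℂ (z / 2) + z / 2 = 1 := by rw [add_comm, e3]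
  have h := gt_cs hP hQ hR z
  simp only [hz, Complex.ofReal_one, sub_self, hP.zero, Matrix.one_mul] at h
  rw [rt_mul_comm, rt_mul_comm (Q (starRingEnd ℂ (z / 2)) * R 1), hQ.mul', hQ.mul', e3, e3',
    Real.mul_self_sqrt h0] at h
  exact h

theorem gt_var {A a b : Mat ι} (hA : A.PosDef) (ha : a.PosDef) (hb : b.PosDef) :
    rt (A * (cfc Real.log a + cfc Real.log b - cfc Real.log A)) ≤ rt (a * b) - rt A := by
  set lA : ι → ℝ := fun i => Real.log (hA.1.eigenvalues i) with hlA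
  set la : ι → ℝ := fun i => Real.log (ha.1.eigenvalues i) with hla
  set lb : ι → ℝ := fun i => Real.log (hb.1.eigenvalues i) with hlb
  set P := cpw hA.1.eigenvectorUnitary lA with hPd
  set Q := cpw ha.1.eigenvectorUnitary la with hQd
  set R := cpw hb.1.eigenvectorUnitary lb with hRd
  have hP : OneP P := oneP_cpw _ _
  have hQ : OneP Q := oneP_cpw _ _
  have hR : OneP R := oneP_cpw _ _
  have P1 : P 1 = A := cpw_one hA
  have Q1 : Q 1 = a := cpw_one ha
  have R1 : R 1 = b := cpw_one hb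
  have dP : ∀ z, HasDerivAt P (P z * cfc Real.log A) z := fun z => by
    rw [cfc_spec hA.1]; exact hasDerivAt_cpw _ _ z
  have dQ : ∀ z, HasDerivAt Q (Q z * cfc Real.log a) z := fun z => by
    rw [cfc_spec ha.1]; exact hasDerivAt_cpw _ _ z
  have dR : ∀ z, HasDerivAt R (R z * cfc Real.log b) z := fun z => by
    rw [cfc_spec hb.1]; exact hasDerivAt_cpw _ _ z
  have hα : 0 ≤ rt A := rt_nonneg hA.posSemidef
  have hβ : 0 ≤ rt (a * b) := rt_mul_nonneg ha.posSemidef hb.posSemidef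
  let T : Mat ι →L[ℂ] ℂ := LinearMap.toContinuousLinearMap (Matrix.traceLinearMap ι ℂ ℂ)
  let f : ℂ → ℂ := fun z => Matrix.trace (P (1 - z) * Q (z / 2) * R z * Q (z / 2))
  have dP' : ∀ z, HasDerivAt (fun z => P (1 - z)) ((-1 : ℂ) • (P (1 - z) * cfc Real.log A)) z :=
    fun z => (dP (1 - z)).scomp z ((hasDerivAt_id z).const_sub 1)
  have dQ' : ∀ z, HasDerivAt (fun z => Q (z / 2)) ((1 / 2 : ℂ) • (Q (z / 2) * cfc Real.log a)) z :=
    fun z => HasDerivAt.scomp (h := fun z : ℂ => z / 2) z (dQ (z / 2))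
      ((hasDerivAt_id' z).div_const 2)
  have df := fun z => T.hasFDerivAt.comp_hasDerivAt z ((((dP' z).mul (dQ' z)).mul (dR z)).mul (dQ' z))
  have hdiff : Differentiable ℂ f := fun z => (df z).differentiableAt
  have df0 : HasDerivAt f
      (Matrix.trace (A * (cfc Real.log a + cfc Real.log b - cfc Real.log A))) 0 := by
    refine (df 0).congr_deriv (Eq.symm ?_)
    simp only [T, LinearMap.coe_toContinuousLinearMap', Matrix.traceLinearMap_apply, Pi.mul_apply,
      sub_zero, zero_div, hQ.zero, hR.zero, P1, Matrix.mul_one, Matrix.one_mul, Matrix.mul_add,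
      Matrix.mul_sub, Matrix.trace_add, Matrix.trace_sub, Matrix.mul_smul, Matrix.trace_smul,
      smul_eq_mul]
    ring
  have hbd : BddAbove ((norm ∘ f) '' Complex.HadamardThreeLines.verticalClosedStrip 0 1) := by
    refine ⟨Fintype.card ι * (Real.exp ‖lA‖ * Real.exp ‖la‖ * Real.exp ‖lb‖ * Real.exp ‖la‖), ?_⟩
    rintro _ ⟨z, hz, rfl⟩
    have hz0 : 0 ≤ z.re := hz.1
    have hz1 : z.re ≤ 1 := hz.2
    have n1 : ‖P (1 - z)‖ ≤ Real.exp ‖lA‖ := norm_cpw_le _ _ (by
      simp only [Complex.sub_re, Complex.one_re]; rw [abs_le]; constructor <;> linarith)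
    have n2 : ‖Q (z / 2)‖ ≤ Real.exp ‖la‖ := norm_cpw_le _ _ (by
      simp only [Complex.div_ofNat_re]; rw [abs_le]; constructor <;> linarith)
    have n3 : ‖R z‖ ≤ Real.exp ‖lb‖ := norm_cpw_le _ _ (by rw [abs_le]; constructor <;> linarith)
    refine (norm_trace_le_card _).trans (mul_le_mul_of_nonneg_left ?_ (Nat.cast_nonneg _))
    refine (norm_mul_le _ _).trans (mul_le_mul ?_ n2 (norm_nonneg _) (by positivity))
    refine (norm_mul_le _ _).trans (mul_le_mul ?_ n3 (norm_nonneg _) (by positivity))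
    exact (norm_mul_le _ _).trans (mul_le_mul n1 n2 (norm_nonneg _) (by positivity))
  have hint : ∀ θ : ℝ, 0 ≤ θ → θ ≤ 1 → (f θ).re ≤ (1 - θ) * rt A + θ * rt (a * b) := by
    intro θ h0 h1
    have h := Complex.HadamardThreeLines.norm_le_interp_of_mem_verticalClosedStrip₀₁' f
      (z := θ) (a := rt A) (b := rt (a * b)) ⟨by simpa using h0, by simpa using h1⟩
      hdiff.diffContOnCl hbd
      (fun z hz => by
        have := gt_left hP hQ hR (z := z) hz (P1 ▸ hα)
        rwa [P1] at this)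
      (fun z hz => by
        have := gt_right hP hQ hR (z := z) hz (by rw [Q1, R1]; exact hβ)
        rwa [Q1, R1] at this)
    simp only [Complex.ofReal_re] at h
    exact (Complex.re_le_norm _).trans (h.trans
      (Real.geom_mean_le_arith_mean2_weighted (by linarith) h0 hα hβ (by ring)))
  have hf0 : (f (0 : ℝ)).re = rt A := by
    simp [f, hQ.zero, hR.zero, P1, rt]
  have dg0 : HasDerivAt (fun θ : ℝ => (f θ).re)
      (rt (A * (cfc Real.log a + cfc Real.log b - cfc Real.log A))) 0 :=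
    HasDerivAt.real_of_complex (by simpa using df0)
  refine le_of_tendsto dg0.tendsto_slope_zero_right ?_
  filter_upwards [Ioo_mem_nhdsGT (zero_lt_one' ℝ)] with t ht
  rw [zero_add, hf0, smul_eq_mul, inv_mul_le_iff₀ ht.1]
  have := hint t ht.1.le ht.2.le
  linarith

end Crest.Agent.R332
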