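import Crest.Agent.R332.Mono
import Crest.Agent.R332.GT
import Crest.Agent.R332.Klein

/-! # Row 332: the Hamilton–Jacobi inequality

`ℓ(t) = tr L_t`, `m(t) = tr L_t (t + Z)`.  `gt_var` with `A = t + H`, `a, b = μ ± X`
(`tr ab = tr(t + Z)`) gives
`tr H L_t ≤ Σ_β [(t+h_β) log(1+h_β/t) - h_β] + (tr Z - t ℓ(t))`; for `H = 0`: `t ℓ ≤ tr Z`, so by
`mt_deriv` `m` is antitone and `m ≥ tr Z` by `tendsto_mt`.  `Ω(t) = r t^s (m(t) - tr Z) ≥ 0`,
`Ω(t) → 0` as `t → 0` (`norm_Lt_le`), and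
`Ω' ≤ t^(s-1) [tr L_t Z - (r+1)(tr Z - t ℓ)] - r t^s c comm 1_[1,2]`.  Integrate over `[t₁, t₂]`
(`intervalIntegral.sub_le_integral_of_hasDeriv_right_of_le`) and let `t₁ → 0`, `t₂ → ∞`
(`rt_G_mul`, `int_klog`).
-/

set_option autoImplicit false

open MeasureTheory Set Filter Topology
open scoped Matrix Matrix.Norms.L2Operator MatrixOrder ComplexOrder

namespace Crest.Agent.R332

variable {ι ι' : Type} [Fintype ι] [DecidableEq ι] [Fintype ι'] [DecidableEq ι']

variable {s : ℝ}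

namespace HJ
open Mono

theorem gt_step {κ : ι → ℝ} {X H : Mat ι} (hκ : ∀ i, 0 ≤ κ i) (hX : Reg κ X) (hH : H.PosSemidef)
    {t : ℝ} (ht : 0 < t) :
    rt (Lt κ X t * H) ≤ rt (cfc (fun h : ℝ => (t + h) * Real.log (1 + h / t) - h) H)
      + (rt (Zm κ X) - t * rt (Lt κ X t)) := by
  obtain ⟨ha, hb⟩ := posDef_mu hκ hX ht
  have e1 : t • (1 : Mat ι) + H = cfc (fun x : ℝ => 1 * x + t) H := by
    rw [cfc_affine hH.isHermitian, one_smul, add_comm]
  have hA : (t • (1 : Mat ι) + H).PosDef := by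
    rw [← dg_const]; exact ((dg_posDef_iff _).2 fun _ => ht).add_posSemidef hH
  have h := gt_var hA ha hb
  have e2 : rt ((dg (mu κ t) + X) * (dg (mu κ t) - X)) = t * Fintype.card ι + rt (Zm κ X) := by
    have := congrArg rt (M_eq κ X ht)
    rw [rt_add, rt_smul, rt_one] at this
    rw [this]
    simp only [Matrix.mul_sub, Matrix.add_mul, rt_sub, rt_add, rt_mul_comm X (dg (mu κ t))]
    ring
  have e3 : cfc Real.log (dg (mu κ t) + X) + cfc Real.log (dg (mu κ t) - X) =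
      Lt κ X t + Real.log t • (1 : Mat ι) := by simp [Lt]
  have e4 : rt ((t • (1 : Mat ι) + H) * cfc Real.log (t • (1 : Mat ι) + H)) =
      rt (cfc (fun h : ℝ => (t + h) * Real.log (1 + h / t) - h) H) + rt H
        + Real.log t * (t * Fintype.card ι + rt H) := by
    have e5 : rt H = ∑ i, hH.isHermitian.eigenvalues i := by
      conv_lhs => rw [← cfc_id'' hH.isHermitian]
      exact rt_cfc _ _
    rw [e1, cfc_cfc hH.isHermitian, cfc_mul', rt_cfc hH.isHermitian, rt_cfc hH.isHermitian, e5,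
      show (t * Fintype.card ι : ℝ) = ∑ _i : ι, t by simp [mul_comm]]
    simp only [← Finset.sum_add_distrib, Finset.mul_sum]
    refine Finset.sum_congr rfl fun i _ => ?_
    have h0 := hH.eigenvalues_nonneg i
    set h := hH.isHermitian.eigenvalues i
    rw [show 1 + h / t = (1 * h + t) / t by field_simp; ring,
      Real.log_div (by linarith) ht.ne']
    ring
  rw [e2, e3, Matrix.mul_sub, rt_sub, e4] at h
  simp only [Matrix.mul_add, Matrix.add_mul, rt_add, Matrix.smul_mul, Matrix.mul_smul,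
    Matrix.one_mul, Matrix.mul_one, rt_smul, rt_one, rt_mul_comm H (Lt κ X t)] at h
  linarith

theorem tl_le {κ : ι → ℝ} {X : Mat ι} (hκ : ∀ i, 0 ≤ κ i) (hX : Reg κ X)
    {t : ℝ} (ht : 0 < t) : t * rt (Lt κ X t) ≤ rt (Zm κ X) := by
  have := gt_step hκ hX Matrix.PosSemidef.zero ht
  rw [cfc_apply_zero] at this
  simp [rt_zero] at this
  linarith

theorem omega_small (hs0 : 0 < s) {R : ℝ} (hR0 : 0 ≤ R) {κ : ι → ℝ} {X : Mat ι}
    (hκ : ∀ i, 0 ≤ κ i) (hR : ∀ i, κ i ^ 2 ≤ R) (hX : Reg κ X) : ∃ C : ℝ, ∀ t, 0 < t → t ≤ 1 →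
      t ^ s * (rt (Lt κ X t * (t • (1 : Mat ι) + Zm κ X)) - rt (Zm κ X)) ≤ C * t ^ (s / 2) := by
  set n : ℝ := (Fintype.card ι : ℝ)
  have hn : 0 ≤ n := Nat.cast_nonneg _
  refine ⟨n * (25 * ((R + 2) ^ (s / 2) / (s / 2)) * (1 + ‖Zm κ X‖)) + |rt (Zm κ X)|,
    fun t ht ht1 => ?_⟩
  have h1 : ‖t • (1 : Mat ι) + Zm κ X‖ ≤ 1 + ‖Zm κ X‖ := by
    refine (norm_add_le _ _).trans (add_le_add_left ?_ _)
    rw [← dg_const]
    exact norm_dg_le zero_le_one fun i => by rwa [abs_of_pos ht]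
  have h2 : Real.log (1 + (R + 1) / t) ≤ (R + 2) ^ (s / 2) / (s / 2) * t ^ (-(s / 2)) := by
    refine (Real.log_le_log (by positivity) (show 1 + (R + 1) / t ≤ (R + 2) / t by
      rw [le_div_iff₀ ht]; field_simp; linarith)).trans ?_
    refine (Real.log_le_rpow_div (by positivity) (half_pos hs0)).trans_eq ?_
    rw [Real.div_rpow (by positivity) ht.le, Real.rpow_neg ht.le]; ring
  have h3 : rt (Lt κ X t * (t • (1 : Mat ι) + Zm κ X)) ≤
      n * (25 * ((R + 2) ^ (s / 2) / (s / 2) * t ^ (-(s / 2))) * (1 + ‖Zm κ X‖)) := by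
    refine (le_abs_self _).trans ((abs_rt_le _).trans ?_)
    gcongr
    refine (norm_mul_le _ _).trans ?_
    gcongr
    exact (norm_Lt_le hκ hR0 hR hX ht).trans (by gcongr)
  have h4 : t ^ s * t ^ (-(s / 2)) = t ^ (s / 2) := by
    rw [← Real.rpow_add ht]; congr 1; ring
  have h5 : t ^ s ≤ t ^ (s / 2) := Real.rpow_le_rpow_of_exponent_ge ht ht1 (by linarith)
  have h6 : 0 ≤ t ^ s := by positivity
  have h7 := neg_abs_le (rt (Zm κ X))
  calc _ ≤ t ^ s * (n * (25 * ((R + 2) ^ (s / 2) / (s / 2) * t ^ (-(s / 2))) * (1 + ‖Zm κ X‖))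
        + |rt (Zm κ X)|) := by gcongr; linarith
    _ = n * (25 * ((R + 2) ^ (s / 2) / (s / 2)) * (1 + ‖Zm κ X‖)) * (t ^ s * t ^ (-(s / 2)))
        + |rt (Zm κ X)| * t ^ s := by ring
    _ ≤ _ := by rw [h4, add_mul]; gcongr

theorem integral_nonneg_of_deriv {Ω Ω' φ : ℝ → ℝ} {C p : ℝ} (hp : 0 < p)
    (hd : ∀ t, 0 < t → HasDerivAt Ω (Ω' t) t) (hle : ∀ t, 0 < t → Ω' t ≤ φ t)
    (hφ : IntegrableOn φ (Ioi 0)) (h0 : ∀ t, 0 < t → 0 ≤ Ω t)
    (h1 : ∀ t, 0 < t → t ≤ 1 → Ω t ≤ C * t ^ p) : 0 ≤ ∫ t in Ioi (0 : ℝ), φ t := by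
  have hk : ∀ k : ℕ, (0 : ℝ) < 1 / ((k : ℝ) + 1) ∧ 1 / ((k : ℝ) + 1) ≤ 1 ∧ (1 : ℝ) ≤ k + 1 := by
    intro k
    have : (0 : ℝ) ≤ k := Nat.cast_nonneg k
    exact ⟨by positivity, by rw [div_le_one (by positivity)]; linarith, by linarith⟩
  have hU : ⋃ k : ℕ, Ioc (1 / ((k : ℝ) + 1)) (k + 1) = Ioi 0 := by
    ext t
    simp only [mem_iUnion, mem_Ioc, mem_Ioi]
    refine ⟨fun ⟨k, h, _⟩ => (hk k).1.trans h, fun ht => ?_⟩
    obtain ⟨k, hk'⟩ := exists_nat_gt (max t (1 / t))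
    refine ⟨k, ?_, by linarith [le_max_left t (1 / t)]⟩
    have := le_max_right t (1 / t)
    rw [div_lt_iff₀ (by positivity), ← div_lt_iff₀' ht]
    linarith
  have hmono : Monotone fun k : ℕ => Ioc (1 / ((k : ℝ) + 1)) (k + 1) := by
    intro k l hkl
    have : (k : ℝ) ≤ l := Nat.cast_le.2 hkl
    exact Ioc_subset_Ioc (by gcongr) (by linarith)
  have t1 := tendsto_setIntegral_of_monotone (fun k => measurableSet_Ioc) hmono (hU ▸ hφ)
  rw [hU] at t1
  have t2 : Tendsto (fun k : ℕ => -(C * (1 / ((k : ℝ) + 1)) ^ p)) atTop (𝓝 0) := by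
    have := ((tendsto_one_div_add_atTop_nhds_zero_nat (𝕜 := ℝ)).rpow_const (Or.inr hp.le)).const_mul C
    simpa [Real.zero_rpow hp.ne'] using this.neg
  refine le_of_tendsto_of_tendsto' t2 t1 fun k => ?_
  obtain ⟨a1, a2, a3⟩ := hk k
  have hab := a2.trans a3
  have := intervalIntegral.sub_le_integral_of_hasDeriv_right_of_le hab
    (g := Ω) (g' := Ω') (φ := φ)
    (fun t ht => (hd t (a1.trans_le ht.1)).continuousAt.continuousWithinAt)
    (fun t ht => (hd t (a1.trans ht.1)).hasDerivWithinAt)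
    (hφ.mono_set fun t ht => a1.trans_le ht.1) (fun t ht => hle t (a1.trans ht.1))
  rw [intervalIntegral.integral_of_le hab] at this
  linarith [h0 (k + 1) (by linarith), h1 _ a1 a2]

end HJ

open Mono HJ in
theorem hj (hs0 : 0 < s) (hs1 : s < 1) (R : ℝ) (hR0 : 0 ≤ R) : ∃ c > 0, ∀ (ι : Type) [Fintype ι]
    [DecidableEq ι] (κ : ι → ℝ) (X H : Mat ι), (∀ i, 0 ≤ κ i) → (∀ i, κ i ^ 2 ≤ R) → Reg κ X →
    H.PosSemidef → c * comm κ X ≤ dfc s κ X H := by
  obtain ⟨c, hc, hd⟩ := mt_deriv R hR0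
  have hI := cI_pos hs0 hs1
  refine ⟨s⁻¹ * c / cI s, by positivity, fun ι _ _ κ X H hκ hR hX hH => ?_⟩
  choose! d hd1 hd2 using hd ι κ X hκ hR hX
  set m := fun t : ℝ => rt (Lt κ X t * (t • (1 : Mat ι) + Zm κ X)) with hm
  set z := rt (Zm κ X)
  have hcomm : 0 ≤ c * comm κ X := by unfold comm; positivity
  have hind : ∀ t, 0 ≤ (Icc (1 : ℝ) 2).indicator (fun _ => c * comm κ X) t :=
    indicator_nonneg fun _ _ => hcomm
  have hanti : AntitoneOn m (Ioi 0) := by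
    refine antitoneOn_of_deriv_nonpos (convex_Ioi 0)
      (fun t ht => (hd1 t ht).continuousAt.continuousWithinAt)
      (fun t ht => (hd1 t (interior_subset ht)).differentiableAt.differentiableWithinAt)
      fun t ht => ?_
    have ht0 : 0 < t := interior_subset ht
    rw [(hd1 t ht0).deriv]
    have h1 : rt (Lt κ X t) ≤ z / t := by
      rw [le_div_iff₀ ht0, mul_comm]; exact tl_le hκ hX ht0
    linarith [hd2 t ht0, hind t]
  have hmz : ∀ t, 0 < t → z ≤ m t := fun t ht => by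
    refine le_of_tendsto (tendsto_mt hκ hX) ?_
    filter_upwards [eventually_ge_atTop t] with t' ht'
    exact hanti ht (ht.trans_le ht') ht'
  obtain ⟨C, hC⟩ := omega_small hs0 hR0 hκ hR hX
  obtain ⟨i1, j1⟩ := rt_G_mul hs0 hs1 hκ hX (Zm κ X - (s⁻¹ + 1) • H)
  obtain ⟨i2, j2⟩ := int_cfc hH.isHermitian
    (fun t h => t ^ (s - 1) * ((t + h) * Real.log (1 + h / t) - h))
    (fun h => cI s / (1 + s) * h ^ (1 + s))
    (fun i => by
      have := int_klog hs0 hs1 (hH.eigenvalues_nonneg i)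
      exact ⟨this.1, this.2.trans (by ring)⟩) 1
  simp only [Matrix.mul_one, cfc_smul' hH.isHermitian, rt_smul] at i2 j2
  have i3 : IntegrableOn ((Icc (1 : ℝ) 2).indicator fun _ => c * comm κ X) (Ioi 0) :=
    ((integrableOn_const (by simp)).integrable_indicator measurableSet_Icc).integrableOn
  have j3 : ∫ u in Ioi (0 : ℝ), (Icc (1 : ℝ) 2).indicator (fun _ => c * comm κ X) u
      = c * comm κ X := by
    have : Icc (1 : ℝ) 2 ⊆ Ioi 0 := fun u hu => show (0 : ℝ) < u by linarith [hu.1]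
    rw [setIntegral_indicator measurableSet_Icc, inter_eq_right.2 this]
    simp; norm_num
  have key := integral_nonneg_of_deriv (Ω := fun t => s⁻¹ * (t ^ s * (m t - z)))
    (Ω' := fun t => s⁻¹ * (s * t ^ (s - 1) * (m t - z) + t ^ s * d t))
    (φ := fun t => t ^ (s - 1) * rt (Lt κ X t * (Zm κ X - (s⁻¹ + 1) • H))
      + (s⁻¹ + 1) * (t ^ (s - 1) * rt (cfc (fun h : ℝ => (t + h) * Real.log (1 + h / t) - h) H))
      - s⁻¹ * (Icc (1 : ℝ) 2).indicator (fun _ => c * comm κ X) t) (C := s⁻¹ * C) (half_pos hs0)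
    (fun t ht => ((Real.hasDerivAt_rpow_const (Or.inl ht.ne')).fun_mul
      ((hd1 t ht).sub_const z)).const_mul _)
    (fun t ht => by
      have a1 := hd2 t ht
      have a2 := gt_step hκ hX hH ht
      have a3 : m t = t * rt (Lt κ X t) + rt (Lt κ X t * Zm κ X) := by
        simp only [hm, Matrix.mul_add, rt_add, Matrix.mul_smul, Matrix.mul_one, rt_smul]
      have a4 : t ^ s = t * t ^ (s - 1) := by
        rw [Real.rpow_sub_one ht.ne']; field_simp
      have a5 : 0 < t ^ (s - 1) := by positivity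
      have a6 : (Icc (1 : ℝ) 2).indicator (fun _ => c * comm κ X) t ≤
          t ^ s * (Icc (1 : ℝ) 2).indicator (fun _ => c * comm κ X) t := by
        by_cases h : t ∈ Icc (1 : ℝ) 2
        · exact le_mul_of_one_le_left (hind t) (Real.one_le_rpow h.1 hs0.le)
        · simp [indicator_of_notMem h]
      have a7 : t ^ s * d t ≤ t ^ (s - 1) * (t * rt (Lt κ X t) - z)
          - (Icc (1 : ℝ) 2).indicator (fun _ => c * comm κ X) t := by
        have := mul_le_mul_of_nonneg_left a1 (by positivity : 0 ≤ t ^ s)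
        have e : t ^ s * (rt (Lt κ X t) - z / t) = t ^ (s - 1) * (t * rt (Lt κ X t) - z) := by
          rw [a4]; field_simp
        rw [mul_sub, e] at this
        linarith
      have a8 := mul_le_mul_of_nonneg_left a7 (inv_pos.2 hs0).le
      have a9 := mul_le_mul_of_nonneg_left a2 (by positivity : 0 ≤ (s⁻¹ + 1) * t ^ (s - 1))
      have a10 : s⁻¹ * (s * t ^ (s - 1) * (m t - z)) = t ^ (s - 1) * (m t - z) := by field_simp
      simp only [Matrix.mul_sub, rt_sub, Matrix.mul_smul, rt_smul]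
      rw [mul_add, a10, a3]
      nlinarith)
    ((i1.add (i2.const_mul _)).sub (i3.const_mul _))
    (fun t ht => mul_nonneg (inv_pos.2 hs0).le (mul_nonneg (by positivity) (sub_nonneg.2 (hmz t ht))))
    (fun t ht ht1 => by
      rw [mul_assoc]; exact mul_le_mul_of_nonneg_left (hC t ht ht1) (inv_pos.2 hs0).le)
  replace key := key.trans_eq
    (integral_sub (i1.add (i2.const_mul (s⁻¹ + 1))) (i3.const_mul s⁻¹))
  rw [integral_add i1 (i2.const_mul _), integral_const_mul, integral_const_mul, j2, j3] at key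
  rw [dfc, j1, div_mul_eq_mul_div, div_le_iff₀ hI]
  have e1 : (s⁻¹ + 1) * (cI s / (1 + s) * rt (cfc (fun h : ℝ => h ^ (1 + s)) H)) =
      s⁻¹ * rt (pw H (1 + s)) * cI s := by
    unfold pw; field_simp
  rw [e1] at key
  have e2 : ∀ J : ℝ, (cI s)⁻¹ * J * cI s = J := fun J => by field_simp
  rw [add_mul, e2]
  linarith

theorem dfc_nonneg (hs0 : 0 < s) (hs1 : s < 1) {κ : ι → ℝ} {X H : Mat ι} (hκ : ∀ i, 0 ≤ κ i)
    (hX : Reg κ X) (hH : H.PosSemidef) : 0 ≤ dfc s κ X H := by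
  obtain ⟨c, hc, h⟩ := hj hs0 hs1 (∑ i, κ i ^ 2) (by positivity)
  refine le_trans ?_ (h ι κ X H hκ (fun i => Finset.single_le_sum
    (f := fun i => κ i ^ 2) (fun _ _ => by positivity) (Finset.mem_univ i)) hX hH)
  unfold comm; positivity

open Mono in
/-- Hint: `dfc_nonneg` for `H' = cfc (min · η) H`, `G_le`, `rt_mul_le`, `exists_eig_eq_norm`
(for empty `ι`, `‖H‖ = 0`). -/
theorem phi_le_dfc (hs0 : 0 < s) (hs1 : s < 1) {η : ℝ} (hη : 0 < η) {κ : ι → ℝ} {X H : Mat ι}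
    (hκ : ∀ i, 0 ≤ κ i) (hκη : ∀ i, κ i ^ 2 ≤ η) (hX : Reg κ X) (hH : H.PosSemidef) :
    phi s η ‖H‖ ≤ dfc s κ X H := by
  rcases isEmpty_or_nonempty ι with hι | hι
  · have : phi s η ‖H‖ = 0 := by
      rw [Subsingleton.elim H 0, norm_zero, phi, max_eq_right hη.le]; ring
    rw [this]; exact dfc_nonneg hs0 hs1 hκ hX hH
  have hh := hH.isHermitian
  have p1 : (cfc (fun h => min h η) H).PosSemidef :=
    cfc_psd hh fun i => le_min (hH.eigenvalues_nonneg i) hη.le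
  have e1 : H - cfc (fun h => min h η) H = cfc (fun h => h - min h η) H := by
    rw [cfc_sub' hh, cfc_id'' hh]
  have p2 : (H - cfc (fun h => min h η) H).PosSemidef := by
    rw [e1]; exact cfc_psd hh fun i => sub_nonneg.2 (min_le_left _ _)
  have h1 := dfc_nonneg hs0 hs1 hκ hX p1
  have h2 := rt_mul_le (G_le hs0 hs1 hκ hη.le hκη hX) p2
  obtain ⟨i₀, hi₀⟩ := exists_eig_eq_norm hH
  have h3 : phi s η ‖H‖ ≤ ∑ i, phi s η (hh.eigenvalues i) := by
    rw [← hi₀]
    exact Finset.single_le_sum (f := fun i => phi s η (hh.eigenvalues i))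
      (fun i _ => phi_nonneg hs0 hη _) (Finset.mem_univ i₀)
  have h4 : ∑ i, phi s η (hh.eigenvalues i) =
      s⁻¹ * (rt (pw H (1 + s)) - rt (pw (cfc (fun h => min h η) H) (1 + s)))
        - (s⁻¹ + 1) * (η ^ s * rt (H - cfc (fun h => min h η) H)) := by
    rw [e1, pw, pw, cfc_cfc hh, rt_cfc hh, rt_cfc hh, rt_cfc hh]
    simp only [← Finset.sum_sub_distrib, Finset.mul_sum]
    refine Finset.sum_congr rfl fun i _ => ?_
    unfold phi
    rcases le_total (hh.eigenvalues i) η with h | h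
    · rw [max_eq_right h, min_eq_left h]; ring
    · rw [max_eq_left h, min_eq_right h]; ring
  have h5 := mul_le_mul_of_nonneg_left h2 (by positivity : 0 ≤ s⁻¹ + 1)
  simp only [dfc, Matrix.mul_sub, rt_sub, Matrix.mul_smul, rt_smul] at h1 h4 h5 ⊢
  linarith

/-- Hint: `G_of_comm`, `yng_eq_zero` with `P = pw Z s`. -/
theorem eq_of_dfc_eq_zero (hs0 : 0 < s) (hs1 : s < 1) {κ : ι → ℝ} {X H : Mat ι}
    (hκ : ∀ i, 0 ≤ κ i) (hX : Reg κ X) (hH : H.PosSemidef) (hc : dg κ * X = X * dg κ)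
    (h : dfc s κ X H = 0) : H = Zm κ X := by
  obtain ⟨hZ, hG⟩ := G_of_comm hs0 hs1 hκ hX hc
  have e1 : pw (pw (Zm κ X) s) (s⁻¹ + 1) = pw (Zm κ X) s * Zm κ X := by
    rw [pw_pw hZ, show s * (s⁻¹ + 1) = s + 1 by field_simp; ring, ← pw_add hZ hs0 one_pos,
      pw_one hZ.isHermitian]
  have h1 : yng s H (pw (Zm κ X) s) = 0 := by
    rw [← h, yng, dfc, hG, e1]
    simp only [Matrix.mul_sub, rt_sub, Matrix.mul_smul, rt_smul]
    ring
  rw [yng_eq_zero hs0 hs1 hH (pw_psd hZ s) h1, pw_pw hZ, mul_inv_cancel₀ hs0.ne',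
    pw_one hZ.isHermitian]

theorem continuousOn_dfc (hs0 : 0 < s) (hs1 : s < 1) :
    ContinuousOn (fun p : (ι → ℝ) × Mat ι × Mat ι => dfc s p.1 p.2.1 p.2.2)
      {p | (∀ i, 0 ≤ p.1 i) ∧ Reg p.1 p.2.1 ∧ p.2.2.IsHermitian} := by
  unfold dfc
  refine ContinuousOn.add (continuousOn_const.mul (continuous_rt.comp_continuousOn ?_))
    (continuous_rt.comp_continuousOn (ContinuousOn.mul ?_ ?_))
  · exact (continuousOn_pw (by linarith)).comp (continuous_snd.snd.continuousOn) fun p hp => hp.2.2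
  · exact (continuousOn_G hs0 hs1).comp
      (f := fun p : (ι → ℝ) × Mat ι × Mat ι => (p.1, p.2.1)) (by fun_prop) fun p hp => ⟨hp.1, hp.2.1⟩
  · refine Continuous.continuousOn (Continuous.sub ?_ (by fun_prop))
    exact continuous_Zm.comp (f := fun p : (ι → ℝ) × Mat ι × Mat ι => (p.1, p.2.1)) (by fun_prop)

end Crest.Agent.R332
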