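import Crest.Agent.R332.GFun

/-! # Row 332: the derivative of `m(t) = tr L_t (t + Z)`

Put `a = μ + X`, `b = μ - X`, `R_a = (a+u)⁻¹`, `R_b = (b+u)⁻¹`, `ν = μ' = (2μ)⁻¹`; note
`t + Z = μ² - X² = (ab + ba)/2`.  By `int_res_log` in an eigenbasis,
`tr (log a + log b)(t+Z) = ∫₀^∞ m_u(t) du`, `m_u(t) = tr (2/(1+u) - R_a - R_b)(t+Z)`, and
`∂_t m_u = tr(2/(1+u) - R_a - R_b) + tr (R_a ν R_a + R_b ν R_b)(t+Z) = O((1+u)⁻²)` locally uniformly
in `t` (`hasDerivAt_integral_of_dominated_loc_of_deriv_le`).  Using `b = 2μ - a`,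
`tr R_a ν R_a (t+Z) = tr R_a - u tr(R_a μ⁻¹ R_a μ) - tr ν a² R_a²` (same for `b`), and
`tr(R μ⁻¹ R μ) = Σ |R_ij|² μ_i/μ_j = tr R² + ½ Σ |R_ij|² (μ_i - μ_j)²/(μ_i μ_j)`.
Integrate in `u` with `int_res_one`, `int_res_two` (`tr ν (a+b) = n`).  For the remainder keep
`u ∈ [1,2]`: `[μ, X] = -(a+u) [μ, R_a] (a+u)`, `‖a+u‖ ≤ 2√(R+2) + 2`, `μ_i μ_j ≤ R + 2`,
`(μ_i - μ_j)² (μ_i + μ_j)² = (κ_i² - κ_j²)²`.
-/

set_option autoImplicit false

open MeasureTheory Set Filter Topology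
open scoped Matrix Matrix.Norms.L2Operator MatrixOrder ComplexOrder

namespace Crest.Agent.R332

namespace Mono
variable {ι : Type} [Fintype ι] [DecidableEq ι]

theorem rt_dg_mul (v : ι → ℝ) (M : Mat ι) : rt (dg v * M) = ∑ i, v i * (M i i).re := by
  simp [rt_eq_sum, dg, Matrix.diagonal_mul]

theorem rt_cfc_mul {A : Mat ι} (hA : A.IsHermitian) (f : ℝ → ℝ) (M : Mat ι) :
    rt (cfc f A * M) = ∑ i, f (hA.eigenvalues i) *
      ((star (hA.eigenvectorUnitary : Mat ι) * M * (hA.eigenvectorUnitary : Mat ι)) i i).re := by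
  rw [cfc_spec hA, ← rt_dg_mul, Matrix.mul_assoc, Matrix.mul_assoc, rt_mul_comm]
  simp only [Matrix.mul_assoc]

theorem int_cfc {A : Mat ι} (hA : A.IsHermitian) (F : ℝ → ℝ → ℝ) (g : ℝ → ℝ)
    (h : ∀ i, IntegrableOn (fun u => F u (hA.eigenvalues i)) (Ioi 0) ∧
      ∫ u in Ioi (0 : ℝ), F u (hA.eigenvalues i) = g (hA.eigenvalues i)) (M : Mat ι) :
    IntegrableOn (fun u => rt (cfc (F u) A * M)) (Ioi 0) ∧
      ∫ u in Ioi (0 : ℝ), rt (cfc (F u) A * M) = rt (cfc g A * M) := by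
  simp only [rt_cfc_mul hA]
  refine ⟨integrable_finsetSum _ fun i _ => (h i).1.mul_const _, ?_⟩
  rw [integral_finsetSum _ fun i _ => (h i).1.mul_const _]
  exact Finset.sum_congr rfl fun i _ => by rw [integral_mul_const, (h i).2]

/-- the resolvent -/
noncomputable def res (A : Mat ι) (u : ℝ) : Mat ι := cfc (fun x : ℝ => 1 / (x + u)) A

theorem res_mul {A : Mat ι} (hA : A.PosDef) {u : ℝ} (hu : 0 ≤ u) :
    res A u * (A + u • (1 : Mat ι)) = 1 ∧ (A + u • (1 : Mat ι)) * res A u = 1 := by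
  have h1 : A + u • (1 : Mat ι) = cfc (fun t => 1 * t + u) A := by
    rw [cfc_affine hA.isHermitian, one_smul]
  have h2 : (1 : Mat ι) = cfc (fun t : ℝ => 0 * t + 1) A := by
    rw [cfc_affine hA.isHermitian, zero_smul, one_smul, zero_add]
  have hp : ∀ i, hA.isHermitian.eigenvalues i + u ≠ 0 := fun i =>
    (add_pos_of_pos_of_nonneg (hA.eigenvalues_pos i) hu).ne'
  constructor
  · rw [h1, res, cfc_mul']
    refine (cfc_congr' hA.isHermitian fun i => ?_).trans h2.symm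
    have := hp i
    field_simp; ring
  · rw [h1, res, cfc_mul']
    refine (cfc_congr' hA.isHermitian fun i => ?_).trans h2.symm
    have := hp i
    field_simp; ring

theorem res_eq_inv {A : Mat ι} (hA : A.PosDef) {u : ℝ} (hu : 0 ≤ u) :
    res A u = (A + u • (1 : Mat ι))⁻¹ := (Matrix.inv_eq_left_inv (res_mul hA hu).1).symm

theorem cfc_sub' {A : Mat ι} (hA : A.IsHermitian) (f g : ℝ → ℝ) :
    cfc (fun x => f x - g x) A = cfc f A - cfc g A := by
  rw [cfc_spec hA, cfc_spec hA f, cfc_spec hA g, ← Matrix.sub_mul, ← Matrix.mul_sub, dg_sub]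

theorem cfc_smul' {A : Mat ι} (hA : A.IsHermitian) (c : ℝ) (f : ℝ → ℝ) :
    cfc (fun x => c * f x) A = c • cfc f A := by
  rw [cfc_spec hA, cfc_spec hA f, ← Matrix.smul_mul, ← Matrix.mul_smul, dg_smul]

theorem cfc_const' {A : Mat ι} (hA : A.IsHermitian) (c : ℝ) :
    cfc (fun _ : ℝ => c) A = c • (1 : Mat ι) := by
  have := cfc_affine hA 0 c
  simpa using this

theorem cfc_id'' {A : Mat ι} (hA : A.IsHermitian) : cfc (fun x : ℝ => x) A = A := by
  have := cfc_affine hA 1 0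
  simpa using this

theorem continuousOn_res {A : Mat ι} (hA : A.PosDef) : ContinuousOn (res A) (Ioi 0) := by
  have : res A = fun u => (hA.isHermitian.eigenvectorUnitary : Mat ι) *
      dg (fun i => 1 / (hA.isHermitian.eigenvalues i + u)) *
      star (hA.isHermitian.eigenvectorUnitary : Mat ι) := funext fun u => cfc_spec _ _
  rw [this]
  refine (continuousOn_const.mul (continuous_dg.comp_continuousOn ?_)).mul continuousOn_const
  refine continuousOn_pi.2 fun i => continuousOn_const.div (by fun_prop) fun u hu => ?_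
  exact (add_pos (hA.eigenvalues_pos i) hu).ne'

theorem norm_res_le {A : Mat ι} (hA : A.IsHermitian) {lo : ℝ} (hlo : 0 < lo) (hlo1 : lo ≤ 1)
    (h : (A - lo • (1 : Mat ι)).PosSemidef) {u : ℝ} (hu : 0 ≤ u) :
    ‖res A u‖ ≤ 1 / (lo * (1 + u)) := by
  refine norm_cfc_le' hA (by positivity) fun i => ?_
  have h1 := (le_eig hA).1 h i
  rw [abs_of_nonneg (by apply div_nonneg <;> linarith)]
  exact one_div_le_one_div_of_le (by positivity) (by nlinarith)

theorem norm_lam_res_le {A : Mat ι} (hA : A.IsHermitian) {lo hi : ℝ} (hlo : 0 < lo) (hlo1 : lo ≤ 1)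
    (hhi : 0 ≤ hi) (h : (A - lo • (1 : Mat ι)).PosSemidef) (h' : (hi • (1 : Mat ι) - A).PosSemidef)
    {u : ℝ} (hu : 0 ≤ u) :
    ‖(1 / (1 + u)) • (1 : Mat ι) - res A u‖ ≤ (hi + 1) / (lo * (1 + u) ^ 2) := by
  rw [← cfc_const' hA, res, ← cfc_sub' hA]
  refine norm_cfc_le' hA (by positivity) fun i => ?_
  have h1 := (le_eig hA).1 h i
  have h2 := (eig_le hA).1 h' i
  set α := hA.eigenvalues i
  have h3 : 0 < α + u := by linarith
  have h4 : 1 / (1 + u) - 1 / (α + u) = (α - 1) / ((α + u) * (1 + u)) := by field_simp; ring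
  rw [h4, abs_div, abs_of_pos (by positivity : 0 < (α + u) * (1 + u))]
  refine div_le_div₀ (by positivity) (abs_le.2 ⟨by linarith, by linarith⟩) (by positivity) ?_
  have : lo * (1 + u) ≤ α + u := by nlinarith
  nlinarith

theorem fiedler {Q : Mat ι} (hQ : Q.IsHermitian) {μ : ι → ℝ} (hμ : ∀ i, 0 < μ i) :
    rt (Q * dg (fun i => (μ i)⁻¹) * Q * dg μ) = rt (Q * Q) +
      (∑ i, ∑ j, ‖Q i j‖ ^ 2 * ((μ i - μ j) ^ 2 / (μ i * μ j))) / 2 := by
  have hn : ∀ i j, (Q i j * Q j i).re = ‖Q i j‖ ^ 2 := by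
    intro i j
    rw [← hQ.apply j i, Complex.star_def, Complex.mul_conj, Complex.ofReal_re,
      Complex.normSq_eq_norm_sq]
  have hs : ∀ i j, ‖Q j i‖ = ‖Q i j‖ := by
    intro i j
    rw [← hQ.apply j i, norm_star]
  have h1 : rt (Q * dg (fun i => (μ i)⁻¹) * Q * dg μ) = ∑ i, ∑ j, ‖Q i j‖ ^ 2 * (μ i / μ j) := by
    rw [rt_eq_sum]
    refine Finset.sum_congr rfl fun i _ => ?_
    rw [dg, dg, Matrix.mul_diagonal, Matrix.mul_apply]
    simp only [Matrix.mul_diagonal, Finset.sum_mul, Complex.re_sum]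
    refine Finset.sum_congr rfl fun j _ => ?_
    rw [← hn, show Q i j * ((μ j)⁻¹ : ℝ) * Q j i * (μ i : ℝ) = Q i j * Q j i * ((μ i / μ j : ℝ) : ℂ) by
      push_cast; ring, Complex.re_mul_ofReal]
  have h2 : rt (Q * Q) = ∑ i, ∑ j, ‖Q i j‖ ^ 2 := by
    rw [rt_eq_sum]
    simp only [Matrix.mul_apply, Complex.re_sum, hn]
  have h3 : ∑ i, ∑ j, ‖Q i j‖ ^ 2 * (μ i / μ j) = ∑ i, ∑ j, ‖Q i j‖ ^ 2 * (μ j / μ i) := by
    rw [Finset.sum_comm]
    simp only [hs]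
  have h4 : ∑ i, ∑ j, ‖Q i j‖ ^ 2 * ((μ i - μ j) ^ 2 / (μ i * μ j)) =
      ∑ i, ∑ j, ‖Q i j‖ ^ 2 * (μ i / μ j) + ∑ i, ∑ j, ‖Q i j‖ ^ 2 * (μ j / μ i)
        - 2 * ∑ i, ∑ j, ‖Q i j‖ ^ 2 := by
    simp only [Finset.mul_sum, ← Finset.sum_add_distrib, ← Finset.sum_sub_distrib]
    refine Finset.sum_congr rfl fun i _ => Finset.sum_congr rfl fun j _ => ?_
    have := (hμ i).ne'; have := (hμ j).ne'
    field_simp; ring
  rw [h1, h2, h4, ← h3]; ring

theorem fro2_comm (μ : ι → ℝ) (Q : Mat ι) :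
    fro2 (dg μ * Q - Q * dg μ) = ∑ i, ∑ j, ‖Q i j‖ ^ 2 * (μ i - μ j) ^ 2 := by
  unfold fro2
  refine Finset.sum_congr rfl fun i _ => Finset.sum_congr rfl fun j _ => ?_
  simp only [dg, Matrix.sub_apply, Matrix.diagonal_mul, Matrix.mul_diagonal]
  rw [show (μ i : ℂ) * Q i j - Q i j * (μ j : ℂ) = Q i j * ((μ i - μ j : ℝ) : ℂ) by
    push_cast; ring, norm_mul, mul_pow, Complex.norm_real, Real.norm_eq_abs, sq_abs]

variable {R : ℝ} {κ : ι → ℝ} {Y : Mat ι}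

omit [Fintype ι] in
theorem reg_neg (h : Reg κ Y) : Reg κ (-Y) :=
  ⟨by simpa [sub_eq_add_neg] using h.2, by simpa using h.1⟩

theorem Zm_neg (κ : ι → ℝ) (Y : Mat ι) : Zm κ (-Y) = Zm κ Y := by simp [Zm]

omit [Fintype ι] [DecidableEq ι] in
theorem mu_pos (κ : ι → ℝ) {t : ℝ} (ht : 0 < t) (i : ι) : 0 < mu κ t i :=
  Real.sqrt_pos.2 (by positivity)

omit [Fintype ι] [DecidableEq ι] in
theorem mu_sq (κ : ι → ℝ) {t : ℝ} (ht : 0 < t) (i : ι) : mu κ t i ^ 2 = κ i ^ 2 + t :=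
  Real.sq_sqrt (by positivity)

theorem M_eq (κ : ι → ℝ) (Y : Mat ι) {t : ℝ} (ht : 0 < t) :
    t • (1 : Mat ι) + Zm κ Y = dg (mu κ t) * dg (mu κ t) - Y * Y := by
  rw [Zm, dg_mul, ← dg_const, ← add_sub_assoc, dg_add]
  congr 2
  funext i
  rw [← sq, mu_sq κ ht]; ring

theorem hasDerivAt_mu (κ : ι → ℝ) {t : ℝ} (ht : 0 < t) :
    HasDerivAt (fun t => dg (mu κ t)) (dg fun i => (2 * mu κ t i)⁻¹) t := by
  refine hasDerivAt_dg fun i => ?_
  have := ((hasDerivAt_id t).const_add (κ i ^ 2)).sqrt (by simp only [id]; positivity)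
  simpa [mu] using this

theorem hasDerivAt_F (hκ : ∀ i, 0 ≤ κ i) (hY : Reg κ Y) {t u : ℝ} (ht : 0 < t) (hu : 0 ≤ u) :
    HasDerivAt (fun t => rt (((1 / (1 + u)) • (1 : Mat ι) - res (dg (mu κ t) + Y) u) *
        (t • (1 : Mat ι) + Zm κ Y)))
      (rt (res (dg (mu κ t) + Y) u * dg (fun i => (2 * mu κ t i)⁻¹) * res (dg (mu κ t) + Y) u *
          (t • (1 : Mat ι) + Zm κ Y)) +
        rt ((1 / (1 + u)) • (1 : Mat ι) - res (dg (mu κ t) + Y) u)) t := by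
  have hA := (posDef_mu hκ hY ht).1
  have h1 : HasDerivAt (fun t => dg (mu κ t) + Y + u • (1 : Mat ι))
      (dg fun i => (2 * mu κ t i)⁻¹) t := ((hasDerivAt_mu κ ht).add_const Y).add_const _
  have hU : IsUnit (dg (mu κ t) + Y + u • (1 : Mat ι)) :=
    (Matrix.isUnit_iff_isUnit_det _).2 (Matrix.isUnit_det_of_left_inverse (res_mul hA hu).1)
  have h2 := hasDerivAt_matinv h1 hU
  rw [← res_eq_inv hA hu] at h2
  have h3 : HasDerivAt (fun t => res (dg (mu κ t) + Y) u) (-(res (dg (mu κ t) + Y) u *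
      dg (fun i => (2 * mu κ t i)⁻¹) * res (dg (mu κ t) + Y) u)) t := by
    refine h2.congr_of_eventuallyEq ?_
    filter_upwards [lt_mem_nhds ht] with t' ht'
    exact res_eq_inv (posDef_mu hκ hY ht').1 hu
  have h4 : HasDerivAt (fun t : ℝ => t • (1 : Mat ι) + Zm κ Y) (1 : Mat ι) t := by
    simpa using ((hasDerivAt_id t).smul_const (1 : Mat ι)).add_const (Zm κ Y)
  have h5 := hasDerivAt_rt (hasDerivAt_matmul (h3.const_sub ((1 / (1 + u)) • (1 : Mat ι))) h4)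
  simpa only [neg_neg, rt_add, Matrix.mul_one] using h5

theorem F'_eq (hκ : ∀ i, 0 ≤ κ i) (hY : Reg κ Y) {t u : ℝ} (ht : 0 < t) (hu : 0 ≤ u) :
    rt (res (dg (mu κ t) + Y) u * dg (fun i => (2 * mu κ t i)⁻¹) * res (dg (mu κ t) + Y) u *
          (t • (1 : Mat ι) + Zm κ Y)) +
        rt ((1 / (1 + u)) • (1 : Mat ι) - res (dg (mu κ t) + Y) u) =
      rt (cfc (fun x : ℝ => 1 / (1 + u) - u / (x + u) ^ 2) (dg (mu κ t) + Y) * 1)
        - rt (cfc (fun x : ℝ => x ^ 2 / (x + u) ^ 2) (dg (mu κ t) + Y) *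
            dg (fun i => (2 * mu κ t i)⁻¹))
        - u * ((∑ i, ∑ j, ‖res (dg (mu κ t) + Y) u i j‖ ^ 2 *
            ((mu κ t i - mu κ t j) ^ 2 / (mu κ t i * mu κ t j))) / 2) := by
  have hA := (posDef_mu hκ hY ht).1
  have hμ := mu_pos κ ht
  obtain ⟨e1, e2⟩ := res_mul hA hu
  have hf := fiedler (Q := res (dg (mu κ t) + Y) u) (cfc_herm _ _) hμ
  have c1 : cfc (fun x : ℝ => 1 / (1 + u) - u / (x + u) ^ 2) (dg (mu κ t) + Y) =
      (1 / (1 + u)) • (1 : Mat ι) - u • (res (dg (mu κ t) + Y) u * res (dg (mu κ t) + Y) u) := by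
    rw [res, cfc_mul', ← cfc_smul' hA.isHermitian, ← cfc_const' hA.isHermitian,
      ← cfc_sub' hA.isHermitian]
    congr 1; funext x; simp only [div_eq_mul_inv, ← inv_pow]; ring
  have c2 : cfc (fun x : ℝ => x ^ 2 / (x + u) ^ 2) (dg (mu κ t) + Y) =
      res (dg (mu κ t) + Y) u * ((dg (mu κ t) + Y) * (dg (mu κ t) + Y)) *
        res (dg (mu κ t) + Y) u := by
    conv_rhs => rw [← cfc_id'' hA.isHermitian]
    rw [res, cfc_cfc hA.isHermitian, cfc_mul', cfc_mul', cfc_mul']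
    congr 1; funext x; simp only [div_eq_mul_inv, ← inv_pow]; ring
  rw [c1, c2, M_eq κ Y ht]
  set Q := res (dg (mu κ t) + Y) u
  set D := dg (mu κ t)
  set ν := dg (fun i => (2 * mu κ t i)⁻¹) with hν
  have hν1 : dg (fun i => (mu κ t i)⁻¹) = (2 : ℝ) • ν := by
    rw [hν, dg_smul]; congr 1; funext i; have := (hμ i).ne'; field_simp
  have hν2 : D * ν = (1 / 2 : ℝ) • (1 : Mat ι) := by
    rw [hν, dg_mul, ← dg_const]; congr 1; funext i; have := (hμ i).ne'; field_simp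
  have hν3 : ν * D = (1 / 2 : ℝ) • (1 : Mat ι) := by
    rw [hν, dg_mul, ← dg_const]; congr 1; funext i; have := (hμ i).ne'; field_simp
  have hM : D * D - Y * Y = D * (D + Y + u • 1) + (D + Y + u • 1) * D - (2 * u) • D
      - (D + Y) * (D + Y) := by
    simp only [Matrix.mul_add, Matrix.add_mul, Matrix.mul_smul, Matrix.smul_mul, Matrix.mul_one,
      Matrix.one_mul, mul_smul, two_smul]
    abel
  have t1 : rt (Q * ν * Q * (D * (D + Y + u • 1))) = rt Q / 2 := by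
    rw [← Matrix.mul_assoc, rt_mul_comm]
    simp only [← Matrix.mul_assoc]
    rw [e2, Matrix.one_mul, rt_mul_comm, ← Matrix.mul_assoc, hν2, Matrix.smul_mul, Matrix.one_mul,
      rt_smul]
    ring
  have t2 : rt (Q * ν * Q * ((D + Y + u • 1) * D)) = rt Q / 2 := by
    rw [Matrix.mul_assoc (Q * ν), ← Matrix.mul_assoc Q, e1, Matrix.one_mul, Matrix.mul_assoc, hν3,
      Matrix.mul_smul, Matrix.mul_one, rt_smul]
    ring
  have t3 : rt (Q * ν * Q * ((D + Y) * (D + Y))) = rt (Q * ((D + Y) * (D + Y)) * Q * ν) := by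
    rw [Matrix.mul_assoc (Q * ν), rt_mul_comm]
    simp only [Matrix.mul_assoc]
  rw [hν1, Matrix.mul_smul, Matrix.smul_mul, Matrix.smul_mul, rt_smul] at hf
  rw [hM, Matrix.mul_sub, Matrix.mul_sub, Matrix.mul_add, rt_sub, rt_sub, rt_add, t1, t2, t3,
    Matrix.mul_smul, rt_smul, Matrix.mul_one, rt_sub, rt_sub, rt_smul u]
  linear_combination (-u) * hf

theorem rem_lower (hκ : ∀ i, 0 ≤ κ i) (hR0 : 0 ≤ R) (hR : ∀ i, κ i ^ 2 ≤ R) (hY : Reg κ Y)
    {t u : ℝ} (ht : t ∈ Icc (1 : ℝ) 2) (hu : u ∈ Icc (1 : ℝ) 2) :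
    1 / (8 * (R + 2) ^ 2 * (2 * √(R + 2) + 2) ^ 4) * comm κ Y ≤
      u * ((∑ i, ∑ j, ‖res (dg (mu κ t) + Y) u i j‖ ^ 2 *
            ((mu κ t i - mu κ t j) ^ 2 / (mu κ t i * mu κ t j))) / 2) := by
  have ht0 : 0 < t := by linarith [ht.1]
  have hu0 : 0 ≤ u := by linarith [hu.1]
  have hA := (posDef_mu hκ hY ht0).1
  have hμ := mu_pos κ ht0
  have hμ2 : ∀ i, mu κ t i ^ 2 ≤ R + 2 := fun i => by
    rw [mu_sq κ ht0]; linarith [hR i, ht.2]
  obtain ⟨e1, e2⟩ := res_mul hA hu0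
  have hnA : ‖dg (mu κ t) + Y + u • (1 : Mat ι)‖ ≤ 2 * √(R + 2) + 2 := by
    have h1 : ‖dg (mu κ t)‖ ≤ √(R + 2) := norm_dg_le (Real.sqrt_nonneg _) fun i =>
      Real.abs_le_sqrt (hμ2 i)
    have h2 : ‖Y‖ ≤ √(R + 2) := hY.norm_le (Real.sqrt_nonneg _) fun i =>
      Real.le_sqrt_of_sq_le (by linarith [hR i])
    have h3 : ‖u • (1 : Mat ι)‖ ≤ 2 := by
      rw [← dg_const]; exact norm_dg_le (by norm_num) fun i => by rw [abs_of_nonneg hu0]; exact hu.2
    linarith [norm_add_le (dg (mu κ t) + Y) (u • (1 : Mat ι)), norm_add_le (dg (mu κ t)) Y]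
  set Q := res (dg (mu κ t) + Y) u
  set D := dg (mu κ t) with hD
  set A := D + Y + u • (1 : Mat ι) with hAdef
  set B := 2 * √(R + 2) + 2
  have hB : 0 < B := by positivity
  have c1 : D * Y - Y * D = -(A * (D * Q - Q * D) * A) := by
    have : A * (D * Q - Q * D) * A = A * D * (Q * A) - (A * Q) * D * A := by
      simp only [Matrix.mul_sub, Matrix.sub_mul, Matrix.mul_assoc]
    rw [this, e1, e2, hAdef]
    simp only [Matrix.mul_add, Matrix.add_mul, Matrix.mul_smul, Matrix.smul_mul, Matrix.mul_one,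
      Matrix.one_mul]
    abel
  have c2 : fro2 (D * Y - Y * D) ≤ B ^ 4 * fro2 (D * Q - Q * D) := by
    have h0 : fro2 (-(A * (D * Q - Q * D) * A)) = fro2 (A * (D * Q - Q * D) * A) := by
      simp [fro2]
    rw [c1, h0]
    have h1 := fro2_mul_le_right (A * (D * Q - Q * D)) A
    have h2 := fro2_mul_le_left A (D * Q - Q * D)
    have h3 : ‖A‖ ^ 2 ≤ B ^ 2 := by gcongr
    have h4 := fro2_nonneg (D * Q - Q * D)
    calc _ ≤ fro2 (A * (D * Q - Q * D)) * ‖A‖ ^ 2 := h1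
      _ ≤ (B ^ 2 * fro2 (D * Q - Q * D)) * B ^ 2 := by
        gcongr; exact h2.trans (by gcongr)
      _ = _ := by ring
  have c3 : comm κ Y ≤ 4 * (R + 2) * fro2 (D * Y - Y * D) := by
    rw [hD, fro2_comm, comm]
    simp only [Finset.mul_sum]
    refine Finset.sum_le_sum fun i _ => Finset.sum_le_sum fun j _ => ?_
    have h1 : κ i ^ 2 - κ j ^ 2 = (mu κ t i - mu κ t j) * (mu κ t i + mu κ t j) := by
      have := mu_sq κ ht0 i; have := mu_sq κ ht0 j; linarith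
    have h2 : (mu κ t i + mu κ t j) ^ 2 ≤ 4 * (R + 2) := by
      nlinarith [hμ2 i, hμ2 j, sq_nonneg (mu κ t i - mu κ t j)]
    rw [h1, mul_pow]
    have h3 : 0 ≤ ‖Y i j‖ ^ 2 * (mu κ t i - mu κ t j) ^ 2 := by positivity
    nlinarith
  have c4 : fro2 (D * Q - Q * D) ≤ (R + 2) * ∑ i, ∑ j, ‖Q i j‖ ^ 2 *
      ((mu κ t i - mu κ t j) ^ 2 / (mu κ t i * mu κ t j)) := by
    rw [hD, fro2_comm]
    simp only [Finset.mul_sum]
    refine Finset.sum_le_sum fun i _ => Finset.sum_le_sum fun j _ => ?_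
    have h1 : mu κ t i * mu κ t j ≤ R + 2 := by
      nlinarith [hμ2 i, hμ2 j, sq_nonneg (mu κ t i - mu κ t j)]
    have h2 := mul_pos (hμ i) (hμ j)
    rw [mul_left_comm]
    gcongr
    rw [← mul_div_assoc, le_div_iff₀ h2, mul_comm (R + 2)]
    gcongr
  set S := ∑ i, ∑ j, ‖Q i j‖ ^ 2 * ((mu κ t i - mu κ t j) ^ 2 / (mu κ t i * mu κ t j))
  have hS : 0 ≤ S := Finset.sum_nonneg fun i _ => Finset.sum_nonneg fun j _ => by
    have := hμ i; have := hμ j; positivity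
  have c5 : comm κ Y ≤ 4 * (R + 2) * (B ^ 4 * ((R + 2) * S)) :=
    c3.trans (by gcongr; exact c2.trans (by gcongr))
  rw [div_mul_eq_mul_div, one_mul, div_le_iff₀ (by positivity)]
  have : S / 2 * (8 * (R + 2) ^ 2 * B ^ 4) ≤ u * (S / 2) * (8 * (R + 2) ^ 2 * B ^ 4) := by
    gcongr; nlinarith [hu.1]
  nlinarith

theorem F'_bound (hκ : ∀ i, 0 ≤ κ i) (hR0 : 0 ≤ R) (hR : ∀ i, κ i ^ 2 ≤ R) (hY : Reg κ Y)
    {t₀ : ℝ} (ht₀ : 0 < t₀) : ∃ C : ℝ, ∀ u ∈ Ioi (0 : ℝ), ∀ t ∈ Ioo (t₀ / 2) (2 * t₀),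
      ‖rt (res (dg (mu κ t) + Y) u * dg (fun i => (2 * mu κ t i)⁻¹) * res (dg (mu κ t) + Y) u *
          (t • (1 : Mat ι) + Zm κ Y)) +
        rt ((1 / (1 + u)) • (1 : Mat ι) - res (dg (mu κ t) + Y) u)‖ ≤ C * (1 ^ 2 / (1 + u) ^ 2) := by
  set lo := min 1 (t₀ / 2 / (2 * √(R + 2 * t₀))) with hlo
  have hlo0 : 0 < lo := lt_min one_pos (by positivity)
  set hi := 2 * √(R + 2 * t₀)
  set n : ℝ := (Fintype.card ι : ℝ)
  refine ⟨n * (1 / lo * (2 * √(t₀ / 2))⁻¹ * (1 / lo) * (2 * t₀ + ‖Zm κ Y‖)) + n * ((hi + 1) / lo),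
    fun u hu t ht => ?_⟩
  have hu0 : 0 < u := hu
  have ht0 : 0 < t := by linarith [ht.1]
  have hA := (posDef_mu hκ hY ht0).1
  have l1 : (dg (mu κ t) + Y - lo • (1 : Mat ι)).PosSemidef := by
    refine (le_eig hA.isHermitian).2 fun i => le_trans ?_
      ((le_eig hA.isHermitian).1 (mu_add_lower hκ hR hY ht0).1 i)
    refine (min_le_right _ _).trans ?_
    gcongr
    · exact ht.1.le
    · exact ht.2.le
  have l2 : (hi • (1 : Mat ι) - (dg (mu κ t) + Y)).PosSemidef := by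
    refine (eig_le hA.isHermitian).2 fun i => le_trans
      ((eig_le hA.isHermitian).1 (mu_add_upper hκ hR hY ht0).1 i) ?_
    simp only [hi]
    gcongr
    exact ht.2.le
  have n1 := norm_res_le hA.isHermitian hlo0 (min_le_left _ _) l1 hu0.le
  have n2 := norm_lam_res_le hA.isHermitian hlo0 (min_le_left _ _) (by positivity) l1 l2 hu0.le
  have n3 : ‖dg (fun i => (2 * mu κ t i)⁻¹)‖ ≤ (2 * √(t₀ / 2))⁻¹ := by
    refine norm_dg_le (by positivity) fun i => ?_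
    have := mu_pos κ ht0 i
    rw [abs_of_pos (by positivity)]
    gcongr
    exact Real.sqrt_le_sqrt (by nlinarith [ht.1, sq_nonneg (κ i)])
  have n4 : ‖t • (1 : Mat ι) + Zm κ Y‖ ≤ 2 * t₀ + ‖Zm κ Y‖ := by
    refine (norm_add_le _ _).trans (add_le_add_left ?_ _)
    rw [← dg_const]
    exact norm_dg_le (by positivity) fun i => by rw [abs_of_pos ht0]; exact ht.2.le
  set Q := res (dg (mu κ t) + Y) u
  have n5 : ‖Q * dg (fun i => (2 * mu κ t i)⁻¹) * Q * (t • (1 : Mat ι) + Zm κ Y)‖ ≤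
      1 / (lo * (1 + u)) * (2 * √(t₀ / 2))⁻¹ * (1 / (lo * (1 + u))) * (2 * t₀ + ‖Zm κ Y‖) := by
    refine (norm_mul_le _ _).trans ?_
    gcongr
    refine (norm_mul_le _ _).trans ?_
    gcongr
    refine (norm_mul_le _ _).trans ?_
    gcongr
  refine (norm_add_le _ _).trans ?_
  have hn : 0 ≤ n := Nat.cast_nonneg _
  calc _ ≤ n * (1 / (lo * (1 + u)) * (2 * √(t₀ / 2))⁻¹ * (1 / (lo * (1 + u))) *
        (2 * t₀ + ‖Zm κ Y‖)) + n * ((hi + 1) / (lo * (1 + u) ^ 2)) :=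
        add_le_add ((abs_rt_le _).trans (by gcongr)) ((abs_rt_le _).trans (by gcongr))
    _ = _ := by field_simp

theorem one_deriv (hκ : ∀ i, 0 ≤ κ i) (hR0 : 0 ≤ R) (hR : ∀ i, κ i ^ 2 ≤ R) (hY : Reg κ Y)
    {t : ℝ} (ht : 0 < t) : ∃ d : ℝ,
      HasDerivAt (fun t => rt (cfc Real.log (dg (mu κ t) + Y) * (t • (1 : Mat ι) + Zm κ Y))) d t ∧
      d ≤ rt (cfc Real.log (dg (mu κ t) + Y)) + Fintype.card ι
        - rt ((dg (mu κ t) + Y) * dg (fun i => (2 * mu κ t i)⁻¹))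
        - (Icc (1 : ℝ) 2).indicator
          (fun _ => 1 / (8 * (R + 2) ^ 2 * (2 * √(R + 2) + 2) ^ 4) * comm κ Y) t := by
  have hA := (posDef_mu hκ hY ht).1
  have hrep : ∀ t : ℝ, 0 < t → IntegrableOn (fun u => rt (((1 / (1 + u)) • (1 : Mat ι) -
      res (dg (mu κ t) + Y) u) * (t • (1 : Mat ι) + Zm κ Y))) (Ioi 0) ∧
      ∫ u in Ioi (0 : ℝ), rt (((1 / (1 + u)) • (1 : Mat ι) -
        res (dg (mu κ t) + Y) u) * (t • (1 : Mat ι) + Zm κ Y)) =
      rt (cfc Real.log (dg (mu κ t) + Y) * (t • (1 : Mat ι) + Zm κ Y)) := by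
    intro t ht
    have hA := (posDef_mu hκ hY ht).1
    have := int_cfc hA.isHermitian (fun u x => 1 / (1 + u) - 1 / (x + u)) Real.log
      (fun i => int_res_log (hA.eigenvalues_pos i)) (t • (1 : Mat ι) + Zm κ Y)
    simpa only [res, cfc_sub' hA.isHermitian, cfc_const' hA.isHermitian] using this
  obtain ⟨C, hC⟩ := F'_bound hκ hR0 hR hY ht
  have hnb : Ioo (t / 2) (2 * t) ∈ 𝓝 t := Ioo_mem_nhds (by linarith) (by linarith)
  have cQ := continuousOn_res hA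
  have key := hasDerivAt_integral_of_dominated_loc_of_deriv_le (μ := volume.restrict (Ioi 0))
    (F := fun t u => rt (((1 / (1 + u)) • (1 : Mat ι) -
      res (dg (mu κ t) + Y) u) * (t • (1 : Mat ι) + Zm κ Y)))
    (F' := fun t u => rt (res (dg (mu κ t) + Y) u * dg (fun i => (2 * mu κ t i)⁻¹) *
        res (dg (mu κ t) + Y) u * (t • (1 : Mat ι) + Zm κ Y)) +
        rt ((1 / (1 + u)) • (1 : Mat ι) - res (dg (mu κ t) + Y) u))
    (bound := fun u => C * (1 ^ 2 / (1 + u) ^ 2)) hnb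
    (by filter_upwards [lt_mem_nhds ht] with t' ht' using (hrep t' ht').1.aestronglyMeasurable)
    (hrep t ht).1
    (by
      refine ContinuousOn.aestronglyMeasurable ?_ measurableSet_Ioi
      refine (continuous_rt.comp_continuousOn (((cQ.mul continuousOn_const).mul cQ).mul
        continuousOn_const)).add (continuous_rt.comp_continuousOn (ContinuousOn.sub ?_ cQ))
      exact ContinuousOn.smul (f := fun u : ℝ => 1 / (1 + u)) (continuousOn_const.div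
        (continuousOn_const.add continuousOn_id) fun u hu => (add_pos one_pos hu).ne')
        continuousOn_const)
    ((ae_restrict_mem measurableSet_Ioi).mono hC)
    ((int_res_two one_pos).1.const_mul C)
    ((ae_restrict_mem measurableSet_Ioi).mono fun u hu t' ht' =>
      hasDerivAt_F hκ hY (by linarith [ht'.1]) (le_of_lt hu))
  refine ⟨_, key.2.congr_of_eventuallyEq ?_, ?_⟩
  · filter_upwards [lt_mem_nhds ht] with t' ht' using (hrep t' ht').2.symm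
  have i1 := int_cfc hA.isHermitian (fun u x => 1 / (1 + u) - u / (x + u) ^ 2)
    (fun x => Real.log x + 1) (fun i => int_res_one (hA.eigenvalues_pos i)) 1
  have i2 := int_cfc hA.isHermitian (fun u x => x ^ 2 / (x + u) ^ 2) (fun x => x)
    (fun i => int_res_two (hA.eigenvalues_pos i)) (dg (fun i => (2 * mu κ t i)⁻¹))
  set k := (Icc (1 : ℝ) 2).indicator
          (fun _ => 1 / (8 * (R + 2) ^ 2 * (2 * √(R + 2) + 2) ^ 4) * comm κ Y) t with hk
  have i3 : IntegrableOn ((Icc (1 : ℝ) 2).indicator fun _ => k) (Ioi 0) :=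
    ((integrableOn_const (by simp)).integrable_indicator measurableSet_Icc).integrableOn
  have i4 : ∫ u in Ioi (0 : ℝ), (Icc (1 : ℝ) 2).indicator (fun _ => k) u = k := by
    have : Icc (1 : ℝ) 2 ⊆ Ioi 0 := fun u hu => show (0 : ℝ) < u by linarith [hu.1]
    rw [setIntegral_indicator measurableSet_Icc, inter_eq_right.2 this]
    simp; norm_num
  have i5 : rt (cfc (fun x => Real.log x + 1) (dg (mu κ t) + Y) * 1) =
      rt (cfc Real.log (dg (mu κ t) + Y)) + Fintype.card ι := by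
    rw [Matrix.mul_one, rt_cfc hA.isHermitian, rt_cfc hA.isHermitian]
    simp [Finset.sum_add_distrib]
  rw [cfc_id'' hA.isHermitian] at i2
  rw [← i5, ← i1.2, ← i2.2, ← i4, ← integral_sub i1.1 i2.1]
  refine le_trans ?_ (integral_sub (i1.1.sub i2.1) i3).le
  refine setIntegral_mono_on key.1 ((i1.1.sub i2.1).sub i3) measurableSet_Ioi fun u hu => ?_
  have hu0 : 0 < u := hu
  simp only [Pi.sub_apply]
  rw [F'_eq hκ hY ht hu0.le]
  refine sub_le_sub_left ?_ _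
  have hS : 0 ≤ u * ((∑ i, ∑ j, ‖res (dg (mu κ t) + Y) u i j‖ ^ 2 *
      ((mu κ t i - mu κ t j) ^ 2 / (mu κ t i * mu κ t j))) / 2) := by
    refine mul_nonneg hu0.le (div_nonneg (Finset.sum_nonneg fun i _ => Finset.sum_nonneg
      fun j _ => ?_) zero_le_two)
    have := mu_pos κ ht i; have := mu_pos κ ht j; positivity
  by_cases h1 : u ∈ Icc (1 : ℝ) 2
  · by_cases h2 : t ∈ Icc (1 : ℝ) 2
    · rw [indicator_of_mem h1, hk, indicator_of_mem h2]
      exact rem_lower hκ hR0 hR hY h2 h1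
    · rwa [indicator_of_mem h1, hk, indicator_of_notMem h2]
  · rwa [indicator_of_notMem h1]

end Mono

open Mono in
theorem mt_deriv (R : ℝ) (hR0 : 0 ≤ R) : ∃ c > 0, ∀ (ι : Type) [Fintype ι] [DecidableEq ι]
    (κ : ι → ℝ) (X : Mat ι), (∀ i, 0 ≤ κ i) → (∀ i, κ i ^ 2 ≤ R) → Reg κ X → ∀ t : ℝ, 0 < t →
    ∃ d : ℝ, HasDerivAt (fun t : ℝ => rt (Lt κ X t * (t • (1 : Mat ι) + Zm κ X))) d t ∧
      d ≤ rt (Lt κ X t) - rt (Zm κ X) / t - (Icc (1 : ℝ) 2).indicator (fun _ => c * comm κ X) t := by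
  refine ⟨1 / (8 * (R + 2) ^ 2 * (2 * √(R + 2) + 2) ^ 4), by positivity,
    fun ι _ _ κ X hκ hR hX t ht => ?_⟩
  obtain ⟨d₁, h1, b1⟩ := one_deriv hκ hR0 hR hX ht
  obtain ⟨d₂, h2, b2⟩ := one_deriv hκ hR0 hR (reg_neg hX) ht
  simp only [Zm_neg, ← sub_eq_add_neg] at h2 b2
  have h3 : HasDerivAt (fun t : ℝ => Real.log t * (t * Fintype.card ι + rt (Zm κ X)))
      (t⁻¹ * (t * Fintype.card ι + rt (Zm κ X)) + Real.log t * Fintype.card ι) t := by
    have := (Real.hasDerivAt_log ht.ne').fun_mul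
      (((hasDerivAt_id' t).mul_const (Fintype.card ι : ℝ)).add_const (rt (Zm κ X)))
    rwa [one_mul] at this
  refine ⟨_, ((h1.add h2).sub h3).congr_of_eventuallyEq (Eventually.of_forall fun t' => ?_), ?_⟩
  · simp only [Lt, Matrix.sub_mul, Matrix.add_mul, rt_sub, rt_add, Matrix.smul_mul, Matrix.one_mul,
      rt_smul, rt_one, Pi.add_apply, Pi.sub_apply]
  have h4 : rt ((dg (mu κ t) + X) * dg (fun i => (2 * mu κ t i)⁻¹)) +
      rt ((dg (mu κ t) - X) * dg (fun i => (2 * mu κ t i)⁻¹)) = Fintype.card ι := by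
    rw [← rt_add, ← Matrix.add_mul, add_add_sub_cancel, dg_add, dg_mul, rt_dg]
    rw [Finset.sum_congr rfl fun i _ => show (mu κ t i + mu κ t i) * (2 * mu κ t i)⁻¹ = 1 by
      have := (mu_pos κ ht i).ne'; field_simp; ring]
    simp
  have h5 : 0 ≤ (Icc (1 : ℝ) 2).indicator
      (fun _ => 1 / (8 * (R + 2) ^ 2 * (2 * √(R + 2) + 2) ^ 4) * comm κ (-X)) t :=
    indicator_nonneg (fun _ _ => by unfold comm; positivity) t
  have h6 : t⁻¹ * (t * Fintype.card ι + rt (Zm κ X)) = Fintype.card ι + rt (Zm κ X) / t := by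
    field_simp
  simp only [Lt, rt_sub, rt_add, rt_smul, rt_one]
  linarith

end Crest.Agent.R332
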