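import Mathlib

/-! # Row 332: ODEs depending continuously on a parameter

Hint: existence on `[a,b]` for each `p` from `IsPicardLindelof` (radius `M (b - a)`), extend by
`projIcc`; continuity in `p` uniformly in `t` from `dist_le_of_approx_trajectories_ODE` (the error
`sup_t ‖v p t (X p₀ t) - v p₀ t (X p₀ t)‖` tends to `0` by the tube lemma).
-/

set_option autoImplicit false

open Set

namespace Crest.Agent.R332

theorem exists_param_ode {P E : Type*} [MetricSpace P] [NormedAddCommGroup E] [NormedSpace ℝ E]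
    [CompleteSpace E] {a b : ℝ} (hab : a ≤ b) (v : P → ℝ → E → E) (x₀ : P → E) (L : NNReal)
    (hv : Continuous fun q : P × ℝ × E => v q.1 q.2.1 q.2.2)
    (hL : ∀ p t, LipschitzWith L (v p t))
    (hb : ∀ p, ∃ M, ∀ t ∈ Icc a b, ∀ x, ‖v p t x‖ ≤ M) (hx : Continuous x₀) :
    ∃ X : P → ℝ → E, Continuous (fun q : P × ℝ => X q.1 q.2) ∧ (∀ p t, t ≤ a → X p t = x₀ p) ∧
      (∀ p t, b ≤ t → X p t = X p b) ∧
      ∀ p, ∀ t ∈ Icc a b, HasDerivWithinAt (X p) (v p t (X p t)) (Icc a b) t := by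
  have ex : ∀ p, ∃ α : ℝ → E, α a = x₀ p ∧
      ∀ t ∈ Icc a b, HasDerivWithinAt α (v p t (α t)) (Icc a b) t := by
    intro p
    obtain ⟨M, hM⟩ := hb p
    have hM0 : 0 ≤ M := (norm_nonneg _).trans (hM a (left_mem_Icc.2 hab) 0)
    have hPL : IsPicardLindelof (v p) (⟨a, left_mem_Icc.2 hab⟩ : Icc a b) (x₀ p)
        ⟨M * (b - a), mul_nonneg hM0 (sub_nonneg.2 hab)⟩ 0 ⟨M, hM0⟩ L := by
      refine ⟨fun t _ => (hL p t).lipschitzOnWith, fun x _ => ?_, fun t ht x _ => hM t ht x, ?_⟩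
      · exact (hv.comp (f := fun t : ℝ => (p, t, x)) (by fun_prop)).continuousOn
      · simp only [sub_self, max_eq_left (sub_nonneg.2 hab), NNReal.coe_zero, sub_zero]
        exact le_rfl
    exact hPL.exists_eq_forall_mem_Icc_hasDerivWithinAt₀
  choose α hα0 hα using ex
  have cα : ∀ p, ContinuousOn (α p) (Icc a b) := fun p t ht => (hα p t ht).continuousWithinAt
  have hα' : ∀ p, ∀ t ∈ Ico a b, HasDerivWithinAt (α p) (v p t (α p t)) (Ici t) t :=
    fun p t ht => (hα p t (Ico_subset_Icc_self ht)).mono_of_mem_nhdsWithin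
      (Icc_mem_nhdsGE_of_mem ht)
  have cπ : Continuous fun t : ℝ => (projIcc a b hab t : ℝ) :=
    continuous_subtype_val.comp continuous_projIcc
  have cX : ∀ p, Continuous fun t => α p (projIcc a b hab t) := fun p =>
    (cα p).comp_continuous cπ fun t => (projIcc a b hab t).2
  obtain ⟨C, hC⟩ : ∃ C, ∀ t ∈ Icc a b, ‖gronwallBound 1 L 1 (t - a)‖ ≤ C := by
    refine isCompact_Icc.exists_bound_of_continuousOn (Continuous.continuousOn ?_)
    exact (continuous_iff_continuousAt.2 fun x =>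
      (hasDerivAt_gronwallBound 1 L 1 x).continuousAt).comp (continuous_sub_right a)
  have hC0 : 0 ≤ C := (norm_nonneg _).trans (hC a (left_mem_Icc.2 hab))
  have hom : ∀ ε x : ℝ, gronwallBound ε L ε x = ε * gronwallBound 1 L 1 x := by
    intro ε x
    unfold gronwallBound
    split_ifs <;> ring
  have unif : ∀ p₀, ∀ ε > 0, ∀ᶠ p in nhds p₀, ∀ t ∈ Icc a b, dist (α p t) (α p₀ t) ≤ ε * C := by
    intro p₀ ε hε
    have h1 : ∀ᶠ p in nhds p₀, ∀ t ∈ Icc a b, dist (v p₀ t (α p₀ (projIcc a b hab t)))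
        (v p t (α p₀ (projIcc a b hab t))) < ε := by
      refine isCompact_Icc.eventually_forall_of_forall_eventually fun t _ => ?_
      have c1 : Continuous fun z : P × ℝ => dist (v p₀ z.2 (α p₀ (projIcc a b hab z.2)))
          (v z.1 z.2 (α p₀ (projIcc a b hab z.2))) := by
        have c2 : Continuous fun z : P × ℝ => α p₀ (projIcc a b hab z.2) :=
          (cX p₀).comp continuous_snd
        exact (hv.comp (f := fun z : P × ℝ => (p₀, z.2, α p₀ (projIcc a b hab z.2)))
          (continuous_const.prodMk (continuous_snd.prodMk c2))).dist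
          (hv.comp (f := fun z : P × ℝ => (z.1, z.2, α p₀ (projIcc a b hab z.2)))
            (continuous_fst.prodMk (continuous_snd.prodMk c2)))
      exact c1.continuousAt.eventually_lt continuousAt_const (by simpa using hε)
    have h2 : ∀ᶠ p in nhds p₀, dist (x₀ p) (x₀ p₀) < ε :=
      Metric.tendsto_nhds.1 hx.continuousAt ε hε
    filter_upwards [h1, h2] with p hp1 hp2 t ht
    have h3 := dist_le_of_approx_trajectories_ODE (εf := 0) (εg := ε) (δ := ε) (hL p) (cα p)
      (hα' p) (fun t _ => by simp) (cα p₀) (hα' p₀) (fun t ht => by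
        have := hp1 t (Ico_subset_Icc_self ht)
        rw [projIcc_of_mem _ (Ico_subset_Icc_self ht)] at this
        exact this.le) (by rw [hα0, hα0]; exact hp2.le) t ht
    rw [zero_add, hom] at h3
    exact h3.trans (mul_le_mul_of_nonneg_left ((le_abs_self _).trans (hC t ht)) hε.le)
  refine ⟨fun p t => α p (projIcc a b hab t), ?_, fun p t ht => ?_, fun p t ht => ?_,
    fun p t ht => ?_⟩
  · refine continuous_iff_continuousAt.2 fun q => Metric.tendsto_nhds.2 fun ε hε => ?_
    have h1 := (continuous_fst.continuousAt (x := q)).eventually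
      (unif q.1 (ε / 2 / (C + 1)) (by positivity))
    have h2 := (continuous_snd.continuousAt (x := q)).eventually
      (Metric.tendsto_nhds.1 ((cX q.1).continuousAt (x := q.2)) (ε / 2) (by positivity))
    filter_upwards [h1, h2] with z hz1 hz2
    have h3 := hz1 _ (projIcc a b hab z.2).2
    have h4 : ε / 2 / (C + 1) * C ≤ ε / 2 := by
      rw [div_mul_eq_mul_div, div_le_iff₀ (by positivity)]
      nlinarith
    have h5 := dist_triangle (α z.1 (projIcc a b hab z.2)) (α q.1 (projIcc a b hab z.2))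
      (α q.1 (projIcc a b hab q.2))
    linarith
  · simp only [projIcc_of_le_left hab ht, hα0]
  · simp only [projIcc_of_right_le hab ht, projIcc_right]
  · simp only [projIcc_of_mem hab ht]
    refine (hα p t ht).congr (fun y hy => ?_) ?_
    · simp only [projIcc_of_mem hab hy]
    · simp only [projIcc_of_mem hab ht]

/-- a bounded, globally Lipschitz modification of the identity on a ball -/
theorem exists_retraction (E : Type*) [NormedAddCommGroup E] [NormedSpace ℝ E] {ρ : ℝ}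
    (hρ : 0 < ρ) : ∃ c : E → ℝ, Continuous c ∧ LipschitzWith 2 (fun x => c x • x) ∧
      (∀ x, ‖c x • x‖ ≤ ρ) ∧ ∀ x, ‖x‖ ≤ ρ → c x = 1 := by
  have hm : ∀ x : E, 0 < max ρ ‖x‖ := fun x => lt_of_lt_of_le hρ (le_max_left _ _)
  refine ⟨fun x => ρ / max ρ ‖x‖, ?_, ?_, fun x => ?_, fun x hx => ?_⟩
  · exact continuous_const.div (by fun_prop) fun x => (hm x).ne'
  · refine LipschitzWith.of_dist_le_mul fun x y => ?_
    rw [dist_eq_norm, dist_eq_norm]
    have hx := hm x
    have hy := hm y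
    have e : (ρ / max ρ ‖x‖) • x - (ρ / max ρ ‖y‖) • y = (ρ / max ρ ‖x‖) • (x - y) +
        ((ρ / max ρ ‖x‖) * ((max ρ ‖y‖ - max ρ ‖x‖) / max ρ ‖y‖)) • y := by
      have : (ρ / max ρ ‖x‖) * ((max ρ ‖y‖ - max ρ ‖x‖) / max ρ ‖y‖) =
          ρ / max ρ ‖x‖ - ρ / max ρ ‖y‖ := by field_simp
      rw [this, smul_sub, sub_smul]; abel
    have h1 : ρ / max ρ ‖x‖ ≤ 1 := (div_le_one hx).2 (le_max_left _ _)
    have h0 : 0 ≤ ρ / max ρ ‖x‖ := by positivity
    have h2 : |max ρ ‖y‖ - max ρ ‖x‖| ≤ ‖x - y‖ := by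
      refine le_trans (abs_max_sub_max_le_max _ _ _ _) (max_le (by simp) ?_)
      rw [norm_sub_rev]; exact abs_norm_sub_norm_le y x
    have h3 : ‖y‖ / max ρ ‖y‖ ≤ 1 := (div_le_one hy).2 (le_max_right _ _)
    have h4 : ‖((ρ / max ρ ‖x‖) * ((max ρ ‖y‖ - max ρ ‖x‖) / max ρ ‖y‖)) • y‖ ≤ ‖x - y‖ := by
      rw [norm_smul, norm_mul, norm_div (max ρ ‖y‖ - max ρ ‖x‖), Real.norm_of_nonneg h0,
        Real.norm_of_nonneg hy.le, Real.norm_eq_abs]
      calc ρ / max ρ ‖x‖ * (|max ρ ‖y‖ - max ρ ‖x‖| / max ρ ‖y‖) * ‖y‖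
          = ρ / max ρ ‖x‖ * (‖y‖ / max ρ ‖y‖) * |max ρ ‖y‖ - max ρ ‖x‖| := by ring
        _ ≤ 1 * 1 * ‖x - y‖ := by gcongr
        _ = ‖x - y‖ := by ring
    have h5 : ‖(ρ / max ρ ‖x‖) • (x - y)‖ ≤ ‖x - y‖ := by
      rw [norm_smul, Real.norm_of_nonneg h0]
      exact mul_le_of_le_one_left (norm_nonneg _) h1
    rw [e]
    refine (norm_add_le _ _).trans ?_
    push_cast
    linarith
  · have hx := hm x
    rw [norm_smul, Real.norm_of_nonneg (by positivity), div_mul_eq_mul_div, div_le_iff₀ hx]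
    exact mul_le_mul_of_nonneg_left (le_max_right _ _) hρ.le
  · simp only [max_eq_left hx, div_self hρ.ne']

end Crest.Agent.R332
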