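import Crest.Agent.R332.Calc
import Crest.Agent.R332.Ode

/-! # Row 332: the matrix Riccati equation with a parameter, up to the hitting time of `-K` -/

set_option autoImplicit false

open MeasureTheory Set Filter Topology
open scoped Matrix Matrix.Norms.L2Operator MatrixOrder ComplexOrder

namespace Crest.Agent.R332

variable {ι ι' : Type} [Fintype ι] [DecidableEq ι] [Fintype ι'] [DecidableEq ι']

omit [DecidableEq ι] in
theorem ric_rt_vec (A : Mat ι) (v : ι → ℂ) :
    rt (A * Matrix.vecMulVec v (star v)) = (star v ⬝ᵥ (A *ᵥ v)).re := by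
  rw [rt, Matrix.mul_vecMulVec, Matrix.trace_vecMulVec, dotProduct_comm]

omit [DecidableEq ι] in
theorem ric_psd_of_rt {A : Mat ι} (hA : A.IsHermitian)
    (h : ∀ P : Mat ι, P.PosSemidef → 0 ≤ rt (A * P)) : A.PosSemidef := by
  refine Matrix.PosSemidef.of_dotProduct_mulVec_nonneg hA fun v => ?_
  have h1 := h _ (Matrix.posSemidef_vecMulVec_self_star v)
  rw [ric_rt_vec] at h1
  exact Complex.nonneg_iff.2 ⟨h1, (hA.im_star_dotProduct_mulVec_self v).symm⟩

/-- Upper barrier.  Hint: `M(y) = e^{yK} (K - X(y)) e^{yK}` has derivative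
`e^{yK} ((K - X)² + V) e^{yK} ≥ 0` (write `K = U (dg κ) Uᴴ` by `spec` and use
`U (dg (exp (y κ_i))) Uᴴ`); so `y ↦ re ⟨v, M(y) v⟩` is monotone. -/
theorem ric_upper {a b : ℝ} (hab : a ≤ b) {K : Mat ι} (hK : K.IsHermitian) {X V : ℝ → Mat ι}
    (cX : ContinuousOn X (Icc a b)) (herm : ∀ x ∈ Icc a b, (X x).IsHermitian)
    (hV : ∀ x ∈ Ioo a b, (V x).PosSemidef)
    (hX : ∀ x ∈ Ioo a b, HasDerivAt X (K * K - X x * X x - V x) x) (h0 : (K - X a).PosSemidef) :
    (K - X b).PosSemidef := by
  obtain ⟨E, hE, hEh, hEK, hEb⟩ : ∃ E : ℝ → Mat ι, (∀ y, HasDerivAt E (K * E y) y) ∧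
      (∀ y, (E y).IsHermitian) ∧ (∀ y, K * E y = E y * K) ∧ E b = 1 := by
    have hK' : K = cfc (fun t : ℝ => t) K := by
      have := cfc_affine hK 1 0
      simpa using this.symm
    have hKE : ∀ y : ℝ, K * cfc (fun t : ℝ => Real.exp ((y - b) * t)) K =
        cfc (fun t : ℝ => t * Real.exp ((y - b) * t)) K := fun y => by
      rw [← cfc_mul', ← hK']
    refine ⟨fun y => cfc (fun t : ℝ => Real.exp ((y - b) * t)) K, fun y => ?_,
      fun y => cfc_herm _ _, fun y => ?_, ?_⟩
    · rw [hKE]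
      simp only [cfc_spec hK]
      have h1 : HasDerivAt (fun y : ℝ => dg fun i => Real.exp ((y - b) * hK.eigenvalues i))
          (dg fun i => hK.eigenvalues i * Real.exp ((y - b) * hK.eigenvalues i)) y := by
        refine hasDerivAt_dg fun i => ?_
        have := (((hasDerivAt_id y).sub_const b).mul_const (hK.eigenvalues i)).exp
        simpa [mul_comm] using this
      have h2 := hasDerivAt_matmul (hasDerivAt_matmul
        (hasDerivAt_const y (hK.eigenvectorUnitary : Mat ι)) h1)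
        (hasDerivAt_const y (star (hK.eigenvectorUnitary : Mat ι)))
      simpa using h2
    · rw [hKE]
      conv_rhs => arg 2; rw [hK']
      rw [cfc_mul']
      simp only [mul_comm]
    · have := cfc_affine hK 0 1
      simpa using this
  refine ric_psd_of_rt (hK.sub (herm b (right_mem_Icc.2 hab))) fun P hP => ?_
  have cE : Continuous E := continuous_iff_continuousAt.2 fun y => (hE y).continuousAt
  have hg : ∀ y ∈ Ioo a b, HasDerivAt (fun y => rt (E y * (K - X y) * E y * P))
      (rt (E y * ((K - X y) * (K - X y) + V y) * E y * P)) y := by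
    intro y hy
    have h1 := hasDerivAt_rt (hasDerivAt_matmul (hasDerivAt_matmul (hasDerivAt_matmul (hE y)
      ((hX y hy).const_sub K)) (hE y)) (hasDerivAt_const y P))
    convert h1 using 2
    rw [Matrix.mul_zero, add_zero]
    congr 1
    nth_rewrite 1 [hEK y]
    noncomm_ring
  have cg : ContinuousOn (fun y => rt (E y * (K - X y) * E y * P)) (Icc a b) :=
    continuous_rt.comp_continuousOn (((cE.continuousOn.mul (continuousOn_const.sub cX)).mul
      cE.continuousOn).mul continuousOn_const)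
  have mono : MonotoneOn (fun y => rt (E y * (K - X y) * E y * P)) (Icc a b) := by
    refine monotoneOn_of_deriv_nonneg (convex_Icc a b) cg ?_ ?_
    · rw [interior_Icc]
      exact fun y hy => (hg y hy).differentiableAt.differentiableWithinAt
    · rw [interior_Icc]
      intro y hy
      rw [(hg y hy).deriv]
      refine rt_mul_nonneg ?_ hP
      have h1 : ((K - X y) * (K - X y)).PosSemidef := by
        have := Matrix.posSemidef_conjTranspose_mul_self (K - X y)
        rwa [(hK.sub (herm y (Ioo_subset_Icc_self hy))).eq] at this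
      have := (h1.add (hV y hy)).conjTranspose_mul_mul_same (E y)
      rwa [(hEh y).eq] at this
  have h1 := mono (left_mem_Icc.2 hab) (right_mem_Icc.2 hab) hab
  simp only [hEb, Matrix.one_mul, Matrix.mul_one] at h1
  refine le_trans (rt_mul_nonneg ?_ hP) h1
  have := h0.conjTranspose_mul_mul_same (E a)
  rwa [(hEh a).eq] at this

/-- Transversality at the lower barrier: if `(K + X y) v = 0` then the right derivative of
`re ⟨v, (K + X) v⟩` at `y` is `-⟨v, V v⟩ < 0`. -/
theorem ric_trans {y b : ℝ} (hy : y < b) {K V : Mat ι} (hK : K.IsHermitian) {X : ℝ → Mat ι}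
    (herm : (X y).IsHermitian) (hV : V.PosDef)
    (hX : HasDerivWithinAt X (K * K - X y * X y - V) (Icc y b) y)
    (h : ∀ x ∈ Icc y b, (K + X x).PosSemidef) : (K + X y).PosDef := by
  have h0 := h y (left_mem_Icc.2 hy.le)
  rw [h0.posDef_iff_det_ne_zero]
  intro hdet
  obtain ⟨v, hv0, hv⟩ := Matrix.exists_mulVec_eq_zero_iff.2 hdet
  set P : Mat ι := Matrix.vecMulVec v (star v) with hP
  have hPp : P.PosSemidef := Matrix.posSemidef_vecMulVec_self_star v
  have hKP : (K + X y) * P = 0 := by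
    rw [hP, Matrix.mul_vecMulVec, hv]; simp
  have hPK : P * (K + X y) = 0 := by
    have := congrArg Matrix.conjTranspose hKP
    rwa [Matrix.conjTranspose_mul, hPp.isHermitian.eq, (hK.add herm).eq,
      Matrix.conjTranspose_zero] at this
  have hg : HasDerivWithinAt (fun x => rt ((K + X x) * P)) (rt ((K * K - X y * X y - V) * P))
      (Icc y b) y :=
    (rtL P).hasFDerivAt.comp_hasDerivWithinAt y (hX.const_add K)
  have e : rt ((K * K - X y * X y - V) * P) = -rt (V * P) := by
    have e1 : (K * K - X y * X y - V) * P =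
        K * ((K + X y) * P) - (K + X y) * (X y * P) - V * P := by noncomm_ring
    rw [e1, hKP, rt_sub, rt_sub, Matrix.mul_zero, rt_zero, rt_mul_comm (K + X y),
      Matrix.mul_assoc, hPK, Matrix.mul_zero, rt_zero]
    ring
  have hpos : 0 < rt (V * P) := by
    rw [hP, ric_rt_vec]
    exact hV.re_dotProduct_pos hv0
  have h1 := (hasDerivWithinAt_iff_tendsto_slope' (s := Ioc y b) (by simp)).1
    (hg.mono Ioc_subset_Icc_self)
  rw [nhdsWithin_Ioc_eq_nhdsGT hy] at h1
  have h2 : 0 ≤ rt ((K * K - X y * X y - V) * P) := by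
    refine ge_of_tendsto h1 ?_
    filter_upwards [Ioc_mem_nhdsGT hy] with x hx
    rw [slope_def_field, hKP, rt_zero, sub_zero]
    exact div_nonneg (rt_mul_nonneg (h x (Ioc_subset_Icc_self hx)) hPp) (sub_nonneg.2 hx.1.le)
  linarith

/-- Solutions of the Riccati equation stopped at the first time `β` at which `K + X` becomes
singular, depending continuously on the parameter.

Hint: solve `X' = K² - (c(X) X)² - V` on `[a,b]` with `exists_retraction` (radius `ρ + 1`) and
`exists_param_ode` in the real Banach space `selfAdjoint (Mat ι)` (or use uniqueness to see that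
the solution is Hermitian).  `β(p) = sSup {x ∈ [a,b] | ∀ y ∈ [a,x], -K ≤ X y ≤ K}`.
Upper semicontinuity: the failure of `-K ≤ X y ≤ K` is an open condition (`isClosed_psd`).
Lower semicontinuity: for `x₀ < β(p₀)`, `K + X > 0` on `[a, x₀]` by `ric_trans`; by the tube lemma
(`posDef_nhds`) `K + X > 0` and `‖X‖ < ρ + 1` on `[a,x₀]` for nearby `p`, and `ric_upper` gives the
other barrier.  If `β < b` and `K + X β > 0` the same argument on `[β, β + τ]` contradicts
maximality. -/
theorem ric_stop {P : Type} [MetricSpace P] {a b ρ : ℝ} (hab : a < b) (K : P → Mat ι)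
    (V : P → ℝ → Mat ι) (cK : Continuous K) (cV : Continuous fun q : P × ℝ => V q.1 q.2)
    (hK : ∀ p, (K p).PosDef) (hKρ : ∀ p, ‖K p‖ ≤ ρ) (hV : ∀ p x, (V p x).PosDef) :
    ∃ (X : P → ℝ → Mat ι) (β : P → ℝ), Continuous (fun q : P × ℝ => X q.1 q.2) ∧ Continuous β ∧
      ∀ p, β p ∈ Icc a b ∧ (∀ x, x ≤ a → X p x = K p) ∧ (∀ x, b ≤ x → X p x = X p b) ∧
        (∀ x ∈ Icc a (β p), (K p + X p x).PosSemidef ∧ (K p - X p x).PosSemidef) ∧
        (∀ x ∈ Ioo a (β p), HasDerivAt (X p) (K p * K p - X p x * X p x - V p x) x) ∧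
        (β p < b → ¬ (K p + X p (β p)).PosDef) := by
  rcases isEmpty_or_nonempty P with hP | ⟨⟨p₁⟩⟩
  · exact ⟨fun _ _ => 0, fun _ => a, continuous_const, continuous_const, fun p => isEmptyElim p⟩
  have hρ : 0 ≤ ρ := (norm_nonneg _).trans (hKρ p₁)
  obtain ⟨c, cc, cL, cb, c1⟩ := exists_retraction (Mat ι) (show 0 < ρ + 1 by linarith)
  set h : Mat ι → Mat ι := fun Y => (1 / 2 : ℝ) • (Y + star Y) with hh
  have hh1 : ∀ Y, star (h Y) = h Y := fun Y => by simp [hh, add_comm]
  have hh2 : ∀ Y : Mat ι, Y.IsHermitian → h Y = Y := fun Y hY => by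
    have : star Y = Y := hY
    simp only [hh, this, ← two_smul ℝ Y, smul_smul]; norm_num
  have hh3 : ∀ Y Y', ‖h Y - h Y'‖ ≤ ‖Y - Y'‖ := fun Y Y' => by
    have : h Y - h Y' = (1 / 2 : ℝ) • ((Y - Y') + star (Y - Y')) := by
      simp only [hh, star_sub, ← smul_sub]; congr 1; abel
    rw [this, norm_smul]
    have := norm_add_le (Y - Y') (star (Y - Y'))
    rw [norm_star] at this
    rw [Real.norm_eq_abs, abs_of_pos (by norm_num)]; linarith
  have ch : Continuous h := by fun_prop
  set r : Mat ι → Mat ι := fun Y => c (h Y) • h Y with hr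
  have cr : Continuous r := by fun_prop
  have rL : ∀ Y Y', ‖r Y - r Y'‖ ≤ 2 * ‖Y - Y'‖ := fun Y Y' => by
    have := cL.dist_le_mul (h Y) (h Y')
    simp only [dist_eq_norm, NNReal.coe_ofNat] at this
    linarith [hh3 Y Y']
  obtain ⟨X, cX, Xa, Xb, hX⟩ := exists_param_ode hab.le
    (fun p t Y => K p * K p - r Y * r Y - V p t) K (4 * (ρ + 1)).toNNReal
    (by
      have : Continuous fun q : P × ℝ × Mat ι => V q.1 q.2.1 :=
        cV.comp (f := fun q : P × ℝ × Mat ι => (q.1, q.2.1)) (by fun_prop)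
      fun_prop)
    (fun p t => LipschitzWith.of_dist_le_mul fun Y Y' => by
      rw [dist_eq_norm, dist_eq_norm, Real.coe_toNNReal _ (by positivity),
        show K p * K p - r Y * r Y - V p t - (K p * K p - r Y' * r Y' - V p t) =
          -(r Y * (r Y - r Y') + (r Y - r Y') * r Y') by noncomm_ring, norm_neg]
      have h1 := norm_mul_le (r Y) (r Y - r Y')
      have h2 := norm_mul_le (r Y - r Y') (r Y')
      have h3 : ‖r Y‖ ≤ ρ + 1 := cb _
      have h4 : ‖r Y'‖ ≤ ρ + 1 := cb _
      have h5 := rL Y Y'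
      have h6 := norm_nonneg (r Y - r Y')
      have h7 := norm_add_le (r Y * (r Y - r Y')) ((r Y - r Y') * r Y')
      nlinarith)
    (fun p => by
      obtain ⟨M, hM⟩ := isCompact_Icc.exists_bound_of_continuousOn (s := Icc a b) (f := V p)
        (cV.comp (f := fun t : ℝ => (p, t)) (by fun_prop)).continuousOn
      refine ⟨‖K p * K p‖ + (ρ + 1) * (ρ + 1) + M, fun t ht Y => ?_⟩
      have h1 := norm_mul_le (r Y) (r Y)
      have h3 : ‖r Y‖ ≤ ρ + 1 := cb _
      have h4 := norm_sub_le (K p * K p - r Y * r Y) (V p t)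
      have h5 := norm_sub_le (K p * K p) (r Y * r Y)
      have h6 := hM t ht
      nlinarith [norm_nonneg (r Y)]) cK
  have cXp : ∀ p, Continuous (X p) := fun p => cX.comp (f := fun t : ℝ => (p, t)) (by fun_prop)
  have herm0 : ∀ p, ∀ t ∈ Icc a b, (X p t).IsHermitian := by
    intro p t ht
    have := constant_of_has_deriv_right_zero (f := fun t => X p t - star (X p t))
      (by have := cXp p; fun_prop) (fun x (hx : x ∈ Ico a b) => by
        have h1 := (hX p x (Ico_subset_Icc_self hx)).mono_of_mem_nhdsWithin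
          (Icc_mem_nhdsGE_of_mem hx)
        have h2 := h1.fun_sub h1.star
        have e1 : star (K p) = K p := (hK p).isHermitian
        have e2 : star (V p x) = V p x := (hV p x).isHermitian
        have e3 : star (r (X p x)) = r (X p x) := by simp only [hr, star_smul, hh1, star_trivial]
        simpa only [star_sub, star_mul, e1, e2, e3, sub_self] using h2) t ht
    have e1 : star (K p) = K p := (hK p).isHermitian
    simp only [Xa p a le_rfl, e1, sub_self] at this
    exact (sub_eq_zero.1 this).symm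
  have herm : ∀ p t, (X p t).IsHermitian := by
    intro p t
    rcases le_total t a with h1 | h1
    · rw [Xa p t h1]; exact (hK p).isHermitian
    rcases le_total b t with h2 | h2
    · rw [Xb p t h2]; exact herm0 p b ⟨hab.le, le_rfl⟩
    · exact herm0 p t ⟨h1, h2⟩
  have der : ∀ p, ∀ t ∈ Icc a b, ‖X p t‖ ≤ ρ + 1 →
      HasDerivWithinAt (X p) (K p * K p - X p t * X p t - V p t) (Icc a b) t := by
    intro p t ht hn
    have : r (X p t) = X p t := by simp only [hr, hh2 _ (herm p t), c1 _ hn, one_smul]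
    simpa only [this] using hX p t ht
  have ext : ∀ p x₀ x₁, a ≤ x₀ → x₁ ≤ b → (K p - X p x₀).PosSemidef →
      (∀ y ∈ Icc x₀ x₁, ‖X p y‖ ≤ ρ + 1) → ∀ y ∈ Icc x₀ x₁, (K p - X p y).PosSemidef := by
    intro p x₀ x₁ h0 h1 h2 h3 y hy
    refine ric_upper hy.1 (hK p).isHermitian (V := V p) (cXp p).continuousOn
      (fun x _ => herm p x) (fun x _ => (hV p x).posSemidef) (fun x hx => ?_) h2
    have hx' : x ∈ Ioo a b := ⟨h0.trans_lt hx.1, hx.2.trans_le (hy.2.trans h1)⟩
    exact (der p x (Ioo_subset_Icc_self hx') (h3 x ⟨hx.1.le, hx.2.le.trans hy.2⟩)).hasDerivAt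
      (Icc_mem_nhds hx'.1 hx'.2)
  set good : P → ℝ → Prop := fun p y => (K p + X p y).PosSemidef ∧ (K p - X p y).PosSemidef
    with hgood
  have gcl : IsClosed {z : P × ℝ | good z.1 z.2} :=
    (isClosed_psd.preimage (f := fun z : P × ℝ => K z.1 + X z.1 z.2) (by fun_prop)).inter
      (isClosed_psd.preimage (f := fun z : P × ℝ => K z.1 - X z.1 z.2) (by fun_prop))
  have gn : ∀ p y, good p y → ‖X p y‖ ≤ ρ := by
    intro p y hy
    have h1 : (ρ • (1 : Mat ι) - K p).PosSemidef := (eig_le (hK p).isHermitian).2 fun i =>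
      (le_abs_self _).trans ((abs_eig_le _ i).trans (hKρ p))
    refine norm_le_of_psd hρ ?_ ?_
    · simpa using h1.add hy.2
    · have : ρ • (1 : Mat ι) + X p y = ρ • 1 - K p + (K p + X p y) := by abel
      rw [this]; exact h1.add hy.1
  have ev : ∀ p y, (K p + X p y).PosDef → ‖X p y‖ ≤ ρ →
      ∀ᶠ z : P × ℝ in 𝓝 (p, y), (K z.1 + X z.1 z.2).PosDef ∧ ‖X z.1 z.2‖ ≤ ρ + 1 := by
    intro p y h1 h2
    obtain ⟨ε, hε, h3⟩ := posDef_nhds h1
    have c1 : Continuous fun z : P × ℝ => ‖K z.1 + X z.1 z.2 - (K p + X p y)‖ := by fun_prop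
    have c2 : Continuous fun z : P × ℝ => ‖X z.1 z.2‖ := by fun_prop
    filter_upwards [(c1.tendsto (p, y)).eventually_lt_const
      (show ‖K p + X p y - (K p + X p y)‖ < ε by simpa using hε),
      (c2.tendsto (p, y)).eventually_lt_const (show ‖X p y‖ < ρ + 1 by linarith)] with z h4 h5
    exact ⟨h3 _ ((hK _).isHermitian.add (herm _ _)) h4, h5.le⟩
  set S : P → Set ℝ := fun p => {x | x ∈ Icc a b ∧ ∀ y ∈ Icc a x, good p y} with hS
  have ga : ∀ p, good p a := fun p => by
    simp only [hgood, Xa p a le_rfl, sub_self]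
    exact ⟨(hK p).posSemidef.add (hK p).posSemidef, Matrix.PosSemidef.zero⟩
  have Sa : ∀ p, a ∈ S p := fun p => ⟨⟨le_rfl, hab.le⟩, fun y hy => by
    rw [le_antisymm hy.2 hy.1]; exact ga p⟩
  have Sb : ∀ p, BddAbove (S p) := fun p => ⟨b, fun x hx => hx.1.2⟩
  have βm : ∀ p, sSup (S p) ∈ Icc a b := fun p =>
    ⟨le_csSup (Sb p) (Sa p), csSup_le ⟨a, Sa p⟩ fun x hx => hx.1.2⟩
  have βg : ∀ p, ∀ y ∈ Icc a (sSup (S p)), good p y := by
    intro p y hy
    rcases (βm p).1.eq_or_lt with h1 | h1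
    · rw [← h1] at hy
      rw [le_antisymm hy.2 hy.1]; exact ga p
    have h2 : Ico a (sSup (S p)) ⊆ {y | good p y} := fun y hy => by
      obtain ⟨x, hx, hyx⟩ := exists_lt_of_lt_csSup ⟨a, Sa p⟩ hy.2
      exact hx.2 y ⟨hy.1, hyx.le⟩
    have h3 : IsClosed {y | good p y} := gcl.preimage (f := fun y : ℝ => (p, y)) (by fun_prop)
    exact h3.closure_subset_iff.2 h2 (by rwa [closure_Ico h1.ne])
  have βpos : ∀ p, ∀ y ∈ Ico a (sSup (S p)), (K p + X p y).PosDef := by
    intro p y hy
    have hy' : y ∈ Icc a b := ⟨hy.1, hy.2.le.trans (βm p).2⟩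
    refine ric_trans hy.2 (hK p).isHermitian (herm p y) (hV p y)
      ((der p y hy' ((gn p y (βg p y ⟨hy.1, hy.2.le⟩)).trans (by linarith))).mono
        (Icc_subset_Icc hy.1 (βm p).2)) fun x hx => (βg p x ⟨hy.1.trans hx.1, hx.2⟩).1
  refine ⟨X, fun p => sSup (S p), cX, ?_, fun p => ⟨βm p, Xa p, Xb p, βg p, fun x hx => ?_, ?_⟩⟩
  · refine continuous_iff_continuousAt.2 fun p₀ => tendsto_order.2 ⟨fun x₀ hx₀ => ?_,
      fun x₀ hx₀ => ?_⟩
    · obtain ⟨x₁, h1, h2⟩ := exists_between hx₀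
      rcases lt_or_ge x₁ a with h3 | h3
      · exact Eventually.of_forall fun p => (h1.trans h3).trans_le (βm p).1
      have := isCompact_Icc.eventually_forall_of_forall_eventually (x₀ := p₀) (K := Icc a x₁)
        (P := fun p y => (K p + X p y).PosDef ∧ ‖X p y‖ ≤ ρ + 1) fun y hy =>
          ev p₀ y (βpos p₀ y ⟨hy.1, hy.2.trans_lt h2⟩) (gn p₀ y (βg p₀ y ⟨hy.1, hy.2.trans h2.le⟩))
      filter_upwards [this] with p hp
      have h4 : x₁ ≤ b := h2.le.trans (βm p₀).2
      exact h1.trans_le (le_csSup (Sb p) ⟨⟨h3, h4⟩, fun y hy => ⟨(hp y hy).1.posSemidef,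
        ext p a x₁ le_rfl h4 (ga p).2 (fun y hy => (hp y hy).2) y hy⟩⟩)
    · rcases lt_or_ge b x₀ with h3 | h3
      · exact Eventually.of_forall fun p => (βm p).2.trans_lt h3
      have h1 : x₀ ∉ S p₀ := fun h => (le_csSup (Sb p₀) h).not_gt hx₀
      have h2 : ∃ y ∈ Icc a x₀, ¬ good p₀ y := by
        by_contra h
        push Not at h
        exact h1 ⟨⟨(βm p₀).1.trans hx₀.le, h3⟩, h⟩
      obtain ⟨y, hy, hy'⟩ := h2
      have h4 : IsOpen {p | ¬ good p y} :=
        (gcl.preimage (f := fun p : P => (p, y)) (by fun_prop)).isOpen_compl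
      filter_upwards [h4.mem_nhds hy'] with p hp
      exact (lt_of_not_ge fun h => hp (βg p y ⟨hy.1, h⟩)).trans_le hy.2
  · have hx' : x ∈ Ioo a b := ⟨hx.1, hx.2.trans_le (βm p).2⟩
    exact (der p x (Ioo_subset_Icc_self hx') ((gn p x (βg p x (Ioo_subset_Icc_self hx))).trans
      (by linarith))).hasDerivAt (Icc_mem_nhds hx'.1 hx'.2)
  · intro hlt hpos
    have g0 := βg p _ ⟨(βm p).1, le_rfl⟩
    have h1 := (continuous_const.prodMk continuous_id :
      Continuous fun y : ℝ => (p, y)).continuousAt.eventually (ev p _ hpos (gn p _ g0))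
    obtain ⟨x₁, hx₁, h2⟩ := (nhdsGE_basis_Icc (a := sSup (S p))).eventually_iff.1
      ((h1.and (eventually_lt_nhds hlt)).filter_mono nhdsWithin_le_nhds)
    have h3 : x₁ ≤ b := (h2 ⟨hx₁.le, le_rfl⟩).2.le
    refine (le_csSup (Sb p) ⟨⟨(βm p).1.trans hx₁.le, h3⟩, fun y hy => ?_⟩).not_gt hx₁
    rcases le_total y (sSup (S p)) with h4 | h4
    · exact βg p y ⟨hy.1, h4⟩
    · exact ⟨(h2 ⟨h4, hy.2⟩).1.1.posSemidef,
        ext p _ x₁ (βm p).1 h3 g0.2 (fun y hy => (h2 hy).1.2) y ⟨h4, hy.2⟩⟩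

end Crest.Agent.R332
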